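import Vale.Agent.P166.Model2

/-! # Block sizes -/

namespace Vale.Agent.P166

open Vale.Agent.P157

variable {S : Type} [Fintype S] [DecidableEq S] {A : Type} [Fintype A] [DecidableEq A]

namespace Moves

theorem fib_sum (b : S → Option A) (o : Option A) : fib b o = ∑ i, if b i = o then 1 else 0 := by
  rw [fib, Fintype.card_subtype, Finset.card_filter]

theorem fib_upd (b : S → Option A) (j : S) (v o : Option A) :
    (fib (Function.update b j v) o + if b j = o then 1 else 0)
      = fib b o + if v = o then 1 else 0 := by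
  rw [fib_sum, fib_sum, ← Finset.add_sum_erase _ _ (Finset.mem_univ j),
    ← Finset.add_sum_erase _ (fun i => if b i = o then 1 else 0) (Finset.mem_univ j),
    Function.update_self, Finset.sum_congr rfl fun i hi => by
      rw [Function.update_of_ne (Finset.ne_of_mem_erase hi)]]
  ring

theorem fib_add {b0 : S → Option A} {jj : A → S} {b1 : Option S → Option A} (h : AddS b0 jj b1)
    (o : Option A) : (fib b1 o + ∑ _a : A, if none = o then 1 else 0)
      = fib b0 o + ((∑ a : A, if some a = o then 1 else 0) + if none = o then 1 else 0) := by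
  rw [fib_sum, fib_sum, Fintype.sum_option, h.new,
    ← Finset.sum_add_sum_compl (Finset.univ.map ⟨jj, h.inj⟩),
    ← Finset.sum_add_sum_compl (Finset.univ.map ⟨jj, h.inj⟩) fun i => if b0 i = o then 1 else 0,
    Finset.sum_map, Finset.sum_map,
    Finset.sum_congr (s₂ := (Finset.univ.map ⟨jj, h.inj⟩)ᶜ) rfl fun i hi => by
      rw [h.old i fun a ha => Finset.mem_compl.1 hi (Finset.mem_map.2 ⟨a, Finset.mem_univ a, ha⟩)]]
  simp only [Function.Embedding.coeFn_mk, h.mv, h.top]
  ring

theorem one_le_KK (A : Type) [Fintype A] : 1 ≤ KK A := le_add_of_nonneg_left (Nat.cast_nonneg _)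

theorem mul_div_le (k N : ℕ) : k * (N / (k + 1)) ≤ N :=
  (Nat.mul_le_mul_right _ (Nat.le_succ k)).trans (Nat.mul_div_le N (k + 1))

end Moves

theorem fib_sigma (z : Option A → ℕ) (o : Option A) :
    fib (fun p : (Σ o : Option A, Fin (z o)) => p.1) o = z o := by
  rw [Moves.fib_sum, Fintype.sum_sigma, Finset.sum_eq_single o (fun o' _ h => by simp [h])
    fun h => absurd (Finset.mem_univ o) h]
  simp

theorem vz_eq (ζ : ℕ → ℝ) (n : ℕ) (ca : A → ℝ) (θ : ℕ → ℝ) (b : S → Option A) :
    AV ζ n ca θ b = Vz ζ n ca θ (fib b) := by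
  funext ϑ
  exact av_fiber n ca θ (fun o => (fib_sigma (fib b) o).symm) ϑ

theorem exists_of_fib {b : S → Option A} {o : Option A} (h : 1 ≤ fib b o) : ∃ j, b j = o := by
  obtain ⟨j⟩ := Fintype.card_pos_iff.1 h
  exact ⟨j.1, j.2⟩

theorem fib_update {b : S → Option A} {j : S} {a : A} (h : b j = some a) :
    fib (Function.update b j none) none = fib b none + 1 ∧
    fib (Function.update b j none) (some a) + 1 = fib b (some a) ∧
    ∀ a', a' ≠ a → fib (Function.update b j none) (some a') = fib b (some a') := by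
  refine ⟨?_, ?_, fun a' ha => ?_⟩
  · simpa [h] using Moves.fib_upd b j none none
  · simpa [h] using Moves.fib_upd b j none (some a)
  · simpa [h, ha.symm] using Moves.fib_upd b j none (some a')

theorem fib_addS {b0 : S → Option A} {jj : A → S} {b1 : Option S → Option A} (h : AddS b0 jj b1) :
    fib b1 none + Fintype.card A = fib b0 none + 1 ∧
    ∀ a, fib b1 (some a) = fib b0 (some a) + 1 := by
  refine ⟨?_, fun a => ?_⟩
  · simpa using Moves.fib_add h none
  · simpa using Moves.fib_add h (some a)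

theorem exists_addS {b0 : S → Option A} (h : Fintype.card A ≤ fib b0 none) :
    ∃ jj b1, AddS b0 jj b1 := by
  classical
  obtain ⟨e⟩ : Nonempty (A ↪ {i // b0 i = none}) := Function.Embedding.nonempty_of_card_le h
  have hi : Function.Injective fun a => (e a).1 := Subtype.val_injective.comp e.injective
  refine ⟨fun a => (e a).1, fun o => o.elim none fun i =>
    if h : ∃ a, (e a).1 = i then some h.choose else b0 i, hi, fun a => (e a).2, rfl,
    fun a => ?_, fun i hi' => ?_⟩
  · have h1 : ∃ a', (e a').1 = (e a).1 := ⟨a, rfl⟩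
    simp only [Option.elim_some, dif_pos h1]
    exact congrArg some (hi h1.choose_spec)
  · simp only [Option.elim_some]
    exact dif_neg fun ⟨a, ha⟩ => hi' a ha

theorem bal_update {D : ℝ} {N : ℕ} {b : S → Option A} (hb : Bal D N b) {j : S} {a : A}
    (h : b j = some a) : Bal (D + KK A) N (Function.update b j none) := by
  obtain ⟨h1, h2, h3⟩ := fib_update h
  have hK := Moves.one_le_KK A
  intro o
  have hb' := abs_le.1 (hb o)
  rw [abs_le]
  rcases o with _ | a'
  · rw [h1]
    push_cast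
    constructor <;> linarith [hb'.1, hb'.2]
  · by_cases ha : a' = a
    · subst ha
      rw [← h2] at hb'
      push_cast at hb'
      constructor <;> linarith [hb'.1, hb'.2]
    · rw [h3 a' ha]
      constructor <;> linarith [hb'.1, hb'.2]

theorem bal_addS {D : ℝ} {N : ℕ} {b0 : S → Option A} (hb : Bal D N b0) {jj : A → S}
    {b1 : Option S → Option A} (h : AddS b0 jj b1) : Bal (D + KK A ^ 2) N b1 := by
  obtain ⟨h1, h2⟩ := fib_addS h
  have hK := Moves.one_le_KK A
  intro o
  have hb' := abs_le.1 (hb o)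
  rw [abs_le]
  rcases o with _ | a
  · have e : (fib b1 none : ℝ) = fib b0 none + 2 - KK A := by
      have : ((fib b1 none + Fintype.card A : ℕ) : ℝ) = ((fib b0 none + 1 : ℕ) : ℝ) := by rw [h1]
      push_cast at this
      unfold KK
      linarith
    rw [e]
    have h3 : (fib b0 none : ℝ) * KK A = KK A * fib b0 none := mul_comm _ _
    constructor <;> nlinarith [hb'.1, hb'.2]
  · rw [h2]
    push_cast
    constructor <;> nlinarith [hb'.1, hb'.2]

theorem sum_sz (N : ℕ) : ∑ o, sz A N o = N := by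
  have h := Moves.mul_div_le (Fintype.card A) N
  rw [Fintype.sum_option]
  simp only [sz, Option.elim_none, Option.elim_some, Finset.sum_const, Finset.card_univ,
    smul_eq_mul]
  omega

theorem sz_add (N : ℕ) (o : Option A) : sz A (N + (Fintype.card A + 1)) o = sz A N o + 1 := by
  have h := Moves.mul_div_le (Fintype.card A) N
  have e : (N + (Fintype.card A + 1)) / (Fintype.card A + 1) = N / (Fintype.card A + 1) + 1 :=
    Nat.add_div_right _ (Nat.succ_pos _)
  rcases o with _ | a
  · simp only [sz, Option.elim_none, e, mul_add, mul_one]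
    generalize Fintype.card A * (N / (Fintype.card A + 1)) = t at h ⊢
    omega
  · simp only [sz, Option.elim_some, e]

theorem sz_bal (N : ℕ) (o : Option A) : |KK A * sz A N o - N| ≤ KK A ^ 2 := by
  have h1 := Nat.div_add_mod N (Fintype.card A + 1)
  have h2 : N % (Fintype.card A + 1) < Fintype.card A + 1 := Nat.mod_lt N (Nat.succ_pos _)
  have h3 : sz A N none = N / (Fintype.card A + 1) + N % (Fintype.card A + 1) := by
    simp only [sz, Option.elim_none]
    rw [add_mul, one_mul] at h1
    generalize N / (Fintype.card A + 1) = q at h1 ⊢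
    generalize N % (Fintype.card A + 1) = r at h1 ⊢
    omega
  have h4 : ∀ a, sz A N (some a) = N / (Fintype.card A + 1) := fun _ => rfl
  generalize N / (Fintype.card A + 1) = q at h1 h3 h4
  generalize N % (Fintype.card A + 1) = r at h1 h2 h3
  have e1 : (N : ℝ) = KK A * q + r := by
    rw [← h1]
    unfold KK
    push_cast
    ring
  have e2 : (r : ℝ) ≤ KK A := by
    unfold KK
    exact_mod_cast h2.le
  have e3 : (0 : ℝ) ≤ r := Nat.cast_nonneg r
  have hK := Moves.one_le_KK A
  rw [abs_le, e1]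
  rcases o with _ | a
  · rw [h3]
    push_cast
    constructor <;> nlinarith
  · rw [h4]
    constructor <;> nlinarith

theorem Par.upd {n : ℕ} {Θ θm cm t0 : ℝ} {ca : A → ℝ} {θ ϑ : ℕ → ℝ} (h : Par n Θ θm cm t0 ca θ ϑ)
    (hΘ : 0 ≤ Θ) {y : ℝ} (hy : y ≤ θm) (hy' : y * (Θ + 2) ≤ 1) {d : ℕ} (hd : d ≤ n) {a : ℝ}
    (ha : |a - ϑ d| ≤ y) : Par0 n (cm + 1) ca θ (Function.update ϑ d a) := by
  have ha' := abs_le.1 ha
  have hy0 : 0 ≤ y := (abs_nonneg _).trans ha
  have hy1 : y ≤ 1 := by nlinarith
  refine ⟨fun a => ⟨(h.p0.c a).1, by linarith [(h.p0.c a).2]⟩, ?_, fun d' h1 h2 => ?_, ?_⟩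
  · by_cases h0 : d = 0
    · subst h0
      rw [Function.update_self]
      exact ⟨by linarith [h.a0, ha'.1], by linarith [h.p0.a0.2, ha'.2]⟩
    · rw [Function.update_of_ne (Ne.symm h0)]
      exact ⟨h.p0.a0.1, by linarith [h.p0.a0.2]⟩
  · refine ⟨(h.p0.th d' h1 h2).1, ?_⟩
    by_cases h0 : d' = d
    · subst h0
      rw [Function.update_self]
      linarith [h.th d' h1 h2, ha'.1]
    · rw [Function.update_of_ne h0]
      exact (h.p0.th d' h1 h2).2
  · have key : ∀ d' ∈ Finset.Icc 1 n, Function.update ϑ d a d' ^ 2 - θ d' ^ 2 ≤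
        (ϑ d' ^ 2 - θ d' ^ 2) + if d' = d then 1 else 0 := by
      intro d' hd'
      by_cases h0 : d' = d
      · subst h0
        rw [Function.update_self, if_pos rfl]
        have h1 := (h.fld d' (Finset.mem_Icc.1 hd').1 hd).2
        have h2 : a ^ 2 - ϑ d' ^ 2 ≤ y * |a + ϑ d'| := by
          rw [sq_sub_sq, mul_comm]
          exact (le_abs_self _).trans
            ((abs_mul _ _).trans_le (mul_le_mul_of_nonneg_right ha (abs_nonneg _)))
        have h3 : |a + ϑ d'| ≤ Θ + 2 := by
          rw [abs_le]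
          constructor <;> nlinarith [sq_nonneg (ϑ d' - 1), sq_nonneg (ϑ d' + 1), ha'.1, ha'.2]
        have h4 := mul_le_mul_of_nonneg_left h3 hy0
        linarith
      · rw [Function.update_of_ne h0, if_neg h0, add_zero]
    refine (Finset.sum_le_sum key).trans ?_
    rw [Finset.sum_add_distrib, Finset.sum_ite_eq']
    refine add_le_add h.p0.gap ?_
    split_ifs <;> norm_num

theorem SDz.mono {U : (ℕ → ℝ) → ℝ} {θ τ : ℕ → ℝ} {y κ κ' : ℝ} {n : ℕ} (h : SDz U θ τ y κ n)
    (hκ : κ ≤ κ') : SDz U θ τ y κ' n := by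
  exact fun d h1 => ⟨by linarith [(h d h1).1], by linarith [(h d h1).2]⟩

theorem SDz.of_close {U U' : (ℕ → ℝ) → ℝ} {θ τ : ℕ → ℝ} {y κ C : ℝ} {n : ℕ}
    (h : SDz U θ τ y κ n) (hC : ∀ d, d ≤ n → ∀ a, |a - θ d| ≤ |y| →
      |U' (Function.update θ d a) - U (Function.update θ d a)| ≤ C) :
    SDz U' θ τ y (κ + 2 * C) n := by
  intro d h1
  have a0 := abs_le.1 (hC d h1 (θ d) (by simp))
  have a1 := abs_le.1 (hC d h1 (θ d + y) (by simp))
  have a2 := abs_le.1 (hC d h1 (θ d - y) (by simp))
  rw [Function.update_eq_self] at a0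
  exact ⟨by linarith [(h d h1).1, a0.1, a1.2], by linarith [(h d h1).2, a0.1, a2.2]⟩

theorem sdz_of_second {U : (ℕ → ℝ) → ℝ} {θ : ℕ → ℝ} {y κ : ℝ} {n : ℕ} (hy : 0 < y)
    (h : ∀ d, d ≤ n → U (Function.update θ d (θ d + y))
      + U (Function.update θ d (θ d - y)) - 2 * U θ ≤ 2 * κ) : ∃ τ, SDz U θ τ y κ n := by
  refine ⟨fun d => (U (Function.update θ d (θ d + y)) - U (Function.update θ d (θ d - y))) / (2 * y),
    fun d h1 => ?_⟩
  have e : ∀ t : ℝ, y * (t / (2 * y)) = t / 2 := fun t => by field_simp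
  simp only [e]
  exact ⟨by linarith [h d h1], by linarith [h d h1]⟩

theorem Rel.mono {n : ℕ} {ζ : ℕ → ℝ} {γ : ℝ} {N : ℕ} {ϑ τ r : ℕ → ℝ} {η η' : ℝ}
    (h : Rel n ζ γ N ϑ τ r η) (hη : η ≤ η') : Rel n ζ γ N ϑ τ r η' := by
  have h0 := mul_le_mul_of_nonneg_right hη (Nat.cast_nonneg (α := ℝ) N)
  exact ⟨h.cadm, h.r0, h.top.trans h0, fun d h1 h2 => (h.lev d h1 h2).trans h0⟩

end Vale.Agent.P166
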