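import Vale.Agent.P166.HaarM

/-! # An Efron-Stein type inequality on the orthogonal group -/

namespace Vale.Agent.P166

open MeasureTheory ProbabilityTheory Matrix Vale.Agent.P157

namespace ESAux

section gen
variable {X Z : Type} [MeasurableSpace X] [MeasurableSpace Z]

theorem bm_comp {f : X → ℝ} (hf : BM f) {φ : Z → X} (hφ : Measurable φ) : BM fun z => f (φ z) := by
  obtain ⟨hm, C, hC⟩ := hf
  exact ⟨hm.comp hφ, C, fun z => hC _⟩

theorem bm_pos {f : X → ℝ} (hf : BM f) : BM fun x => max (f x) 0 := by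
  obtain ⟨hm, C, hC⟩ := hf
  refine ⟨hm.max measurable_const, C, fun x => ?_⟩
  rw [abs_of_nonneg (le_max_right _ _)]
  exact max_le ((le_abs_self _).trans (hC x)) ((abs_nonneg _).trans (hC x))

theorem bm_int (ν : Measure Z) [IsProbabilityMeasure ν] {F : X × Z → ℝ} (hF : BM F) :
    BM fun x => ∫ y, F (x, y) ∂ν := by
  obtain ⟨hm, C, hC⟩ := hF
  refine ⟨(hm.stronglyMeasurable.integral_prod_right' (ν := ν)).measurable, C, fun x => ?_⟩
  have := norm_integral_le_of_norm_le_const (μ := ν) (f := fun y => F (x, y)) (C := C)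
    (Filter.Eventually.of_forall fun y => hC _)
  simpa using this

theorem var_dec (ν : Measure X) [IsProbabilityMeasure ν] {h : X → ℝ} (hh : BM h) (c : ℝ) :
    ∫ x, (h x - c) ^ 2 ∂ν = ∫ x, (h x - ∫ y, h y ∂ν) ^ 2 ∂ν + (∫ y, h y ∂ν - c) ^ 2 := by
  generalize hm : ∫ y, h y ∂ν = m
  have e : ∀ x, (h x - c) ^ 2 = (h x - m) ^ 2 + (2 * (m - c) * h x + (c ^ 2 - m ^ 2)) :=
    fun x => by ring
  simp only [e]
  rw [integral_add ((hh.sub (BM.const m)).pow 2).integrable
    ((hh.const_mul _).add (BM.const _)).integrable,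
    integral_add (hh.const_mul _).integrable (integrable_const _), integral_const_mul, hm]
  simp only [integral_const, probReal_univ, smul_eq_mul, one_mul]
  ring

theorem jensen_pos (ν : Measure X) [IsProbabilityMeasure ν] {h : X → ℝ} (hh : BM h) :
    max (∫ x, h x ∂ν) 0 ^ 2 ≤ ∫ x, max (h x) 0 ^ 2 ∂ν := by
  have h1 := var_dec ν (bm_pos hh) 0
  simp only [sub_zero] at h1
  have h2 : 0 ≤ ∫ x, (max (h x) 0 - ∫ y, max (h y) 0 ∂ν) ^ 2 ∂ν :=
    integral_nonneg fun _ => sq_nonneg _
  have h3 : max (∫ x, h x ∂ν) 0 ≤ ∫ y, max (h y) 0 ∂ν :=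
    max_le (integral_mono hh.integrable (bm_pos hh).integrable fun x => le_max_left _ _)
      (integral_nonneg fun _ => le_max_right _ _)
  have h4 := pow_le_pow_left₀ (le_max_right _ _) h3 2
  linarith

theorem var_pos (ν : Measure X) [IsProbabilityMeasure ν] {G : X → ℝ} (hG : BM G) :
    ∫ x, (G x - ∫ y, G y ∂ν) ^ 2 ∂ν = ∫ x, ∫ y, max (G x - G y) 0 ^ 2 ∂ν ∂ν := by
  have b1 : BM fun p : X × X => max (G p.1 - G p.2) 0 ^ 2 :=
    (bm_pos ((bm_comp hG measurable_fst).sub (bm_comp hG measurable_snd))).pow 2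
  have b2 : BM fun p : X × X => max (G p.2 - G p.1) 0 ^ 2 :=
    (bm_pos ((bm_comp hG measurable_snd).sub (bm_comp hG measurable_fst))).pow 2
  have hs : ∫ x, ∫ y, max (G y - G x) 0 ^ 2 ∂ν ∂ν = ∫ x, ∫ y, max (G x - G y) 0 ^ 2 ∂ν ∂ν :=
    integral_integral_swap (f := fun x y => max (G y - G x) 0 ^ 2) b2.integrable
  have h1 : ∀ x, ∫ y, max (G x - G y) 0 ^ 2 ∂ν + ∫ y, max (G y - G x) 0 ^ 2 ∂ν
      = ∫ y, (G y - ∫ y, G y ∂ν) ^ 2 ∂ν + (G x - ∫ y, G y ∂ν) ^ 2 := by
    intro x
    rw [← integral_add (bm_comp b1 (φ := fun y => (x, y)) measurable_prodMk_left).integrable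
      (bm_comp b2 (φ := fun y => (x, y)) measurable_prodMk_left).integrable,
      ← neg_sq (G x - _), neg_sub, ← var_dec ν hG (G x)]
    refine integral_congr_ae (Filter.Eventually.of_forall fun y => ?_)
    rcases le_total (G x) (G y) with h | h
    · simp only [max_eq_right (sub_nonpos.2 h), max_eq_left (sub_nonneg.2 h)]; ring
    · simp only [max_eq_right (sub_nonpos.2 h), max_eq_left (sub_nonneg.2 h)]; ring
  have h2 := integral_congr_ae (μ := ν) (Filter.Eventually.of_forall h1)
  rw [integral_add (bm_int ν b1).integrable (bm_int ν b2).integrable,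
    integral_add (integrable_const _) ((hG.sub (BM.const _)).pow 2).integrable, hs] at h2
  simp only [integral_const, probReal_univ, smul_eq_mul, one_mul] at h2
  linarith

end gen

variable {S : Type} [Fintype S] [DecidableEq S]

theorem refl_apply (u : S → ℝ) (i j : S) :
    (refl u).1 i j = (1 : Matrix S S ℝ) i j - 2 / (u ⬝ᵥ u) * (u i * u j) := rfl

theorem refl_smul {c : ℝ} (hc : c ≠ 0) (u : S → ℝ) : refl (c • u) = refl u := by
  refine Subtype.ext (Matrix.ext fun i j => ?_)
  rw [refl_apply, refl_apply, smul_dotProduct, dotProduct_smul]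
  simp only [Pi.smul_apply, smul_eq_mul]
  by_cases h : u ⬝ᵥ u = 0
  · simp [h]
  · field_simp

theorem meas_mul {X : Type} [MeasurableSpace X] {a b : X → OG S} (ha : Measurable a)
    (hb : Measurable b) : Measurable fun x => a x * b x :=
  measurable_og_mul.comp (ha.prodMk hb)

/-- the statement proved by induction on the dimension -/
def ESP (S : Type) [Fintype S] [DecidableEq S] (Y : Type) [Fintype Y] (a1 a2 : ℝ) : Prop :=
  ∀ (f : OG S → ℝ) (w : OG S → Y → ℝ) (v : OG S → Y → S → ℝ) (g : S → OG S → ℝ), BM f →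
    (∀ U p, 0 ≤ w U p) → (∀ i, Measurable (g i)) → (∀ i U, 0 ≤ g i U) →
    (∀ U, ∑ i, g i U ≤ a2) → (∀ U i, ∑ p, w U p * v U p i ^ 2 ≤ a1 + g i U) →
    (∀ U i, f (U * refl (Pi.single i 1)) = f U) →
    (∀ U (u : S → ℝ), u ⬝ᵥ u = 1 → f U - f (U * refl u) ≤ ∑ p, w U p * (u ⬝ᵥ v U p) ^ 2) →
    ∫ U, (f U - ∫ U', f U' ∂(haarO S)) ^ 2 ∂(haarO S)
      ≤ 16 * Fintype.card S * a1 ^ 2 + 4 * ∫ U, ∑ i, g i U ^ 2 ∂(haarO S)
        + 24 * a2 ^ 2 * (1 - 1 / (Fintype.card S + 1))

variable {Y : Type} [Fintype Y] {a1 a2 : ℝ}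

theorem esp_empty [IsEmpty S] : ESP S Y a1 a2 := by
  intro f w v g _ _ _ _ _ _ _ _
  have hf : ∀ U, f U = f 1 := fun U => congrArg f (Subtype.ext (Subsingleton.elim _ _))
  simp [hf]

theorem esp_equiv {S' : Type} [Fintype S'] [DecidableEq S'] (e : S ≃ S') (h : ESP S Y a1 a2) :
    ESP S' Y a1 a2 := by
  intro f w v g hf hw hg hg0 hga hd hflip hr
  have hm : Measurable (reO e : OG S → OG S') :=
    measurable_og fun i j => measurable_entry (e.symm i) (e.symm j)
  have hdot : ∀ u u' : S → ℝ, (fun j => u (e.symm j)) ⬝ᵥ (fun j => u' (e.symm j)) = u ⬝ᵥ u' :=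
    fun u u' => e.symm.sum_comp fun i => u i * u' i
  have hmul : ∀ (U : OG S) (u : S → ℝ),
      reO e (U * refl u) = reO e U * refl fun j => u (e.symm j) := by
    intro U u
    refine Subtype.ext (Matrix.ext fun i j => ?_)
    change ∑ k, U.1 (e.symm i) k * (refl u).1 k (e.symm j)
      = ∑ k, U.1 (e.symm i) (e.symm k) * (refl fun j => u (e.symm j)).1 k j
    rw [← e.symm.sum_comp]
    refine Finset.sum_congr rfl fun k _ => ?_
    rw [refl_apply, refl_apply, hdot]
    simp [Matrix.one_apply]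
  have key := h (fun U => f (reO e U)) (fun U => w (reO e U)) (fun U p i => v (reO e U) p (e i))
    (fun i U => g (e i) (reO e U)) (bm_comp hf hm) (fun U => hw _) (fun i => (hg _).comp hm)
    (fun i U => hg0 _ _) (fun U => by rw [e.sum_comp fun i => g i (reO e U)]; exact hga _)
    (fun U i => hd _ _)
    (fun U i => by
      have : (fun j => (Pi.single i 1 : S → ℝ) (e.symm j)) = Pi.single (e i) 1 := by
        funext j
        simp [Pi.single_apply, Equiv.symm_apply_eq]
      rw [hmul, this, hflip])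
    (fun U u hu => by
      rw [hmul]
      refine (hr _ _ ((hdot u u).trans hu)).trans (le_of_eq ?_)
      refine Finset.sum_congr rfl fun p _ => ?_
      rw [← hdot u]
      simp)
  rw [integral_reO e f, integral_reO e fun U => (f U - ∫ U', f U' ∂(haarO S')) ^ 2,
    Fintype.card_congr e] at key
  have h2 : ∫ U, ∑ i, g (e i) (reO e U) ^ 2 ∂(haarO S) = ∫ U, ∑ i, g i U ^ 2 ∂(haarO S') := by
    rw [← integral_reO e fun U => ∑ i, g i U ^ 2]
    exact integral_congr_ae (Filter.Eventually.of_forall fun U =>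
      e.sum_comp fun i => g i (reO e U) ^ 2)
  rwa [h2] at key

/-- the distinguished column -/
def col (W : OG (Option S)) : Option S → ℝ := fun o => W.1 o none

noncomputable def sg (W : OG (Option S)) : ℝ := if 0 ≤ W.1 none none then -1 else 1

/-- the normal vector of the reflection moving the first basis vector to the column -/
noncomputable def nv (W : OG (Option S)) : Option S → ℝ := Pi.single none 1 - sg W • col W

theorem col_mul (U W : OG (Option S)) : col (U * W) = U.1 *ᵥ col W := rfl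

theorem sg_sq (W : OG (Option S)) : sg W ^ 2 = 1 := by
  unfold sg
  split_ifs <;> norm_num

theorem sg_nonpos (W : OG (Option S)) : sg W * W.1 none none ≤ 0 := by
  unfold sg
  split_ifs with h <;> linarith

theorem nv_dot (W : OG (Option S)) (x : Option S → ℝ) :
    nv W ⬝ᵥ x = x none - sg W * ∑ i, x i * W.1 i none := by
  rw [nv, sub_dotProduct, single_dotProduct, smul_dotProduct, one_mul, smul_eq_mul,
    dotProduct_comm]
  rfl

theorem nv_none (W : OG (Option S)) : nv W none = 1 - sg W * W.1 none none := by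
  simp [nv, col]

theorem nv_sq (W : OG (Option S)) : nv W ⬝ᵥ nv W = 2 * nv W none := by
  have h1 : ∑ i, nv W i * W.1 i none = W.1 none none - sg W := by
    have := nv_dot W (col W)
    have h2 : ∑ i, col W i * W.1 i none = 1 := by
      rw [← og_col W none]
      exact Finset.sum_congr rfl fun i _ => (sq _).symm
    rw [h2, mul_one] at this
    exact this
  rw [nv_dot, h1, nv_none]
  linear_combination sg_sq W

theorem nv_ge (W : OG (Option S)) : 2 ≤ nv W ⬝ᵥ nv W := by
  rw [nv_sq, nv_none]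
  linarith [sg_nonpos W]

theorem col_refl (W : OG (Option S)) : col (refl (nv W)) = sg W • col W := by
  funext o
  have h : nv W none ≠ 0 := by
    have := nv_ge W
    rw [nv_sq] at this
    linarith
  have h1 : nv W o = (1 : Matrix (Option S) (Option S) ℝ) o none - sg W * col W o := by
    simp [nv, Pi.single_apply, Matrix.one_apply]
  rw [col, refl_apply, nv_sq, Pi.smul_apply, smul_eq_mul]
  field_simp
  linarith

theorem emb_e0 (V : OG S) : (emb V).1 *ᵥ Pi.single none 1 = Pi.single none 1 := by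
  rw [emb_mulVec]
  funext o
  rcases o with _ | i
  · rfl
  · simp [mulVec, dotProduct]

theorem nv_emb (V : OG S) (W : OG (Option S)) : nv (emb V * W) = (emb V).1 *ᵥ nv W := by
  have h1 : (emb V * W).1 none none = W.1 none none := by
    have := congrFun (col_mul (emb V) W) none
    rw [emb_mulVec] at this
    exact this
  have h2 : sg (emb V * W) = sg W := by unfold sg; rw [h1]
  rw [nv, nv, mulVec_sub, mulVec_smul, emb_e0, h2, col_mul]

theorem measurable_nv : Measurable (nv : OG (Option S) → Option S → ℝ) := by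
  have h1 : Measurable (sg : OG (Option S) → ℝ) :=
    Measurable.ite (measurableSet_le measurable_const (measurable_entry none none))
      measurable_const measurable_const
  refine measurable_pi_lambda _ fun o => ?_
  exact measurable_const.sub (h1.mul (measurable_entry o none))

theorem point (_ha1 : 0 ≤ a1) {F : (Option S → ℝ) → ℝ} {w : Y → ℝ} {v : Y → Option S → ℝ}
    {g : Option S → ℝ} (hw : ∀ p, 0 ≤ w p) (hga : ∑ i, g i ≤ a2)
    (hd : ∀ i, ∑ p, w p * v p i ^ 2 ≤ a1 + g i) (hF : ∀ c : ℝ, c ≠ 0 → ∀ u, F (c • u) = F u)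
    (hr : ∀ u : Option S → ℝ, u ⬝ᵥ u = 1 → F u ≤ ∑ p, w p * (u ⬝ᵥ v p) ^ 2) :
    ∫ W, max (F (nv W)) 0 ^ 2 ∂(haarO (Option S))
      ≤ 16 * a1 ^ 2 + 4 * g none ^ 2 + 12 * a2 ^ 2 / (Fintype.card S + 1) ^ 2 := by
  obtain ⟨t, ht⟩ : ∃ t : Y → ℝ, ∀ p, t p = ∑ i, v p i ^ 2 := ⟨_, fun _ => rfl⟩
  obtain ⟨x, hx⟩ : ∃ x : Y → OG (Option S) → ℝ, ∀ p W, x p W = ∑ i, v p i * W.1 i none :=
    ⟨_, fun _ _ => rfl⟩
  have ht0 : ∀ p, 0 ≤ t p := fun p => by rw [ht]; positivity
  have hxb : ∀ p, BM (x p) := fun p => by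
    have : x p = fun W => ∑ i, v p i * W.1 i none := funext (hx p)
    rw [this]
    exact BM.sum _ fun i _ => BM.const_mul
      (φ := fun W : OG (Option S) => W.1 i none)
      ⟨measurable_entry i none, 1, fun W => og_abs_le W i none⟩ _
  have hΓ0 : 0 ≤ ∑ p, w p * v p none ^ 2 :=
    Finset.sum_nonneg fun p _ => mul_nonneg (hw p) (sq_nonneg _)
  have hT0 : 0 ≤ ∑ p, w p * t p := Finset.sum_nonneg fun p _ => mul_nonneg (hw p) (ht0 p)
  have hm : (0 : ℝ) < Fintype.card S + 1 := by positivity
  have hT : ∑ p, w p * t p ≤ (Fintype.card S + 1) * a1 + a2 := by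
    simp only [ht, Finset.mul_sum]
    rw [Finset.sum_comm]
    refine (Finset.sum_le_sum fun i _ => hd i).trans ?_
    rw [Finset.sum_add_distrib, Finset.sum_const, Finset.card_univ, Fintype.card_option,
      nsmul_eq_mul]
    push_cast
    linarith
  have h1 : ∀ W, max (F (nv W)) 0 ^ 2 ≤ 2 * (∑ p, w p * v p none ^ 2) ^ 2
      + 2 * (∑ p, w p * t p) * ∑ p, w p / t p * x p W ^ 4 := by
    intro W
    have hn := nv_ge W
    have hs : 0 < √(nv W ⬝ᵥ nv W) := Real.sqrt_pos.2 (by linarith)
    have hss : √(nv W ⬝ᵥ nv W) ^ 2 = nv W ⬝ᵥ nv W := Real.sq_sqrt (by linarith)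
    have h2 := hr ((√(nv W ⬝ᵥ nv W))⁻¹ • nv W) (by
      rw [smul_dotProduct, dotProduct_smul, smul_eq_mul, smul_eq_mul]
      field_simp
      exact hss.symm)
    rw [hF _ (inv_ne_zero hs.ne')] at h2
    have h3 : F (nv W) ≤ ∑ p, w p * v p none ^ 2 + ∑ p, w p * x p W ^ 2 := by
      rw [← Finset.sum_add_distrib]
      refine h2.trans (Finset.sum_le_sum fun p _ => ?_)
      rw [← mul_add]
      refine mul_le_mul_of_nonneg_left ?_ (hw p)
      rw [smul_dotProduct, smul_eq_mul, mul_pow, inv_pow, hss, nv_dot W (v p), ← hx,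
        inv_mul_le_iff₀ (by linarith)]
      have h4 : (v p none - sg W * x p W) ^ 2 ≤ 2 * (v p none ^ 2 + x p W ^ 2) := by
        nlinarith [sq_nonneg (v p none + sg W * x p W), sg_sq W]
      exact h4.trans (mul_le_mul_of_nonneg_right hn (by positivity))
    have hQ0 : 0 ≤ ∑ p, w p * x p W ^ 2 :=
      Finset.sum_nonneg fun p _ => mul_nonneg (hw p) (sq_nonneg _)
    have h5 : (∑ p, w p * x p W ^ 2) ^ 2 ≤ (∑ p, w p * t p) * ∑ p, w p / t p * x p W ^ 4 := by
      refine Finset.sum_sq_le_sum_mul_sum_of_sq_le_mul _ (fun p _ => mul_nonneg (hw p) (ht0 p))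
        (fun p _ => mul_nonneg (div_nonneg (hw p) (ht0 p)) (by positivity))
        fun p _ => le_of_eq ?_
      by_cases h0 : t p = 0
      · have h6 : ∀ i, v p i = 0 := fun i => by
          rw [ht] at h0
          exact pow_eq_zero_iff two_ne_zero |>.1
            ((Finset.sum_eq_zero_iff_of_nonneg fun i _ => sq_nonneg _).1 h0 i (Finset.mem_univ i))
        simp [hx, h6]
      · field_simp
    have h7 := pow_le_pow_left₀ (le_max_right _ _) (max_le h3 (add_nonneg hΓ0 hQ0)) 2
    nlinarith [sq_nonneg (∑ p, w p * v p none ^ 2 - ∑ p, w p * x p W ^ 2)]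
  have hb : BM fun W => ∑ p, w p / t p * x p W ^ 4 :=
    BM.sum _ fun p _ => ((hxb p).pow 4).const_mul _
  refine (integral_mono_of_nonneg (Filter.Eventually.of_forall fun _ => sq_nonneg _)
    ((BM.const _).add (hb.const_mul _)).integrable (Filter.Eventually.of_forall h1)).trans ?_
  rw [integral_add (integrable_const _) (hb.const_mul _).integrable,
    integral_const_mul (2 * ∑ p, w p * t p), integral_finsetSum _ fun p _ => (((hxb p).pow 4).const_mul _).integrable]
  simp only [integral_const, probReal_univ, smul_eq_mul, one_mul, integral_const_mul]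
  have h8 : ∑ p, w p / t p * ∫ W, x p W ^ 4 ∂(haarO (Option S))
      ≤ 3 / (Fintype.card S + 1) ^ 2 * ∑ p, w p * t p := by
    rw [Finset.mul_sum]
    refine Finset.sum_le_sum fun p _ => ?_
    have h9 := col_four (v p) none
    simp only [← hx, ← ht, Fintype.card_option, Nat.cast_add, Nat.cast_one] at h9
    refine (mul_le_mul_of_nonneg_left h9 (div_nonneg (hw p) (ht0 p))).trans (le_of_eq ?_)
    by_cases h0 : t p = 0
    · simp [h0]
    · field_simp
  have h10 := pow_le_pow_left₀ hΓ0 (hd none) 2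
  have h11 := pow_le_pow_left₀ hT0 hT 2
  have h12 : 2 * (∑ p, w p * t p) * (3 / (Fintype.card S + 1) ^ 2 * ∑ p, w p * t p)
      ≤ 12 * a1 ^ 2 + 12 * a2 ^ 2 / (Fintype.card S + 1) ^ 2 := by
    have e1 : 2 * (∑ p, w p * t p) * (3 / (Fintype.card S + 1) ^ 2 * ∑ p, w p * t p)
        = 6 * (∑ p, w p * t p) ^ 2 / (Fintype.card S + 1) ^ 2 := by ring
    have e2 : 12 * a1 ^ 2 + 12 * a2 ^ 2 / (Fintype.card S + 1) ^ 2
        = (12 * ((Fintype.card S + 1) * a1) ^ 2 + 12 * a2 ^ 2) / (Fintype.card S + 1) ^ 2 := by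
      field_simp
    rw [e1, e2]
    refine div_le_div_of_nonneg_right ?_ (by positivity)
    nlinarith [sq_nonneg ((Fintype.card S + 1) * a1 - a2)]
  have h13 := mul_le_mul_of_nonneg_left h8 (mul_nonneg zero_le_two hT0)
  nlinarith [sq_nonneg (a1 - g none)]

theorem esp_option (ha1 : 0 ≤ a1) (h : ESP S Y a1 a2) : ESP (Option S) Y a1 a2 := by
  intro f w v g hf hw hg hg0 hga hd hflip hr
  have hgb : ∀ i, BM (g i) := fun i => ⟨hg i, a2, fun U => by
    rw [abs_of_nonneg (hg0 i U)]
    exact (Finset.single_le_sum (fun j _ => hg0 j U) (Finset.mem_univ i)).trans (hga U)⟩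
  have hme : Measurable fun p : OG (Option S) × OG S => p.1 * emb p.2 :=
    meas_mul measurable_fst (measurable_emb.comp measurable_snd)
  have hme' : ∀ U : OG (Option S), Measurable fun V : OG S => U * emb V :=
    fun U => meas_mul measurable_const measurable_emb
  obtain ⟨G, hG⟩ : ∃ G : OG (Option S) → ℝ, ∀ U, G U = ∫ V, f (U * emb V) ∂(haarO S) :=
    ⟨_, fun _ => rfl⟩
  have hGb : BM G := by
    rw [funext hG]
    exact bm_int (haarO S) (bm_comp hf hme)
  have hc : ∫ U, f U ∂(haarO (Option S)) = ∫ U, G U ∂(haarO (Option S)) := by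
    rw [integral_emb hf, funext hG]
  -- the fibre variance
  have hs2 : BM fun U => ∑ i, g (some i) U ^ 2 := BM.sum _ fun i _ => (hgb _).pow 2
  have h1 : ∀ U, ∫ V, (f (U * emb V) - G U) ^ 2 ∂(haarO S)
      ≤ 16 * Fintype.card S * a1 ^ 2 + 4 * ∫ V, ∑ i, g (some i) (U * emb V) ^ 2 ∂(haarO S)
        + 24 * a2 ^ 2 * (1 - 1 / (Fintype.card S + 1)) := by
    intro U
    have hdot : ∀ (u : S → ℝ) (z : Option S → ℝ),
        (fun o : Option S => o.elim 0 u) ⬝ᵥ z = u ⬝ᵥ fun i => z (some i) := by
      intro u z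
      simp [dotProduct]
    rw [hG]
    refine h (fun V => f (U * emb V)) (fun V => w (U * emb V))
      (fun V p i => v (U * emb V) p (some i)) (fun i V => g (some i) (U * emb V))
      (bm_comp hf (hme' U)) (fun V => hw _) (fun i => (hg _).comp (hme' U)) (fun i V => hg0 _ _)
      (fun V => ?_) (fun V i => hd _ _) (fun V i => ?_) fun V u hu => ?_
    · have := hga (U * emb V)
      rw [Fintype.sum_option] at this
      linarith [hg0 none (U * emb V)]
    · have : (fun o : Option S => o.elim 0 (Pi.single i 1 : S → ℝ)) = Pi.single (some i) 1 := by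
        funext o
        rcases o with _ | j
        · simp
        · simp [Pi.single_apply]
      rw [emb_mul, emb_refl, this, ← mul_assoc, hflip]
    · rw [emb_mul, emb_refl, ← mul_assoc]
      refine (hr _ _ ((hdot u _).trans hu)).trans (le_of_eq ?_)
      simp only [hdot]
  -- the variance of the average
  have hcol : ∀ U U' : OG (Option S), col U = col U' → G U = G U' := fun U U' hU => by
    rw [hG, hG]
    exact avg_emb_congr (fun o => congrFun hU o) f
  have hG0 : ∀ U, G (U * refl (Pi.single none 1)) = G U := fun U => by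
    rw [hG, hG]
    refine integral_congr_ae (Filter.Eventually.of_forall fun V => ?_)
    have := refl_conj (emb V) (Pi.single none 1)
    rw [emb_e0] at this
    simp only
    rw [mul_assoc, ← this, ← mul_assoc, hflip]
  have hGW : ∀ U W, G (U * W) = G (U * refl (nv W)) := by
    intro U W
    by_cases hW : 0 ≤ W.1 none none
    · rw [← hG0 (U * W)]
      refine hcol _ _ ?_
      have e1 : col (refl (Pi.single none 1 : Option S → ℝ)) = -Pi.single none 1 := by
        funext o
        rw [col, refl_apply]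
        rcases o with _ | j
        · simp; norm_num
        · simp
      rw [mul_assoc, col_mul, col_mul, col_mul, col_refl, e1, sg, if_pos hW, mulVec_neg,
        mulVec_single_one, neg_smul, one_smul]
      rfl
    · refine hcol _ _ ?_
      rw [col_mul, col_mul, col_refl, sg, if_neg hW, one_smul]
  have hB : BM fun U => 16 * a1 ^ 2 + 4 * g none U ^ 2
      + 12 * a2 ^ 2 / (Fintype.card S + 1) ^ 2 :=
    ((BM.const _).add (((hgb none).pow 2).const_mul 4)).add (BM.const _)
  have h2 : ∀ U, ∫ U', max (G U - G U') 0 ^ 2 ∂(haarO (Option S))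
      ≤ ∫ V, (16 * a1 ^ 2 + 4 * g none (U * emb V) ^ 2
        + 12 * a2 ^ 2 / (Fintype.card S + 1) ^ 2) ∂(haarO S) := by
    intro U
    have b0 : BM fun p : OG (Option S) × OG S =>
        f (U * emb p.2) - f (U * refl (nv p.1) * emb p.2) :=
      (bm_comp hf ((hme' U).comp measurable_snd)).sub (bm_comp hf (meas_mul (meas_mul
        measurable_const (measurable_refl.comp (measurable_nv.comp measurable_fst)))
        (measurable_emb.comp measurable_snd)))
    have b1 := (bm_pos b0).pow 2
    rw [← integral_left U]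
    refine (integral_mono_of_nonneg (Filter.Eventually.of_forall fun _ => sq_nonneg _)
      (bm_int (haarO S) b1).integrable (Filter.Eventually.of_forall fun W => ?_)).trans ?_
    · have h3 := jensen_pos (haarO S) (bm_comp b0 (φ := fun V => (W, V)) measurable_prodMk_left)
      dsimp only at h3
      rw [integral_sub (bm_comp hf (hme' U)).integrable (bm_comp hf (hme' _)).integrable,
        ← hG, ← hG, ← hGW] at h3
      exact h3
    rw [integral_integral_swap (f := fun W V =>
      max (f (U * emb V) - f (U * refl (nv W) * emb V)) 0 ^ 2) b1.integrable]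
    refine integral_mono_of_nonneg
      (Filter.Eventually.of_forall fun _ => integral_nonneg fun _ => sq_nonneg _)
      (bm_comp hB (hme' U)).integrable (Filter.Eventually.of_forall fun V => ?_)
    have h4 := point (S := S) ha1 (F := fun u => f (U * emb V) - f (U * emb V * refl u))
      (hw (U * emb V)) (hga (U * emb V)) (hd (U * emb V))
      (fun c hc u => by rw [refl_smul hc]) (hr (U * emb V))
    refine le_trans (le_of_eq ?_) h4
    refine (integral_left (emb V) fun W =>
      max (f (U * emb V) - f (U * refl (nv W) * emb V)) 0 ^ 2).symm.trans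
      (integral_congr_ae (Filter.Eventually.of_forall fun W => ?_))
    simp only
    rw [nv_emb, mul_assoc, ← refl_conj, ← mul_assoc]
  have h5 : ∫ U, (G U - ∫ U', G U' ∂(haarO (Option S))) ^ 2 ∂(haarO (Option S))
      ≤ 16 * a1 ^ 2 + 4 * ∫ U, g none U ^ 2 ∂(haarO (Option S))
        + 12 * a2 ^ 2 / (Fintype.card S + 1) ^ 2 := by
    rw [var_pos _ hGb]
    refine (integral_mono_of_nonneg
      (Filter.Eventually.of_forall fun _ => integral_nonneg fun _ => sq_nonneg _)
      (bm_int (haarO S) (bm_comp hB hme)).integrable (Filter.Eventually.of_forall h2)).trans ?_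
    rw [← integral_emb hB, integral_add ((BM.const _).add
      (((hgb none).pow 2).const_mul 4)).integrable (integrable_const _),
      integral_add (integrable_const _) (((hgb none).pow 2).const_mul 4).integrable,
      integral_const_mul 4]
    simp only [integral_const, probReal_univ, smul_eq_mul, one_mul]
    exact le_rfl
  have b2 : BM fun U => ∫ V, ∑ i, g (some i) (U * emb V) ^ 2 ∂(haarO S) :=
    bm_int (haarO S) (bm_comp hs2 hme)
  have h6 : ∫ U, (f U - ∫ U', G U' ∂(haarO (Option S))) ^ 2 ∂(haarO (Option S))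
      ≤ ∫ U, (16 * Fintype.card S * a1 ^ 2 + 4 * ∫ V, ∑ i, g (some i) (U * emb V) ^ 2 ∂(haarO S)
        + 24 * a2 ^ 2 * (1 - 1 / (Fintype.card S + 1))
        + (G U - ∫ U', G U' ∂(haarO (Option S))) ^ 2) ∂(haarO (Option S)) := by
    rw [integral_emb ((hf.sub (BM.const _)).pow 2)]
    refine integral_mono_of_nonneg
      (Filter.Eventually.of_forall fun _ => integral_nonneg fun _ => sq_nonneg _)
      ((((BM.const _).add (b2.const_mul 4)).add (BM.const _)).add
        ((hGb.sub (BM.const _)).pow 2)).integrable (Filter.Eventually.of_forall fun U => ?_)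
    have h7 := var_dec (haarO S) (bm_comp hf (hme' U)) (∫ U', G U' ∂(haarO (Option S)))
    rw [← hG] at h7
    have h8 := h1 U
    simp only
    linarith
  rw [integral_add (((BM.const _).add (b2.const_mul 4)).add (BM.const _)).integrable
    ((hGb.sub (BM.const _)).pow 2).integrable,
    integral_add ((BM.const _).add (b2.const_mul 4)).integrable (integrable_const _),
    integral_add (integrable_const _) (b2.const_mul 4).integrable, integral_const_mul 4,
    ← integral_emb hs2] at h6
  simp only [integral_const, probReal_univ, smul_eq_mul, one_mul] at h6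
  have h9 : ∫ U, ∑ i, g i U ^ 2 ∂(haarO (Option S)) = ∫ U, g none U ^ 2 ∂(haarO (Option S))
      + ∫ U, ∑ i, g (some i) U ^ 2 ∂(haarO (Option S)) := by
    rw [← integral_add ((hgb none).pow 2).integrable hs2.integrable]
    simp only [Fintype.sum_option]
  have h10 : 24 * a2 ^ 2 * (1 - 1 / ((Fintype.card S : ℝ) + 1))
      + 12 * a2 ^ 2 / (Fintype.card S + 1) ^ 2
      ≤ 24 * a2 ^ 2 * (1 - 1 / ((Fintype.card S : ℝ) + 1 + 1)) := by
    have hN : (0 : ℝ) ≤ Fintype.card S := Nat.cast_nonneg _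
    generalize (Fintype.card S : ℝ) = N at hN
    have e : 24 * a2 ^ 2 * (1 - 1 / (N + 1 + 1)) - (24 * a2 ^ 2 * (1 - 1 / (N + 1))
        + 12 * a2 ^ 2 / (N + 1) ^ 2) = 12 * a2 ^ 2 * N / ((N + 1) ^ 2 * (N + 2)) := by
      field_simp
      ring
    have : 0 ≤ 12 * a2 ^ 2 * N / ((N + 1) ^ 2 * (N + 2)) := by positivity
    linarith
  rw [hc, h9, Fintype.card_option]
  push_cast
  linarith

theorem esp_all (ha1 : 0 ≤ a1) : ESP S Y a1 a2 := by
  have h : ∀ n : ℕ, ESP (Fin n) Y a1 a2 := by
    intro n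
    induction n with
    | zero => exact esp_empty
    | succ n ih => exact esp_equiv (finSuccEquiv n).symm (esp_option ha1 ih)
  exact esp_equiv (Fintype.equivFin S).symm (h _)

end ESAux

theorem es (S : Type) [Fintype S] [DecidableEq S] {Y : Type} [Fintype Y] {f : OG S → ℝ}
    (hf : BM f) (w : OG S → Y → ℝ) (v : OG S → Y → S → ℝ) (g : S → OG S → ℝ) {a1 a2 : ℝ}
    (ha1 : 0 ≤ a1) (hw : ∀ U p, 0 ≤ w U p) (hg : ∀ i, Measurable (g i)) (hg0 : ∀ i U, 0 ≤ g i U)
    (hga : ∀ U, ∑ i, g i U ≤ a2) (hd : ∀ U i, ∑ p, w U p * v U p i ^ 2 ≤ a1 + g i U)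
    (hflip : ∀ U i, f (U * refl (Pi.single i 1)) = f U)
    (hr : ∀ U (u : S → ℝ), u ⬝ᵥ u = 1 → f U - f (U * refl u) ≤ ∑ p, w U p * (u ⬝ᵥ v U p) ^ 2) :
    ∫ U, (f U - ∫ U', f U' ∂(haarO S)) ^ 2 ∂(haarO S)
      ≤ 30 * (Fintype.card S * a1 ^ 2 + a2 ^ 2) := by
  have h := ESAux.esp_all (S := S) (Y := Y) (a2 := a2) ha1 f w v g hf hw hg hg0 hga hd hflip hr
  have h1 : ∫ U, ∑ i, g i U ^ 2 ∂(haarO S) ≤ ∫ _, a2 ^ 2 ∂(haarO S) := by
    refine integral_mono_of_nonneg (Filter.Eventually.of_forall fun U =>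
      Finset.sum_nonneg fun i _ => sq_nonneg _) (integrable_const _)
      (Filter.Eventually.of_forall fun U => ?_)
    exact (Finset.sum_sq_le_sq_sum_of_nonneg fun i _ => hg0 i U).trans
      (pow_le_pow_left₀ (Finset.sum_nonneg fun i _ => hg0 i U) (hga U) 2)
  simp only [integral_const, probReal_univ, smul_eq_mul, one_mul] at h1
  have h2 : 0 ≤ (Fintype.card S : ℝ) * a1 ^ 2 := by positivity
  have h3 : 0 ≤ a2 ^ 2 * (1 / ((Fintype.card S : ℝ) + 1)) := by positivity
  nlinarith [sq_nonneg a2]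

end Vale.Agent.P166
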