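import Vale.Agent.P166.Model
import Vale.Agent.P166.ES

/-! # Variance of the value in the orthogonal matrix -/

namespace Vale.Agent.P166

open MeasureTheory ProbabilityTheory Matrix Filter Topology Vale.Agent.P157

namespace VarAux

variable {S : Type} [Fintype S]

theorem expand (s m y y' : S → ℝ) (a a' : ℝ) :
    ∑ i, s i * ((y i - 2 * a * m i) * (y' i - 2 * a' * m i)) = ∑ i, s i * (y i * y' i)
      - 2 * a * ∑ i, m i * (s i * y' i) - 2 * a' * ∑ i, m i * (s i * y i)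
      + 4 * (∑ i, s i * m i ^ 2) * (a * a') := by
  simp only [Finset.mul_sum, Finset.sum_mul, ← Finset.sum_add_distrib, ← Finset.sum_sub_distrib]
  exact Finset.sum_congr rfl fun i _ => by ring

theorem sel {n d : ℕ} (hd : d ≤ n) (r : ℝ) (F : ℕ → ℝ) :
    ∑ j : Fin (n + 1), (if (j : ℕ) = d then r else 0) * F j = r * F d := by
  rw [Fin.sum_univ_eq_sum_range fun j => (if j = d then r else 0) * F j]
  simp [Nat.lt_succ_of_le hd]

variable {Ω : Type} [Fintype Ω] [MeasurableSpace Ω] [MeasurableSingletonClass Ω] {μ : Measure Ω}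
  [IsProbabilityMeasure μ] {ζ : ℕ → ℝ}

theorem rep [DecidableEq Ω] (hζ : Zok ζ) (n : ℕ) (s : ℕ → S → ℝ) (E : Ω → ℝ) (ξ : S → Ω → ℝ)
    (g : Ω → ℝ) : lEG μ ζ n s E ξ g =
      ∑ x, lEG μ ζ n s E ξ (fun y => if y = x then 1 else 0) * g x := by
  have e : g = fun y => ∑ x, g x * if y = x then 1 else 0 := funext fun y => by simp
  conv_lhs => rw [e]
  rw [leg_sum hζ (bm_fin _) (fun _ => bm_fin _) n s _ fun _ _ => bm_fin _]
  exact Finset.sum_congr rfl fun x _ => by rw [leg_const_mul, mul_comm]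

theorem step (hζ : Zok ζ) (hz : ζ 0 = 1) {n : ℕ} {s : ℕ → S → ℝ} (hs : ∀ d i, 0 ≤ s d i)
    {c : S → ℝ} {C β : ℝ} (hC : 0 ≤ C) (hc : ∀ i, c i ≤ C) (hβ : 1 ≤ β) (y : S → Ω → ℝ) (a : Ω → ℝ)
    {m : S → ℝ} (hm : ∑ i, m i ^ 2 = 1) :
    LS μ ζ n s (fun x => -(∑ i, c i * y i x ^ 2) / 2) y -
      LS μ ζ n s (fun x => -(∑ i, c i * (y i x - 2 * a x * m i) ^ 2) / 2)
        (fun i x => y i x - 2 * a x * m i) ≤
      lEG μ ζ n s (fun x => -(∑ i, c i * y i x ^ 2) / 2) y fun x =>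
        (n + 2 + 2 * C) * β * a x ^ 2 + ∑ j : Option (Fin (n + 1)),
          β⁻¹ * (∑ i, m i * (j.elim (c i) (fun d => s d i) * y i x)) ^ 2 := by
  have hβ0 : 0 < β := by linarith
  obtain ⟨B, hB⟩ : ∃ B : ℕ → Ω → ℝ, ∀ d x, B d x = ∑ i, m i * (s d i * y i x) := ⟨_, fun _ _ => rfl⟩
  generalize hψ : (fun x => (n + 2 + 2 * C) * β * a x ^ 2 + ∑ j : Option (Fin (n + 1)),
    β⁻¹ * (∑ i, m i * (j.elim (c i) (fun d => s d i) * y i x)) ^ 2) = ψ
  have h1 := ls_jensen (μ := μ) (E := fun x => -(∑ i, c i * y i x ^ 2) / 2) (ξ := y)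
    (g := fun x => -1 * ψ x) hζ (bm_fin _) (fun _ => bm_fin _) (bm_fin _) n s
  rw [leg_const_mul] at h1
  have h2 := ls_cmp (μ := μ) (E := fun x => -(∑ i, c i * y i x ^ 2) / 2 + -1 * ψ x) (ξ := y)
    (E' := fun x => -(∑ i, c i * (y i x - 2 * a x * m i) ^ 2) / 2)
    (ξ' := fun i x => y i x - 2 * a x * m i) hζ hz (bm_fin _) (bm_fin _) (fun _ => bm_fin _)
    (fun _ => bm_fin _) hs hs (κ := Option (Fin (n + 1))) (κ' := Option (Fin (n + 1)))
    (p := fun k => k.elim a fun j => B j) (p' := fun k => k.elim a fun j x => β * a x - B j x)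
    (fun _ => bm_fin _) (fun _ => bm_fin _)
    (u := fun d k => k.elim (2 * β) fun j => if (j : ℕ) = d then 2 * β⁻¹ else 0)
    (u' := fun d k => k.elim (4 * ∑ i, s d i * m i ^ 2) fun j =>
      if (j : ℕ) = d then 2 * β⁻¹ else 0)
    (fun d k => by
      cases k
      · exact mul_nonneg two_pos.le hβ0.le
      · simp only [Option.elim]
        positivity)
    (fun d k => by
      cases k
      · exact mul_nonneg four_pos.le (Finset.sum_nonneg fun i _ => mul_nonneg (hs d i) (sq_nonneg _))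
      · simp only [Option.elim]
        positivity) n
    (fun d hd x x' => by
      simp only [Fintype.sum_option, Option.elim]
      rw [sel hd _ fun j => B j x * B j x', sel hd _ fun j => (β * a x - B j x) * (β * a x' - B j x'),
        expand (s d) m (fun i => y i x) (fun i => y i x'), ← hB, ← hB]
      field_simp
      ring)
    (fun x => by
      have e1 : ∑ d ∈ Finset.range (n + 1), ∑ k : Option (Fin (n + 1)),
          (k.elim (2 * β) fun j => if (j : ℕ) = d then 2 * β⁻¹ else 0) *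
            (k.elim a fun j => B j) x ^ 2 =
          (n + 1) * (2 * β * a x ^ 2) + 2 * ∑ d : Fin (n + 1), β⁻¹ * B d x ^ 2 := by
        rw [Fin.sum_univ_eq_sum_range fun d => β⁻¹ * B d x ^ 2, Finset.mul_sum]
        refine (Finset.sum_congr rfl (g := fun d => 2 * β * a x ^ 2 + 2 * (β⁻¹ * B d x ^ 2))
          fun d hd => ?_).trans ?_
        · simp only [Fintype.sum_option, Option.elim]
          rw [sel (Nat.lt_succ_iff.1 (Finset.mem_range.1 hd)) _ fun j => B j x ^ 2, mul_assoc 2 β⁻¹]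
        · rw [Finset.sum_add_distrib, Finset.sum_const, Finset.card_range, nsmul_eq_mul,
            Nat.cast_succ]
      have e2 := expand c m (fun i => y i x) (fun i => y i x) (a x) (a x)
      have e3 : ∑ i, c i * m i ^ 2 ≤ C := by
        refine (Finset.sum_le_sum fun i _ => mul_le_mul_of_nonneg_right (hc i) (sq_nonneg _)).trans ?_
        rw [← Finset.mul_sum, hm, mul_one]
      simp only [← sq] at e2
      rw [e1, e2, ← hψ]
      simp only [Fintype.sum_option, Option.elim, ← hB]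
      generalize ∑ i, m i * (c i * y i x) = b
      have e4 : 0 ≤ β⁻¹ * (β * a x + b) ^ 2 := by positivity
      have e5 : β⁻¹ * (β * a x + b) ^ 2 = β * a x ^ 2 + 2 * a x * b + β⁻¹ * b ^ 2 := by
        field_simp
        ring
      have e6 := mul_le_mul_of_nonneg_right (e3.trans (le_mul_of_one_le_right hC hβ))
        (sq_nonneg (a x))
      linarith)
  linarith

variable [DecidableEq S]

theorem yv_right (U O : OG S) (i : S) (x : S → Bool) :
    yv (U * O) i x = (U.1 *ᵥ (O.1 *ᵥ sp x)) i := by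
  rw [yv, og_mul, mulVec_mulVec]

theorem flip (n : ℕ) (s : ℕ → S → ℝ) (c : S → ℝ) (U : OG S) (i : S) :
    XM ζ n s c (U * refl (Pi.single i 1)) = XM ζ n s c U := by
  have h1 : ∀ x : S → Bool, (refl (Pi.single i (1 : ℝ))).1 *ᵥ sp x =
      sp (Function.update x i (!x i)) := fun x => by
    rw [refl_mulVec]
    funext j
    by_cases h : j = i
    · subst h
      cases hx : x j <;> simp [sp, hx] <;> norm_num
    · rw [Pi.sub_apply, Pi.smul_apply, Pi.single_eq_of_ne h, smul_zero, sub_zero, sp, sp,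
        Function.update_of_ne h]
  have h2 : yv (U * refl (Pi.single i 1)) = fun j x => yv U j (Function.update x i (!x i)) :=
    funext fun j => funext fun x => by rw [yv_right, h1, yv]
  rw [XM, XM, ls_map (measurable_of_countable _) (cube_map_flip i) (measurable_of_countable _)
    (fun _ => measurable_of_countable _) (E := EQ c U)]
  unfold EQ
  rw [h2]

theorem main (n : ℕ) {C : ℝ} (hC : 0 ≤ C) {s : ℕ → S → ℝ} {c : S → ℝ} (hζ : Zok ζ) (hz : ζ 0 = 1)
    (hs : ∀ d i, 0 ≤ s d i) (hsC : ∀ d, d ≤ n → ∀ i, s d i ≤ C) (hc : ∀ i, 0 ≤ c i ∧ c i ≤ C)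
    {β : ℝ} (hβ : 0 ≤ β) (hN : β ^ 4 = Fintype.card S) :
    ∫ U, (XM ζ n s c U - ∫ U', XM ζ n s c U' ∂(haarO S)) ^ 2 ∂(haarO S)
      ≤ 30 * (Fintype.card S * ((n + 2 + 2 * C) * β) ^ 2 + ((n + 2) * C ^ 2 * β ^ 3) ^ 2) := by
  obtain ⟨z, hz'⟩ : ∃ z : OG S → (S → Bool) → Option (Fin (n + 1)) → S → ℝ, ∀ U x j, z U x j =
      U.1ᵀ *ᵥ fun i => j.elim (c i) (fun d => s d i) * yv U i x := ⟨_, fun _ _ _ => rfl⟩
  have hb : ∀ U x, ∑ i, ∑ j, z U x j i ^ 2 ≤ (n + 2) * C ^ 2 * Fintype.card S := fun U x => by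
    rw [Finset.sum_comm]
    refine (Finset.sum_le_card_nsmul _ _ (C ^ 2 * Fintype.card S) fun j _ => ?_).trans_eq ?_
    · rw [hz', ← og_inv, og_norm, ← yv_sum_sq U x, Finset.mul_sum]
      refine Finset.sum_le_sum fun i _ => ?_
      rw [mul_pow]
      refine mul_le_mul_of_nonneg_right ?_ (sq_nonneg _)
      cases j with
      | none => exact pow_le_pow_left₀ (hc i).1 (hc i).2 2
      | some d => exact pow_le_pow_left₀ (hs d i) (hsC d (Nat.lt_succ_iff.1 d.2) i) 2
    · simp only [Finset.card_univ, Fintype.card_option, Fintype.card_fin, nsmul_eq_mul]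
      push_cast
      ring
  have h0 : ∀ U x i, 0 ≤ ∑ j, z U x j i ^ 2 := fun U x i =>
    Finset.sum_nonneg fun _ _ => sq_nonneg _
  have hA : 0 ≤ (n + 2 + 2 * C) * β := by positivity
  have hw : ∀ (U : OG S) (F : (S → Bool) × Option (Option (Fin (n + 1))) → ℝ),
      ∑ p, lEG (cube S) ζ n s (EQ c U) (yv U) (fun y => if y = p.1 then 1 else 0) *
        (p.2.elim ((n + 2 + 2 * C) * β) fun _ => β⁻¹) * F p =
      lEG (cube S) ζ n s (EQ c U) (yv U) fun x =>
        (n + 2 + 2 * C) * β * F (x, none) + ∑ j, β⁻¹ * F (x, some j) := fun U F => by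
    rw [rep hζ n s _ _ fun x => _ + _, Fintype.sum_prod_type]
    refine Finset.sum_congr rfl fun x _ => ?_
    simp only [Fintype.sum_option (f := fun o : Option (Option (Fin (n + 1))) => _), Option.elim,
      mul_add, Finset.mul_sum, mul_assoc]
  refine es S (Y := (S → Bool) × Option (Option (Fin (n + 1)))) (bm_XM hζ hz n hs c)
    (fun U p => lEG (cube S) ζ n s (EQ c U) (yv U) (fun y => if y = p.1 then 1 else 0) *
      p.2.elim ((n + 2 + 2 * C) * β) fun _ => β⁻¹)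
    (fun U p => p.2.elim (sp p.1) (z U p.1))
    (fun i U => β⁻¹ * lEG (cube S) ζ n s (EQ c U) (yv U) fun x => ∑ j, z U x j i ^ 2) hA
    (fun U p => mul_nonneg (leg_nonneg n s fun _ => by positivity) ?_) (fun i => ?_)
    (fun i U => mul_nonneg (inv_nonneg.2 hβ) (leg_nonneg n s fun x => h0 U x i)) (fun U => ?_)
    (fun U i => le_of_eq ?_) (flip n s c) fun U u hu => ?_
  · cases p.2
    · exact hA
    · exact inv_nonneg.2 hβ
  · refine (bm_leg_par (ξ := fun i U x => yv U i x) (g := fun U x => ∑ j, z U x j i ^ 2) hζ hz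
      (bm_EQ c) bm_yv hs (bm_par_fin (fun x => ?_) (C := (n + 2) * C ^ 2 * Fintype.card S)
        fun U x => ?_) n).1.const_mul _
    · simp only [hz', mulVec, dotProduct, transpose_apply]
      exact Finset.measurable_sum _ fun j _ => (Finset.measurable_sum _ fun k _ =>
        (measurable_entry k i).mul ((measurable_yv k x).const_mul _)).pow_const 2
    · rw [abs_of_nonneg (h0 U x i)]
      exact (Finset.single_le_sum (fun i _ => h0 U x i) (Finset.mem_univ i)).trans (hb U x)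
  · rw [← Finset.mul_sum, ← leg_sum hζ (bm_fin _) (fun _ => bm_fin _) n s _ fun _ _ => bm_fin _]
    refine (mul_le_mul_of_nonneg_left (leg_mono hζ (bm_fin _) (fun _ => bm_fin _) n s (bm_fin _)
      (bm_fin _) (hb U)) (inv_nonneg.2 hβ)).trans_eq ?_
    rw [leg_const hζ (bm_fin _) (fun _ => bm_fin _), ← hN]
    rcases hβ.eq_or_lt with rfl | h
    · simp
    · field_simp
  · rw [hw, leg_add hζ (bm_fin _) (fun _ => bm_fin _) n s (bm_fin _) (bm_fin _), ← leg_const_mul]
    simp only [Option.elim, sp_sq, mul_one, Finset.mul_sum]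
    rw [leg_const hζ (bm_fin _) fun _ => bm_fin _]
  · have hu' : ∑ i, u i ^ 2 = 1 := by simpa only [dotProduct, ← sq] using hu
    have hβ1 : 1 ≤ β := by
      rcases isEmpty_or_nonempty S with h | h
      · simp at hu'
      · exact (one_le_pow_iff_of_nonneg hβ four_ne_zero).1
          (hN ▸ Nat.one_le_cast.2 Fintype.card_pos)
    have h2 : yv (U * refl u) = fun i x => yv U i x - 2 * (u ⬝ᵥ sp x) * (U.1 *ᵥ u) i :=
      funext fun i => funext fun x => by
        rw [yv_right, refl_mulVec, hu, div_one, mulVec_sub, mulVec_smul]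
        rfl
    have h3 := step (μ := cube S) hζ hz (n := n) hs hC (fun i => (hc i).2) hβ1 (yv U)
      (fun x => u ⬝ᵥ sp x) ((og_norm U u).trans hu')
    rw [hw, XM, XM]
    unfold EQ
    rw [h2]
    simp only [Option.elim, hz', dotProduct_mulVec, vecMul_transpose]
    exact h3

end VarAux

theorem var_XM (n : ℕ) (C : ℝ) : ∃ C' : ℝ, 0 ≤ C' ∧
    ∀ (S : Type) [Fintype S] [DecidableEq S] (ζ : ℕ → ℝ) (s : ℕ → S → ℝ) (c : S → ℝ),
      Zok ζ → ζ 0 = 1 → (∀ d i, 0 ≤ s d i) → (∀ d, d ≤ n → ∀ i, s d i ≤ C) →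
      (∀ i, 0 ≤ c i ∧ c i ≤ C) →
      ∫ U, (XM ζ n s c U - ∫ U', XM ζ n s c U' ∂(haarO S)) ^ 2 ∂(haarO S)
        ≤ C' * (Fintype.card S * √(Fintype.card S : ℝ)) := by
  refine ⟨30 * ((n + 2 + 2 * |C|) ^ 2 + ((n + 2) * |C| ^ 2) ^ 2), by positivity,
    fun S _ _ ζ s c hζ hz hs hsC hc => ?_⟩
  have h1 : √(√(Fintype.card S : ℝ)) ^ 2 = √(Fintype.card S : ℝ) := Real.sq_sqrt (Real.sqrt_nonneg _)
  have h2 : √(√(Fintype.card S : ℝ)) ^ 4 = Fintype.card S := by
    rw [show 4 = 2 * 2 from rfl, pow_mul, h1, Real.sq_sqrt (Nat.cast_nonneg _)]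
  refine (VarAux.main n (abs_nonneg C) hζ hz hs (fun d hd i => (hsC d hd i).trans (le_abs_self C))
    (fun i => ⟨(hc i).1, (hc i).2.trans (le_abs_self C)⟩) (Real.sqrt_nonneg _) h2).trans_eq ?_
  generalize √(√(Fintype.card S : ℝ)) = β at h1 h2
  rw [← h1, ← h2]
  ring

theorem dev_XM (n : ℕ) (C : ℝ) {a ε : ℝ} (ha : 0 < a) (hε : 0 < ε) : ∀ᶠ N : ℕ in atTop,
    ∀ (S : Type) [Fintype S] [DecidableEq S] (ζ : ℕ → ℝ) (s : ℕ → S → ℝ) (c : S → ℝ),
      (Fintype.card S : ℝ) ≤ 2 * N → Zok ζ → ζ 0 = 1 → (∀ d i, 0 ≤ s d i) →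
      (∀ d, d ≤ n → ∀ i, s d i ≤ C) → (∀ i, 0 ≤ c i ∧ c i ≤ C) →
      (haarO S).real {U | a * N ≤ |XM ζ n s c U - ∫ U', XM ζ n s c U' ∂(haarO S)|} ≤ ε := by
  obtain ⟨C', hC', h⟩ := var_XM n C
  filter_upwards [tendsto_natCast_atTop_atTop.eventually_ge_atTop (8 * C' ^ 2 / (ε * a ^ 2) ^ 2),
    eventually_gt_atTop 0] with N h1 h2 S _ _ ζ s c hS hζ hz hs hsC hc
  have h3 := h S ζ s c hζ hz hs hsC hc
  have hN : (0 : ℝ) < N := Nat.cast_pos.2 h2
  have h4 := mul_meas_ge_le_integral_of_nonneg (μ := haarO S) (.of_forall fun _ => sq_nonneg _)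
    (((bm_XM hζ hz n hs c).sub (BM.const (∫ U', XM ζ n s c U' ∂(haarO S)))).pow 2).integrable
    ((a * N) ^ 2)
  have h5 : 2 * C' * √(Fintype.card S : ℝ) ≤ ε * a ^ 2 * N := by
    refine (pow_le_pow_iff_left₀ (by positivity) (by positivity) two_ne_zero).1 ?_
    rw [mul_pow, Real.sq_sqrt (Nat.cast_nonneg _)]
    rw [div_le_iff₀ (by positivity)] at h1
    nlinarith [mul_le_mul_of_nonneg_left hS (sq_nonneg C'), mul_le_mul_of_nonneg_left h1 hN.le]
  refine (measureReal_mono fun U hU => ?_).trans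
    (le_of_mul_le_mul_left (h4.trans (h3.trans ?_)) (by positivity))
  · exact (pow_le_pow_left₀ (mul_pos ha hN).le hU 2).trans_eq (sq_abs _)
  · have h6 := mul_le_mul_of_nonneg_right hS (mul_nonneg hC' (Real.sqrt_nonneg (Fintype.card S)))
    nlinarith [mul_le_mul_of_nonneg_left h5 hN.le]

end Vale.Agent.P166
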