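import Vale.Agent.P166.VC
import Vale.Agent.P166.Var
import Vale.Agent.P166.Moves

/-! # The cavity lemma averaged over the orthogonal group -/

namespace Vale.Agent.P166

open MeasureTheory ProbabilityTheory Filter Topology Vale.Agent.P157

namespace CavAux

theorem two_mul : Tendsto (fun k : ℝ => 2 * k) (𝓝[>] 0) (𝓝[>] 0) := by
  refine tendsto_nhdsWithin_iff.2 ⟨?_, ?_⟩
  · have h : Tendsto (fun k : ℝ => 2 * k) (𝓝 0) (𝓝 (2 * 0)) :=
      (continuous_const.mul continuous_id).tendsto 0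
    rw [mul_zero] at h
    exact h.mono_left nhdsWithin_le_nhds
  · filter_upwards [self_mem_nhdsWithin] with k hk
    exact Set.mem_Ioi.2 (mul_pos two_pos (Set.mem_Ioi.1 hk))

theorem ev_le (D : ℝ) {c : ℝ} (hc : 0 < c) : ∀ᶠ N : ℕ in atTop, D ≤ c * N := by
  filter_upwards [tendsto_natCast_atTop_atTop.eventually_ge_atTop (D / c)] with N hN
  rw [div_le_iff₀ hc] at hN
  linarith

theorem int_good {Y : Type} [MeasurableSpace Y] {ν : Measure Y} [IsProbabilityMeasure ν]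
    {f : Y → ℝ} {G : Set Y} (hG : MeasurableSet G) {B M p : ℝ} (hB0 : 0 ≤ B) (hM0 : 0 ≤ M)
    (hB : ∀ y ∈ G, |f y| ≤ B) (hM : ∀ y, |f y| ≤ M) (hp : ν.real Gᶜ ≤ p) :
    |∫ y, f y ∂ν| ≤ B + M * p := by
  have hi : Integrable (Gᶜ.indicator fun _ => M) ν := (integrable_const M).indicator hG.compl
  have h1 : ‖∫ y, f y ∂ν‖ ≤ ∫ y, (B + Gᶜ.indicator (fun _ => M) y) ∂ν := by
    refine norm_integral_le_of_norm_le ((integrable_const B).add hi)
      (Eventually.of_forall fun y => ?_)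
    rw [Real.norm_eq_abs]
    by_cases hy : y ∈ G
    · rw [Set.indicator_of_notMem (by simpa using hy), add_zero]
      exact hB y hy
    · rw [Set.indicator_of_mem (by simpa using hy)]
      linarith [hM y]
  rw [integral_add (integrable_const B) hi, integral_const, integral_indicator_const M hG.compl,
    Real.norm_eq_abs] at h1
  simp only [probReal_univ, smul_eq_mul, one_mul] at h1
  nlinarith [mul_le_mul_of_nonneg_left hp hM0]

theorem avg_good {Y Z : Type} [MeasurableSpace Y] [MeasurableSpace Z] {μ : Measure Y}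
    [IsProbabilityMeasure μ] {ν : Measure Z} [IsProbabilityMeasure ν] {F : Y → Z → ℝ}
    (hF : BM (Function.uncurry F)) {f : Y → ℝ} (hf : BM f) {c : ℝ} {G : Set Y}
    (hG : MeasurableSet G) {B M p : ℝ} (hB0 : 0 ≤ B) (hM0 : 0 ≤ M)
    (hB : ∀ y ∈ G, |∫ z, F y z ∂ν - f y - c| ≤ B) (hM : ∀ y z, |F y z - f y| ≤ M) (hc : |c| ≤ M)
    (hp : μ.real Gᶜ ≤ p) : |∫ y, ∫ z, F y z ∂ν ∂μ - ∫ y, f y ∂μ - c| ≤ B + 2 * M * p := by
  have iH : Integrable (fun y => ∫ z, F y z ∂ν) μ :=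
    (hF.integrable (ν := μ.prod ν)).integral_prod_left
  have iX : Integrable f μ := hf.integrable
  have iD : Integrable (fun y => ∫ z, F y z ∂ν - f y) μ := iH.sub iX
  have e1 : ∫ y, ∫ z, F y z ∂ν ∂μ - ∫ y, f y ∂μ - c = ∫ y, (∫ z, F y z ∂ν - f y - c) ∂μ := by
    rw [integral_sub iD (integrable_const c), integral_sub iH iX, integral_const, probReal_univ,
      one_smul]
  rw [e1]
  refine int_good hG hB0 (by linarith) hB (fun y => ?_) hp
  have iG : Integrable (F y) ν := by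
    obtain ⟨hm, C, hC⟩ := hF
    exact BM.integrable ⟨hm.comp measurable_prodMk_left, C, fun z => hC (y, z)⟩
  have h3 := norm_integral_le_of_norm_le_const (μ := ν) (f := fun z => F y z - f y) (C := M)
    (Eventually.of_forall fun z => hM y z)
  rw [probReal_univ, mul_one, integral_sub iG (integrable_const _), integral_const,
    probReal_univ, one_smul, Real.norm_eq_abs, abs_le] at h3
  rw [abs_le] at hc ⊢
  constructor <;> linarith [h3.1, h3.2, hc.1, hc.2]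

variable {S A : Type} [Fintype S] [DecidableEq S] [Fintype A] [DecidableEq A]

theorem card_le {D : ℝ} {N : ℕ} {b : S → Option A} (h : Bal D N b) (hD : D ≤ 1 * N) :
    (Fintype.card S : ℝ) ≤ 2 * N := by
  linarith [(abs_le.1 (bal_card h)).2]

theorem sb_le {n : ℕ} {Θ θm cm t0 : ℝ} {ca : A → ℝ} {θ ϑ : ℕ → ℝ} (hΘ : 0 ≤ Θ)
    (h : Par n Θ θm cm t0 ca θ ϑ) (b : S → Option A) {ϑ' : ℕ → ℝ} {y : ℝ}
    (hy : ∀ d, |ϑ' d - ϑ d| ≤ y) {C : ℝ} (hC : Θ ≤ C)
    (hC' : ∀ x x', x ^ 2 ≤ Θ → |x' - x| ≤ y → x' ^ 2 ≤ C) {d : ℕ} (hd : d ≤ n) (i : S) :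
    sb θ ϑ' b d i ≤ C := by
  unfold sb sv sq0
  rcases b i with _ | a
  · simp only [Option.elim]
    split_ifs with h0
    · linarith
    · exact hC' _ _ (h.fld d (by omega) hd).2 (hy d)
  · simp only [Option.elim]
    split_ifs with h0
    · linarith
    · have h1 := h.p0.th d (by omega) hd
      exact ((pow_le_pow_left₀ h1.1 h1.2 2).trans (h.fld d (by omega) hd).2).trans hC

theorem xb_eq (ζ : ℕ → ℝ) (n : ℕ) (ca : A → ℝ) (θ : ℕ → ℝ) (b : S → Option A) (U : OG S) :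
    (fun ϑ' => XB ζ n ca θ b ϑ' U) = fun ϑ' => LS (cube S) ζ n (sb θ ϑ' b)
      (fun x => EQ (cb ca 0 b) U x + ϑ' 0 * (-(∑ i : {i // b i ≠ none}, yv U i.1 x ^ 2) / 2))
      (yv U) := by
  funext ϑ'
  unfold XB XM
  rw [show EQ (cb ca ϑ' b) U = _ from funext (EQ_cb ca ϑ' b U)]

theorem top_dev {D c : ℝ} {N : ℕ} {b : S → Option A} (h : Bal D N b) (hD : D ≤ c * N) (U : OG S)
    (x : S → Bool) :
    |∑ j : {i // b i = none}, yv U (Function.Embedding.subtype (fun i => b i = none) j) x ^ 2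
      - (N + 2 * (-(∑ i : {i // b i ≠ none}, yv U i.1 x ^ 2) / 2))| ≤ c * N := by
  have h1 := top_add_rest b U x
  have h2 := bal_card h
  rw [← h1] at h2
  refine le_trans (le_of_eq ?_) (h2.trans hD)
  congr 1
  simp only [Function.Embedding.coe_subtype]
  ring

theorem card_top (b : S → Option A) :
    (Fintype.card {i // b i = none} : ℝ) ≤ Fintype.card S := by
  exact_mod_cast Fintype.card_subtype_le _

theorem xc_abs {L : Type} [Fintype L] [DecidableEq L] {ζ : ℕ → ℝ} (hζ : Zok ζ) (n d0 : ℕ) (σ : ℝ)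
    (r : ℕ → ℝ) {Pc η : (L → ℝ) → Bool → ℝ} {K : ℝ} (hP : CJ Pc K) (hη : CJ η K) :
    |XC ζ n d0 σ r Pc η| ≤ 2 * K := by
  have hg : HG Pc := hg_of_bm2 ⟨hP.meas, K, hP.bd⟩
  have h1 := tr_abs (μ := UnifAux.mu2) hζ hg hη.meas hη.bd n d0 σ fun d (_ : L) => dq r d
  have h2 := x_abs (μ := UnifAux.mu2) hζ (ν := gvs fun d (_ : L) => dq r d)
    (fun d => noise_gv _) (hg_of_bm2 (BM2.const 0)) hg (b := K)
    (fun w x => by rw [sub_zero]; exact hP.bd w x) (n + 1) 0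
  have h3 := gv_zero (μ := UnifAux.mu2) (ζ := ζ) n fun d (_ : L) => dq r d
  unfold GV at h1 h3
  rw [h3, sub_zero] at h2
  unfold XC
  rw [abs_le] at h1 h2 ⊢
  constructor <;> linarith [h1.1, h1.2, h2.1, h2.2]

end CavAux

open CavAux

theorem good_event (A : Type) [Fintype A] [DecidableEq A] (n : ℕ) {Θ θm : ℝ} (hΘ : 0 ≤ Θ)
    (cm D : ℝ) {k y ε : ℝ} (hk : 0 < k) (hy : 0 < y) (hy1 : y ≤ 1) (hym : y ≤ θm) (hε : 0 < ε) :
    ∀ᶠ N : ℕ in atTop,
    ∀ (S : Type) [Fintype S] [DecidableEq S] (ζ : ℕ → ℝ) (ca : A → ℝ) (θ : ℕ → ℝ)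
      (b : S → Option A) (ϑ τ : ℕ → ℝ) (t0 : ℝ), Zok ζ → ζ 0 = 1 → Bal D N b →
      Par n Θ θm cm t0 ca θ ϑ → SDz (AV ζ n ca θ b) ϑ τ y (k * y * N) n →
      ∃ G : Set (OG S), MeasurableSet G ∧ (haarO S).real Gᶜ ≤ ε ∧
        ∀ U ∈ G, SDz (fun ϑ' => XB ζ n ca θ b ϑ' U) ϑ τ y (2 * k * y * N) n := by
  have hn : (0 : ℝ) < 2 * n + 3 := by positivity
  filter_upwards [dev_XM n (2 * Θ + 2 * cm + 2) (a := k * y / 2) (ε := ε / (2 * n + 3))
    (by positivity) (by positivity), ev_le D one_pos] with N hN hD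
  intro S _ _ ζ ca θ b ϑ τ t0 hζ hz hB hP hSD
  have hcm : 0 ≤ cm := hP.p0.a0.1.trans hP.p0.a0.2
  obtain ⟨Bad, hBad⟩ : ∃ Bad : (ℕ → ℝ) → Set (OG S), Bad = fun ϑ' =>
    {U | k * y / 2 * N ≤ |XB ζ n ca θ b ϑ' U - AV ζ n ca θ b ϑ'|} := ⟨_, rfl⟩
  have hm : ∀ ϑ', MeasurableSet (Bad ϑ') := fun ϑ' => by
    rw [hBad]
    exact measurableSet_le measurable_const
      (((bm_XB hζ hz n ca θ b ϑ').1.sub_const _).abs)
  have hp : ∀ ϑ' : ℕ → ℝ, (∀ d, |ϑ' d - ϑ d| ≤ y) → (haarO S).real (Bad ϑ') ≤ ε / (2 * n + 3) := by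
    intro ϑ' h'
    rw [hBad]
    refine hN S ζ (sb θ ϑ' b) (cb ca ϑ' b) (card_le hB hD) hζ hz (sb_nonneg θ ϑ' b)
      (fun d hd i => sb_le hΘ hP b h' (by linarith) (fun x x' h1 h2 => ?_) hd i) fun i => ?_
    · have h3 : (x' - x) ^ 2 ≤ 1 := by
        have := abs_le.1 (h2.trans hy1)
        nlinarith [this.1, this.2]
      nlinarith [sq_nonneg (x' - 2 * x)]
    · unfold cb cv
      have h1 := abs_le.1 (h' 0)
      have h2 := hP.a0
      have h3 := hP.p0.a0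
      rcases b i with _ | a
      · simp only [Option.elim]
        exact ⟨le_rfl, by linarith⟩
      · simp only [Option.elim]
        have h4 := hP.p0.c a
        constructor <;> linarith [h1.1, h1.2, h3.2, h4.1, h4.2]
  have hup : ∀ (d : ℕ) (a : ℝ), |a - ϑ d| ≤ y → ∀ d', |Function.update ϑ d a d' - ϑ d'| ≤ y := by
    intro d a ha d'
    by_cases h : d' = d
    · rw [h, Function.update_self]
      exact ha
    · rw [Function.update_of_ne h, sub_self, abs_zero]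
      exact hy.le
  refine ⟨(Bad ϑ ∪ ⋃ d ∈ Finset.range (n + 1),
    (Bad (Function.update ϑ d (ϑ d + y)) ∪ Bad (Function.update ϑ d (ϑ d - y))))ᶜ, ?_, ?_, ?_⟩
  · exact ((hm _).union (Finset.measurableSet_biUnion _ fun d _ => (hm _).union (hm _))).compl
  · rw [compl_compl]
    refine (measureReal_union_le _ _).trans ?_
    have h1 := hp ϑ fun d => by rw [sub_self, abs_zero]; exact hy.le
    have h2 : (haarO S).real (⋃ d ∈ Finset.range (n + 1),
        (Bad (Function.update ϑ d (ϑ d + y)) ∪ Bad (Function.update ϑ d (ϑ d - y))))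
        ≤ ∑ _d ∈ Finset.range (n + 1), 2 * (ε / (2 * n + 3)) := by
      refine (measureReal_biUnion_finset_le _ _).trans (Finset.sum_le_sum fun d _ => ?_)
      refine (measureReal_union_le _ _).trans ?_
      have h3 := hp _ (hup d (ϑ d + y) (by rw [add_sub_cancel_left, abs_of_pos hy]))
      have h4 := hp _ (hup d (ϑ d - y) (by rw [sub_sub_cancel_left, abs_neg, abs_of_pos hy]))
      linarith
    rw [Finset.sum_const, Finset.card_range, nsmul_eq_mul] at h2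
    have h5 : ε / (2 * n + 3) + ((n + 1 : ℕ) : ℝ) * (2 * (ε / (2 * n + 3))) = ε := by
      push_cast
      field_simp
      ring
    linarith
  · intro U hU d hd
    simp only [Set.mem_compl_iff, Set.mem_union, Set.mem_iUnion, not_or, not_exists] at hU
    have h0 := hU.1
    have h1 := (hU.2 d (Finset.mem_range.2 (by omega))).1
    have h2 := (hU.2 d (Finset.mem_range.2 (by omega))).2
    rw [hBad] at h0 h1 h2
    simp only [Set.mem_ofPred_eq, not_le, abs_lt] at h0 h1 h2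
    have h3 := hSD d hd
    constructor <;> linarith [h0.1, h0.2, h1.1, h1.2, h2.1, h2.2, h3.1, h3.2]

theorem base_rel (A : Type) [Fintype A] [DecidableEq A] {n : ℕ} {ζ : ℕ → ℝ} {me Θ θm : ℝ}
    (hR : Reg n ζ me 0 0 Θ θm) {δ : ℝ} (hδ : 0 < δ) (cm D : ℝ) :
    ∀ᶠ k in 𝓝[>] (0 : ℝ), ∀ᶠ y in 𝓝[>] (0 : ℝ), ∀ᶠ N : ℕ in atTop,
    ∀ (S : Type) [Fintype S] [DecidableEq S] (ca : A → ℝ) (θ : ℕ → ℝ) (b : S → Option A)
      (ϑ τ : ℕ → ℝ) (t0 : ℝ), Bal D N b → Par n Θ θm cm t0 ca θ ϑ →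
      SDz (AV ζ n ca θ b) ϑ τ y (k * y * N) n → ∃ r, Rel n ζ (KK A) N ϑ τ r δ := by
  have hK1 : (1 : ℝ) ≤ KK A := KK_pos
  have hδ1 : 0 < δ / (3 * KK A) := by positivity
  filter_upwards [two_mul.eventually (base_r hR hδ1 (γ := KK A) (by linarith)),
    self_mem_nhdsWithin] with k hk hk0
  filter_upwards [hk, GoodAux.ev_small hR.θm0, GoodAux.ev_small one_pos] with y hy hym hy1
  filter_upwards [hy, good_event A n hR.Θ0 cm D hk0 hym.1 hy1.2.le hym.2.le one_half_pos,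
    ev_le D one_pos, ev_le D hδ1] with N hN hG hD hD'
  intro S _ _ ca θ b ϑ τ t0 hB hP hSD
  obtain ⟨G, hGm, hGp, hGs⟩ := hG S ζ ca θ b ϑ τ t0 hR.z.zok hR.z.z0 hB hP hSD
  obtain ⟨U, hU⟩ : G.Nonempty := by
    rw [Set.nonempty_iff_ne_empty]
    rintro rfl
    rw [Set.compl_empty, probReal_univ] at hGp
    norm_num at hGp
  have h1 := hGs U hU
  rw [xb_eq] at h1
  obtain ⟨r, hr⟩ := hN S {i // b i = none} (S → Bool) (cube S) (EQ (cb ca 0 b) U)
    (fun x => -(∑ i : {i // b i ≠ none}, yv U i.1 x ^ 2) / 2) (yv U)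
    (Function.Embedding.subtype fun i => b i = none) (fun ϑ' => sb θ ϑ' b) ϑ τ (bm_fin _)
    (bm_fin _) (fun _ => bm_fin _) (fam_top θ b) ((card_top b).trans (card_le hB hD))
    (fun x => (yv_sum_sq U x).trans_le (card_le hB hD))
    (sb_le hR.Θ0 hP b (y := 0) (fun d => by simp) le_rfl (fun x x' h h' => by
      rw [sub_eq_zero.1 (abs_nonpos_iff.1 h')]; exact h) le_rfl) hP.fld (top_dev hB hD' U) h1
  refine ⟨r, hr.mono (le_of_eq ?_)⟩
  field_simp

theorem cav_avg (A L : Type) [Fintype A] [DecidableEq A] [Fintype L] [DecidableEq L] {n : ℕ}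
    {ζ : ℕ → ℝ} {me Θ θm : ℝ} (hR : Reg n ζ me 0 0 Θ θm) {δ : ℝ} (hδ : 0 < δ) {K : ℝ}
    (hK : 0 ≤ K) (cm D : ℝ) :
    ∀ᶠ k in 𝓝[>] (0 : ℝ), ∀ᶠ y in 𝓝[>] (0 : ℝ), ∀ᶠ N : ℕ in atTop,
    ∀ (S : Type) [Fintype S] [DecidableEq S] (ca : A → ℝ) (θ : ℕ → ℝ) (b : S → Option A)
      (ϑ τ r : ℕ → ℝ) (t0 σ : ℝ) (d0 : ℕ) (Pc η : (L → ℝ) → Bool → ℝ), Bal D N b →
      Par n Θ θm cm t0 ca θ ϑ → SDz (AV ζ n ca θ b) ϑ τ y (k * y * N) n →
      Rel n ζ (KK A) N ϑ τ r δ → CJ Pc K → CJ η K → 0 ≤ σ → σ ≤ 1 →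
      |CV ζ n ca θ b ϑ d0 σ Pc η (KK A / N) - AV ζ n ca θ b ϑ - XC ζ n d0 σ r Pc η|
        ≤ Fintype.card L * (20 * (1 + K) ^ 2 * (1 + 2 * KK A) ^ 2 * (me + 2 * δ)) + δ := by
  have hK1 : (1 : ℝ) ≤ KK A := KK_pos
  have hζ := hR.z.zok
  have hz := hR.z.z0
  have hme := hR.me0
  have hε : 0 < δ / (4 * K + 1) := by positivity
  filter_upwards [two_mul.eventually (vc hR hδ hK hK1 L), self_mem_nhdsWithin] with k hk hk0
  filter_upwards [hk, GoodAux.ev_small hR.θm0, GoodAux.ev_small one_pos] with y hy hym hy1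
  filter_upwards [hy, good_event A n hR.Θ0 cm D hk0 hym.1 hy1.2.le hym.2.le hε,
    ev_le D one_pos, ev_le D hδ] with N hN hG hD hD'
  intro S _ _ ca θ b ϑ τ r t0 σ d0 Pc η hB hP hSD hr hPc hη hσ hσ1
  obtain ⟨G, hGm, hGp, hGs⟩ := hG S ζ ca θ b ϑ τ t0 hζ hz hB hP hSD
  have bmP : BM (Function.uncurry fun (U : OG S) (G : L × {i // b i = none} → ℝ) =>
      CX ζ n ca θ b ϑ d0 σ Pc η U fun x => tG G fun j : {i // b i = none} => yv U j.1 x) :=
    bm_CX hζ hz n ca θ b ϑ d0 σ hPc.meas hη.meas measurable_fst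
      (t := fun p x => tG p.2 fun j : {i // b i = none} => yv p.1 j.1 x)
      (fun x l => Finset.measurable_sum _ fun j _ =>
        ((measurable_pi_apply (l, j)).comp measurable_snd).mul
          ((measurable_yv j.1 x).comp measurable_fst)) (C := K)
      (fun _ _ _ => hPc.bd _ _) fun _ _ _ => hη.bd _ _
  have h0 := avg_good (μ := haarO S) (ν := gv fun _ : L × {i // b i = none} => KK A / N) bmP
    (bm_XB hζ hz n ca θ b ϑ) (c := XC ζ n d0 σ r Pc η) hGm (B := Fintype.card L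
      * (20 * (1 + K) ^ 2 * (1 + 2 * KK A) ^ 2 * (me + δ + δ))) (M := 2 * K) (by positivity)
    (by positivity) (fun U hU => ?_) (fun U G => (cx_abs hζ hz n ca θ b ϑ d0 σ Pc η U _
      (fun _ _ => hPc.bd _ _) fun _ _ => hη.bd _ _).trans_eq (by ring))
    (xc_abs hζ n d0 σ r hPc hη) hGp
  · have h1 : 2 * (2 * K) * (δ / (4 * K + 1)) ≤ δ := by
      rw [← mul_div_assoc, div_le_iff₀ (by positivity)]
      nlinarith
    rw [show me + δ + δ = me + 2 * δ by ring] at h0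
    unfold CV AV
    linarith
  · have h1 := hGs U hU
    rw [xb_eq] at h1
    have h2 := hN S {i // b i = none} (S → Bool) Bool (cube S) UnifAux.mu2 (EQ (cb ca 0 b) U)
      (fun x => -(∑ i : {i // b i ≠ none}, yv U i.1 x ^ 2) / 2) (yv U)
      (Function.Embedding.subtype fun i => b i = none) (fun ϑ' => sb θ ϑ' b) ϑ τ r δ σ d0 Pc η
      (bm_fin _) (bm_fin _) (fun _ => bm_fin _) (fam_top θ b)
      ((card_top b).trans (card_le hB hD)) (fun x => (yv_sum_sq U x).trans_le (card_le hB hD))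
      (sb_le hR.Θ0 hP b (y := 0) (fun d => by simp) le_rfl (fun x x' h h' => by
        rw [sub_eq_zero.1 (abs_nonpos_iff.1 h')]; exact h) le_rfl) hP.fld hδ.le
      (top_dev hB hD' U) h1 hr hPc hη hσ hσ1
    rw [congrFun (xb_eq ζ n ca θ b U) ϑ]
    unfold CX XC
    simp only [EQ_cb ca ϑ b U]
    exact h2

end Vale.Agent.P166
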