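import Vale.Agent.P166.Geo2

/-! # Jets of the cavity potentials -/

namespace Vale.Agent.P166

open MeasureTheory Vale.Agent.P157

namespace CavJetAux

theorem measurable_tanh : Measurable Real.tanh := MonoAux.bm_tanh.1

theorem abs_tanh_le_abs (x : ℝ) : |Real.tanh x| ≤ |x| := by
  have h := JetAux.mvt JetAux.hasDerivAt_tanh (r := |x|) (C := 1) (fun u _ => by
    rw [abs_le]
    constructor <;> nlinarith [JetAux.tanh_sq_le u, sq_nonneg (Real.tanh u)]) le_rfl
  simpa using h

theorem abs_tanh_sub (x : ℝ) : |Real.tanh x - x| ≤ x ^ 2 := by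
  have h := JetAux.mvt (f := fun u => Real.tanh u - u) (f' := fun u => -Real.tanh u ^ 2)
    (fun u => ((JetAux.hasDerivAt_tanh u).fun_sub (hasDerivAt_id' u)).congr_deriv (by ring))
    (r := |x|) (C := |x|) (fun u hu => by
      have h1 := MonoAux.abs_tanh_le u
      have h2 := (abs_tanh_le_abs u).trans hu
      rw [abs_neg, abs_pow]
      nlinarith [abs_nonneg (Real.tanh u)]) le_rfl
  simpa [sq] using h

theorem sech_le (u : ℝ) : |u| * (1 - Real.tanh u ^ 2) ≤ 1 := by
  have h1 := Real.one_le_cosh u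
  have h2 : |u| ≤ Real.cosh u := by
    have a1 : |u| ≤ Real.sinh |u| := Real.self_le_sinh_iff.2 (abs_nonneg u)
    have a2 := Real.sinh_lt_cosh |u|
    rw [Real.cosh_abs] at a2
    linarith
  have h3 : 1 - Real.tanh u ^ 2 = 1 / Real.cosh u ^ 2 := by
    rw [Real.tanh_eq_sinh_div_cosh]
    field_simp
    exact Real.cosh_sq_sub_sinh_sq u
  rw [h3, mul_one_div, div_le_one (by positivity)]
  nlinarith

theorem hasDerivAt_th {L : ℝ} (y : ℝ) :
    HasDerivAt (fun y => Real.tanh (y / L)) ((1 - Real.tanh (y / L) ^ 2) / L) y := by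
  have h := (JetAux.hasDerivAt_tanh (y / L)).comp y ((hasDerivAt_id' y).div_const L)
  rw [mul_one_div] at h
  exact h

theorem hasDerivAt_clp {L : ℝ} (hL : 0 < L) (y : ℝ) :
    HasDerivAt (clp L) (1 - Real.tanh (y / L) ^ 2) y :=
  ((hasDerivAt_th y).const_mul L).congr_deriv (by field_simp)

theorem hasDerivAt_fR {R : ℝ} (hR : 0 < R) (Q : ℝ) :
    HasDerivAt (fR R) (-Real.exp (-(Q / (2 * R))) / 2) Q :=
  ((((hasDerivAt_id' Q).div_const (2 * R)).fun_neg.exp.sub_const 1).const_mul R).congr_deriv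
    (by field_simp)

theorem rest_anti {R : ℝ} (hR : 0 < R) :
    AntitoneOn (fun Q => -Q / 2 - fR R Q) (Set.Ici 0) := by
  have h := MlrAux.monoOn (f := fun Q => Q / 2 + fR R Q)
    (fun Q => ((hasDerivAt_id' Q).div_const 2).fun_add (hasDerivAt_fR hR Q)) (fun Q hQ => by
      have : Real.exp (-(Q / (2 * R))) ≤ 1 := Real.exp_le_one_iff.2 (neg_nonpos.2 (by positivity))
      linarith)
  intro a ha b hb hab
  have := h ha hb hab
  simp only at this ⊢
  linarith

theorem measurable_sg : Measurable UnifAux.sg := Measurable.of_discrete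

end CavJetAux

open CavJetAux

theorem measurable_clp (L : ℝ) : Measurable (clp L) := by
  unfold clp
  exact (measurable_tanh.comp (measurable_id.div_const L)).const_mul L

theorem abs_clp_le {L : ℝ} (hL : 0 < L) (y : ℝ) : |clp L y| ≤ L := by
  rw [clp, abs_mul, abs_of_pos hL]
  exact mul_le_of_le_one_right hL.le (MonoAux.abs_tanh_le _)

theorem abs_clp_le_abs {L : ℝ} (hL : 0 < L) (y : ℝ) : |clp L y| ≤ |y| := by
  rw [clp, abs_mul, abs_of_pos hL]
  have h := abs_tanh_le_abs (y / L)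
  rw [abs_div, abs_of_pos hL, le_div_iff₀ hL] at h
  linarith

theorem abs_clp_sub {L : ℝ} (hL : 0 < L) (y : ℝ) : |clp L y - y| ≤ y ^ 2 / L := by
  have e : clp L y - y = L * (Real.tanh (y / L) - y / L) := by
    rw [clp]
    field_simp
  rw [e, abs_mul, abs_of_pos hL]
  refine (mul_le_mul_of_nonneg_left (abs_tanh_sub _) hL.le).trans (le_of_eq ?_)
  field_simp

theorem measurable_fR (R : ℝ) : Measurable (fR R) := by
  unfold fR
  fun_prop

theorem fR_bounds {R : ℝ} (hR : 0 < R) {Q : ℝ} (hQ : 0 ≤ Q) :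
    -R ≤ fR R Q ∧ fR R Q ≤ 0 ∧ -Q / 2 ≤ fR R Q ∧ fR R Q ≤ -Q / 2 + Q ^ 2 / (8 * R) := by
  have h := f0_bounds one_pos hR √Q
  have e4 : √Q ^ 4 = Q ^ 2 := by
    rw [show (4 : ℕ) = 2 * 2 from rfl, pow_mul, Real.sq_sqrt hQ]
  rw [f0, e4, Real.sq_sqrt hQ] at h
  simp only [mul_one, one_pow] at h
  rw [fR, neg_div]
  exact h

theorem fR_anti {R : ℝ} (hR : 0 < R) : Antitone (fR R) := by
  intro x y h
  unfold fR
  refine mul_le_mul_of_nonneg_left (sub_le_sub_right (Real.exp_le_exp.2 (neg_le_neg ?_)) 1) hR.le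
  exact div_le_div_of_nonneg_right h (by positivity)

theorem fR_le_add {R : ℝ} (hR : 0 < R) {Q Q' ε : ℝ} (hQ' : 0 ≤ Q') (hε : 0 ≤ ε)
    (h : Q ≤ Q' + ε) : fR R Q' - ε / 2 ≤ fR R Q := by
  have h1 := fR_anti hR h
  have h2 := rest_anti hR (Set.mem_Ici.2 hQ') (Set.mem_Ici.2 (add_nonneg hQ' hε))
    (le_add_of_nonneg_right hε)
  simp only at h2
  linarith

theorem fR_rest_anti {R : ℝ} (hR : 0 < R) :
    AntitoneOn (fun Q => -Q / 2 - fR R Q) (Set.Ici 0) := by
  exact rest_anti hR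

theorem fR_diff_anti {R R' : ℝ} (hR : 0 < R) (h : R ≤ R') :
    AntitoneOn (fun Q => fR R' Q - fR R Q) (Set.Ici 0) := by
  have hR' : 0 < R' := hR.trans_le h
  have h1 := MlrAux.monoOn (f := fun Q => fR R Q - fR R' Q)
    (fun Q => (hasDerivAt_fR hR Q).fun_sub (hasDerivAt_fR hR' Q)) (fun Q hQ => by
      have : Real.exp (-(Q / (2 * R))) ≤ Real.exp (-(Q / (2 * R'))) :=
        Real.exp_le_exp.2 (neg_le_neg (div_le_div_of_nonneg_left hQ (by positivity) (by linarith)))
      linarith)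
  intro a ha b hb hab
  have := h1 ha hb hab
  simp only at this ⊢
  linarith

theorem fR_tendsto (Q : ℝ) :
    Filter.Tendsto (fun R : ℝ => fR R Q) Filter.atTop (nhds (-Q / 2)) := by
  have h := (Real.hasDerivAt_exp 0).hasFDerivAt.lim_real (-Q / 2)
  simp only [Real.exp_zero, zero_add, smul_eq_mul, ContinuousLinearMap.toSpanSingleton_apply,
    mul_one] at h
  refine h.congr fun R => ?_
  rw [fR]
  congr 3
  ring

theorem measurable_Qf {L : Type} [Fintype L] (κ β : L → ℝ) :
    Measurable (Function.uncurry (Qf κ β)) := by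
  have := measurable_sg
  unfold Function.uncurry Qf
  fun_prop

theorem measurable_cavQ {L : Type} [Fintype L] (κ β : L → ℝ) :
    Measurable (Function.uncurry (cavQ κ β)) := by
  exact (measurable_Qf κ β).neg.div_const 2

theorem measurable_cavE {L : Type} [Fintype L] (R : ℝ) (κ β : L → ℝ) :
    Measurable (Function.uncurry (cavE R κ β)) := by
  exact (measurable_fR R).comp (measurable_Qf κ β)

theorem abs_cavE_le {L : Type} [Fintype L] {R : ℝ} (hR : 0 < R) {κ : L → ℝ} (hκ : ∀ l, 0 ≤ κ l)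
    (β t : L → ℝ) (ε : Bool) : |cavE R κ β t ε| ≤ R := by
  have h := fR_bounds hR (Q := Qf κ β t ε)
    (Finset.sum_nonneg fun l _ => mul_nonneg (hκ l) (sq_nonneg _))
  rw [cavE, abs_le]
  exact ⟨h.1, h.2.1.trans hR.le⟩

theorem CJ.mono {L Ω : Type} [Fintype L] [DecidableEq L] [MeasurableSpace Ω]
    {Pc : (L → ℝ) → Ω → ℝ} {K K' : ℝ} (h : CJ Pc K) (hK : K ≤ K') : CJ Pc K' := by
  refine ⟨h.meas, fun t x => (h.bd t x).trans hK, fun l => ?_⟩
  obtain ⟨m, a, hj⟩ := h.jet l
  exact ⟨m, a, hj.mono hK⟩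

theorem cj_cavE {R : ℝ} (hR : 0 < R) (κm : ℝ) : ∃ K : ℝ, 0 ≤ K ∧
    ∀ (L : Type) [Fintype L] [DecidableEq L] (κ β : L → ℝ), (∀ l, 0 ≤ κ l ∧ κ l ≤ κm) →
      CJ (cavE R κ β) K := by
  obtain ⟨f1, f2, K0, hs⟩ := sm_f0 (η := 1 / 2) (R := 1) (by norm_num) one_pos
  have hj := hs.jet
  have hK0 := hj.K0
  set cm : ℝ := √(κm / (2 * R)) with hcm
  have hcm0 : 0 ≤ cm := Real.sqrt_nonneg _
  have hc1 : 1 ≤ (1 + cm) ^ 3 := one_le_pow₀ (by linarith)
  refine ⟨R * ((1 + K0) * (1 + cm) ^ 3), by positivity, fun L _ _ κ β hκ =>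
    ⟨measurable_cavE R κ β, fun t ε => (abs_cavE_le hR (fun l => (hκ l).1) β t ε).trans
      (le_mul_of_one_le_right hR.le (one_le_mul_of_one_le_of_one_le (by linarith) hc1)),
      fun l => ?_⟩⟩
  set c : ℝ := √(κ l / (2 * R)) with hc
  have hc0 : 0 ≤ c := Real.sqrt_nonneg _
  have hcc : c ≤ cm := Real.sqrt_le_sqrt (div_le_div_of_nonneg_right (hκ l).2 (by positivity))
  have hc2 : c ^ 2 = κ l / (2 * R) := Real.sq_sqrt (div_nonneg (hκ l).1 (by positivity))
  have hp : ∀ j, j ≤ 3 → K0 * c ^ j ≤ (1 + K0) * (1 + cm) ^ 3 := fun j hj3 =>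
    mul_le_mul (by linarith) ((pow_le_pow_left₀ hc0 (by linarith) j).trans
      (pow_le_pow_right₀ (by linarith) hj3)) (by positivity) (by positivity)
  let E : (L → ℝ) → Bool → ℝ := fun t ε =>
    Real.exp (-((∑ l' ∈ Finset.univ.erase l, κ l' * (t l' + UnifAux.sg ε * β l') ^ 2) / (2 * R)))
  let x : (L → ℝ) → Bool → ℝ := fun t ε => c * (t l + UnifAux.sg ε * β l)
  have hE0 : ∀ t ε, 0 < E t ε := fun t ε => Real.exp_pos _
  have hE1 : ∀ t ε, E t ε ≤ 1 := fun t ε => Real.exp_le_one_iff.2 (neg_nonpos.2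
    (div_nonneg (Finset.sum_nonneg fun l' _ => mul_nonneg (hκ l').1 (sq_nonneg _)) (by positivity)))
  have hform : ∀ t ε, cavE R κ β t ε = R * E t ε * f0 (1 / 2) 1 (x t ε) + R * (E t ε - 1) := by
    intro t ε
    rw [cavE, fR, Qf, ← Finset.add_sum_erase _ _ (Finset.mem_univ l), add_div, neg_add,
      Real.exp_add, f0]
    have e : x t ε ^ 2 / (2 * (1 / 2) * 1) = κ l * (t l + UnifAux.sg ε * β l) ^ 2 / (2 * R) := by
      simp only [x, mul_pow, hc2]
      ring
    rw [e]
    ring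
  have hEs : ∀ t ε (s : ℝ), E (t + s • Pi.single l 1) ε = E t ε := by
    intro t ε s
    simp only [E]
    congr 3
    refine Finset.sum_congr rfl fun l' hl' => ?_
    simp [Pi.single_eq_of_ne (Finset.ne_of_mem_erase hl')]
  have hxs : ∀ t ε (s : ℝ), x (t + s • Pi.single l 1) ε = x t ε + (c * s) • (1 : ℝ) := by
    intro t ε s
    simp only [x, Pi.add_apply, Pi.smul_apply, Pi.single_eq_same, smul_eq_mul]
    ring
  have hmE : Measurable (Function.uncurry E) := by
    have := measurable_sg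
    unfold Function.uncurry
    fun_prop
  have hmx : Measurable (Function.uncurry x) := by
    have := measurable_sg
    unfold Function.uncurry
    fun_prop
  have key : ∀ t ε (z : ℝ) (j : ℕ) (u : ℝ), j ≤ 3 → 0 ≤ u → |z| ≤ K0 * c ^ j * u →
      |R * E t ε * z| ≤ R * ((1 + K0) * (1 + cm) ^ 3) * u := by
    intro t ε z j u hj3 hu hz
    rw [abs_mul, abs_of_pos (mul_pos hR (hE0 t ε)), mul_assoc, mul_assoc R]
    refine mul_le_mul_of_nonneg_left ?_ hR.le
    refine (mul_le_of_le_one_left (abs_nonneg _) (hE1 t ε)).trans (hz.trans ?_)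
    exact mul_le_mul_of_nonneg_right (hp j hj3) hu
  refine ⟨fun t ε => R * E t ε * (c * f1 (x t ε)), fun t ε => R * E t ε * (c ^ 2 * f2 (x t ε)),
    by positivity, ?_, ?_, fun t ε => ?_, fun t ε => ?_, fun t ε s => ?_, fun t ε s => ?_⟩
  · exact (hmE.const_mul R).fun_mul ((hj.mm.comp hmx).const_mul c)
  · exact (hmE.const_mul R).fun_mul ((hj.ma.comp hmx).const_mul (c ^ 2))
  · have := key t ε (c * f1 (x t ε)) 1 1 (by norm_num) zero_le_one (by
      rw [abs_mul, abs_of_nonneg hc0, pow_one, mul_one, mul_comm]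
      exact mul_le_mul_of_nonneg_right (hj.bm _) hc0)
    rwa [mul_one] at this
  · have := key t ε (c ^ 2 * f2 (x t ε)) 2 1 (by norm_num) zero_le_one (by
      rw [abs_mul, abs_of_nonneg (sq_nonneg c), mul_one, mul_comm]
      exact mul_le_mul_of_nonneg_right (hj.ba _) (sq_nonneg c))
    rwa [mul_one] at this
  · have h1 := hj.lip (x t ε) (c * s)
    rw [abs_mul, abs_of_nonneg hc0] at h1
    have := key t ε _ 1 |s| (by norm_num) (abs_nonneg s) (h1.trans (le_of_eq (by ring)))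
    rw [hform, hform, hEs, hxs]
    refine le_of_eq_of_le ?_ this
    congr 1
    ring
  · have h1 := hj.tay (x t ε) (c * s)
    rw [abs_mul, abs_of_nonneg hc0] at h1
    have := key t ε _ 3 (|s| ^ 3) le_rfl (by positivity) (h1.trans (le_of_eq (by ring)))
    rw [hform, hform, hEs, hxs]
    refine le_of_eq_of_le ?_ this
    congr 1
    ring

theorem cj_prC {L : ℝ} (hL : 0 < L) : ∃ K : ℝ, 0 ≤ K ∧ CJ (prC L) K := by
  have hb : ∀ y : ℝ, -1 ≤ Real.tanh y ∧ Real.tanh y ≤ 1 := fun y => abs_le.1 (MonoAux.abs_tanh_le y)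
  have h1 : 0 < 2 / L := by positivity
  have h2 : 0 < 6 / L ^ 2 := by positivity
  have hs : Sm (clp L) (fun y => 1 - Real.tanh (y / L) ^ 2)
      (fun y => -(2 * (Real.tanh (y / L) - Real.tanh (y / L) ^ 3) / L))
      (L + 1 + 2 / L + 6 / L ^ 2) := by
    refine sm_of_deriv
      (f3 := fun y => -(2 * ((1 - 3 * Real.tanh (y / L) ^ 2) * (1 - Real.tanh (y / L) ^ 2)) / L ^ 2))
      (hasDerivAt_clp hL) (fun y => ?_) (fun y => ?_) (fun y => ?_) (fun y => ?_) (fun y => ?_)
      (fun y => ?_)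
    · refine (((hasDerivAt_th y).fun_pow 2).const_sub 1).congr_deriv ?_
      norm_num
      ring
    · refine (((((hasDerivAt_th y).fun_sub ((hasDerivAt_th y).fun_pow 3)).const_mul 2).div_const
        L).fun_neg).congr_deriv ?_
      norm_num
      ring
    · linarith [abs_clp_le hL y]
    · have : |1 - Real.tanh (y / L) ^ 2| ≤ 1 := by
        rw [abs_le]
        constructor <;> nlinarith [JetAux.tanh_sq_le (y / L), sq_nonneg (Real.tanh (y / L))]
      linarith
    · have : |-(2 * (Real.tanh (y / L) - Real.tanh (y / L) ^ 3) / L)| ≤ 2 / L := by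
        rw [abs_neg, abs_div, abs_of_pos hL]
        refine div_le_div_of_nonneg_right ?_ hL.le
        obtain ⟨a1, a2⟩ := hb (y / L)
        have a3 := JetAux.tanh_sq_le (y / L)
        rw [abs_le]
        constructor <;> nlinarith [sq_nonneg (Real.tanh (y / L))]
      linarith
    · have : |-(2 * ((1 - 3 * Real.tanh (y / L) ^ 2) * (1 - Real.tanh (y / L) ^ 2)) / L ^ 2)|
          ≤ 6 / L ^ 2 := by
        rw [abs_neg, abs_div, abs_of_pos (pow_pos hL 2)]
        refine div_le_div_of_nonneg_right ?_ (pow_pos hL 2).le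
        have a3 := JetAux.tanh_sq_le (y / L)
        have a4 := sq_nonneg (Real.tanh (y / L))
        rw [abs_le]
        constructor <;> nlinarith
      linarith
  have hj := hs.jet
  have hm : Measurable fun p : (Unit → ℝ) × Bool => p.1 () := by fun_prop
  refine ⟨_, hj.K0, hs.meas.comp hm, fun t _ => hs.bd _, fun l =>
    ⟨fun t _ => 1 - Real.tanh (t () / L) ^ 2,
      fun t _ => -(2 * (Real.tanh (t () / L) - Real.tanh (t () / L) ^ 3) / L), hj.K0,
      hj.mm.comp hm, hj.ma.comp hm, fun t _ => hj.bm _, fun t _ => hj.ba _,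
      fun t _ s => ?_, fun t _ s => ?_⟩⟩
  · simpa [prC] using hj.lip (t ()) s
  · simpa [prC] using hj.tay (t ()) s

theorem cj_prS (L : Type) [Fintype L] [DecidableEq L] : CJ (prS : (L → ℝ) → Bool → ℝ) 1 := by
  refine ⟨measurable_sg.comp measurable_snd, fun t x => (UnifAux.abs_sg x).le, fun l =>
    ⟨fun _ _ => 0, fun _ _ => 0, zero_le_one, measurable_const, measurable_const,
      fun _ _ => by simp, fun _ _ => by simp, fun w x t => by simp [prS], fun w x t => ?_⟩⟩
  simp [prS]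

theorem hom_prC {L : ℝ} (hL : 0 < L) : Hom (prC L) (2 * L) := by
  intro e t t' x he0 he1 h
  simp only [Finset.univ_unique, PUnit.default_eq_unit, Finset.sum_singleton] at h
  simp only [prC]
  have h1 : |t' () - t ()| ≤ e * |t ()| := by
    rw [← abs_of_nonneg he0, ← abs_mul, ← sq_le_sq, mul_pow]
    exact h
  by_cases h0 : t () = 0
  · rw [h0, abs_zero, mul_zero, abs_nonpos_iff, sub_zero] at h1
    rw [h0, h1, sub_self, abs_zero]
    positivity
  have hp : 0 < |t ()| := abs_pos.2 h0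
  have h2 := JetAux.mvt (f := fun u => clp L (t () + u))
    (f' := fun u => 1 - Real.tanh ((t () + u) / L) ^ 2)
    (fun u => (hasDerivAt_clp hL (t () + u)).comp_const_add (t ()) u) (r := e * |t ()|)
    (C := 2 * L / |t ()|) (fun u hu => by
      have a1 := sech_le ((t () + u) / L)
      have a2 : 0 ≤ 1 - Real.tanh ((t () + u) / L) ^ 2 := sub_nonneg.2 (JetAux.tanh_sq_le _)
      have a3 : |t ()| ≤ 2 * |t () + u| := by
        have := abs_sub (t () + u) u
        rw [add_sub_cancel_right] at this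
        nlinarith
      rw [abs_div, abs_of_pos hL, div_mul_eq_mul_div, div_le_one hL] at a1
      rw [abs_of_nonneg a2, le_div_iff₀ hp]
      nlinarith) h1
  rw [add_sub_cancel, add_zero] at h2
  refine h2.trans ?_
  rw [div_mul_eq_mul_div, div_le_iff₀ hp, mul_assoc (2 * L)]
  exact mul_le_mul_of_nonneg_left h1 (by positivity)

theorem hom_prS (L : Type) [Fintype L] : Hom (prS : (L → ℝ) → Bool → ℝ) 0 := by
  intro e t t' x _ _ _
  simp [prS]

end Vale.Agent.P166
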