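import Vale.Agent.P166.Lin

/-! # Comparison of linear systems through their covariance kernels -/

namespace Vale.Agent.P166

open MeasureTheory ProbabilityTheory Vale.Agent.P157

variable {ι ι' Ω : Type} [Fintype ι] [Fintype ι'] [MeasurableSpace Ω] {μ : Measure Ω}
  [IsProbabilityMeasure μ] {ζ : ℕ → ℝ} {E E' η g m : Ω → ℝ} {ξ : ι → Ω → ℝ} {ξ' : ι' → Ω → ℝ}
  {s : ℕ → ι → ℝ} {s' : ℕ → ι' → ℝ}

namespace CmpAux

theorem hj [DecidableEq ι] (hE : BM E) (hξ : ∀ i, BM (ξ i)) (hη : BM η) :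
    HJ (trH (lsH E ξ) fun _ x => η x)
      (fun o => o.elim (fun w x => Real.cos (w none) * η x) fun i _ x => ξ i x)
      fun o => o.elim (fun w x => -Real.sin (w none) * η x) fun _ _ _ => 0 := by
  refine ⟨hg_trH (hg_lsH hE hξ) (bm2_const hη), ?_⟩
  obtain ⟨C, hC⟩ := hη.2
  choose c hc using fun i => (hξ i).2
  have hs : DJet Real.sin (1 : ℝ) Real.cos (fun x => -Real.sin x) 1 :=
    JetAux.djet_of_deriv (f3 := fun x => -Real.cos x) Real.hasDerivAt_sin Real.hasDerivAt_cos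
      (fun x => (Real.hasDerivAt_sin x).fun_neg) Real.abs_cos_le_one
      (fun x => by rw [abs_neg]; exact Real.abs_sin_le_one x)
      fun x => by rw [abs_neg]; exact Real.abs_cos_le_one x
  have h0 : 0 ≤ ∑ i, |c i| := Finset.sum_nonneg fun i _ => abs_nonneg _
  have hK : 0 ≤ |C| + ∑ i, |c i| := by positivity
  have h1 : ∀ x, |η x| ≤ |C| + ∑ i, |c i| := fun x => by linarith [hC x, le_abs_self C]
  have h2 : ∀ i x, |ξ i x| ≤ |C| + ∑ i, |c i| := fun i x => by
    have := Finset.single_le_sum (f := fun i => |c i|) (fun i _ => abs_nonneg _)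
      (Finset.mem_univ i)
    linarith [hc i x, le_abs_self (c i), abs_nonneg C]
  have h3 : ∀ (a r : ℝ) x, |a| ≤ 1 * r → |a * η x| ≤ (|C| + ∑ i, |c i|) * r := fun a r x h => by
    rw [abs_mul, mul_comm]
    exact mul_le_mul (h1 x) (by linarith) (abs_nonneg _) hK
  have hn : Measurable fun p : (Option ι → ℝ) × Ω => p.1 none :=
    (measurable_pi_apply none).comp measurable_fst
  refine ⟨|C| + ∑ i, |c i|, fun o => ?_⟩
  rcases o with _ | i
  · have e : ∀ (w : Option ι → ℝ) x (t : ℝ),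
        trH (lsH E ξ) (fun _ x => η x) (w + t • Pi.single none 1) x
          - trH (lsH E ξ) (fun _ x => η x) w x
          = (Real.sin (w none + t • (1 : ℝ)) - Real.sin (w none)) * η x := fun w x t => by
      simp only [trH, lsH, Pi.add_apply, Pi.smul_apply, Pi.single_eq_same,
        Pi.single_eq_of_ne (Option.some_ne_none _), smul_zero, add_zero]
      ring
    refine ⟨hK, (Real.measurable_cos.comp hn).mul (hη.1.comp measurable_snd),
      (Real.measurable_sin.comp hn).neg.mul (hη.1.comp measurable_snd), fun w x => ?_,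
      fun w x => ?_, fun w x t => ?_, fun w x t => ?_⟩
    · simpa using h3 _ 1 x (by simpa using Real.abs_cos_le_one (w none))
    · simpa using h3 (-Real.sin (w none)) 1 x (by simpa using Real.abs_sin_le_one (w none))
    · rw [e]
      exact h3 _ _ x (hs.lip _ t)
    · rw [e]
      refine le_of_eq_of_le ?_ (h3 _ _ x (hs.tay (w none) t))
      simp only [Option.elim_none]
      congr 1
      ring
  · have e : ∀ (w : Option ι → ℝ) x (t : ℝ),
        trH (lsH E ξ) (fun _ x => η x) (w + t • Pi.single (some i) 1) x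
          - trH (lsH E ξ) (fun _ x => η x) w x = t * ξ i x := fun w x t => by
      simp [trH, lsH, Pi.single_apply, add_mul, Finset.sum_add_distrib]
    refine ⟨hK, (hξ i).1.comp measurable_snd, measurable_const, fun w x => h2 i x,
      fun w x => by simpa using hK, fun w x t => ?_, fun w x t => ?_⟩
    · rw [e, abs_mul, mul_comm]
      exact mul_le_mul_of_nonneg_right (h2 i x) (abs_nonneg _)
    · rw [e]
      simp only [Option.elim_some, sub_self, mul_zero, abs_zero]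
      positivity

theorem interp (hζ : Zok ζ) (hz : ζ 0 = 1) (hE : BM E) (hξ : ∀ i, BM (ξ i)) (hη : BM η)
    {s s' : ℕ → ι → ℝ} (hs : ∀ d i, 0 ≤ s d i) (hs' : ∀ d i, 0 ≤ s' d i) (n d0 : ℕ) {σ : ℝ}
    (hσ : 0 ≤ σ)
    (h : ∀ (ν : ℕ → Measure (Option ι → ℝ)) (H : (Option ι → ℝ) → Ω → ℝ), HG H →
      (∀ d, Noise (ν d)) → 0 ≤ ∑ d ∈ Finset.range (n + 1), ∑ i, (s' d i - s d i) *
        Db ζ ν μ H (fun _ x => ξ i x) (fun _ _ => 0) n d) :
    SL μ ζ n d0 σ s E ξ η ≤ SL μ ζ n d0 σ s' E ξ η := by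
  classical
  have hJ := hj hE hξ hη
  have key := ge_of_derivWithin (κ := 0) (deriv_gibbs μ hζ hz hJ (optS d0 σ s)
    (optS d0 σ s' - optS d0 σ s) (optS_nonneg d0 hσ hs)
    (fun d o => by simpa using optS_nonneg d0 hσ hs' d o) n) fun t _ => by
      refine div_nonneg (le_of_le_of_eq (h _ _ hJ.hg fun d => noise_gv
        ((optS d0 σ s + t • (optS d0 σ s' - optS d0 σ s)) d)) ?_) zero_le_two
      refine Finset.sum_congr rfl fun d _ => ?_
      rw [Fintype.sum_option]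
      simp only [optS, Pi.sub_apply, Option.elim_none, sub_self, zero_mul, zero_add,
        Option.elim_some]
      rfl
  simp only [one_smul, zero_smul, add_zero, add_sub_cancel] at key
  exact sub_nonneg.1 key

theorem sel {J : Type} [Fintype J] (r : J → Option ι)
    (hr : ∀ k l i, r k = some i → r l = some i → k = l) {f : J → Ω → ℝ} (hE : BM E)
    (hf : ∀ j, BM (f j)) (hη : BM η)
    (hx : ∀ (u : ι → ℝ) x, ∑ j, (r j).elim 0 u * f j x = ∑ i, u i * ξ i x) {S : ℕ → J → ℝ}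
    (hS : ∀ d j, S d j = (r j).elim 0 (s d)) (n d0 : ℕ) (σ : ℝ) :
    SL μ ζ n d0 σ S E f η = SL μ ζ n d0 σ s E ξ η := by
  have h1 := X_sel (fun o : Option J => o.elim (some none) fun j => (r j).map some)
    (by
      rintro (_ | k) (_ | l) i h1 h2
      · rfl
      · simp only [Option.elim_none, Option.some.injEq] at h1
        subst h1
        simp at h2
      · simp only [Option.elim_none, Option.some.injEq] at h2
        subst h2
        simp at h1
      · simp only [Option.elim_some, Option.map_eq_some_iff] at h1 h2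
        obtain ⟨a, ha, rfl⟩ := h1
        obtain ⟨b, hb, hab⟩ := h2
        obtain rfl := Option.some.inj hab
        rw [hr k l _ ha hb])
    ζ (optS d0 σ s) (optS d0 σ S) (Ψ' := gtop μ (trH (lsH E f) fun _ x => η x))
    (hg_trH (hg_lsH hE hf) (bm2_const hη)).lg_gtop.1 (d := n + 1) (by
      rintro d - (_ | k)
      · rfl
      · simp only [optS, Option.elim_some, hS]
        cases r k <;> rfl)
  unfold SL TR GV
  rw [← h1]
  congr 1
  funext u
  rw [gtop, gtop]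
  congr 1
  funext x
  simp only [trH, lsH, Option.elim_none, Option.elim_some, ← hx]
  congr 2
  refine Finset.sum_congr rfl fun j _ => ?_
  cases r j <;> rfl

theorem top {W : Type} [NormedAddCommGroup W] [MeasurableSpace W] [BorelSpace W]
    [SecondCountableTopology W] {H : W → Ω → ℝ} (hH : HG H) {ν : Measure W} (hν : Noise ν)
    (w : W) : T 1 ν (gtop μ H) w = lse μ 1 fun x => lse ν 1 fun z => H (w + z) x := by
  have := hν.prob
  obtain ⟨C, hC⟩ := hH.2
  have hm : Measurable fun p : W × Ω => H (w + p.1) p.2 :=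
    hH.1.comp ((measurable_fst.const_add w).prodMk measurable_snd)
  have h0 : EInt (ν.prod μ) fun p => ‖p.1‖ :=
    ⟨measurable_fst.norm, fun c => (hν.ex c).comp_fst μ⟩
  have h1 : EInt (ν.prod μ) fun p => H (w + p.1) p.2 :=
    h0.of_le hm (C := |C| * (1 + ‖w‖)) (D := |C|) fun p => by
      rw [abs_norm]
      have a1 := hC (w + p.1) p.2
      have a2 := norm_add_le w p.1
      have a3 : C * (1 + ‖w + p.1‖) ≤ |C| * (1 + (‖w‖ + ‖p.1‖)) :=
        mul_le_mul (le_abs_self C) (by linarith) (by positivity) (abs_nonneg C)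
      linarith
  have h2 : EInt (μ.prod ν) fun p => H (w + p.2) p.1 :=
    CascAux.eint_map (φ := Prod.swap) measurable_swap (F := fun p => H (w + p.1) p.2)
      (by rwa [Measure.prod_swap])
  have h3 := lse_prod 1 h1
  have h4 := lse_prod 1 h2
  rw [← Measure.prod_swap, lse_map measurable_swap 1 hm] at h3
  exact h3.symm.trans h4

theorem energy (hζ : Zok ζ) (hz : ζ 0 = 1) (hE : BM E) (hξ : ∀ i, BM (ξ i)) (hη : BM η)
    (hs : ∀ d i, 0 ≤ s d i) {U : ι → ℝ} (hU : ∀ i, 0 ≤ U i) (n d0 : ℕ) {σ : ℝ} (hσ : 0 ≤ σ) :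
    SL μ ζ n d0 σ (fun d i => s d i + if d = 0 then U i else 0) E ξ η
      = SL μ ζ n d0 σ s (fun x => E x + (∑ i, U i * ξ i x ^ 2) / 2) ξ η := by
  have hH := hg_trH (hg_lsH hE hξ) (bm2_const hη)
  have hV : ∀ o : Option ι, 0 ≤ o.elim 0 U := by
    rintro (_ | i)
    · exact le_rfl
    · exact hU i
  refine congrFun (X_congr_above (k := 1) (Nat.succ_le_succ n.zero_le) (fun j h _ => ⟨rfl, ?_⟩)
    ?_) 0
  · refine congrArg gv (funext ?_)
    rintro (_ | i)
    · rfl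
    · simp [optS, Nat.ne_of_gt h]
  · have e : optS d0 σ (fun d i => s d i + if d = 0 then U i else 0) 0
        = (fun o : Option ι => o.elim 0 U) + optS d0 σ s 0 := by
      funext o
      rcases o with _ | i <;> simp [optS, add_comm]
    rw [X_succ, X_succ, X, X, gvs, gvs, e, gv_conv hV (optS_nonneg d0 hσ hs 0),
      T_conv (hζ.nn 0) (noise_gv _) (noise_gv _) hH.lg_gtop]
    congr 1
    funext w
    rw [hz, top hH (noise_gv _), gtop]
    congr 1
    funext x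
    have a1 : ∀ᵐ z ∂(gv fun o : Option ι => o.elim 0 U), z none = 0 := by
      refine (measurePreserving_eval (fun o : Option ι => g1 (o.elim 0 U))
        none).quasiMeasurePreserving.ae (p := fun y => y = 0) ?_
      rw [Option.elim_none, g1_of_nonpos le_rfl]
      exact ae_eq_dirac (f := fun y : ℝ => y)
    have a2 := gauss_form hV fun o : Option ι => o.elim 0 fun i => ξ i x
    have a3 : Measurable fun z : Option ι → ℝ =>
        ∑ o : Option ι, (o.elim 0 fun i => ξ i x) * z o := by fun_prop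
    have a4 : ∀ c : ℝ, Measurable fun y : ℝ => y + c := fun c => measurable_id.add_const c
    have hv : 0 ≤ ∑ o : Option ι, o.elim 0 U * (o.elim 0 fun i => ξ i x) ^ 2 :=
      Finset.sum_nonneg fun o _ => mul_nonneg (hV o) (sq_nonneg _)
    have a5 := (BM.lg (W := ℝ) (BM.const 0)).eint (noise_g1 (∑ o : Option ι,
      o.elim 0 U * (o.elim 0 fun i => ξ i x) ^ 2)) 0
    rw [lse_congr_ae (G := fun z => ∑ o : Option ι, (o.elim 0 fun i => ξ i x) * z o
      + trH (lsH E ξ) (fun _ x => η x) w x) (by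
        filter_upwards [a1] with z hz0
        simp only [trH, lsH, Pi.add_apply, hz0, add_zero, Fintype.sum_option, Option.elim_none,
          zero_mul, Option.elim_some, zero_add, add_mul, Finset.sum_add_distrib,
          mul_comm (ξ _ x)]
        ring), ← lse_map a3 1 (a4 _), a2, lse, if_neg one_ne_zero]
    simp only [one_mul, inv_one, Real.exp_add]
    have a6 := integral_exp_g1 hv 1
    simp only [one_mul] at a6
    rw [integral_mul_const, a6, ← Real.exp_add, Real.log_exp]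
    simp only [trH, lsH, Fintype.sum_option, Option.elim_none, Option.elim_some]
    ring

end CmpAux

open CmpAux

theorem sl_cmp (hζ : Zok ζ) (hz : ζ 0 = 1) (hE : BM E) (hE' : BM E') (hξ : ∀ i, BM (ξ i))
    (hξ' : ∀ i, BM (ξ' i)) (hη : BM η) (hs : ∀ d i, 0 ≤ s d i) (hs' : ∀ d i, 0 ≤ s' d i)
    {κ κ' : Type} [Fintype κ] [Fintype κ'] {p : κ → Ω → ℝ} {p' : κ' → Ω → ℝ}
    (hp : ∀ k, BM (p k)) (hp' : ∀ k, BM (p' k)) {u : ℕ → κ → ℝ} {u' : ℕ → κ' → ℝ}
    (hu : ∀ d k, 0 ≤ u d k) (hu' : ∀ d k, 0 ≤ u' d k) (n : ℕ)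
    (hK : ∀ d, d ≤ n → ∀ x x',
      ∑ i, s' d i * (ξ' i x * ξ' i x') + ∑ k, u d k * (p k x * p k x')
        = ∑ i, s d i * (ξ i x * ξ i x') + ∑ k, u' d k * (p' k x * p' k x'))
    (hEE : ∀ x, E x + (∑ d ∈ Finset.range (n + 1), ∑ k, u d k * p k x ^ 2) / 2 ≤ E' x)
    (d0 : ℕ) {σ : ℝ} (hσ : 0 ≤ σ) :
    SL μ ζ n d0 σ s E ξ η ≤ SL μ ζ n d0 σ s' E' ξ' η := by
  let f : ι ⊕ ι' ⊕ κ → Ω → ℝ := Sum.elim ξ (Sum.elim ξ' p)
  have hf : ∀ j, BM (f j) := by
    rintro (i | i | k)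
    exacts [hξ i, hξ' i, hp k]
  let S0 : ℕ → ι ⊕ ι' ⊕ κ → ℝ := fun d => Sum.elim (s d) fun _ => 0
  let S1 : ℕ → ι ⊕ ι' ⊕ κ → ℝ := fun d => Sum.elim (fun _ => 0) (Sum.elim (s' d) fun _ => 0)
  let U : ι ⊕ ι' ⊕ κ → ℝ :=
    Sum.elim (fun _ => 0) (Sum.elim (fun _ => 0) fun k => ∑ d ∈ Finset.range (n + 1), u d k)
  have h0 : ∀ d j, 0 ≤ S0 d j := by
    rintro d (i | j)
    exacts [hs d i, le_rfl]
  have h1 : ∀ d j, 0 ≤ S1 d j := by
    rintro d (i | i | k)
    exacts [le_rfl, hs' d i, le_rfl]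
  have hU : ∀ j, 0 ≤ U j := by
    rintro (i | i | k)
    exacts [le_rfl, le_rfl, Finset.sum_nonneg (s := Finset.range (n + 1)) fun d _ => hu d k]
  have hG : BM fun x => E x + (∑ j, U j * f j x ^ 2) / 2 := by
    simp only [div_eq_inv_mul]
    exact hE.add ((BM.sum _ fun j _ => ((hf j).pow 2).const_mul _).const_mul _)
  have e0 : SL μ ζ n d0 σ S0 E f η = SL μ ζ n d0 σ s E ξ η :=
    sel (Sum.elim some fun _ => none) (by rintro (k | k) (l | l) i <;> simp +contextual) hE hf hη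
      (fun v x => by simp [f]) (by rintro d (i | j) <;> rfl) n d0 σ
  have e1 : SL μ ζ n d0 σ S1 (fun x => E x + (∑ j, U j * f j x ^ 2) / 2) f η
      = SL μ ζ n d0 σ s' (fun x => E x + (∑ j, U j * f j x ^ 2) / 2) ξ' η :=
    sel (Sum.elim (fun _ => none) (Sum.elim some fun _ => none))
      (by rintro (k | k | k) (l | l | l) i <;> simp +contextual) hG hf hη
      (fun v x => by simp [f]) (by rintro d (i | i | k) <;> rfl) n d0 σ
  have e2 := sl_le (μ := μ) hζ hG hE' hξ' hη hη (c := 0) (e := 0) (fun x => by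
    refine le_of_eq_of_le ?_ (hEE x)
    rw [add_zero, Finset.sum_comm]
    simp [U, f, Finset.sum_mul]) (fun x => by simp) n d0 σ s'
  rw [add_zero, sub_zero, ← e1, ← energy hζ hz hE hf hη h1 hU n d0 hσ] at e2
  rw [← e0]
  refine le_trans (interp hζ hz hE hf hη h0 (fun d j => add_nonneg (h1 d j)
    (by split_ifs; exacts [hU j, le_rfl])) n d0 hσ fun ν H hH hν => ?_) e2
  have a1 : ∀ d ∈ Finset.range (n + 1),
      (if d = 0 then ∑ j, U j * Db ζ ν μ H (fun _ x => f j x) (fun _ _ => 0) n 0 else 0)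
        - ∑ k, u d k * Db ζ ν μ H (fun _ x => p k x) (fun _ _ => 0) n 0
      ≤ ∑ j, (S1 d j + (if d = 0 then U j else 0) - S0 d j) *
        Db ζ ν μ H (fun _ x => f j x) (fun _ _ => 0) n d := fun d hd => by
    have hd' := Nat.le_of_lt_succ (Finset.mem_range.1 hd)
    have b1 := db_kernel (μ := μ) hH hζ hν (m := fun j _ x => Sum.elim ξ' p j x)
      (m' := fun j _ x => Sum.elim ξ p' j x)
      (by rintro (i | k); exacts [bm2_const (hξ' i), bm2_const (hp k)])
      (by rintro (i | k); exacts [bm2_const (hξ i), bm2_const (hp' k)])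
      (s := Sum.elim (s' d) (u d)) (s' := Sum.elim (s d) (u' d))
      (fun _ x _ x' => by simpa using hK d hd' x x') n d
    have b2 : 0 ≤ ∑ k, u' d k * Db ζ ν μ H (fun _ x => p' k x) (fun _ _ => 0) n d :=
      Finset.sum_nonneg fun k _ => mul_nonneg (hu' d k) (db_nonneg hH hζ hν (bm2_const (hp' k)) hd')
    have b3 : ∑ k, u d k * Db ζ ν μ H (fun _ x => p k x) (fun _ _ => 0) n d
        ≤ ∑ k, u d k * Db ζ ν μ H (fun _ x => p k x) (fun _ _ => 0) n 0 :=
      Finset.sum_le_sum fun k _ => mul_le_mul_of_nonneg_left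
        (by rw [db_zero hH hζ hν]; exact db_le hH hζ hν n d) (hu d k)
    have b4 : (if d = 0 then ∑ j, U j * Db ζ ν μ H (fun _ x => f j x) (fun _ _ => 0) n 0 else 0)
        = ∑ j, (if d = 0 then U j else 0) * Db ζ ν μ H (fun _ x => f j x) (fun _ _ => 0) n d := by
      split_ifs with h
      · rw [h]
      · simp
    simp only [Fintype.sum_sum_type, Sum.elim_inl, Sum.elim_inr] at b1
    simp only [sub_mul, add_mul, Finset.sum_sub_distrib, Finset.sum_add_distrib, ← b4]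
    simp only [S0, S1, f, Fintype.sum_sum_type, Sum.elim_inl, Sum.elim_inr, zero_mul,
      Finset.sum_const_zero, add_zero, zero_add]
    linarith
  refine le_of_eq_of_le ?_ (Finset.sum_le_sum a1)
  rw [Finset.sum_sub_distrib, Finset.sum_ite_eq', if_pos (by simp), Finset.sum_comm]
  simp [U, f, Finset.sum_mul]

theorem ls_cmp (hζ : Zok ζ) (hz : ζ 0 = 1) (hE : BM E) (hE' : BM E') (hξ : ∀ i, BM (ξ i))
    (hξ' : ∀ i, BM (ξ' i)) (hs : ∀ d i, 0 ≤ s d i) (hs' : ∀ d i, 0 ≤ s' d i)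
    {κ κ' : Type} [Fintype κ] [Fintype κ'] {p : κ → Ω → ℝ} {p' : κ' → Ω → ℝ}
    (hp : ∀ k, BM (p k)) (hp' : ∀ k, BM (p' k)) {u : ℕ → κ → ℝ} {u' : ℕ → κ' → ℝ}
    (hu : ∀ d k, 0 ≤ u d k) (hu' : ∀ d k, 0 ≤ u' d k) (n : ℕ)
    (hK : ∀ d, d ≤ n → ∀ x x',
      ∑ i, s' d i * (ξ' i x * ξ' i x') + ∑ k, u d k * (p k x * p k x')
        = ∑ i, s d i * (ξ i x * ξ i x') + ∑ k, u' d k * (p' k x * p' k x'))
    (hEE : ∀ x, E x + (∑ d ∈ Finset.range (n + 1), ∑ k, u d k * p k x ^ 2) / 2 ≤ E' x) :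
    LS μ ζ n s E ξ ≤ LS μ ζ n s' E' ξ' := by
  have h := sl_cmp (μ := μ) hζ hz hE hE' hξ hξ' (BM.const 0) hs hs' hp hp' hu hu' n hK hEE 0 le_rfl
  rwa [sl_zero hE.1 (fun i => (hξ i).1) measurable_const,
    sl_zero hE'.1 (fun i => (hξ' i).1) measurable_const] at h

section cov
variable (hζ : Zok ζ) (hz : ζ 0 = 1) (hE : BM E) (hξ : ∀ i, BM (ξ i)) (hξ' : ∀ i, BM (ξ' i))
  (hs : ∀ d i, 0 ≤ s d i) (hs' : ∀ d i, 0 ≤ s' d i) (n : ℕ)
  (hK : ∀ d, d ≤ n → ∀ x x', ∑ i, s' d i * (ξ' i x * ξ' i x') = ∑ i, s d i * (ξ i x * ξ i x'))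
include hζ hz hE hξ hξ' hs hs' hK

theorem sl_cov (hη : BM η) (d0 : ℕ) {σ : ℝ} (hσ : 0 ≤ σ) :
    SL μ ζ n d0 σ s' E ξ' η = SL μ ζ n d0 σ s E ξ η := by
  refine le_antisymm ?_ ?_
  · exact sl_cmp hζ hz hE hE hξ' hξ hη hs' hs (p := fun k : Empty => k.elim)
      (p' := fun k : Empty => k.elim) (fun k => k.elim) (fun k => k.elim) (u := fun _ _ => 0)
      (u' := fun _ _ => 0) (fun _ _ => le_rfl) (fun _ _ => le_rfl) n
      (fun d hd x x' => by simp [hK d hd x x']) (fun x => by simp) d0 hσ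
  · exact sl_cmp hζ hz hE hE hξ hξ' hη hs hs' (p := fun k : Empty => k.elim)
      (p' := fun k : Empty => k.elim) (fun k => k.elim) (fun k => k.elim) (u := fun _ _ => 0)
      (u' := fun _ _ => 0) (fun _ _ => le_rfl) (fun _ _ => le_rfl) n
      (fun d hd x x' => by simp [hK d hd x x']) (fun x => by simp) d0 hσ

theorem ls_cov : LS μ ζ n s' E ξ' = LS μ ζ n s E ξ := by
  have h := sl_cov (μ := μ) hζ hz hE hξ hξ' hs hs' n hK (BM.const 0) 0 le_rfl
  rwa [sl_zero hE.1 (fun i => (hξ i).1) measurable_const,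
    sl_zero hE.1 (fun i => (hξ' i).1) measurable_const] at h

theorem leg_cov (hg : BM g) : lEG μ ζ n s' E ξ' g = lEG μ ζ n s E ξ g := by
  have h1 := hasDerivAt_pert (μ := μ) hζ (fun d => noise_gv (s d)) (ν := gvs s) (hg_lsH hE hξ)
    (bm2_const hg) (n + 1) 0
  have h2 := hasDerivAt_pert (μ := μ) hζ (fun d => noise_gv (s' d)) (ν := gvs s') (hg_lsH hE hξ')
    (bm2_const hg) (n + 1) 0
  refine h2.unique (h1.congr_of_eventuallyEq (Filter.Eventually.of_forall fun t => ?_))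
  have h := ls_cov (μ := μ) hζ hz (hE.add (hg.const_mul t)) hξ hξ' hs hs' n hK
  rw [LS, LS, lsH_add, lsH_add] at h
  exact h

theorem ldb_cov (hm : BM m) {d : ℕ} (hd : d ≤ n) :
    lDb μ ζ n s' E ξ' m d = lDb μ ζ n s E ξ m d := by
  obtain ⟨L, hL⟩ := hm.2
  obtain ⟨C, hC, h⟩ := unifS L
  have key : ∀ r : ℝ, 0 < r → r ≤ 1 →
      |lDb μ ζ n s' E ξ' m d - lDb μ ζ n s E ξ m d| ≤ 4 * C * r := fun r hr hr1 => by
    have hσ : 0 < r ^ 2 := by positivity
    have hσ1 : r ^ 2 ≤ 1 := by nlinarith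
    have a1 : |SL μ ζ n d (r ^ 2) s E ξ m - LS μ ζ n s E ξ - r ^ 2 / 2 * lDb μ ζ n s E ξ m d|
        ≤ C * (r ^ 2 * √(r ^ 2)) :=
      h ι Ω μ ζ s _ _ hζ hz hs (hg_lsH hE hξ) (bm2_const hm).1 (fun _ x => hL x) n d hd _ hσ.le hσ1
    have a2 : |SL μ ζ n d (r ^ 2) s' E ξ' m - LS μ ζ n s' E ξ' - r ^ 2 / 2 * lDb μ ζ n s' E ξ' m d|
        ≤ C * (r ^ 2 * √(r ^ 2)) :=
      h ι' Ω μ ζ s' _ _ hζ hz hs' (hg_lsH hE hξ') (bm2_const hm).1 (fun _ x => hL x) n d hd _
        hσ.le hσ1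
    rw [sl_cov hζ hz hE hξ hξ' hs hs' n hK hm d hσ.le, ls_cov hζ hz hE hξ hξ' hs hs' n hK] at a2
    rw [Real.sqrt_sq hr.le, abs_le] at a1 a2
    rw [abs_le]
    constructor
    · refine le_of_mul_le_mul_left ?_ hσ
      linarith [a1.1, a2.2]
    · refine le_of_mul_le_mul_left ?_ hσ
      linarith [a1.2, a2.1]
  rw [← sub_eq_zero, ← abs_nonpos_iff]
  refine le_of_forall_pos_le_add fun ε hε => ?_
  have h1 : 0 < 4 * C + 1 := by positivity
  have h2 := key (min 1 (ε / (4 * C + 1))) (lt_min one_pos (div_pos hε h1)) (min_le_left _ _)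
  have h3 : 4 * C * min 1 (ε / (4 * C + 1)) ≤ (4 * C + 1) * (ε / (4 * C + 1)) :=
    mul_le_mul (by linarith) (min_le_right _ _) (le_min zero_le_one (div_pos hε h1).le) h1.le
  rw [mul_div_cancel₀ _ h1.ne'] at h3
  linarith

end cov

theorem ls_abs (hζ : Zok ζ) (hz : ζ 0 = 1) (hE : BM E) (hξ : ∀ i, BM (ξ i))
    (hs : ∀ d i, 0 ≤ s d i) (n : ℕ) {C1 C2 : ℝ} (h1 : ∀ x, |E x| ≤ C1)
    (h2 : ∀ x, ∑ d ∈ Finset.range (n + 1), ∑ i, s d i * ξ i x ^ 2 ≤ C2) :
    |LS μ ζ n s E ξ| ≤ C1 + C2 / 2 := by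
  have hc : ∀ c : ℝ, LS μ ζ n (fun _ _ => 0) (fun _ => c) ξ = c := fun c => by
    rw [ls_zero n fun _ _ _ => rfl]
    simp
  have a1 := ls_cmp (μ := μ) hζ hz hE (BM.const (C1 + C2 / 2)) hξ hξ hs (s' := fun _ _ => 0)
    (fun _ _ => le_rfl) hξ (p' := fun k : Empty => k.elim) (fun k => k.elim) hs
    (u' := fun _ _ => 0) (fun _ _ => le_rfl) n (fun d _ x x' => by simp)
    fun x => by linarith [h2 x, (abs_le.1 (h1 x)).2]
  have a2 := ls_cmp (μ := μ) hζ hz (BM.const (-C1)) hE hξ hξ (s := fun _ _ => 0)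
    (fun _ _ => le_rfl) hs (p := fun k : Empty => k.elim) (fun k => k.elim) hξ
    (u := fun _ _ => 0) (fun _ _ => le_rfl) hs n (fun d _ x x' => by simp)
    fun x => by simpa using (abs_le.1 (h1 x)).1
  obtain ⟨x⟩ := nonempty_of_isProbabilityMeasure μ
  have h0 : 0 ≤ C2 := (Finset.sum_nonneg fun d _ => Finset.sum_nonneg fun i _ =>
    mul_nonneg (hs d i) (sq_nonneg _)).trans (h2 x)
  rw [hc] at a1 a2
  rw [abs_le]
  constructor <;> linarith

theorem ls_lip (hζ : Zok ζ) (hz : ζ 0 = 1) (hE : BM E) (hξ : ∀ i, BM (ξ i)) {s s' : ℕ → ι → ℝ}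
    (hs : ∀ d i, 0 ≤ s d i) (hs' : ∀ d i, 0 ≤ s' d i) (n : ℕ) {u : ℕ → ℝ} (hu : ∀ d, 0 ≤ u d)
    (h : ∀ d, d ≤ n → ∀ i, |s' d i - s d i| ≤ u d) {Λ : ℝ} (hΛ : ∀ x, ∑ i, ξ i x ^ 2 ≤ Λ) :
    |LS μ ζ n s' E ξ - LS μ ζ n s E ξ| ≤ Λ * (∑ d ∈ Finset.range (n + 1), u d) / 2 := by
  have key : ∀ {s s' : ℕ → ι → ℝ}, (∀ d i, 0 ≤ s d i) → (∀ d i, 0 ≤ s' d i) →
      (∀ d, d ≤ n → ∀ i, s' d i - s d i ≤ u d) →
      LS μ ζ n s' E ξ - LS μ ζ n s E ξ ≤ Λ * (∑ d ∈ Finset.range (n + 1), u d) / 2 := by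
    intro s s' hs hs' h
    have hE' := hE.add (BM.const (Λ * (∑ d ∈ Finset.range (n + 1), u d) / 2))
    have a1 := ls_cmp (μ := μ) hζ hz hE hE' hξ hξ hs' hs hξ hξ
      (u := fun d i => max (s' d i - s d i) 0) (u' := fun d i => max (s d i - s' d i) 0)
      (fun _ _ => le_max_right _ _) (fun _ _ => le_max_right _ _) n
      (fun d _ x x' => by
        rw [← Finset.sum_add_distrib, ← Finset.sum_add_distrib]
        refine Finset.sum_congr rfl fun i _ => ?_
        rw [← add_mul, ← add_mul]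
        congr 1
        rcases le_total (s d i) (s' d i) with h | h
        · rw [max_eq_left (sub_nonneg.2 h), max_eq_right (sub_nonpos.2 h)]
          ring
        · rw [max_eq_right (sub_nonpos.2 h), max_eq_left (sub_nonneg.2 h)]
          ring)
      fun x => by
        refine add_le_add le_rfl (div_le_div_of_nonneg_right ?_ zero_le_two)
        rw [Finset.mul_sum]
        refine Finset.sum_le_sum fun d hd => ?_
        refine le_trans (Finset.sum_le_sum fun i _ => mul_le_mul_of_nonneg_right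
          (max_le (h d (Nat.le_of_lt_succ (Finset.mem_range.1 hd)) i) (hu d)) (sq_nonneg _)) ?_
        rw [← Finset.mul_sum, mul_comm]
        exact mul_le_mul_of_nonneg_right (hΛ x) (hu d)
    have a2 := ls_le (μ := μ) hζ hE' hE hξ (c := -(Λ * (∑ d ∈ Finset.range (n + 1), u d) / 2))
      (fun x => by linarith) n s
    linarith
  have a1 := key hs hs' fun d hd i => (abs_le.1 (h d hd i)).2
  have a2 := key hs' hs fun d hd i => by linarith [(abs_le.1 (h d hd i)).1]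
  rw [abs_le]
  constructor <;> linarith

theorem ls_tangent [DecidableEq ι] (hζ : Zok ζ) (hz : ζ 0 = 1) (hE : BM E) (hξ : ∀ i, BM (ξ i))
    {B : Type} [Fintype B] {e : B ↪ ι} {s : (ℕ → ℝ) → ℕ → ι → ℝ} (hs : Fam e s) (θ : ℕ → ℝ)
    {n d : ℕ} (hd : 1 ≤ d) (hdn : d ≤ n) (hθ : 0 < θ d) {y : ℝ} (hy : 0 ≤ θ d + y) :
    y * (θ d * ∑ j, lDb μ ζ n (s θ) E ξ (ξ (e j)) d)
      ≤ LS μ ζ n (s (Function.update θ d (θ d + y))) E ξ - LS μ ζ n (s θ) E ξ := by
  obtain ⟨Λ, hΛ⟩ := (BM.sum Finset.univ fun j _ => (hξ (e j)).pow 2).2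
  have hJ := hj_lsH hE hξ
  have hB := blk_lsH (E := E) hξ e (fun x => (le_abs_self _).trans (hΛ x)) 0
  have hL := hJ.hg.lg_gtop (μ := μ)
  have hc := cas_gvs hζ (s θ) hL
  have hν : ∀ d, Noise (gvs (s θ) d) := fun d => noise_gv (s θ d)
  have hu := ConcAux.bm_tan μ (e := e) hζ hJ (s θ) d (θ d)
  have key := chain_jensen hc (cas_gvs hζ _ hL) (Nat.succ_le_succ hdn)
    (fun j h _ => ConcAux.gvs_ne hs θ (Nat.ne_of_gt h) _) ((hu.const_mul y).sub (BM.const _))
    (tangent_field μ hζ hJ hB hs θ (Nat.ne_of_gt hd) hθ hy) 0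
  rw [hc.Ex_sub _ (hu.const_mul _) (BM.const _), hc.Ex_const, Ex_const_mul, Ex_const_mul,
    hc.Ex_sum _ _ fun j _ => bm_Bp hJ.hg hζ hν (bm2_const (hξ (e j))) (BM2.const 0) d,
    Finset.sum_congr rfl fun j _ =>
      Ex_Bp hJ.hg hζ hν hz (bm2_const (hξ (e j))) (BM2.const 0) hdn] at key
  simp only [zero_div, zero_mul, sub_zero] at key
  exact key

namespace CmpAux
variable {Y : Type} [MeasurableSpace Y]

theorem bm_sec {g : Y → Ω → ℝ} (hg : BM (Function.uncurry g)) (p : Y) : BM (g p) :=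
  ⟨hg.1.comp measurable_prodMk_left, hg.2.imp fun _ h x => h (p, x)⟩

theorem meas_sec {W : Type} [MeasurableSpace W] {g : Y → Ω → ℝ}
    (hg : BM (Function.uncurry g)) : Measurable fun p : Y × W × Ω => g p.1 p.2.2 :=
  hg.1.comp (measurable_fst.prodMk measurable_snd.snd)

theorem meas_par {E : Y → Ω → ℝ} {ξ : ι → Y → Ω → ℝ} (hE : BM (Function.uncurry E))
    (hξ : ∀ i, BM (Function.uncurry (ξ i))) :
    Measurable fun p : Y × (ι → ℝ) × Ω => lsH (E p.1) (fun i => ξ i p.1) p.2.1 p.2.2 :=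
  (meas_sec hE).add (Finset.measurable_sum _ fun i _ =>
    ((measurable_pi_apply i).comp measurable_snd.fst).mul (meas_sec (hξ i)))

end CmpAux

section par
variable {Y : Type} [MeasurableSpace Y] {E η g : Y → Ω → ℝ} {ξ : ι → Y → Ω → ℝ}
  (hζ : Zok ζ) (hz : ζ 0 = 1) (hE : BM (Function.uncurry E))
  (hξ : ∀ i, BM (Function.uncurry (ξ i))) (hs : ∀ d i, 0 ≤ s d i)
include hζ hz hE hξ hs

theorem bm_ls_par (n : ℕ) : BM fun p => LS μ ζ n s (E p) fun i => ξ i p := by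
  refine ⟨measurable_val_par (fun d => (noise_gv (s d)).prob) (meas_par hE hξ) (n + 1), ?_⟩
  obtain ⟨C1, h1⟩ := hE.2
  obtain ⟨C2, h2⟩ := (BM.sum (Finset.range (n + 1)) fun d _ => BM.sum Finset.univ fun i _ =>
    ((hξ i).pow 2).const_mul (s d i)).2
  exact ⟨C1 + C2 / 2, fun p => ls_abs hζ hz (bm_sec hE p) (fun i => bm_sec (hξ i) p) hs n
    (fun x => h1 (p, x)) fun x => (le_abs_self _).trans (h2 (p, x))⟩

theorem bm_sl_par (hη : BM (Function.uncurry η)) (n d0 : ℕ) (σ : ℝ) :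
    BM fun p => SL μ ζ n d0 σ s (E p) (fun i => ξ i p) (η p) := by
  obtain ⟨C, hC⟩ := (bm_ls_par (μ := μ) hζ hz hE hξ hs n).2
  obtain ⟨L, hL⟩ := hη.2
  refine ⟨measurable_val_par (fun d => (noise_gv (optS d0 σ s d)).prob) ?_ (n + 1), C + L,
    fun p => ?_⟩
  · have h1 : Measurable fun p : Y × (Option ι → ℝ) × Ω =>
        (p.1, (fun i => p.2.1 (some i)), p.2.2) := by fun_prop
    exact ((meas_par hE hξ).comp h1).add ((Real.measurable_sin.comp
      ((measurable_pi_apply none).comp measurable_snd.fst)).mul (meas_sec hη))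
  · have h1 := sl_abs (μ := μ) hζ (bm_sec hE p) (fun i => bm_sec (hξ i) p) (bm_sec hη p).1
      (fun x => hL (p, x)) n d0 σ s
    have h2 := hC p
    rw [abs_le] at h1 h2 ⊢
    constructor <;> linarith [h1.1, h1.2, h2.1, h2.2]

theorem bm_leg_par (hg : BM (Function.uncurry g)) (n : ℕ) :
    BM fun p => lEG μ ζ n s (E p) (fun i => ξ i p) (g p) := by
  obtain ⟨L, hL⟩ := hg.2
  exact ⟨measurable_EG_par (fun d => (noise_gv (s d)).prob) (meas_par hE hξ) (meas_sec hg) n,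
    |L|, fun p => abs_GE_le (abs_nonneg L)
      (fun _ => ae_of_all _ fun x => (hL (p, x)).trans (le_abs_self L)) _ _⟩

theorem bm_ldb_par (hg : BM (Function.uncurry g)) (n d : ℕ) :
    BM fun p => lDb μ ζ n s (E p) (fun i => ξ i p) (g p) d := by
  obtain ⟨L, hL⟩ := hg.2
  refine ⟨measurable_Db_par (fun d => (noise_gv (s d)).prob) (meas_par hE hξ) (meas_sec hg)
    measurable_const n d, |L| ^ 2 + |L| ^ 2, fun p => ?_⟩
  have h1 : ∀ x, |g p x| ≤ |L| := fun x => (hL (p, x)).trans (le_abs_self L)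
  refine (abs_sub _ _).trans (add_le_add ?_ (UnifAux.sum_le hζ d (sq_nonneg _) fun k => ?_))
  · refine abs_GE_le (sq_nonneg _) (fun _ => ae_of_all _ fun x => ?_) _ _
    rw [zero_add, abs_pow]
    exact pow_le_pow_left₀ (abs_nonneg _) (h1 x) 2
  · rw [abs_of_nonneg (Esq_nonneg _ _ _)]
    exact Esq_le_sq (abs_nonneg L) (fun _ => ae_of_all _ h1) _ _

end par

end Vale.Agent.P166
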