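import Vale.Agent.P166.Pert

/-! # Concentration of an energy term from second differences -/

namespace Vale.Agent.P166

open MeasureTheory ProbabilityTheory Filter Topology Vale.Agent.P157

namespace Conc0Aux

variable {ι Ω : Type} [Fintype ι] [DecidableEq ι] [MeasurableSpace Ω] (μ : Measure Ω)
  [IsProbabilityMeasure μ] {n : ℕ} {ζ : ℕ → ℝ} {H : (ι → ℝ) → Ω → ℝ}
  {h1 h2 : ι → (ι → ℝ) → Ω → ℝ} {φ : Ω → ℝ} {s : ℕ → ι → ℝ}

omit [Fintype ι] [DecidableEq ι] in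
theorem bm2 (hφ : BM φ) : BM2 fun (_ : ι → ℝ) x => φ x :=
  ⟨hφ.1.comp measurable_snd, hφ.2.imp fun _ h _ x => h x⟩

theorem hj_add (hJ : HJ H h1 h2) (hφ : BM φ) : HJ (fun w x => H w x + φ x) h1 h2 := by
  obtain ⟨K, hK⟩ := hJ.jet
  refine ⟨hg_add hJ.hg (bm2 hφ), K, fun i => ⟨(hK i).K0, (hK i).mm, (hK i).ma, (hK i).bm,
    (hK i).ba, fun w x t => ?_, fun w x t => ?_⟩⟩
  · rw [add_sub_add_right_eq_sub]
    exact (hK i).lip w x t
  · rw [add_sub_add_right_eq_sub]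
    exact (hK i).tay w x t

theorem exp_bound (hζ : ZAdm n ζ) (hJ : HJ H h1 h2) (hφ : BM φ) (hs : ∀ d i, 0 ≤ s d i)
    {Λ0 : ℝ} (hΛ0 : ∀ w x, ∑ i, s n i * h1 i w x ^ 2 ≤ Λ0) {ζs : ℝ} (hζs : 0 < ζs)
    (hζs' : ζs ≤ ζ (n - 1)) :
    EG ζ (gvs s) μ H (fun _ x => Real.exp (ζs * φ x)) n
      ≤ Real.exp (ζs * (GV μ ζ n s (fun w x => H w x + φ x) - GV μ ζ n s H
        + ζs * (4 * Λ0) / 2)) := by
  have hz := hζ.zok
  have hJ' := hj_add hJ hφ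
  have hc := cas_gvs hz s (hJ.hg.lg_gtop (μ := μ))
  have hc' := cas_gvs hz s (hJ'.hg.lg_gtop (μ := μ))
  have hs1 : ζs ≤ 1 := hζs'.trans (hz.le_one _)
  have hδ : BM fun w => gtop μ (fun w x => H w x + φ x) w - gtop μ H w := by
    obtain ⟨C, hC⟩ := hφ.2
    exact ⟨hc'.lg.1.sub hc.lg.1, C, x_abs hz hc.noise hJ.hg hJ'.hg
      (fun w x => by rw [add_sub_cancel_left]; exact hC x) 0⟩
  have h0 : ∀ w, gib μ H (fun _ x => Real.exp (ζs * φ x)) w ≤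
      Real.exp (ζs * (gtop μ (fun w x => H w x + φ x) w - gtop μ H w)) := by
    intro w
    have e1 : EInt μ (H w) := hJ.hg.eint w
    have := e1.prob_tilted 1
    have e2 : EInt (μ.tilted fun x => 1 * H w x) φ := hφ.eint
    rw [gib, gexp, ← exp_mul_lse (e2.2 ζs), gtop, gtop, lse_sub 1 e1 (hJ'.hg.eint w)]
    simp only [add_sub_cancel_left]
    exact Real.exp_le_exp.2 (mul_le_mul_of_nonneg_left (lse_mono_zeta hζs.le hs1 e2) hζs.le)
  have hG : ∀ {H' : (ι → ℝ) → Ω → ℝ}, HG H' →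
      ∀ w, ∑ i, s n i * GE ζ (gvs s) μ H' (h1 i) n w ^ 2 ≤ Λ0 := fun hH' w => by
    have := sum_sq_GE_le (μ := μ) hH' hz hc.noise
      (fun i => (ConcAux.bm2 hJ i).const_mul √(s n i)) (Λ := Λ0)
      (fun w x => by simpa only [mul_pow, Real.sq_sqrt (hs _ _)] using hΛ0 w x) n w
    simpa only [GE_const_mul, mul_pow, Real.sq_sqrt (hs _ _)] using this
  refine (hc.Ex_mono 0 (hJ.hg.bm_gib (bm2 (hφ.const_mul ζs).exp)) (hδ.const_mul ζs).exp h0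
    (n + 1) 0).trans ?_
  obtain ⟨K, hK⟩ := hJ.jet
  obtain ⟨K', hK'⟩ := hJ'.jet
  have hD := (hc'.lgX n).sub (hc.lgX n)
  have hν := noise_gv (s n)
  have a1 := chain_exp hc hc' (Nat.zero_le n) (fun _ _ _ => rfl) hδ (fun _ => le_rfl) hζs
    fun j _ h => hζs'.trans (hz.anti (Nat.le_sub_one_of_lt h))
  have a2 := sub_gaussian hζs.le hs1 hD
    (fun i => (hc'.jetX (jet_gtop hJ'.hg (hK' i)) n).sub (hc.jetX (jet_gtop hJ.hg (hK i)) n))
    (hs n) (L2 := 4 * Λ0) (fun w => by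
      have b1 := hG hJ.hg w
      have b2 := hG hJ'.hg w
      refine le_trans (Finset.sum_le_sum fun i _ => (?_ : _ ≤
        2 * (s n i * GE ζ (gvs s) μ H (h1 i) n w ^ 2) + 2 * (s n i *
          GE ζ (gvs s) μ (fun w x => H w x + φ x) (h1 i) n w ^ 2))) ?_
      · unfold GE
        linarith [mul_nonneg (hs n i) (sq_nonneg (Ex ζ (gvs s) (gtop μ H) 0
          (gib μ H (h1 i)) n w + Ex ζ (gvs s) (gtop μ fun w x => H w x + φ x) 0
          (gib μ (fun w x => H w x + φ x) (h1 i)) n w))]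
      · rw [Finset.sum_add_distrib, ← Finset.mul_sum, ← Finset.mul_sum]
        linarith) 0
  rw [Ex_succ (Nat.zero_le n), GV, GV, X_succ, X_succ, hζ.zn n le_rfl, P]
  have := hν.prob
  simp only [gvs]
  rw [gexp_zero]
  refine (integral_mono (ChainAux.shift (hc.bmEx _ (hδ.const_mul ζs).exp n) 0).integrable
    ((hD.eint hν 0).2 ζs) fun z => a1 _).trans ?_
  rw [← exp_mul_lse ((hD.eint hν 0).2 ζs)]
  refine Real.exp_le_exp.2 (mul_le_mul_of_nonneg_left (a2.trans_eq ?_) hζs.le)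
  simp only [T, lse, if_true]
  rw [integral_sub ((hc'.lgX n).eint hν 0).integrable ((hc.lgX n).eint hν 0).integrable]

end Conc0Aux

theorem conc0 {ι Ω : Type} [Fintype ι] [DecidableEq ι] [MeasurableSpace Ω] (μ : Measure Ω)
    [IsProbabilityMeasure μ] {n : ℕ} {ζ : ℕ → ℝ} (hζ : ZAdm n ζ) {H : (ι → ℝ) → Ω → ℝ}
    {h1 h2 : ι → (ι → ℝ) → Ω → ℝ} (hJ : HJ H h1 h2) {φ : Ω → ℝ} (hφ : BM φ) {s : ℕ → ι → ℝ}
    (hs : ∀ d i, 0 ≤ s d i) {τ y κ : ℝ} (hy : 0 < y)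
    (hp : GV μ ζ n s (fun w x => H w x + y * φ x) - GV μ ζ n s H ≤ y * τ + κ)
    (hm : GV μ ζ n s (fun w x => H w x + -y * φ x) - GV μ ζ n s H ≤ -(y * τ) + κ)
    {Λ0 : ℝ} (hΛ0 : ∀ w x, ∑ i, s n i * h1 i w x ^ 2 ≤ Λ0) {ζs : ℝ} (hζs : 0 < ζs)
    (hζs' : ζs ≤ ζ (n - 1)) :
    EG ζ (gvs s) μ H (fun _ x => |φ x - τ|) n ≤ (κ + Real.log 2 / ζs + 2 * ζs * Λ0) / y := by
  have hz := hζ.zok
  have hν : ∀ d, Noise (gvs s d) := fun d => noise_gv _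
  have a1 := Conc0Aux.exp_bound μ hζ hJ (hφ.const_mul y) hs hΛ0 hζs hζs'
  have a2 := Conc0Aux.exp_bound μ hζ hJ (hφ.const_mul (-y)) hs hΛ0 hζs hζs'
  obtain ⟨M, hM⟩ : ∃ M, M = Real.log 2 + ζs * (κ + 2 * ζs * Λ0) := ⟨_, rfl⟩
  have b1 := Conc0Aux.bm2 (ι := ι) ((hφ.const_mul y).const_mul ζs).exp
  have b2 := Conc0Aux.bm2 (ι := ι) ((hφ.const_mul (-y)).const_mul ζs).exp
  have c1 := b1.const_mul (Real.exp (-(ζs * (y * τ)) - M))
  have c2 := b2.const_mul (Real.exp (ζs * (y * τ) - M))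
  have key := GE_mono (μ := μ) hJ.hg hz hν
    ((Conc0Aux.bm2 (hφ.sub (BM.const τ)).abs).const_mul (ζs * y))
    ((BM2.const (M - 1)).add (c1.add c2)) (fun w x => by
      rw [← Real.exp_add, ← Real.exp_add]
      have p1 := Real.add_one_le_exp (-(ζs * (y * τ)) - M + ζs * (y * φ x))
      have p2 := Real.add_one_le_exp (ζs * (y * τ) - M + ζs * (-y * φ x))
      have p3 := Real.exp_pos (-(ζs * (y * τ)) - M + ζs * (y * φ x))
      have p4 := Real.exp_pos (ζs * (y * τ) - M + ζs * (-y * φ x))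
      rcases abs_cases (φ x - τ) with h | h <;> rw [h.1] <;> linarith) (n + 1) 0
  rw [GE_const_mul, GE_add hJ.hg hz hν (BM2.const _) (c1.add c2), GE_add hJ.hg hz hν c1 c2,
    GE_const hJ.hg hz hν, GE_const_mul, GE_const_mul] at key
  have hh : Real.exp (-Real.log 2) = 1 / 2 := by
    rw [Real.exp_neg, Real.exp_log two_pos, one_div]
  have d1 := mul_le_mul_of_nonneg_left a1 (Real.exp_pos (-(ζs * (y * τ)) - M)).le
  have d2 := mul_le_mul_of_nonneg_left a2 (Real.exp_pos (ζs * (y * τ) - M)).le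
  rw [← Real.exp_add] at d1 d2
  replace d1 := d1.trans ((Real.exp_le_exp.2 (by
    linarith [mul_le_mul_of_nonneg_left hp hζs.le])).trans hh.le)
  replace d2 := d2.trans ((Real.exp_le_exp.2 (by
    linarith [mul_le_mul_of_nonneg_left hm hζs.le])).trans hh.le)
  rw [le_div_iff₀ hy]
  refine le_of_mul_le_mul_left ?_ hζs
  have : ζs * (Real.log 2 / ζs) = Real.log 2 := mul_div_cancel₀ _ hζs.ne'
  unfold EG at d1 d2 ⊢
  linarith

theorem core0 {n : ℕ} {ζ : ℕ → ℝ} (hζ : ZAdm n ζ) {η : ℝ} (hη : 0 < η) (C : ℝ) :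
    ∀ᶠ k in 𝓝[>] (0 : ℝ), ∀ᶠ y in 𝓝[>] (0 : ℝ), ∀ᶠ N : ℕ in atTop,
      ∀ (ι Ω : Type) [Fintype ι] [DecidableEq ι] [MeasurableSpace Ω] (μ : Measure Ω)
        [IsProbabilityMeasure μ] (H : (ι → ℝ) → Ω → ℝ) (h1 h2 : ι → (ι → ℝ) → Ω → ℝ)
        (φ : Ω → ℝ) (s : ℕ → ι → ℝ) (τ : ℝ), HJ H h1 h2 → BM φ → (∀ d i, 0 ≤ s d i) →
        (∀ w x, ∑ i, s n i * h1 i w x ^ 2 ≤ C * N) →
        GV μ ζ n s (fun w x => H w x + y * φ x) - GV μ ζ n s H ≤ y * τ + k * y * N →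
        GV μ ζ n s (fun w x => H w x + -y * φ x) - GV μ ζ n s H ≤ -(y * τ) + k * y * N →
        EG ζ (gvs s) μ H (fun _ x => |φ x - τ|) n ≤ η * N := by
  have hΔ0 : 0 < ζ (n - 1) := hζ.pos (by have := hζ.one_le; omega)
  filter_upwards [GoodAux.ev_small (half_pos hη)] with k hk
  filter_upwards [GoodAux.ev_small one_pos] with y hy
  have hy0 := hy.1
  filter_upwards [eventually_ge_atTop 1, GoodAux.ev_sqrt
    (Real.log 2 / ζ (n - 1) + 2 * ζ (n - 1) * C) (mul_pos (half_pos hη) hy0)] with N hN h3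
  intro ι Ω _ _ _ μ _ H h1 h2 φ s τ hJ hφ hs hroot hp hm
  have hN1 : (1 : ℝ) ≤ N := by exact_mod_cast hN
  have hr1 : 1 ≤ √(N : ℝ) := Real.one_le_sqrt.2 hN1
  have hr0 : 0 < √(N : ℝ) := by linarith
  refine (conc0 μ hζ hJ hφ hs hy0 hp hm hroot (ζs := ζ (n - 1) / √(N : ℝ)) (by positivity)
    (div_le_self hΔ0.le hr1)).trans ?_
  rw [div_le_iff₀ hy0]
  have a1 : k * y * N ≤ η / 2 * y * N := by gcongr; exact hk.2.le
  have a3 : Real.log 2 / (ζ (n - 1) / √(N : ℝ)) + 2 * (ζ (n - 1) / √(N : ℝ)) * (C * N) =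
      (Real.log 2 / ζ (n - 1) + 2 * ζ (n - 1) * C) * √(N : ℝ) := by
    have : (N : ℝ) / √(N : ℝ) = √(N : ℝ) := Real.div_sqrt
    calc _ = Real.log 2 / ζ (n - 1) * √(N : ℝ) + 2 * ζ (n - 1) * C * ((N : ℝ) / √(N : ℝ)) := by
          field_simp
      _ = _ := by rw [this]; ring
  linarith

end Vale.Agent.P166
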