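import Vale.Agent.P166.Quant
import Vale.Agent.P166.Moves

/-! # Discretization of the spectrum -/

namespace Vale.Agent.P166

open MeasureTheory Filter Topology BoundedContinuousFunction Vale.Agent.P157

namespace DiscAux

lemma card_Ico {N x y : ℕ} (hy : y ≤ N) :
    (Finset.univ.filter fun p : Fin N => x ≤ p.val ∧ p.val < y).card = y - x := by
  rw [← Nat.card_Ico x y, ← Finset.card_map Fin.valEmbedding]
  congr 1
  ext k
  simp only [Finset.mem_map, Finset.mem_filter, Finset.mem_univ, true_and, Fin.valEmbedding_apply,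
    Finset.mem_Ico]
  constructor
  · rintro ⟨p, hp, rfl⟩
    exact hp
  · intro h
    exact ⟨⟨k, by omega⟩, h, rfl⟩

/-- A ramp function. -/
noncomputable def ramp (a ε : ℝ) : ℝ →ᵇ ℝ :=
  BoundedContinuousFunction.ofNormedAddCommGroup (fun u => max 0 (min 1 ((u - a) / ε)))
    (by fun_prop) 1 fun u => by
      rw [Real.norm_eq_abs, abs_of_nonneg (le_max_left _ _)]
      exact max_le zero_le_one (min_le_left _ _)

lemma ramp_apply (a ε u : ℝ) : ramp a ε u = max 0 (min 1 ((u - a) / ε)) := rfl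

lemma ramp_nonneg (a ε u : ℝ) : 0 ≤ ramp a ε u := le_max_left _ _

lemma ramp_le_one (a ε u : ℝ) : ramp a ε u ≤ 1 := max_le zero_le_one (min_le_left _ _)

lemma ramp_one {a ε u : ℝ} (hε : 0 < ε) (h : a + ε ≤ u) : ramp a ε u = 1 := by
  have : 1 ≤ (u - a) / ε := by
    rw [le_div_iff₀ hε]
    linarith
  rw [ramp_apply, min_eq_left this, max_eq_right zero_le_one]

lemma ramp_zero {a ε u : ℝ} (hε : 0 < ε) (h : u ≤ a) : ramp a ε u = 0 := by
  have : (u - a) / ε ≤ 0 := div_nonpos_of_nonpos_of_nonneg (by linarith) hε.le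
  rw [ramp_apply, max_eq_left ((min_le_right _ _).trans this)]

lemma div_bounds (N K : ℕ) (hK : 0 < K) :
    (N : ℝ) / K - 1 ≤ ((N / K : ℕ) : ℝ) ∧ ((N / K : ℕ) : ℝ) ≤ (N : ℝ) / K := by
  refine ⟨?_, Nat.cast_div_le⟩
  have h1 : N < K * (N / K + 1) := Nat.lt_mul_div_succ N hK
  have h2 : (N : ℝ) < K * (((N / K : ℕ) : ℝ) + 1) := by exact_mod_cast h1
  have hK' : (0 : ℝ) < K := by exact_mod_cast hK
  rw [sub_le_iff_le_add, div_le_iff₀ hK']
  linarith

end DiscAux

open DiscAux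

theorem exists_blocks (m N : ℕ) (lam : Fin N → ℝ) : ∃ b : Fin N → Option (Fin m),
    (∀ o, fib b o = sz (Fin m) N o) ∧ ∀ i,
      (b i).elim 0 (fun a => (a : ℕ) + 1) * (N / (m + 1))
          < (Finset.univ.filter fun j => lam i ≤ lam j).card ∧
      (Finset.univ.filter fun j => lam i < lam j).card
          ≤ ((b i).elim 0 (fun a => (a : ℕ) + 1) + 1) * (N / (m + 1)) + m := by
  classical
  obtain ⟨s, hs⟩ : ∃ s, s = N / (m + 1) := ⟨_, rfl⟩
  rw [← hs]
  have hs1 : (m + 1) * s ≤ N := hs ▸ Nat.mul_div_le N (m + 1)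
  have hs2 : N < (m + 1) * (s + 1) := hs ▸ Nat.lt_mul_div_succ N (Nat.succ_pos m)
  have e1 : (m + 1) * s = m * s + s := by ring
  have e2 : (m + 1) * (s + 1) = m * s + s + m + 1 := by ring
  obtain ⟨r, hr⟩ : ∃ r, r = N - m * s := ⟨_, rfl⟩
  have hr1 : s ≤ r := by omega
  have hr2 : r ≤ s + m := by omega
  have hr3 : r + m * s = N := by omega
  have hlt : ∀ p : Fin N, ¬ p.val < r → 0 < s ∧ (p.val - r) / s < m := fun p hp => by
    have hp2 := p.2
    have h0 : 0 < s := by
      rcases Nat.eq_zero_or_pos s with h | h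
      · rw [h] at hr3
        omega
      · exact h
    exact ⟨h0, (Nat.div_lt_iff_lt_mul h0).2 (by omega)⟩
  let b0 : Fin N → Option (Fin m) := fun p =>
    if h : p.val < r then none else some ⟨(p.val - r) / s, (hlt p h).2⟩
  have hnone : ∀ p, b0 p = none ↔ 0 ≤ p.val ∧ p.val < r := fun p => by
    by_cases h : p.val < r <;> simp [b0, h]
  have hsome : ∀ p (a : Fin m), b0 p = some a ↔
      r + a.val * s ≤ p.val ∧ p.val < r + a.val * s + s := fun p a => by
    by_cases h : p.val < r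
    · simp only [b0, h, dif_pos, reduceCtorEq, false_iff]
      omega
    · have h0 := (hlt p h).1
      simp only [b0, h, dif_neg, not_false_eq_true, Option.some.injEq, Fin.ext_iff]
      rw [Nat.div_eq_iff h0]
      omega
  set σ := Tuple.sort fun i => -lam i with hσ
  have hmono : Monotone ((fun i => -lam i) ∘ σ) := Tuple.monotone_sort _
  have hanti : ∀ i j, σ.symm i ≤ σ.symm j → lam j ≤ lam i := fun i j h => by
    have := hmono h
    simpa using this
  refine ⟨fun i => b0 (σ.symm i), fun o => ?_, fun i => ?_⟩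
  · have e : fib (fun i => b0 (σ.symm i)) o = Fintype.card {p // b0 p = o} :=
      Fintype.card_congr (σ.symm.subtypeEquiv fun _ => Iff.rfl)
    rw [e, Fintype.card_subtype]
    rcases o with _ | a
    · rw [Finset.filter_congr fun p _ => hnone p, card_Ico (by omega)]
      simp [sz, hr, hs]
    · have ha : a.val * s + s ≤ m * s := by
        have := a.2
        calc a.val * s + s = (a.val + 1) * s := by ring
          _ ≤ m * s := Nat.mul_le_mul_right s this
      rw [Finset.filter_congr fun p _ => hsome p a, card_Ico (by omega)]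
      simp [sz, hs]
  · have hp := (σ.symm i).2
    have c1 : (σ.symm i).val + 1 ≤ (Finset.univ.filter fun j => lam i ≤ lam j).card := by
      have h1 := card_Ico (N := N) (x := 0) (y := (σ.symm i).val + 1) (by omega)
      rw [Nat.sub_zero] at h1
      rw [← h1]
      apply Finset.card_le_card_of_injOn σ
      · intro p hp
        simp only [Finset.coe_filter, Finset.mem_univ, true_and, Set.mem_ofPred_eq] at hp ⊢
        apply hanti
        rw [Equiv.symm_apply_apply, Fin.le_def]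
        omega
      · exact σ.injective.injOn
    have c2 : (Finset.univ.filter fun j => lam i < lam j).card ≤ (σ.symm i).val := by
      have h1 := card_Ico (N := N) (x := 0) (y := (σ.symm i).val) (by omega)
      rw [Nat.sub_zero] at h1
      rw [← h1]
      apply Finset.card_le_card_of_injOn σ.symm
      · intro j hj
        simp only [Finset.coe_filter, Finset.mem_univ, true_and, Set.mem_ofPred_eq] at hj ⊢
        refine ⟨Nat.zero_le _, ?_⟩
        by_contra h
        exact absurd (hanti i j (Fin.le_def.2 (not_lt.1 h))) (not_le.2 hj)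
      · exact σ.symm.injective.injOn
    rcases hb : b0 (σ.symm i) with _ | a
    · have := (hnone _).1 hb
      simp only [hb, Option.elim]
      omega
    · have := (hsome _ a).1 hb
      have f1 : (a.val + 1) * s = a.val * s + s := by ring
      have f2 : (a.val + 1 + 1) * s = a.val * s + s + s := by ring
      simp only [hb, Option.elim]
      omega

variable {μ : Measure ℝ} [IsProbabilityMeasure μ] {lam : ∀ N : ℕ, Fin N → ℝ}

theorem count_le (hw : ∀ f : ℝ →ᵇ ℝ,
      Tendsto (fun N : ℕ => (N : ℝ)⁻¹ * ∑ i, f (lam N i)) atTop (𝓝 (∫ t, f t ∂μ)))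
    (t : ℝ) {ε δ : ℝ} (hε : 0 < ε) (hδ : 0 < δ) : ∀ᶠ N : ℕ in atTop,
    ((Finset.univ.filter fun j => t + ε ≤ lam N j).card : ℝ)
      ≤ N * (μ.real (Set.Ioi t) + δ) := by
  have h1 : ∫ u, ramp t ε u ∂μ ≤ μ.real (Set.Ioi t) := by
    rw [← integral_indicator_one measurableSet_Ioi]
    refine integral_mono (BoundedContinuousFunction.integrable μ _)
      ((integrable_const (1 : ℝ)).indicator measurableSet_Ioi) fun u => ?_
    by_cases hu : u ∈ Set.Ioi t
    · rw [Set.indicator_of_mem hu]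
      exact ramp_le_one _ _ _
    · rw [Set.indicator_of_notMem hu]
      exact (ramp_zero hε (not_lt.1 hu)).le
  filter_upwards [(hw (ramp t ε)).eventually (gt_mem_nhds (lt_add_of_pos_right _ hδ)),
    eventually_gt_atTop 0] with N hN hN0
  have hN' : (0 : ℝ) < N := by exact_mod_cast hN0
  have h2 : ((Finset.univ.filter fun j => t + ε ≤ lam N j).card : ℝ)
      ≤ ∑ i, ramp t ε (lam N i) := by
    rw [Finset.card_filter, Nat.cast_sum]
    refine Finset.sum_le_sum fun i _ => ?_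
    split_ifs with h
    · rw [ramp_one hε h]
      simp
    · simpa using ramp_nonneg _ _ _
  rw [inv_mul_lt_iff₀ hN'] at hN
  nlinarith

theorem count_ge (hw : ∀ f : ℝ →ᵇ ℝ,
      Tendsto (fun N : ℕ => (N : ℝ)⁻¹ * ∑ i, f (lam N i)) atTop (𝓝 (∫ t, f t ∂μ)))
    (t : ℝ) {ε δ : ℝ} (hε : 0 < ε) (hδ : 0 < δ) : ∀ᶠ N : ℕ in atTop,
    N * (μ.real (Set.Ici t) - δ)
      ≤ ((Finset.univ.filter fun j => t - ε < lam N j).card : ℝ) := by
  have h1 : μ.real (Set.Ici t) ≤ ∫ u, ramp (t - ε) ε u ∂μ := by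
    rw [← integral_indicator_one measurableSet_Ici]
    refine integral_mono ((integrable_const (1 : ℝ)).indicator measurableSet_Ici)
      (BoundedContinuousFunction.integrable μ _) fun u => ?_
    by_cases hu : u ∈ Set.Ici t
    · rw [Set.indicator_of_mem hu]
      exact (ramp_one hε (by simpa using hu)).ge
    · rw [Set.indicator_of_notMem hu]
      exact ramp_nonneg _ _ _
  filter_upwards [(hw (ramp (t - ε) ε)).eventually (lt_mem_nhds (sub_lt_self _ hδ)),
    eventually_gt_atTop 0] with N hN hN0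
  have hN' : (0 : ℝ) < N := by exact_mod_cast hN0
  have h2 : ∑ i, ramp (t - ε) ε (lam N i)
      ≤ ((Finset.univ.filter fun j => t - ε < lam N j).card : ℝ) := by
    rw [Finset.card_filter, Nat.cast_sum]
    refine Finset.sum_le_sum fun i _ => ?_
    split_ifs with h
    · simpa using ramp_le_one _ _ _
    · rw [ramp_zero hε (not_lt.1 h)]
      simp
  rw [lt_inv_mul_iff₀ hN'] at hN
  nlinarith

theorem lam_range (hmin : Tendsto (fun N : ℕ => ⨅ i, lam N i) atTop (𝓝 (sInf μ.support)))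
    (hmax : Tendsto (fun N : ℕ => ⨆ i, lam N i) atTop (𝓝 (sSup μ.support))) {ε : ℝ}
    (hε : 0 < ε) :
    ∀ᶠ N : ℕ in atTop, ∀ i, sInf μ.support - ε ≤ lam N i ∧ lam N i ≤ sSup μ.support + ε := by
  filter_upwards [hmin.eventually (lt_mem_nhds (sub_lt_self _ hε)),
    hmax.eventually (gt_mem_nhds (lt_add_of_pos_right _ hε))] with N h1 h2 i
  exact ⟨h1.le.trans (ciInf_le (Set.finite_range _).bddBelow i),
    (le_ciSup (Set.finite_range _).bddAbove i).trans h2.le⟩

theorem disc_ub (hc : IsCompact μ.support)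
    (hw : ∀ f : ℝ →ᵇ ℝ,
      Tendsto (fun N : ℕ => (N : ℝ)⁻¹ * ∑ i, f (lam N i)) atTop (𝓝 (∫ t, f t ∂μ)))
    (hmin : Tendsto (fun N : ℕ => ⨅ i, lam N i) atTop (𝓝 (sInf μ.support)))
    (hmax : Tendsto (fun N : ℕ => ⨆ i, lam N i) atTop (𝓝 (sSup μ.support))) {β ε : ℝ}
    (hβ : 0 < β) (hε : 0 < ε) :
    ∃ (m : ℕ) (ca : Fin m → ℝ) (Λ c0 cm : ℝ), 0 < c0 ∧ 0 ≤ cm ∧ (∀ a, c0 ≤ ca a ∧ ca a ≤ cm) ∧
      (∀ x, 0 < x → β * Λ + Rc (cv ca 0) x ≤ β * Rtr μ (β * x) + ε) ∧
      ∀ᶠ N : ℕ in atTop, ∃ b : Fin N → Option (Fin m), (∀ o, fib b o = sz (Fin m) N o) ∧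
        ∀ i, cv ca 0 (b i) ≤ β * (Λ - lam N i) := by
  set e := ε / (3 * β) with he
  have he0 : 0 < e := by positivity
  have hee : 3 * β * e = ε := by
    rw [he]
    field_simp
  obtain ⟨m, hm⟩ := (rc_ub hc hβ he0).exists
  have hsl := supp_le hc
  refine ⟨m, fun a : Fin m => β * (sSup μ.support + 2 * e - (Qn μ (m + 1) a + e)),
    sSup μ.support + 2 * e, β * e, β * (sSup μ.support - sInf μ.support + e), by positivity,
    mul_nonneg hβ.le (by linarith), fun a => ?_, fun x hx => hee ▸ hm x hx, ?_⟩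
  · have := Qn_bounds hc (m + 1) a
    exact ⟨mul_le_mul_of_nonneg_left (by linarith) hβ.le,
      mul_le_mul_of_nonneg_left (by linarith) hβ.le⟩
  have hK : (0 : ℝ) < ((m + 1 : ℕ) : ℝ) := by positivity
  have hδ : (0 : ℝ) < 1 / (2 * ((m + 1 : ℕ) : ℝ)) := by positivity
  have hall := eventually_all.2 fun a : Fin m => count_le hw (Qn μ (m + 1) a) he0 hδ
  filter_upwards [hall, lam_range hmin hmax he0, eventually_ge_atTop (2 * (m + 1) ^ 2)]
    with N h1 h2 h3
  obtain ⟨b, hb1, hb2⟩ := exists_blocks m N (lam N)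
  refine ⟨b, hb1, fun i => ?_⟩
  have hi := (hb2 i).1
  rcases hb : b i with _ | a
  · have := (h2 i).2
    simp only [cv, Option.elim]
    exact mul_nonneg hβ.le (by linarith)
  · simp only [cv, Option.elim, add_zero]
    refine mul_le_mul_of_nonneg_left ?_ hβ.le
    by_contra hcon
    have hlt : Qn μ (m + 1) a + e ≤ lam N i := by linarith
    rw [hb] at hi
    simp only [Option.elim] at hi
    have c1 : (Finset.univ.filter fun j => lam N i ≤ lam N j).card
        ≤ (Finset.univ.filter fun j => Qn μ (m + 1) a + e ≤ lam N j).card :=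
      Finset.card_le_card (Finset.monotone_filter_right _ fun j _ hj => hlt.trans hj)
    have c2 : (((a : ℕ) : ℝ) + 1) * ((N / (m + 1) : ℕ) : ℝ)
        < ((Finset.univ.filter fun j => Qn μ (m + 1) a + e ≤ lam N j).card : ℝ) := by
      exact_mod_cast hi.trans_le c1
    have c3 := h1 a
    have c4 := Qn_Ioi hc (m + 1) a
    have c5 := (div_bounds N (m + 1) (Nat.succ_pos m)).1
    have c6 : 2 * ((m + 1 : ℕ) : ℝ) ^ 2 ≤ N := by exact_mod_cast h3
    have c7 : ((a : ℕ) : ℝ) + 1 ≤ ((m + 1 : ℕ) : ℝ) := by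
      have := a.2
      exact_mod_cast (by omega : (a : ℕ) + 1 ≤ m + 1)
    set K : ℝ := ((m + 1 : ℕ) : ℝ) with hKdef
    have ha0 : (0 : ℝ) ≤ ((a : ℕ) : ℝ) := Nat.cast_nonneg _
    have hN0 : (0 : ℝ) ≤ N := Nat.cast_nonneg _
    have d1 : (((a : ℕ) : ℝ) + 1) * ((N : ℝ) / K - 1) < N * (((a : ℕ) : ℝ) / K + 1 / (2 * K)) :=
      calc (((a : ℕ) : ℝ) + 1) * ((N : ℝ) / K - 1)
          ≤ (((a : ℕ) : ℝ) + 1) * ((N / (m + 1) : ℕ) : ℝ) :=
            mul_le_mul_of_nonneg_left c5 (by linarith)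
        _ < _ := c2
        _ ≤ _ := c3
        _ ≤ _ := mul_le_mul_of_nonneg_left (by linarith) hN0
    have d2 : K ≤ N / (2 * K) := by
      rw [le_div_iff₀ (by positivity)]
      nlinarith
    have d3 : (((a : ℕ) : ℝ) + 1) * ((N : ℝ) / K - 1) - N * (((a : ℕ) : ℝ) / K + 1 / (2 * K))
        = N / (2 * K) - (((a : ℕ) : ℝ) + 1) := by
      field_simp
      ring
    linarith

theorem disc_lb (hc : IsCompact μ.support)
    (hw : ∀ f : ℝ →ᵇ ℝ,
      Tendsto (fun N : ℕ => (N : ℝ)⁻¹ * ∑ i, f (lam N i)) atTop (𝓝 (∫ t, f t ∂μ)))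
    (hmin : Tendsto (fun N : ℕ => ⨅ i, lam N i) atTop (𝓝 (sInf μ.support)))
    (hmax : Tendsto (fun N : ℕ => ⨆ i, lam N i) atTop (𝓝 (sSup μ.support))) {β ε : ℝ}
    (hβ : 0 < β) (hε : 0 < ε) :
    ∃ (m : ℕ) (ca : Fin m → ℝ) (Λ c0 cm : ℝ), 0 < c0 ∧ 0 ≤ cm ∧ (∀ a, c0 ≤ ca a ∧ ca a ≤ cm) ∧
      (∀ x, 0 < x → β * Rtr μ (β * x) - ε ≤ β * Λ + Rc (cv ca 0) x) ∧
      ∀ᶠ N : ℕ in atTop, ∃ b : Fin N → Option (Fin m), (∀ o, fib b o = sz (Fin m) N o) ∧
        ∀ i, β * (Λ - lam N i) ≤ cv ca 0 (b i) := by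
  set e := ε / (4 * β) with he
  have he0 : 0 < e := by positivity
  have hee : 4 * β * e = ε := by
    rw [he]
    field_simp
  obtain ⟨m, hm⟩ := (rc_lb hc hβ he0).exists
  have hsl := supp_le hc
  refine ⟨m, fun a : Fin m => β * (Qn μ (m + 1) 2 - e - (Qn μ (m + 1) (a + 3) - 2 * e)),
    Qn μ (m + 1) 2 - e, β * e, β * (sSup μ.support - sInf μ.support + e), by positivity,
    mul_nonneg hβ.le (by linarith), fun a => ?_, fun x hx => hee ▸ hm x hx, ?_⟩
  · have h1 := Qn_bounds hc (m + 1) (a + 3)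
    have h2 := Qn_bounds hc (m + 1) 2
    have h3 : Qn μ (m + 1) (a + 3) ≤ Qn μ (m + 1) 2 := Qn_anti hc (m + 1) (by omega)
    exact ⟨mul_le_mul_of_nonneg_left (by linarith) hβ.le,
      mul_le_mul_of_nonneg_left (by linarith) hβ.le⟩
  have hK : (0 : ℝ) < ((m + 1 : ℕ) : ℝ) := by positivity
  have hδ : (0 : ℝ) < 1 / (2 * ((m + 1 : ℕ) : ℝ)) := by positivity
  have hall := eventually_all.2 fun l : Fin (m + 1) =>
    count_ge hw (Qn μ (m + 1) (l + 2)) he0 hδ
  filter_upwards [hall, lam_range hmin hmax he0, eventually_ge_atTop (2 * (m + 1) ^ 2)]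
    with N h1 h2 h3
  obtain ⟨b, hb1, hb2⟩ := exists_blocks m N (lam N)
  have key : ∀ (i : Fin N) (l : ℕ), l ≤ m →
      (Finset.univ.filter fun j => lam N i < lam N j).card ≤ (l + 1) * (N / (m + 1)) + m →
      Qn μ (m + 1) (l + 2) - e ≤ lam N i := by
    intro i l hl hi
    by_cases hl2 : m + 1 ≤ l + 2
    · rw [Qn_top hc (by omega) hl2]
      exact (h2 i).1
    by_contra hcon
    have hlt : lam N i ≤ Qn μ (m + 1) (l + 2) - e := by linarith
    have c1 : (Finset.univ.filter fun j => Qn μ (m + 1) (l + 2) - e < lam N j).card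
        ≤ (Finset.univ.filter fun j => lam N i < lam N j).card :=
      Finset.card_le_card (Finset.monotone_filter_right _ fun j _ hj => hlt.trans_lt hj)
    have c2 : ((Finset.univ.filter fun j => Qn μ (m + 1) (l + 2) - e < lam N j).card : ℝ)
        ≤ ((l : ℝ) + 1) * ((N / (m + 1) : ℕ) : ℝ) + m := by
      exact_mod_cast c1.trans hi
    have c3 := h1 ⟨l, by omega⟩
    have c4 := Qn_Ici hc (K := m + 1) (a := l + 2) (by omega) (by omega)
    have c5 := (div_bounds N (m + 1) (Nat.succ_pos m)).2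
    have c6 : 2 * ((m + 1 : ℕ) : ℝ) ^ 2 ≤ N := by exact_mod_cast h3
    have c7 : ((m + 1 : ℕ) : ℝ) = m + 1 := by push_cast; ring
    have c8 : ((l + 2 : ℕ) : ℝ) = l + 2 := by push_cast; ring
    rw [c8] at c4
    set K : ℝ := ((m + 1 : ℕ) : ℝ) with hKdef
    have ha0 : (0 : ℝ) ≤ (l : ℝ) := Nat.cast_nonneg _
    have hN0 : (0 : ℝ) ≤ N := Nat.cast_nonneg _
    have d1 : N * (((l : ℝ) + 2) / K - 1 / (2 * K)) ≤ ((l : ℝ) + 1) * ((N : ℝ) / K) + m :=
      calc N * (((l : ℝ) + 2) / K - 1 / (2 * K))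
          ≤ N * (μ.real (Set.Ici (Qn μ (m + 1) (l + 2))) - 1 / (2 * K)) :=
            mul_le_mul_of_nonneg_left (by linarith) hN0
        _ ≤ _ := c3
        _ ≤ _ := c2
        _ ≤ _ := by
            have := mul_le_mul_of_nonneg_left c5 (by linarith : (0 : ℝ) ≤ (l : ℝ) + 1)
            linarith
    have d2 : K ≤ N / (2 * K) := by
      rw [le_div_iff₀ (by positivity)]
      nlinarith
    have d3 : N * (((l : ℝ) + 2) / K - 1 / (2 * K)) - ((l : ℝ) + 1) * ((N : ℝ) / K)
        = N / (2 * K) := by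
      field_simp
      ring
    linarith
  refine ⟨b, hb1, fun i => ?_⟩
  have hi := (hb2 i).2
  rcases hb : b i with _ | a
  · rw [hb] at hi
    have := key i 0 (Nat.zero_le _) hi
    simp only [cv, Option.elim]
    exact mul_nonpos_of_nonneg_of_nonpos hβ.le (by simpa using this)
  · rw [hb] at hi
    have := key i (a + 1) a.2 hi
    simp only [cv, Option.elim, add_zero]
    refine mul_le_mul_of_nonneg_left ?_ hβ.le
    have e3 : (a : ℕ) + 1 + 2 = a + 3 := rfl
    rw [e3] at this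
    linarith

end Vale.Agent.P166
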