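import Vale.Agent.P166.WpB

/-! # The integrated distribution function -/

namespace Vale.Agent.P166

open MeasureTheory Vale.Agent.P157

variable {n : ℕ} {ζ q q' : ℕ → ℝ}

theorem continuous_dl (n : ℕ) (ζ q : ℕ → ℝ) : Continuous (dl n ζ q) := by
  unfold dl
  fun_prop

theorem dl_nonneg (hζ : Zok ζ) (hq : CAdm n q) (t : ℝ) : 0 ≤ dl n ζ q t :=
  Finset.sum_nonneg fun d _ =>
    mul_nonneg (hζ.nn d) (sub_nonneg.2 (max_le_max_right t (hq.anti (Nat.le_succ d))))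

theorem dl_anti (hζ : Zok ζ) (hq : CAdm n q) : Antitone (dl n ζ q) := by
  intro s t hst
  refine Finset.sum_le_sum fun d _ => mul_le_mul_of_nonneg_left ?_ (hζ.nn d)
  have h := hq.anti (Nat.le_succ d)
  simp only [max_def, Nat.succ_eq_add_one] at h ⊢
  split_ifs <;> linarith

theorem dl_pos (h : Adm n ζ q) {t : ℝ} (ht : t < 1) : 0 < dl n ζ q t := by
  have hn : 0 < n := Nat.pos_of_ne_zero fun h0 => one_ne_zero (h.z0.symm.trans (h.zn 0 h0.le))
  refine Finset.sum_pos' (fun d _ => mul_nonneg (h.zadm.zok.nn d)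
    (sub_nonneg.2 (max_le_max_right t (h.qa (Nat.le_succ d))))) ⟨0, Finset.mem_range.2 hn, ?_⟩
  rw [h.z0, h.q0, one_mul, max_eq_left ht.le, sub_pos]
  exact max_lt h.q1 ht

namespace DlAux

theorem cs_max (hq : CAdm n q) {d : ℕ} {t : ℝ} (h : t ≤ q d) :
    ∑ k ∈ Finset.range d, ζ k * (max (q k) t - max (q (k + 1)) t) = csDelta ζ q d :=
  Finset.sum_congr rfl fun k hk => by
    have hk' := Finset.mem_range.1 hk
    rw [max_eq_left (h.trans (hq.anti hk'.le)), max_eq_left (h.trans (hq.anti hk'))]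

theorem exists_seg {t : ℝ} (ht : t ≤ q 0) (m : ℕ) :
    t ≤ q m ∨ ∃ d, d < m ∧ q (d + 1) ≤ t ∧ t ≤ q d := by
  induction m with
  | zero => exact Or.inl ht
  | succ m ih =>
    rcases ih with h | ⟨d, h1, h2⟩
    · exact (le_total t (q (m + 1))).imp_right fun h1 => ⟨m, Nat.lt_succ_self m, h1, h⟩
    · exact Or.inr ⟨d, by omega, h2⟩

theorem QQ_le (hζ : Antitone ζ) (t : ℝ) {d m : ℕ} (hd : d ≤ m) :
    QQ ζ q d + ζ d * t ≤ QQ ζ (fun k => max (q k) t) m + ζ m * t := by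
  induction m, hd using Nat.le_induction with
  | base =>
    exact add_le_add_left (Finset.sum_le_sum fun k _ =>
      mul_le_mul_of_nonneg_left (le_max_left _ _) (sub_nonneg.2 (hζ (Nat.le_succ k)))) _
  | succ m _ ih =>
    have h := mul_le_mul_of_nonneg_left (le_max_right (q (m + 1)) t)
      (sub_nonneg.2 (hζ (Nat.le_add_right m 1)))
    unfold QQ at ih ⊢
    rw [Finset.sum_range_succ]
    linarith

theorem dl_ins {i : ℕ} (hi : i < n) (z : ℝ) :
    dl (n + 1) (insAt i z ζ) (insAt i (q (i + 1)) q) = dl n ζ q := by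
  funext t
  have e : (fun k => max (insAt i (q (i + 1)) q k) t) =
      insAt i (max (q (i + 1)) t) fun k => max (q k) t := by
    funext k
    unfold insAt
    split_ifs <;> rfl
  have h := InsertAux.cs_high i z ζ (fun k => max (q k) t) hi
  rw [← e] at h
  exact h

theorem refine_aux {η : ℝ} (hη : 0 < η) (N : ℕ) :
    ∀ {n : ℕ} {ζ q : ℕ → ℝ}, Adm n ζ q →
      ∑ k ∈ Finset.range n, (ζ k - ζ (k + 1)) ^ 2 < N * (η ^ 2 / 2) →
    ∃ n' ζ' q', Adm n' ζ' q' ∧ (∀ k, k < n' → ζ' k - ζ' (k + 1) ≤ η) ∧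
      dl n' ζ' q' = dl n ζ q ∧ isingS n' ζ' q' ≤ isingS n ζ q := by
  induction N with
  | zero =>
    intro n ζ q _ hs
    rw [Nat.cast_zero, zero_mul] at hs
    exact absurd hs (not_lt.2 (Finset.sum_nonneg fun k _ => sq_nonneg _))
  | succ N ih =>
    intro n ζ q h hs
    by_cases hall : ∀ k, k < n → ζ k - ζ (k + 1) ≤ η
    · exact ⟨n, ζ, q, h, hall, rfl, le_rfl⟩
    · obtain ⟨i, hi, hlt⟩ : ∃ i, i < n ∧ η < ζ i - ζ (i + 1) := by
        by_contra hc
        exact hall fun k hk => not_lt.1 fun hk' => hc ⟨k, hk, hk'⟩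
      obtain ⟨h1, -, -, h4⟩ := insert_one h hi (z := (ζ i + ζ (i + 1)) / 2) (by linarith)
        (by linarith)
      obtain ⟨n', ζ', q', k1, k2, k3, k5⟩ := ih h1 (by
        rw [InsertAux.sq_sum_ins hi]
        push_cast at hs
        nlinarith)
      exact ⟨n', ζ', q', k1, k2, k3.trans (dl_ins hi _), k5.trans h4⟩

end DlAux

theorem dl_seg (hq : CAdm n q) {d : ℕ} (hd : d < n) {t : ℝ} (h1 : q (d + 1) ≤ t) (h2 : t ≤ q d) :
    dl n ζ q t = csDelta ζ q d + ζ d * (q d - t) := by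
  unfold dl
  rw [← Finset.sum_subset (Finset.range_mono (Nat.succ_le_of_lt hd)), Finset.sum_range_succ,
    DlAux.cs_max hq h2, max_eq_left h2, max_eq_right h1]
  intro k _ hk
  have hk' : d + 1 ≤ k := not_lt.1 fun h => hk (Finset.mem_range.2 h)
  rw [max_eq_right ((hq.anti hk').trans h1),
    max_eq_right ((hq.anti (hk'.trans (Nat.le_succ k))).trans h1), sub_self, mul_zero]

theorem dl_low (hq : CAdm n q) {t : ℝ} (h : t ≤ q n) : dl n ζ q t = csDelta ζ q n :=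
  DlAux.cs_max hq h

theorem dl_le_line (hζ : ZAdm n ζ) (hq : CAdm n q) {d : ℕ} (hd : d ≤ n) {t : ℝ} (ht : t ≤ q 0) :
    dl n ζ q t ≤ q 0 - QQ ζ q d - ζ d * t := by
  have h1 := sub_QQ hζ.z0 (fun k => max (q k) t) n
  have h2 := DlAux.QQ_le (q := q) hζ.zok.anti t hd
  have h3 : csDelta ζ (fun k => max (q k) t) n = dl n ζ q t := rfl
  rw [hζ.zn n le_rfl, zero_mul] at h1 h2
  rw [h3, max_eq_left ht] at h1
  linarith

theorem dl_eq_line (hζ : ZAdm n ζ) (hq : CAdm n q) {t : ℝ} (ht : t ≤ q 0) :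
    ∃ d, d ≤ n ∧ dl n ζ q t = q 0 - QQ ζ q d - ζ d * t := by
  rcases DlAux.exists_seg ht n with h | ⟨d, h1, h2, h3⟩
  · exact ⟨n, le_rfl, by rw [dl_low hq h, sub_QQ hζ.z0, hζ.zn n le_rfl]; ring⟩
  · exact ⟨d, h1.le, by rw [dl_seg hq h1 h2 h3, sub_QQ hζ.z0]; ring⟩

theorem dl_cmp (hζ : ZAdm n ζ) (hq : CAdm n q) (hq' : CAdm n q') {ε : ℝ}
    (h : ∀ d, d ≤ n → q 0 - QQ ζ q d ≤ q' 0 - QQ ζ q' d + ε) {t : ℝ} (ht : t ≤ q 0)
    (ht' : t ≤ q' 0) : dl n ζ q t ≤ dl n ζ q' t + ε := by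
  obtain ⟨d, hd, e⟩ := dl_eq_line hζ hq' ht'
  linarith [dl_le_line hζ hq hd ht, h d hd]

theorem seg_int (hζ : ZAdm n ζ) (hq : CAdm n q) {F : ℝ → ℝ} (hF : ContinuousOn F (Set.Ici 0)) :
    ∫ t in (0 : ℝ)..q 0, F (dl n ζ q t)
      = ∑ d ∈ Finset.range n, (∫ x in csDelta ζ q d..csDelta ζ q (d + 1), F x) / ζ d
        + q n * F (csDelta ζ q n) := by
  have hc : Continuous fun t => F (dl n ζ q t) :=
    hF.comp_continuous (continuous_dl n ζ q) (dl_nonneg hζ.zok hq)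
  have hn : 0 ≤ q n := (hq.zero (n + 1) (Nat.lt_succ_self n)).ge.trans (hq.anti (Nat.le_succ n))
  have h1 := intervalIntegral.sum_integral_adjacent_intervals (μ := volume) (a := q) (n := n)
    fun k _ => hc.intervalIntegrable (q k) (q (k + 1))
  have h2 : ∫ t in (0 : ℝ)..q n, F (dl n ζ q t) = q n * F (csDelta ζ q n) := by
    rw [intervalIntegral.integral_congr (g := fun _ => F (csDelta ζ q n)) fun t ht => by
      rw [Set.uIcc_of_le hn] at ht
      simp only [dl_low hq ht.2]]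
    simp
  have h3 : ∀ d ∈ Finset.range n, (∫ x in csDelta ζ q d..csDelta ζ q (d + 1), F x) / ζ d =
      -∫ t in q d..q (d + 1), F (dl n ζ q t) := by
    intro d hd
    have hd' := Finset.mem_range.1 hd
    have h4 : ζ d ≠ 0 := ((hζ.zok.nn (d + 1)).trans_lt (hζ.zlt d hd')).ne'
    rw [← intervalIntegral.integral_symm, intervalIntegral.integral_congr (a := q (d + 1))
      (g := fun t => F (csDelta ζ q d + ζ d * q d - ζ d * t)) fun t ht => by
        rw [Set.uIcc_of_le (hq.anti (Nat.le_succ d))] at ht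
        simp only [dl_seg hq hd' ht.1 ht.2, mul_sub, add_sub_assoc],
      intervalIntegral.integral_comp_sub_mul F h4, add_sub_cancel_right, csDelta_step, dq,
      mul_sub, add_sub_assoc, smul_eq_mul, div_eq_inv_mul]
  rw [Finset.sum_congr rfl h3, Finset.sum_neg_distrib, h1, ← h2, ← intervalIntegral.integral_symm,
    add_comm, intervalIntegral.integral_add_adjacent_intervals (hc.intervalIntegrable _ _)
      (hc.intervalIntegrable _ _)]

theorem refine_dl (h : Adm n ζ q) {η : ℝ} (hη : 0 < η) :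
    ∃ n' ζ' q', Adm n' ζ' q' ∧ (∀ k, k < n' → ζ' k - ζ' (k + 1) ≤ η) ∧
      dl n' ζ' q' = dl n ζ q ∧ isingS n' ζ' q' ≤ isingS n ζ q := by
  have hp : 0 < η ^ 2 / 2 := by positivity
  obtain ⟨N, hN⟩ := exists_nat_gt ((∑ k ∈ Finset.range n, (ζ k - ζ (k + 1)) ^ 2) / (η ^ 2 / 2))
  exact DlAux.refine_aux hη N h ((div_lt_iff₀ hp).1 hN)

end Vale.Agent.P166
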