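import Vale.Agent.P166.Model
import Vale.Agent.P166.CavJet

/-! # The frame system: crude bounds, truncation, continuity in the coefficients -/

namespace Vale.Agent.P166

open MeasureTheory ProbabilityTheory Vale.Agent.P157

namespace FQAux

theorem slope_bd {f : ℝ → ℝ} (hf : ConvexOn ℝ Set.univ f) (ha : Antitone f) {k s : ℝ}
    (hk : 0 < k) (hs : |s| ≤ k / 2) : |f s - f 0| ≤ 2 / k * |s| * (f (-k) - f (-(k / 2))) := by
  have key : ∀ x y : ℝ, -(k / 2) ≤ x → x < y →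
      f x - f y ≤ 2 / k * (y - x) * (f (-k) - f (-(k / 2))) := by
    intro x y hx hxy
    have h1 := hf.secant_mono (a := -k) (x := -(k / 2)) (y := y) trivial trivial trivial
      (by linarith) (by linarith) (by linarith)
    have h2 := hf.secant_mono (a := y) (x := -k) (y := x) trivial trivial trivial
      (by linarith) (by linarith) (by linarith)
    have e1 : (f (-k) - f y) / (-k - y) = (f y - f (-k)) / (y - -k) := by
      rw [← neg_div_neg_eq, neg_sub, neg_sub]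
    have e2 : (f x - f y) / (x - y) = -(f x - f y) / (y - x) := by
      rw [← neg_div_neg_eq, neg_sub x y]
    rw [e1, e2] at h2
    have h3 := h1.trans h2
    rw [le_div_iff₀ (by linarith)] at h3
    have e3 : (f (-(k / 2)) - f (-k)) / (-(k / 2) - -k) * (y - x)
        = -(2 / k * (y - x) * (f (-k) - f (-(k / 2)))) := by
      have : -(k / 2) - -k = k / 2 := by ring
      rw [this]
      field_simp
      ring
    linarith
  rcases lt_trichotomy s 0 with h | h | h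
  · rw [abs_of_neg h] at hs ⊢
    rw [abs_of_nonneg (sub_nonneg.2 (ha h.le))]
    simpa using key s 0 (by linarith) h
  · simp [h]
  · rw [abs_of_pos h, abs_of_nonpos (sub_nonpos.2 (ha h.le)), neg_sub]
    simpa using key 0 s (by linarith) h

variable {S : Type} [Fintype S] [DecidableEq S] {A : Type} [Fintype A] [DecidableEq A]
  {L : Type} [Fintype L] {ζ : ℕ → ℝ}

/-- Sum of the fourth moments of the frame coordinates. -/
noncomputable def M4 (ζ : ℕ → ℝ) (n : ℕ) (ca : A → ℝ) (θ : ℕ → ℝ) (b : S → Option A)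
    (ϑ : ℕ → ℝ) (jj : L → S) (U : OG S) : ℝ :=
  ∑ l, lEG (cube S) ζ n (sb θ ϑ b) (EQ (cb ca ϑ b) U) (yv U) fun x => yv U (jj l) x ^ 4

theorem map_fst2 : ((cube S).prod UnifAux.mu2).map Prod.fst = cube S := by
  rw [Measure.map_fst_prod, measure_univ, one_smul]

variable (hζ : Zok ζ) (hz : ζ 0 = 1) (n : ℕ) (ca : A → ℝ) (θ : ℕ → ℝ) (b : S → Option A)
  (ϑ : ℕ → ℝ) (jj : L → S)
include hζ hz

theorem bm_M4 : BM (M4 ζ n ca θ b ϑ jj) :=
  BM.sum _ fun l _ => bm_GB hζ hz n ca θ b ϑ (g := fun U x => yv U (jj l) x ^ 4)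
    ((bm_yv (jj l)).pow 4)

theorem int_M4 {D : ℝ} {N : ℕ} (h : Bal D N b) (hD : 2 * D ≤ N) (hN : 1 ≤ N) :
    ∫ U, M4 ζ n ca θ b ϑ jj U ∂(haarO S) ≤ Fintype.card L * (27 * KK A ^ 2) := by
  unfold M4
  rw [integral_finsetSum _ fun l _ => (bm_GB hζ hz n ca θ b ϑ
    (g := fun U x => yv U (jj l) x ^ 4) ((bm_yv (jj l)).pow 4)).integrable]
  refine (Finset.sum_le_sum fun l _ => mom4_bal hζ hz n ca θ ϑ h hD hN (jj l)).trans ?_
  simp

omit hz in
theorem leg_le (U : OG S) {g : (S → Bool) × Bool → ℝ} {a c : ℝ}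
    (h : ∀ x, g x ≤ a * ∑ l, yv U (jj l) x.1 ^ 4 + c) :
    lEG ((cube S).prod UnifAux.mu2) ζ n (sb θ ϑ b) (fun x => EQ (cb ca ϑ b) U x.1)
      (fun i x => yv U i x.1) g ≤ a * M4 ζ n ca θ b ϑ jj U + c := by
  refine (leg_mono hζ (bm_fin _) (fun _ => bm_fin _) n _ (bm_fin _) (bm_fin _) h).trans ?_
  rw [leg_add hζ (bm_fin _) (fun _ => bm_fin _) n _ (bm_fin _) (bm_fin _),
    leg_const hζ (bm_fin _) (fun _ => bm_fin _), leg_const_mul,
    leg_sum hζ (bm_fin _) (fun _ => bm_fin _) n _ _ fun _ _ => bm_fin _]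
  unfold M4
  refine le_of_eq ?_
  congr 2
  refine Finset.sum_congr rfl fun l _ => ?_
  exact (leg_map measurable_fst map_fst2 (bm_fin _).1 (fun _ => (bm_fin _).1)
    (g := fun x => yv U (jj l) x ^ 4) (bm_fin _).1 n _).symm

omit hζ hz in
theorem xb_eq (U : OG S) : XB ζ n ca θ b ϑ U = LS ((cube S).prod UnifAux.mu2) ζ n (sb θ ϑ b)
    (fun x => EQ (cb ca ϑ b) U x.1) fun i x => yv U i x.1 :=
  ls_map measurable_fst map_fst2 (bm_fin _).1 (fun _ => (bm_fin _).1) n _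

omit hz in
theorem cx_le (d0 : ℕ) (σ : ℝ) {P P' : (L → ℝ) → Bool → ℝ} (η : (L → ℝ) → Bool → ℝ) (U : OG S)
    (t : (S → Bool) → L → ℝ) (h : ∀ t ε, P t ε ≤ P' t ε) :
    CX ζ n ca θ b ϑ d0 σ P η U t ≤ CX ζ n ca θ b ϑ d0 σ P' η U t := by
  have := sl_le (μ := (cube S).prod UnifAux.mu2) hζ
    (E := fun x => EQ (cb ca ϑ b) U x.1 + P (t x.1) x.2)
    (E' := fun x => EQ (cb ca ϑ b) U x.1 + P' (t x.1) x.2) (ξ := fun i x => yv U i x.1)
    (η := fun x => η (t x.1) x.2) (η' := fun x => η (t x.1) x.2) (c := 0) (e := 0)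
    (bm_fin _) (bm_fin _) (fun _ => bm_fin _) (bm_fin _) (bm_fin _)
    (fun x => by linarith [h (t x.1) x.2]) (fun x => by simp) n d0 σ (sb θ ϑ b)
  unfold CX
  linarith

end FQAux

open FQAux

theorem fq_crude (A L : Type) [Fintype A] [DecidableEq A] [Fintype L] (κm : ℝ) :
    ∃ C : ℝ, 0 ≤ C ∧
    ∀ (S : Type) [Fintype S] [DecidableEq S] (ζ : ℕ → ℝ) (n : ℕ) (ca : A → ℝ) (θ : ℕ → ℝ)
      (b : S → Option A) (ϑ : ℕ → ℝ) (d0 : ℕ) (σ D Lb : ℝ) (N : ℕ) (κ β : L → ℝ)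
      (η : (L → ℝ) → Bool → ℝ) (jj : L → S), Zok ζ → ζ 0 = 1 → Bal D N b → 2 * D ≤ N → 1 ≤ N →
      (∀ l, 0 ≤ κ l ∧ κ l ≤ κm) → ∑ l, β l ^ 2 ≤ κm → Measurable (Function.uncurry η) →
      (∀ t ε, |η t ε| ≤ Lb) →
      AV ζ n ca θ b ϑ - C - Lb ≤ FP ζ n ca θ b ϑ d0 σ (cavQ κ β) η jj ∧
        FP ζ n ca θ b ϑ d0 σ (cavQ κ β) η jj ≤ AV ζ n ca θ b ϑ + Lb := by
  have hK := KK_pos (A := A)
  refine ⟨2 * κm ^ 2 * Fintype.card L * (Fintype.card L * (27 * KK A ^ 2))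
    + (1 / 4 + 2 * κm ^ 4), by positivity, ?_⟩
  intro S _ _ ζ n ca θ b ϑ d0 σ D Lb N κ β η jj hζ hz hb hD hN hκ hβ hη hL
  have iC := (bm_FQ hζ hz n ca θ b ϑ d0 σ κ β (η := η) ⟨hη, Lb, fun p => hL p.1 p.2⟩
    jj).integrable (ν := haarO S)
  have iX := (bm_XB hζ hz n ca θ b ϑ).integrable (ν := haarO S)
  have iM := (bm_M4 hζ hz n ca θ b ϑ jj).integrable (ν := haarO S)
  have hM := int_M4 hζ hz n ca θ b ϑ jj hb hD hN
  have pt : ∀ U : OG S,
      XB ζ n ca θ b ϑ U - (2 * κm ^ 2 * Fintype.card L * M4 ζ n ca θ b ϑ jj U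
        + (1 / 4 + 2 * κm ^ 4 + Lb))
        ≤ CX ζ n ca θ b ϑ d0 σ (cavQ κ β) η U (fun x l => yv U (jj l) x) ∧
      CX ζ n ca θ b ϑ d0 σ (cavQ κ β) η U (fun x l => yv U (jj l) x)
        ≤ XB ζ n ca θ b ϑ U + Lb := by
    intro U
    have h1 := abs_le.1 (sl_abs (μ := (cube S).prod UnifAux.mu2) hζ
      (E := fun x => EQ (cb ca ϑ b) U x.1 + cavQ κ β (fun l => yv U (jj l) x.1) x.2)
      (ξ := fun i x => yv U i x.1) (η := fun x => η (fun l => yv U (jj l) x.1) x.2)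
      (bm_fin _) (fun _ => bm_fin _) (bm_fin _).1 (fun x => hL _ _) n d0 σ (sb θ ϑ b))
    have h2 := ls_le (μ := (cube S).prod UnifAux.mu2) hζ
      (E := fun x => EQ (cb ca ϑ b) U x.1 + cavQ κ β (fun l => yv U (jj l) x.1) x.2)
      (E' := fun x => EQ (cb ca ϑ b) U x.1) (ξ := fun i x => yv U i x.1) (c := 0)
      (bm_fin _) (bm_fin _) (fun _ => bm_fin _) (fun x => by
        have := qf_nonneg (fun l => (hκ l).1) β (fun l => yv U (jj l) x.1) x.2
        unfold cavQ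
        linarith) n (sb θ ϑ b)
    have h3 := ls_jensen (μ := (cube S).prod UnifAux.mu2) hζ
      (E := fun x => EQ (cb ca ϑ b) U x.1) (ξ := fun i x => yv U i x.1)
      (g := fun x => cavQ κ β (fun l => yv U (jj l) x.1) x.2)
      (bm_fin _) (fun _ => bm_fin _) (bm_fin _) n (sb θ ϑ b)
    have h4 := leg_le hζ n ca θ b ϑ jj U
      (g := fun x => (-1) * cavQ κ β (fun l => yv U (jj l) x.1) x.2)
      (a := 2 * κm ^ 2 * Fintype.card L) (c := 1 / 4 + 2 * κm ^ 4) fun x => by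
        have := qf_sq_le hκ hβ (fun l => yv U (jj l) x.1) x.2
        unfold cavQ
        nlinarith [sq_nonneg (Qf κ β (fun l => yv U (jj l) x.1) x.2 - 1)]
    rw [leg_const_mul] at h4
    rw [xb_eq]
    unfold CX
    constructor <;> linarith [h1.1, h1.2]
  unfold AV FP
  constructor
  · have i1 : Integrable (fun U => 2 * κm ^ 2 * Fintype.card L * M4 ζ n ca θ b ϑ jj U
        + (1 / 4 + 2 * κm ^ 4 + Lb)) (haarO S) := (iM.const_mul _).add (integrable_const _)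
    have := integral_mono (iX.sub i1) iC fun U => (pt U).1
    simp only [Pi.sub_apply] at this
    rw [integral_sub iX i1, integral_add (iM.const_mul _) (integrable_const _), integral_const_mul, integral_const,
      probReal_univ, one_smul] at this
    have h5 := mul_le_mul_of_nonneg_left hM
      (show 0 ≤ 2 * κm ^ 2 * (Fintype.card L : ℝ) by positivity)
    linarith
  · have := integral_mono iC (iX.add (integrable_const Lb)) fun U => (pt U).2
    simp only [Pi.add_apply] at this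
    rwa [integral_add iX (integrable_const _), integral_const, probReal_univ, one_smul] at this

theorem fq_trunc (A L : Type) [Fintype A] [DecidableEq A] [Fintype L] (κm : ℝ) :
    ∃ C : ℝ, 0 ≤ C ∧
    ∀ (S : Type) [Fintype S] [DecidableEq S] (ζ : ℕ → ℝ) (n : ℕ) (ca : A → ℝ) (θ : ℕ → ℝ)
      (b : S → Option A) (ϑ : ℕ → ℝ) (d0 : ℕ) (σ D Lb R : ℝ) (N : ℕ) (κ β : L → ℝ)
      (η : (L → ℝ) → Bool → ℝ) (jj : L → S), Zok ζ → ζ 0 = 1 → Bal D N b → 2 * D ≤ N → 1 ≤ N →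
      0 < R → (∀ l, 0 ≤ κ l ∧ κ l ≤ κm) → ∑ l, β l ^ 2 ≤ κm → Measurable (Function.uncurry η) →
      (∀ t ε, |η t ε| ≤ Lb) →
      |FP ζ n ca θ b ϑ d0 σ (cavE R κ β) η jj - FP ζ n ca θ b ϑ d0 σ (cavQ κ β) η jj|
        ≤ C * Real.exp (4 * Lb) / R := by
  have hK := KK_pos (A := A)
  refine ⟨κm ^ 2 * Fintype.card L * (Fintype.card L * (27 * KK A ^ 2)) + κm ^ 4,
    by positivity, ?_⟩
  intro S _ _ ζ n ca θ b ϑ d0 σ D Lb R N κ β η jj hζ hz hb hD hN hR hκ hβ hη hL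
  have hκ0 : ∀ l, 0 ≤ κ l := fun l => (hκ l).1
  have iC := (bm_FQ hζ hz n ca θ b ϑ d0 σ κ β (η := η) ⟨hη, Lb, fun p => hL p.1 p.2⟩
    jj).integrable (ν := haarO S)
  have iE := (bm_CX hζ hz n ca θ b ϑ d0 σ (measurable_cavE R κ β) hη (u := fun U : OG S => U)
    measurable_id (t := fun U x l => yv U (jj l) x) (fun x l => measurable_yv _ _)
    (C := max R Lb) (fun _ _ _ => (abs_cavE_le hR hκ0 _ _ _).trans (le_max_left _ _))
    fun _ _ _ => (hL _ _).trans (le_max_right _ _)).integrable (ν := haarO S)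
  have iM := (bm_M4 hζ hz n ca θ b ϑ jj).integrable (ν := haarO S)
  have hM := int_M4 hζ hz n ca θ b ϑ jj hb hD hN
  have pt : ∀ U : OG S,
      CX ζ n ca θ b ϑ d0 σ (cavE R κ β) η U (fun x l => yv U (jj l) x)
        - CX ζ n ca θ b ϑ d0 σ (cavQ κ β) η U (fun x l => yv U (jj l) x)
        ≤ Real.exp (4 * Lb) * (κm ^ 2 * Fintype.card L / R * M4 ζ n ca θ b ϑ jj U
          + κm ^ 4 / R) := by
    intro U
    have hQ : ∀ x : (S → Bool) × Bool, 0 ≤ Qf κ β (fun l => yv U (jj l) x.1) x.2 :=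
      fun x => qf_nonneg hκ0 _ _ _
    have h1 := sl_trunc (μ := (cube S).prod UnifAux.mu2) hζ hz
      (E := fun x => EQ (cb ca ϑ b) U x.1) (ξ := fun i x => yv U i x.1)
      (η := fun x => η (fun l => yv U (jj l) x.1) x.2)
      (u := fun x => cavE R κ β (fun l => yv U (jj l) x.1) x.2)
      (v := fun x => -Qf κ β (fun l => yv U (jj l) x.1) x.2 / 2
        - fR R (Qf κ β (fun l => yv U (jj l) x.1) x.2))
      (bm_fin _) (fun _ => bm_fin _) (bm_fin _).1 (fun x => hL _ _) (bm_fin _) (bm_fin _)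
      (fun x x' => by
        unfold cavE
        rcases le_total (Qf κ β (fun l => yv U (jj l) x.1) x.2)
          (Qf κ β (fun l => yv U (jj l) x'.1) x'.2) with h | h
        · exact mul_nonneg (sub_nonneg.2 (fR_anti hR h))
            (sub_nonneg.2 (fR_rest_anti hR (hQ x) (hQ x') h))
        · exact mul_nonneg_of_nonpos_of_nonpos (sub_nonpos.2 (fR_anti hR h))
            (sub_nonpos.2 (fR_rest_anti hR (hQ x') (hQ x) h)))
      (fun x => by linarith [(fR_bounds hR (hQ x)).2.2.1]) n d0 σ (sb θ ϑ b)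
    have h2 := leg_le hζ n ca θ b ϑ jj U
      (g := fun x => -(-Qf κ β (fun l => yv U (jj l) x.1) x.2 / 2
        - fR R (Qf κ β (fun l => yv U (jj l) x.1) x.2)))
      (a := κm ^ 2 * Fintype.card L / R) (c := κm ^ 4 / R) fun x => by
        have h3 := div_le_div_of_nonneg_right (qf_sq_le hκ hβ (fun l => yv U (jj l) x.1) x.2)
          (show 0 ≤ 8 * R by positivity)
        have h4 := (fR_bounds hR (hQ x)).2.2.2
        have e : 8 * κm ^ 2 * (Fintype.card L * ∑ l, yv U (jj l) x.1 ^ 4 + κm ^ 2) / (8 * R)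
            = κm ^ 2 * Fintype.card L / R * ∑ l, yv U (jj l) x.1 ^ 4 + κm ^ 4 / R := by
          field_simp
        linarith
    have e : (fun x : (S → Bool) × Bool => EQ (cb ca ϑ b) U x.1
        + cavE R κ β (fun l => yv U (jj l) x.1) x.2
        + (-Qf κ β (fun l => yv U (jj l) x.1) x.2 / 2
          - fR R (Qf κ β (fun l => yv U (jj l) x.1) x.2)))
        = fun x => EQ (cb ca ϑ b) U x.1 + cavQ κ β (fun l => yv U (jj l) x.1) x.2 := by
      funext x
      unfold cavE cavQ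
      ring
    rw [e] at h1
    exact h1.trans (mul_le_mul_of_nonneg_left h2 (Real.exp_pos _).le)
  have lo := integral_mono iC iE fun U => cx_le hζ n ca θ b ϑ d0 σ η U _ fun t ε =>
    (fR_bounds hR (qf_nonneg hκ0 β t ε)).2.2.1
  have up := integral_mono (iE.sub iC)
    (((iM.const_mul _).add (integrable_const _)).const_mul _) pt
  simp only [Pi.add_apply, Pi.sub_apply] at up
  rw [integral_sub iE iC, integral_const_mul, integral_add (iM.const_mul _) (integrable_const _),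
    integral_const_mul, integral_const, probReal_univ, one_smul] at up
  unfold FP
  rw [abs_of_nonneg (sub_nonneg.2 lo)]
  refine up.trans ?_
  have h5 := mul_le_mul_of_nonneg_left hM
    (show 0 ≤ κm ^ 2 * (Fintype.card L : ℝ) / R by positivity)
  refine (mul_le_mul_of_nonneg_left (add_le_add h5 le_rfl) (Real.exp_pos _).le).trans
    (le_of_eq ?_)
  field_simp

theorem fq_lip (A L : Type) [Fintype A] [DecidableEq A] [Fintype L] {κ0 : ℝ} (h0 : 0 < κ0)
    (κm : ℝ) : ∃ C : ℝ, 0 ≤ C ∧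
    ∀ (S : Type) [Fintype S] [DecidableEq S] (ζ : ℕ → ℝ) (n : ℕ) (ca : A → ℝ) (θ : ℕ → ℝ)
      (b : S → Option A) (ϑ : ℕ → ℝ) (d0 : ℕ) (σ D Lb s : ℝ) (N : ℕ) (κ β : L → ℝ)
      (η : (L → ℝ) → Bool → ℝ) (jj : L → S), Zok ζ → ζ 0 = 1 → Bal D N b → 2 * D ≤ N → 1 ≤ N →
      (∀ l, κ0 ≤ κ l ∧ κ l ≤ κm) → ∑ l, β l ^ 2 ≤ κm → Measurable (Function.uncurry η) →
      (∀ t ε, |η t ε| ≤ Lb) → |s| ≤ κ0 / 2 →
      |FP ζ n ca θ b ϑ d0 σ (cavQ (fun l => κ l + s) β) η jj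
          - FP ζ n ca θ b ϑ d0 σ (cavQ κ β) η jj| ≤ C * (1 + Lb) * |s| := by
  obtain ⟨C, hC, H⟩ := fq_crude A L κm
  refine ⟨2 / κ0 * (C + 2), by positivity, ?_⟩
  intro S _ _ ζ n ca θ b ϑ d0 σ D Lb s N κ β η jj hζ hz hb hD hN hκ hβ hη hL hs
  have hLb : 0 ≤ Lb := (abs_nonneg _).trans (hL 0 true)
  have iC := fun κ : L → ℝ => (bm_FQ hζ hz n ca θ b ϑ d0 σ κ β (η := η)
    ⟨hη, Lb, fun p => hL p.1 p.2⟩ jj).integrable (ν := haarO S)
  have pt : ∀ U : OG S,
      |CX ζ n ca θ b ϑ d0 σ (cavQ (fun l => κ l + s) β) η U (fun x l => yv U (jj l) x)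
        - CX ζ n ca θ b ϑ d0 σ (cavQ κ β) η U (fun x l => yv U (jj l) x)|
        ≤ 2 / κ0 * |s| *
          (CX ζ n ca θ b ϑ d0 σ (cavQ (fun l => κ l + -κ0) β) η U (fun x l => yv U (jj l) x)
          - CX ζ n ca θ b ϑ d0 σ (cavQ (fun l => κ l + -(κ0 / 2)) β) η U
            fun x l => yv U (jj l) x) := by
    intro U
    have h1 := sl_convex (μ := (cube S).prod UnifAux.mu2) hζ
      (E := fun x => EQ (cb ca ϑ b) U x.1 + cavQ κ β (fun l => yv U (jj l) x.1) x.2)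
      (ξ := fun i x => yv U i x.1) (η := fun x => η (fun l => yv U (jj l) x.1) x.2)
      (g := fun x => cavQ (fun _ => 1) β (fun l => yv U (jj l) x.1) x.2)
      (bm_fin _) (fun _ => bm_fin _) (bm_fin _) (bm_fin _) n d0 σ (sb θ ϑ b)
    have h2 : ConvexOn ℝ Set.univ fun r : ℝ =>
        CX ζ n ca θ b ϑ d0 σ (cavQ (fun l => κ l + r) β) η U fun x l => yv U (jj l) x := by
      refine h1.congr fun r _ => ?_
      unfold CX
      simp only
      congr 1
      funext x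
      unfold cavQ
      rw [qf_add]
      ring
    have h3 := slope_bd h2 (fun r r' h => cx_le hζ n ca θ b ϑ d0 σ η U _ fun t ε => by
      have := mul_le_mul_of_nonneg_right h (qf_nonneg (κ := fun _ => 1) (fun _ => zero_le_one) β t ε)
      unfold cavQ
      rw [qf_add, qf_add]
      linarith) h0 hs
    simpa only [add_zero] using h3
  have h1 := (H S ζ n ca θ b ϑ d0 σ D Lb N (fun l => κ l + -κ0) β η jj hζ hz hb hD hN
    (fun l => ⟨by linarith [(hκ l).1], by linarith [(hκ l).2]⟩) hβ hη hL).2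
  have h2 := (H S ζ n ca θ b ϑ d0 σ D Lb N (fun l => κ l + -(κ0 / 2)) β η jj hζ hz hb hD hN
    (fun l => ⟨by linarith [(hκ l).1], by linarith [(hκ l).2]⟩) hβ hη hL).1
  have up := integral_mono ((iC _).sub (iC _)).abs (((iC _).sub (iC _)).const_mul _) pt
  simp only [Pi.sub_apply] at up
  rw [integral_const_mul, integral_sub (iC _) (iC _)] at up
  unfold FP at h1 h2 ⊢
  rw [← integral_sub (iC _) (iC _)]
  refine (abs_integral_le_integral_abs.trans up).trans ?_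
  have h3 : 0 ≤ 2 / κ0 * |s| := by positivity
  refine (mul_le_mul_of_nonneg_left (show _ ≤ (C + 2) * (1 + Lb) by nlinarith) h3).trans
    (le_of_eq ?_)
  ring

end Vale.Agent.P166
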