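import Vale.Agent.P166.Trick
import Vale.Agent.P166.CavJet

/-! # Removing the truncation in the finite dimensional cavity system -/

namespace Vale.Agent.P166

open MeasureTheory ProbabilityTheory Filter Topology Vale.Agent.P157

namespace FinQAux

theorem int_exp {Ω : Type} [MeasurableSpace Ω] {ν : Measure Ω} [IsProbabilityMeasure ν] {ζ : ℝ}
    (hζ : 0 ≤ ζ) {F : Ω → ℝ} (hm : Measurable F) {C : ℝ} (h : ∀ ω, F ω ≤ C) :
    Integrable (fun ω => Real.exp (ζ * F ω)) ν := by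
  refine (integrable_const (Real.exp (ζ * C))).mono' (hm.const_mul ζ).exp.aestronglyMeasurable
    (ae_of_all _ fun ω => ?_)
  rw [Real.norm_of_nonneg (Real.exp_pos _).le]
  exact Real.exp_le_exp.2 (mul_le_mul_of_nonneg_left (h ω) hζ)

theorem lse_limit {Ω : Type} [MeasurableSpace Ω] {ν : Measure Ω} [IsProbabilityMeasure ν] {ζ : ℝ}
    (hζ : 0 ≤ ζ) {F : ℕ → Ω → ℝ} {F0 G : Ω → ℝ} (hm : ∀ k, Measurable (F k))
    (hG : Integrable G ν) {C : ℝ} (h1 : ∀ k ω, |F k ω| ≤ G ω) (h2 : ∀ k ω, F k ω ≤ C)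
    (hl : ∀ ω, Tendsto (fun k => F k ω) atTop (𝓝 (F0 ω))) :
    Tendsto (fun k => lse ν ζ (F k)) atTop (𝓝 (lse ν ζ F0)) := by
  unfold lse
  split_ifs with h0
  · exact tendsto_integral_of_dominated_convergence G (fun k => (hm k).aestronglyMeasurable) hG
      (fun k => ae_of_all _ (h1 k)) (ae_of_all _ hl)
  · have hm0 : Measurable F0 := measurable_of_tendsto_metrizable hm (tendsto_pi_nhds.2 hl)
    have hb0 : ∀ ω, F0 ω ≤ C := fun ω => le_of_tendsto' (hl ω) fun k => h2 k ω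
    have hpos : 0 < ∫ ω, Real.exp (ζ * F0 ω) ∂ν := integral_exp_pos (int_exp hζ hm0 hb0)
    refine Tendsto.const_mul _ (Tendsto.log ?_ hpos.ne')
    refine tendsto_integral_of_dominated_convergence (fun _ => Real.exp (ζ * C))
      (fun k => ((hm k).const_mul ζ).exp.aestronglyMeasurable) (integrable_const _)
      (fun k => ae_of_all _ fun ω => ?_) (ae_of_all _ fun ω => ((hl ω).const_mul ζ).rexp)
    rw [Real.norm_of_nonneg (Real.exp_pos _).le]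
    exact Real.exp_le_exp.2 (mul_le_mul_of_nonneg_left (h2 k ω) hζ)

theorem lse_bounds {Ω : Type} [MeasurableSpace Ω] {ν : Measure Ω} [IsProbabilityMeasure ν] {ζ : ℝ}
    (hζ : 0 ≤ ζ) {F G : Ω → ℝ} (hm : Measurable F) (hG : Integrable G ν) {C : ℝ}
    (h1 : ∀ ω, |F ω| ≤ G ω) (h2 : ∀ ω, F ω ≤ C) :
    -∫ ω, G ω ∂ν ≤ lse ν ζ F ∧ lse ν ζ F ≤ C := by
  have hF : Integrable F ν := hG.mono' hm.aestronglyMeasurable (ae_of_all _ h1)
  have hE := int_exp (ν := ν) hζ hm h2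
  constructor
  · refine le_trans ?_ (mean_le_lse hζ hF hE)
    rw [← integral_neg]
    exact integral_mono hG.neg hF fun ω => (abs_le.1 (h1 ω)).1
  · refine (lse_mono' hζ hF hE (integrable_const C) (integrable_const _) (ae_of_all _ h2)).trans ?_
    rw [lse_const]

theorem int_norm_sq {ι : Type} [Fintype ι] (s : ι → ℝ) :
    Integrable (fun z : ι → ℝ => ‖z‖ ^ 2) (gv s) :=
  EInt.integrable_pow (F := fun z : ι → ℝ => ‖z‖) ⟨measurable_norm, (noise_gv s).ex⟩ 2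

theorem x_aux {ι : Type} [Fintype ι] {ζ : ℕ → ℝ} (hζ : Zok ζ) (s : ℕ → ι → ℝ)
    {Ψ : ℕ → (ι → ℝ) → ℝ} {Ψ0 : (ι → ℝ) → ℝ} (hm : ∀ k, Measurable (Ψ k)) {C : ℝ}
    (hb : ∀ k w, -(C * (1 + ‖w‖ ^ 2)) ≤ Ψ k w ∧ Ψ k w ≤ C)
    (hl : ∀ w, Tendsto (fun k => Ψ k w) atTop (𝓝 (Ψ0 w))) (d : ℕ) :
    ∃ C', (∀ k w, -(C' * (1 + ‖w‖ ^ 2)) ≤ X ζ (gvs s) (Ψ k) d w ∧ X ζ (gvs s) (Ψ k) d w ≤ C') ∧
      ∀ w, Tendsto (fun k => X ζ (gvs s) (Ψ k) d w) atTop (𝓝 (X ζ (gvs s) Ψ0 d w)) := by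
  induction d with
  | zero => exact ⟨C, hb, hl⟩
  | succ d ih =>
    obtain ⟨C', hb', hl'⟩ := ih
    have hC : 0 ≤ C' := by
      have h := hb' 0 0
      rw [norm_zero] at h
      linarith [h.1, h.2]
    have hp : ∀ d, IsProbabilityMeasure (gvs s d) := fun d => (noise_gv (s d)).prob
    have := hp d
    have hmk : ∀ k (w : ι → ℝ), Measurable fun z => X ζ (gvs s) (Ψ k) d (w + z) := fun k w =>
      (measurable_X hp (hm k) d).comp (measurable_const_add _)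
    have hN : Integrable (fun z : ι → ℝ => ‖z‖ ^ 2) (gvs s d) := int_norm_sq (s d)
    have hG : ∀ w : ι → ℝ,
        Integrable (fun z : ι → ℝ => C' * (1 + 2 * ‖w‖ ^ 2) + 2 * C' * ‖z‖ ^ 2) (gvs s d) :=
      fun w => (integrable_const _).add (hN.const_mul _)
    have habs : ∀ k (w z : ι → ℝ), |X ζ (gvs s) (Ψ k) d (w + z)|
        ≤ C' * (1 + 2 * ‖w‖ ^ 2) + 2 * C' * ‖z‖ ^ 2 := by
      intro k w z
      have h1 : ‖w + z‖ ^ 2 ≤ 2 * ‖w‖ ^ 2 + 2 * ‖z‖ ^ 2 := by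
        have a := norm_add_le w z
        have b := pow_le_pow_left₀ (norm_nonneg _) a 2
        nlinarith [sq_nonneg (‖w‖ - ‖z‖)]
      have h2 := mul_le_mul_of_nonneg_left h1 hC
      have h3 := hb' k (w + z)
      have h4 : 0 ≤ C' * ‖w + z‖ ^ 2 := by positivity
      rw [abs_le]
      constructor <;> nlinarith [h3.1, h3.2]
    set M := ∫ z, ‖z‖ ^ 2 ∂(gvs s d) with hM
    have hM0 : 0 ≤ M := integral_nonneg fun z => sq_nonneg _
    refine ⟨C' * (2 + 2 * M), fun k w => ?_, fun w => ?_⟩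
    · have h := lse_bounds (hζ.nn d) (hmk k w) (hG w) (habs k w) fun z => (hb' k (w + z)).2
      rw [integral_add (integrable_const _) (hN.const_mul _), integral_const,
        integral_const_mul] at h
      simp only [probReal_univ, smul_eq_mul, one_mul] at h
      have e : X ζ (gvs s) (Ψ k) (d + 1) w
          = lse (gvs s d) (ζ d) fun z => X ζ (gvs s) (Ψ k) d (w + z) := rfl
      rw [e]
      have a1 : 0 ≤ C' * M := mul_nonneg hC hM0
      have a2 : 0 ≤ C' * M * ‖w‖ ^ 2 := by positivity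
      constructor
      · refine le_trans ?_ h.1
        change _ ≤ -(C' * (1 + 2 * ‖w‖ ^ 2) + 2 * C' * M)
        nlinarith
      · nlinarith [h.2]
    · exact lse_limit (hζ.nn d) (fun k => hmk k w) (hG w) (fun k => habs k w)
        (fun k z => (hb' k (w + z)).2) fun z => hl' (w + z)

end FinQAux

theorem x_limit {ι : Type} [Fintype ι] {ζ : ℕ → ℝ} (hζ : Zok ζ) (s : ℕ → ι → ℝ)
    {Ψ : ℕ → (ι → ℝ) → ℝ} {Ψ0 : (ι → ℝ) → ℝ} (hm : ∀ k, Measurable (Ψ k)) {C : ℝ}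
    (hb : ∀ k w, -(C * (1 + ‖w‖ ^ 2)) ≤ Ψ k w ∧ Ψ k w ≤ C)
    (hl : ∀ w, Tendsto (fun k => Ψ k w) atTop (𝓝 (Ψ0 w))) (d : ℕ) (w : ι → ℝ) :
    Tendsto (fun k => X ζ (gvs s) (Ψ k) d w) atTop (𝓝 (X ζ (gvs s) Ψ0 d w)) :=
  (FinQAux.x_aux hζ s hm hb hl d).elim fun _ h => h.2 w

namespace FinQAux
variable {L : Type} [Fintype L]

theorem qf_nonneg {κ : L → ℝ} (hκ : ∀ l, 0 ≤ κ l) (β t : L → ℝ) (ε : Bool) : 0 ≤ Qf κ β t ε :=
  Finset.sum_nonneg fun l _ => mul_nonneg (hκ l) (sq_nonneg _)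

theorem qf_le {κ β : L → ℝ} {κm : ℝ} (h0 : 0 ≤ κm) (hκ : ∀ l, 0 ≤ κ l ∧ κ l ≤ κm)
    (hβ : ∑ l, β l ^ 2 ≤ κm) (t : L → ℝ) (ε : Bool) {a : ℝ} (ha : ∀ l, |t l| ≤ a) :
    Qf κ β t ε ≤ 2 * (κm * Fintype.card L * a ^ 2 + κm ^ 2) := by
  have h1 : Qf κ β t ε ≤ ∑ l, (2 * κm * a ^ 2 + 2 * κm * β l ^ 2) := by
    refine Finset.sum_le_sum fun l _ => ?_
    have b1 : t l ^ 2 ≤ a ^ 2 := by
      rw [← sq_abs]
      exact pow_le_pow_left₀ (abs_nonneg _) (ha l) 2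
    have b2 : (t l + UnifAux.sg ε * β l) ^ 2 ≤ 2 * a ^ 2 + 2 * β l ^ 2 := by
      cases ε <;> simp only [UnifAux.sg] <;> norm_num <;>
        nlinarith [sq_nonneg (t l + β l), sq_nonneg (t l - β l)]
    calc κ l * (t l + UnifAux.sg ε * β l) ^ 2 ≤ κm * (2 * a ^ 2 + 2 * β l ^ 2) :=
          mul_le_mul (hκ l).2 b2 (sq_nonneg _) h0
      _ = _ := by ring
  rw [Finset.sum_add_distrib, Finset.sum_const, Finset.card_univ, nsmul_eq_mul,
    ← Finset.mul_sum] at h1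
  nlinarith [mul_le_mul_of_nonneg_left hβ h0]

theorem bm_cavE {R : ℝ} (hR : 0 < R) {κ : L → ℝ} (hκ : ∀ l, 0 ≤ κ l) (β : L → ℝ) :
    BM2 (cavE R κ β) := ⟨measurable_cavE R κ β, R, abs_cavE_le hR hκ β⟩

theorem int_four (s : L → ℝ) (l : L) : Integrable (fun z : L → ℝ => z l ^ 4) (gv s) := by
  refine EInt.integrable_pow (F := fun z : L → ℝ => z l) ?_ 4
  refine EInt.of_le (F := fun z : L → ℝ => ‖z‖) ⟨measurable_norm, (noise_gv s).ex⟩
    (measurable_pi_apply l) (C := 0) (D := 1) fun z => ?_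
  rw [zero_add, one_mul, abs_norm]
  exact norm_le_pi_norm z l

theorem integral_four {s : L → ℝ} (hs : ∀ l, 0 ≤ s l) (l : L) :
    ∫ z : L → ℝ, z l ^ 4 ∂(gv s) = 3 * s l ^ 2 := by
  rw [← integral_four_g1 (hs l), ← (measurePreserving_eval (fun i => g1 (s i)) l).map_eq,
    integral_map (measurable_pi_apply l).aemeasurable (by fun_prop)]
  rfl

theorem sum_dq (r : ℕ → ℝ) (m : ℕ) : ∑ j ∈ Finset.range m, dq r j = r 0 - r m :=
  Finset.sum_range_sub' r m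

/-- comparison of two truncation levels -/
theorem two_levels {κm : ℝ} {ζ : ℕ → ℝ} {n : ℕ} (d0 : ℕ) (σ : ℝ) {R R' Lb : ℝ} {r : ℕ → ℝ}
    {κ β : L → ℝ} {η : (L → ℝ) → Bool → ℝ} (hζ : Zok ζ) (hz : ζ 0 = 1) (hR : 0 < R)
    (hRR : R ≤ R') (hr : CAdm n r) (hr0 : r 0 ≤ κm) (hκ : ∀ l, 0 ≤ κ l ∧ κ l ≤ κm)
    (hβ : ∑ l, β l ^ 2 ≤ κm) (hη : Measurable (Function.uncurry η)) (hL : ∀ t ε, |η t ε| ≤ Lb) :
    |XC ζ n d0 σ r (cavE R κ β) η - XC ζ n d0 σ r (cavE R' κ β) η|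
      ≤ κm ^ 4 * (3 * (Fintype.card L : ℝ) ^ 2 + 1) * Real.exp (4 * Lb) / R := by
  have hR' : 0 < R' := hR.trans_le hRR
  have hκ0 : ∀ l, 0 ≤ κ l := fun l => (hκ l).1
  have hu := bm_cavE hR hκ0 β
  have hu' := bm_cavE hR' hκ0 β
  have hQ := qf_nonneg hκ0 β
  have hv0 : ∀ t ε, cavE R' κ β t ε - cavE R κ β t ε ≤ 0 := by
    intro t ε
    have h := fR_diff_anti hR hRR (Set.mem_Ici.2 le_rfl) (Set.mem_Ici.2 (hQ t ε)) (hQ t ε)
    simpa [fR, cavE] using h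
  have hv : BM2 fun t ε => cavE R' κ β t ε - cavE R κ β t ε := by
    refine ⟨hu'.1.sub hu.1, R' + R, fun t ε => (abs_sub _ _).trans ?_⟩
    exact add_le_add (abs_cavE_le hR' hκ0 β t ε) (abs_cavE_le hR hκ0 β t ε)
  have hnv : BM2 fun t ε => -(cavE R' κ β t ε - cavE R κ β t ε) := by
    obtain ⟨a, b, c⟩ := hv
    exact ⟨a.neg, b, fun t ε => by rw [abs_neg]; exact c t ε⟩
  have h0 : HG (fun (_ : L → ℝ) (_ : Bool) => (0 : ℝ)) :=
    hg_of_bm2 ⟨measurable_const, 0, fun _ _ => by simp⟩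
  have hs : ∀ d (_ : L), 0 ≤ dq r d := fun d _ => sub_nonneg.2 (hr.anti (Nat.le_succ d))
  have h1 := tr_trunc (μ := UnifAux.mu2) hζ hz h0 hη hL hu hv (fun w x w' x' => ?_) hv0 n d0 σ
    fun d (_ : L) => dq r d
  swap
  · rcases le_total (Qf κ β w x) (Qf κ β w' x') with h | h
    · exact mul_nonneg (sub_nonneg.2 (fR_anti hR h)) (sub_nonneg.2
        (fR_diff_anti hR hRR (Set.mem_Ici.2 (hQ _ _)) (Set.mem_Ici.2 (hQ _ _)) h))
    · exact mul_nonneg_of_nonpos_of_nonpos (sub_nonpos.2 (fR_anti hR h)) (sub_nonpos.2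
        (fR_diff_anti hR hRR (Set.mem_Ici.2 (hQ _ _)) (Set.mem_Ici.2 (hQ _ _)) h))
  have e1 : (fun w x => (fun (_ : L → ℝ) (_ : Bool) => (0 : ℝ)) w x + cavE R κ β w x)
      = cavE R κ β := by
    funext w x
    simp
  have e2 : (fun w x => (fun (_ : L → ℝ) (_ : Bool) => (0 : ℝ)) w x + cavE R κ β w x
      + (fun t ε => cavE R' κ β t ε - cavE R κ β t ε) w x) = cavE R' κ β := by
    funext w x
    simp
  rw [e1, e2, eg_zero hs hnv n] at h1
  have h2 := tr_le (μ := UnifAux.mu2) hζ (hg_of_bm2 hu') (hg_of_bm2 hu) ⟨hη, Lb, hL⟩ ⟨hη, Lb, hL⟩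
    (c := 0) (e := 0) (fun w x => by linarith [hv0 w x]) (fun w x => by simp) n d0 σ
    fun d (_ : L) => dq r d
  have hr1 : 0 ≤ r 0 := by
    have := hr.anti (Nat.zero_le (n + 1))
    rwa [hr.zero (n + 1) (Nat.lt_succ_self n)] at this
  have e3 : (fun _ : L => ∑ j ∈ Finset.range (n + 1), dq r j) = fun _ => r 0 := by
    funext l
    rw [sum_dq, hr.zero (n + 1) (Nat.lt_succ_self n), sub_zero]
  rw [e3] at h1
  have hI : Integrable (fun z : L → ℝ =>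
      κm ^ 2 / R * (Fintype.card L * ∑ l, z l ^ 4 + κm ^ 2)) (gv fun _ : L => r 0) :=
    (((integrable_finsetSum _ fun l _ => int_four _ l).const_mul _).add
      (integrable_const _)).const_mul _
  have h3 : ∫ z, ∫ x, -(cavE R' κ β z x - cavE R κ β z x) ∂UnifAux.mu2 ∂(gv fun _ : L => r 0)
      ≤ ∫ z, κm ^ 2 / R * (Fintype.card L * ∑ l, z l ^ 4 + κm ^ 2) ∂(gv fun _ : L => r 0) := by
    refine integral_mono_of_nonneg (ae_of_all _ fun z => ?_) hI (ae_of_all _ fun z => ?_)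
    · exact integral_nonneg fun x => neg_nonneg.2 (hv0 z x)
    · have key : ∀ x, -(cavE R' κ β z x - cavE R κ β z x)
          ≤ κm ^ 2 / R * (Fintype.card L * ∑ l, z l ^ 4 + κm ^ 2) := by
        intro x
        have a1 := (fR_bounds hR (hQ z x)).2.2.2
        have a2 := (fR_bounds hR' (hQ z x)).2.2.1
        have a3 := qf_sq_le hκ hβ z x
        have a4 : Qf κ β z x ^ 2 / (8 * R)
            ≤ 8 * κm ^ 2 * (Fintype.card L * ∑ l, z l ^ 4 + κm ^ 2) / (8 * R) := by gcongr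
        have a5 : 8 * κm ^ 2 * (Fintype.card L * ∑ l, z l ^ 4 + κm ^ 2) / (8 * R)
            = κm ^ 2 / R * (Fintype.card L * ∑ l, z l ^ 4 + κm ^ 2) := by
          field_simp
        unfold cavE
        linarith
      simp only
      rw [UnifAux.integral_mu2]
      linarith [key true, key false]
  have h4 : ∫ z, κm ^ 2 / R * (Fintype.card L * ∑ l, z l ^ 4 + κm ^ 2) ∂(gv fun _ : L => r 0)
      = κm ^ 2 / R * (Fintype.card L * (Fintype.card L * (3 * r 0 ^ 2)) + κm ^ 2) := by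
    rw [integral_const_mul, integral_add ((integrable_finsetSum _ fun l _ =>
      int_four _ l).const_mul _) (integrable_const _), integral_const_mul,
      integral_finsetSum _ fun l _ => int_four _ l]
    simp only [integral_four (s := fun _ : L => r 0) fun _ => hr1]
    simp
  have h5 : κm ^ 2 / R * (Fintype.card L * (Fintype.card L * (3 * r 0 ^ 2)) + κm ^ 2)
      ≤ κm ^ 4 * (3 * (Fintype.card L : ℝ) ^ 2 + 1) / R := by
    have : r 0 ^ 2 ≤ κm ^ 2 := pow_le_pow_left₀ hr1 hr0 2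
    calc _ ≤ κm ^ 2 / R * (Fintype.card L * (Fintype.card L * (3 * κm ^ 2)) + κm ^ 2) := by gcongr
      _ = _ := by ring
  have h6 := mul_le_mul_of_nonneg_left ((h3.trans h4.le).trans h5) (Real.exp_pos (4 * Lb)).le
  unfold XC
  rw [abs_of_nonneg (by linarith)]
  refine (h1.trans h6).trans (le_of_eq ?_)
  ring

theorem xc_limit {κm : ℝ} {ζ : ℕ → ℝ} (n d0 : ℕ) (σ : ℝ) {R Lb : ℝ} (r : ℕ → ℝ)
    {κ β : L → ℝ} {η : (L → ℝ) → Bool → ℝ} (hζ : Zok ζ) (hR : 0 < R) (h0 : 0 ≤ κm)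
    (hκ : ∀ l, 0 ≤ κ l ∧ κ l ≤ κm) (hβ : ∑ l, β l ^ 2 ≤ κm)
    (hη : Measurable (Function.uncurry η)) (hL : ∀ t ε, |η t ε| ≤ Lb) :
    Tendsto (fun k : ℕ => XC ζ n d0 σ r (cavE (R + k) κ β) η) atTop
      (𝓝 (XC ζ n d0 σ r (cavQ κ β) η)) := by
  have hκ0 : ∀ l, 0 ≤ κ l := fun l => (hκ l).1
  have hLb : 0 ≤ Lb := (abs_nonneg _).trans (hL 0 true)
  have hRk : ∀ k : ℕ, 0 < R + k := fun k => by positivity
  have hs : ∀ (w : Option L → ℝ) x,
      |Real.sin (w none) * η (fun i => w (some i)) x| ≤ Lb := by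
    intro w x
    rw [abs_mul]
    exact (mul_le_of_le_one_left (abs_nonneg _) (Real.abs_sin_le_one _)).trans (hL _ _)
  set C := κm * Fintype.card L + κm ^ 2 + Lb with hC
  have hb : ∀ (k : ℕ) (w : Option L → ℝ) x,
      |trH (cavE (R + k) κ β) η w x| ≤ C * (1 + ‖w‖ ^ 2) ∧ trH (cavE (R + k) κ β) η w x ≤ C := by
    intro k w x
    have a1 := fR_bounds (hRk k) (qf_nonneg hκ0 β (fun i => w (some i)) x)
    have a2 := qf_le h0 hκ hβ (fun i => w (some i)) x fun l => norm_le_pi_norm w (some l)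
    have a3 := abs_le.1 (hs w x)
    have a4 : 0 ≤ κm * Fintype.card L := by positivity
    have a5 : 0 ≤ (κm ^ 2 + Lb) * ‖w‖ ^ 2 := by positivity
    have a6 : 0 ≤ κm * Fintype.card L * ‖w‖ ^ 2 := by positivity
    have a7 := sq_nonneg κm
    unfold trH cavE
    rw [abs_le, hC]
    refine ⟨⟨?_, ?_⟩, ?_⟩ <;> nlinarith [a1.2.1, a1.2.2.1, a3.1, a3.2]
  have hmk : ∀ k : ℕ, Measurable (Function.uncurry (trH (cavE (R + k) κ β) η)) := fun k =>
    measurable_trH (measurable_cavE _ κ β) hη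
  refine x_limit hζ _ (Ψ := fun k : ℕ => gtop UnifAux.mu2 (trH (cavE (R + k) κ β) η))
    (fun k => measurable_lse 1 (hmk k)) (C := C) (fun k w => ?_) (fun w => ?_) (n + 1) 0
  · have h := lse_bounds (ν := UnifAux.mu2) zero_le_one (hmk k).of_uncurry_left
      (integrable_const (C * (1 + ‖w‖ ^ 2))) (fun x => (hb k w x).1) fun x => (hb k w x).2
    rw [integral_const] at h
    simp only [probReal_univ, smul_eq_mul, one_mul] at h
    exact h
  · refine lse_limit zero_le_one (fun k => (hmk k).of_uncurry_left)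
      (integrable_const (C * (1 + ‖w‖ ^ 2))) (fun k x => (hb k w x).1) (fun k x => (hb k w x).2)
      fun x => ?_
    refine Tendsto.add_const _ ((fR_tendsto _).comp ?_)
    exact tendsto_atTop_add_const_left _ R tendsto_natCast_atTop_atTop

end FinQAux

theorem fin_trunc (L : Type) [Fintype L] (κm : ℝ) : ∃ C : ℝ, 0 ≤ C ∧
    ∀ (ζ : ℕ → ℝ) (n d0 : ℕ) (σ R Lb : ℝ) (r : ℕ → ℝ) (κ β : L → ℝ) (η : (L → ℝ) → Bool → ℝ),
      Zok ζ → ζ 0 = 1 → 0 < R → CAdm n r → r 0 ≤ κm → (∀ l, 0 ≤ κ l ∧ κ l ≤ κm) →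
      ∑ l, β l ^ 2 ≤ κm → Measurable (Function.uncurry η) → (∀ t ε, |η t ε| ≤ Lb) →
      |XC ζ n d0 σ r (cavE R κ β) η - XC ζ n d0 σ r (cavQ κ β) η|
        ≤ C * Real.exp (4 * Lb) / R := by
  refine ⟨κm ^ 4 * (3 * (Fintype.card L : ℝ) ^ 2 + 1), by positivity,
    fun ζ n d0 σ R Lb r κ β η hζ hz hR hr hr0 hκ hβ hη hL => ?_⟩
  have h0 : 0 ≤ κm := (Finset.sum_nonneg fun l _ => sq_nonneg (β l)).trans hβ
  have h := FinQAux.xc_limit n d0 σ r hζ hR h0 hκ hβ hη hL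
  refine le_of_tendsto' ((h.const_sub (XC ζ n d0 σ r (cavE R κ β) η)).abs) fun k => ?_
  exact FinQAux.two_levels d0 σ hζ hz hR (le_add_of_nonneg_right (Nat.cast_nonneg k)) hr hr0 hκ
    hβ hη hL

end Vale.Agent.P166
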