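import Vale.Agent.P166.Defs

/-! # Gaussian cascades tilted by a diagonal concave quadratic -/

namespace Vale.Agent.P166

open MeasureTheory ProbabilityTheory Vale.Agent.P157

namespace TiltAux

theorem one {v a : ℝ} (hv : 0 ≤ v) (ha : 0 ≤ a) (w : ℝ) :
    (g1 (v / (1 + a * v))).map (fun y => y + (w / (1 + a * v) - w)) = (g1 v).withDensity
      fun y => ENNReal.ofReal (Real.exp (-(a * (w + y) ^ 2) / 2
        + (a / (1 + a * v) * w ^ 2 / 2 + Real.log (1 + a * v) / 2))) := by
  have hρ : Measurable fun y : ℝ => ENNReal.ofReal (Real.exp (-(a * (w + y) ^ 2) / 2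
      + (a / (1 + a * v) * w ^ 2 / 2 + Real.log (1 + a * v) / 2))) := by fun_prop
  rcases hv.eq_or_lt with h0 | h0
  · subst h0
    rw [zero_div, g1_of_nonpos le_rfl, Measure.map_dirac' (by fun_prop), dirac_withDensity' hρ]
    have : -(a * (w + 0) ^ 2) / 2 + (a / (1 + a * 0) * w ^ 2 / 2 + Real.log (1 + a * 0) / 2)
        = 0 := by
      simp only [mul_zero, add_zero, div_one, Real.log_one]
      ring
    rw [this]
    simp
  · have hD : 0 < 1 + a * v := by positivity
    have hv' : 0 < v / (1 + a * v) := div_pos h0 hD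
    have hη : v.toNNReal ≠ 0 := by simpa using h0
    have hη' : (v / (1 + a * v)).toNNReal ≠ 0 := by simpa using hv'
    rw [g1, g1, gaussianReal_map_add_const, gaussianReal_of_var_ne_zero _ hη,
      gaussianReal_of_var_ne_zero _ hη', ← withDensity_mul _ (measurable_gaussianPDF _ _) hρ]
    congr 1
    funext y
    rw [Pi.mul_apply, gaussianPDF, gaussianPDF,
      ← ENNReal.ofReal_mul (gaussianPDFReal_nonneg _ _ _), gaussianPDFReal, gaussianPDFReal,
      Real.coe_toNNReal _ hv'.le, Real.coe_toNNReal _ h0.le]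
    congr 1
    have h1 : (√(2 * Real.pi * (v / (1 + a * v))))⁻¹
        = (√(2 * Real.pi * v))⁻¹ * Real.exp (Real.log (1 + a * v) / 2) := by
      rw [Real.exp_half, Real.exp_log hD, ← mul_div_assoc, Real.sqrt_div' _ hD.le, inv_div,
        div_eq_inv_mul]
    rw [h1, mul_assoc _ (Real.exp _), mul_assoc _ (Real.exp _), ← Real.exp_add, ← Real.exp_add]
    congr 2
    generalize Real.log (1 + a * v) = l
    field_simp
    ring

variable {ι : Type} [Fintype ι]

theorem many {v a : ι → ℝ} (hv : ∀ i, 0 ≤ v i) (ha : ∀ i, 0 ≤ a i) (w : ι → ℝ)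
    {F : (ι → ℝ) → ℝ} (hF : Measurable F) :
    ∫ y, F ((fun i => w i / (1 + a i * v i)) + y) ∂(gv fun i => v i / (1 + a i * v i))
      = (∫ y, Real.exp (-(∑ i, a i * (w + y) i ^ 2) / 2) * F (w + y) ∂(gv v))
        * Real.exp (∑ i, (a i / (1 + a i * v i) * w i ^ 2 / 2 + Real.log (1 + a i * v i) / 2)) := by
  have hp : ∀ i, IsProbabilityMeasure
      ((g1 (v i / (1 + a i * v i))).map fun t => t + (w i / (1 + a i * v i) - w i)) := fun i =>
    Measure.isProbabilityMeasure_map (by fun_prop)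
  have h1 := Measure.pi_map_pi (μ := fun i => g1 (v i / (1 + a i * v i)))
    (f := fun i t => t + (w i / (1 + a i * v i) - w i)) fun i => by fun_prop
  have h2 := GaussAux.pi_density (fun i => g1 (v i)) _ _ (fun i => by fun_prop)
    fun i => one (hv i) (ha i) (w i)
  have hG : Measurable fun y : ι → ℝ => F (w + y) := hF.comp (measurable_const_add w)
  have h3 : ∫ y, F (w + y) ∂((gv fun i => v i / (1 + a i * v i)).map
        fun y i => y i + (w i / (1 + a i * v i) - w i))
      = ∫ y, F ((fun i => w i / (1 + a i * v i)) + y) ∂(gv fun i => v i / (1 + a i * v i)) := by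
    rw [integral_map (Measurable.aemeasurable (by fun_prop)) hG.aestronglyMeasurable]
    refine integral_congr_ae (ae_of_all _ fun y => congrArg F ?_)
    funext i
    simp only [Pi.add_apply]
    ring
  rw [← h3, gv, h1, h2, integral_withDensity_eq_integral_toReal_smul (by fun_prop)
    (ae_of_all _ fun z => ENNReal.prod_lt_top fun i _ => ENNReal.ofReal_lt_top),
    ← integral_mul_const]
  refine integral_congr_ae (ae_of_all _ fun y => ?_)
  simp only [ENNReal.toReal_prod, ENNReal.toReal_ofReal (Real.exp_pos _).le, smul_eq_mul,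
    Pi.add_apply]
  rw [← Real.exp_sum, Finset.sum_add_distrib, Real.exp_add, ← Finset.sum_div,
    Finset.sum_neg_distrib]
  ring

theorem sq_one {v : ℝ} (hv : 0 ≤ v) (x : ℝ) :
    Integrable (fun z => (x + z) ^ 2) (g1 v) ∧ ∫ z, (x + z) ^ 2 ∂(g1 v) = x ^ 2 + v := by
  have h0 : EInt (g1 v) fun z => z := by
    simpa using LG.eint (noise_g1 v) (Ψ := fun u : ℝ => u) ⟨measurable_id, 1, fun w => by simp⟩ 0
  have e : ∀ z : ℝ, (x + z) ^ 2 = x ^ 2 + 2 * x * z + z ^ 2 := fun z => by ring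
  have i1 : Integrable (fun z : ℝ => 2 * x * z) (g1 v) := h0.integrable.const_mul _
  have i2 : Integrable (fun z : ℝ => x ^ 2 + 2 * x * z) (g1 v) := (integrable_const _).add i1
  simp only [e]
  refine ⟨i2.add (h0.integrable_pow 2), ?_⟩
  rw [integral_add i2 (h0.integrable_pow 2), integral_add (integrable_const _) i1,
    integral_const_mul, integral_id_g1, integral_sq_g1 hv]
  simp

theorem gv_div {s A : ι → ℝ} (hs : ∀ i, 0 ≤ s i) :
    (gv s).map (fun y i => y i / A i) = gv fun i => s i / A i ^ 2 := by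
  have h1 := Measure.pi_map_pi (μ := fun i => g1 (s i)) (f := fun i t => t / A i)
    fun i => by fun_prop
  rw [gv, h1, gv]
  congr 1
  funext i
  rw [g1, g1, gaussianReal_map_div_const, zero_div]
  congr 1
  ext
  rw [NNReal.coe_div, Real.coe_toNNReal _ (hs i),
    Real.coe_toNNReal _ (div_nonneg (hs i) (sq_nonneg _))]
  rfl

theorem lg_div {A : ι → ℝ} (hA : ∀ i, 1 ≤ A i) {Φ : (ι → ℝ) → ℝ} (hΦ : LG Φ) :
    LG fun u : ι → ℝ => Φ fun i => u i / A i := by
  obtain ⟨C, hC, h⟩ := CascAux.lg_nonneg hΦ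
  refine ⟨hΦ.1.comp (by fun_prop), C, fun u => (h _).trans ?_⟩
  refine mul_le_mul_of_nonneg_left (add_le_add le_rfl ?_) hC
  refine (pi_norm_le_iff_of_nonneg (norm_nonneg u)).2 fun i => ?_
  refine le_trans ?_ (norm_le_pi_norm u i)
  rw [norm_div, Real.norm_of_nonneg (zero_le_one.trans (hA i))]
  exact div_le_self (norm_nonneg _) (hA i)

theorem T_div (z c : ℝ) {s A : ι → ℝ} (hs : ∀ i, 0 ≤ s i) (hA : ∀ i, 1 ≤ A i)
    {Φ : (ι → ℝ) → ℝ} (hΦ : LG Φ) (w : ι → ℝ) :
    T z (gv s) (fun u => (Φ fun i => u i / A i) + c) w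
      = T z (gv fun i => s i / A i ^ 2) Φ (fun i => w i / A i) + c := by
  have h1 := (lg_div hA hΦ).eint (noise_gv s) w
  have h2 : Measurable fun y : ι → ℝ => Φ ((fun i => w i / A i) + y) :=
    hΦ.1.comp (measurable_const_add _)
  rw [T, lse_add_const h1.integrable (h1.2 z), T, ← gv_div hs, lse_map (by fun_prop) z h2]
  congr 2
  funext y
  congr 1
  funext i
  simp only [Pi.add_apply]
  ring

end TiltAux

theorem tilt_step {ι : Type} [Fintype ι] {z : ℝ} (hz : 0 ≤ z) {v κ : ι → ℝ} (hv : ∀ i, 0 ≤ v i)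
    (hκ : ∀ i, 0 ≤ κ i) {Φ : (ι → ℝ) → ℝ} (hΦ : LG Φ) (w : ι → ℝ) :
    T z (gv v) (fun u => -(∑ i, κ i * u i ^ 2) / 2 + Φ u) w
      = -(∑ i, κ i / (1 + z * v i * κ i) * w i ^ 2) / 2 - ∑ i, qc z (v i) (κ i)
        + T z (gv fun i => v i / (1 + z * v i * κ i)) Φ fun i => w i / (1 + z * v i * κ i) := by
  rcases hz.eq_or_lt with h0 | h0
  · subst h0
    have i1 : ∀ i, Integrable (fun y : ι → ℝ => κ i * (w i + y i) ^ 2) (gv v) := fun i =>
      integrable_comp_eval (μ := fun i => g1 (v i)) (f := fun t => κ i * (w i + t) ^ 2)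
        ((TiltAux.sq_one (hv i) (w i)).1.const_mul (κ i))
    have i2 : ∀ i, ∫ y, κ i * (w i + y i) ^ 2 ∂(gv v) = κ i * (w i ^ 2 + v i) := fun i => by
      rw [← (TiltAux.sq_one (hv i) (w i)).2, ← integral_const_mul]
      exact integral_comp_eval (μ := fun i => g1 (v i)) (f := fun t => κ i * (w i + t) ^ 2)
        ((TiltAux.sq_one (hv i) (w i)).1.const_mul (κ i)).aestronglyMeasurable
    have i3 : Integrable (fun y : ι → ℝ => -(∑ i, κ i * (w i + y i) ^ 2) / 2) (gv v) :=
      (integrable_finsetSum _ fun i _ => i1 i).neg.div_const 2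
    simp only [T, lse, qc, if_true, zero_mul, add_zero, div_one, Pi.add_apply]
    rw [integral_add i3 (hΦ.eint (noise_gv v) w).integrable, integral_div, integral_neg,
      integral_finsetSum _ fun i _ => i1 i]
    simp only [i2, mul_add, Finset.sum_add_distrib, ← Finset.sum_div, mul_comm (v _)]
    ring
  · have e : ∀ i, 1 + z * v i * κ i = 1 + z * κ i * v i := fun i => by ring
    have hF : Measurable fun u : ι → ℝ => Real.exp (z * Φ u) := (hΦ.1.const_mul z).exp
    have h1 := TiltAux.many (a := fun i => z * κ i) hv (fun i => mul_nonneg hz (hκ i)) w hF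
    have h2 := integral_exp_pos ((hΦ.eint (noise_gv fun i => v i / (1 + z * κ i * v i))
      fun i => w i / (1 + z * κ i * v i)).2 z)
    have h3 : ∀ y : ι → ℝ, Real.exp (z * (-(∑ i, κ i * (w + y) i ^ 2) / 2 + Φ (w + y)))
        = Real.exp (-(∑ i, z * κ i * (w + y) i ^ 2) / 2) * Real.exp (z * Φ (w + y)) := by
      intro y
      rw [← Real.exp_add]
      congr 1
      simp only [mul_assoc, ← Finset.mul_sum]
      ring
    simp only [T, lse, qc, if_neg h0.ne', e, h3]
    have h4 : ∫ y, Real.exp (-(∑ i, z * κ i * (w + y) i ^ 2) / 2) * Real.exp (z * Φ (w + y))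
        ∂(gv v) ≠ 0 := by
      intro h
      rw [h1, h, zero_mul] at h2
      exact lt_irrefl _ h2
    rw [h1, Real.log_mul h4 (Real.exp_pos _).ne', Real.log_exp]
    have h5 : ∑ i, (z * κ i / (1 + z * κ i * v i) * w i ^ 2 / 2 + Real.log (1 + z * κ i * v i) / 2)
        = z * ((∑ i, κ i / (1 + z * κ i * v i) * w i ^ 2) / 2
          + ∑ i, Real.log (1 + z * κ i * v i) / (2 * z)) := by
      rw [Finset.sum_div, ← Finset.sum_add_distrib, Finset.mul_sum]
      refine Finset.sum_congr rfl fun i _ => ?_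
      generalize Real.log (1 + z * κ i * v i) = l
      generalize 1 + z * κ i * v i = D
      field_simp
    rw [h5, mul_add z⁻¹, inv_mul_cancel_left₀ h0.ne']
    ring

theorem tilt {ι : Type} [Fintype ι] {ζ : ℕ → ℝ} (hζ : Zok ζ) {v : ℕ → ι → ℝ}
    (hv : ∀ d i, 0 ≤ v d i) {κ : ι → ℝ} (hκ : ∀ i, 0 ≤ κ i) {Φ : (ι → ℝ) → ℝ} (hΦ : LG Φ)
    {δ : ℕ → ι → ℝ} (hδ : ∀ d i, δ d i = ∑ k ∈ Finset.range d, ζ k * v k i) (n : ℕ) :
    X ζ (gvs v) (fun u => -(∑ i, κ i * u i ^ 2) / 2 + Φ u) n 0
      = -(∑ i, ∑ d ∈ Finset.range n, qc (ζ d) (v d i) (κ i / (1 + κ i * δ d i)))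
        + X ζ (gvs fun d i => v d i / ((1 + κ i * δ d i) * (1 + κ i * δ (d + 1) i))) Φ n 0 := by
  have hA : ∀ d i, 1 ≤ 1 + κ i * δ d i := fun d i => by
    have : 0 ≤ δ d i := by
      rw [hδ]
      exact Finset.sum_nonneg fun k _ => mul_nonneg (hζ.nn k) (hv k i)
    exact le_add_of_nonneg_right (mul_nonneg (hκ i) this)
  have hA0 : ∀ d i, 0 < 1 + κ i * δ d i := fun d i => one_pos.trans_le (hA d i)
  have key : ∀ n, X ζ (gvs v) (fun u => -(∑ i, κ i * u i ^ 2) / 2 + Φ u) n = fun w =>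
      -(∑ i, κ i / (1 + κ i * δ n i) * w i ^ 2) / 2 +
        ((X ζ (gvs fun d i => v d i / ((1 + κ i * δ d i) * (1 + κ i * δ (d + 1) i))) Φ n
          fun i => w i / (1 + κ i * δ n i))
        + -(∑ i, ∑ d ∈ Finset.range n, qc (ζ d) (v d i) (κ i / (1 + κ i * δ d i)))) := by
    intro n
    induction n with
    | zero =>
      funext w
      simp [X, hδ]
    | succ n ih =>
      funext w
      have hX := (cas_gvs hζ
        (fun d i => v d i / ((1 + κ i * δ d i) * (1 + κ i * δ (d + 1) i))) hΦ).lgX n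
      have e : ∀ i, 1 + ζ n * v n i * (κ i / (1 + κ i * δ n i))
          = (1 + κ i * δ (n + 1) i) / (1 + κ i * δ n i) := fun i => by
        have h1 : δ (n + 1) i = δ n i + ζ n * v n i := by
          rw [hδ, hδ, Finset.sum_range_succ]
        have h2 := (hA0 n i).ne'
        rw [h1]
        field_simp
        ring
      rw [X_succ, ih, gvs, tilt_step (hζ.nn n) (hv n) (fun i => div_nonneg (hκ i) (hA0 n i).le)
        ((TiltAux.lg_div (hA n) hX).add (BM.const _).lg) w]
      simp only [e]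
      rw [TiltAux.T_div _ _ (fun i => div_nonneg (hv n i) (div_pos (hA0 _ i) (hA0 n i)).le)
        (hA n) hX, X_succ]
      have e1 : ∀ i, κ i / (1 + κ i * δ n i) / ((1 + κ i * δ (n + 1) i) / (1 + κ i * δ n i))
          = κ i / (1 + κ i * δ (n + 1) i) := fun i => by
        have h1 := (hA0 n i).ne'
        have h2 := (hA0 (n + 1) i).ne'
        field_simp
      have e2 : ∀ i, v n i / ((1 + κ i * δ (n + 1) i) / (1 + κ i * δ n i)) / (1 + κ i * δ n i) ^ 2
          = v n i / ((1 + κ i * δ n i) * (1 + κ i * δ (n + 1) i)) := fun i => by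
        have h1 := (hA0 n i).ne'
        have h2 := (hA0 (n + 1) i).ne'
        field_simp
      have e3 : ∀ i, w i / ((1 + κ i * δ (n + 1) i) / (1 + κ i * δ n i)) / (1 + κ i * δ n i)
          = w i / (1 + κ i * δ (n + 1) i) := fun i => by
        have h1 := (hA0 n i).ne'
        have h2 := (hA0 (n + 1) i).ne'
        field_simp
      simp only [e1, e2, e3, Finset.sum_range_succ, Finset.sum_add_distrib, gvs]
      ring
  rw [key n]
  simp only [Pi.zero_apply, zero_div]
  have : (fun _ : ι => (0 : ℝ)) = 0 := rfl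
  rw [this]
  simp [add_comm]

end Vale.Agent.P166
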