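import Vale.Agent.P166.Defs

/-! # Elementary properties of the tilted paths -/

namespace Vale.Agent.P166

open Vale.Agent.P157

variable {n : ℕ} {ζ r : ℕ → ℝ}

theorem csDelta_nonneg (hζ : Zok ζ) (hr : CAdm n r) (d : ℕ) : 0 ≤ csDelta ζ r d := by
  exact Finset.sum_nonneg fun k _ => mul_nonneg (hζ.nn k) (hr.dq_nonneg k)

theorem csDelta_step (ζ r : ℕ → ℝ) (d : ℕ) :
    csDelta ζ r (d + 1) = csDelta ζ r d + ζ d * dq r d := by
  exact Finset.sum_range_succ _ _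

theorem sub_QQ (hz : ζ 0 = 1) (r : ℕ → ℝ) (d : ℕ) :
    r 0 - QQ ζ r d = csDelta ζ r d + ζ d * r d := by
  induction d with
  | zero => simp [QQ, csDelta, hz]
  | succ d ih =>
    rw [csDelta_step, QQ, Finset.sum_range_succ, ← QQ, dq]
    linarith

theorem cum_dq (hr : CAdm n r) : cum n (dq r) = r := by
  funext k
  rcases le_or_gt k (n + 1) with h | h
  · have e := Finset.sum_Ico_sub r h
    rw [hr.zero (n + 1) (by omega)] at e
    have e' : cum n (dq r) k = -∑ d ∈ Finset.Ico k (n + 1), (r (d + 1) - r d) := by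
      rw [← Finset.sum_neg_distrib]
      exact Finset.sum_congr rfl fun d _ => (neg_sub _ _).symm
    rw [e', e]
    ring
  · rw [cum, Finset.Ico_eq_empty_of_le h.le, Finset.sum_empty, hr.zero k (by omega)]

theorem dq_Wp (c : ℝ) {d : ℕ} (hd : d ≤ n) :
    dq (Wp ζ n c r) d = dq r d / ((1 + c * csDelta ζ r d) * (1 + c * csDelta ζ r (d + 1))) := by
  exact dq_cum n _ hd

theorem wpb_one_le (hζ : Zok ζ) (hr : CAdm n r) {c : ℝ} (hc : 0 ≤ c) (d : ℕ) :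
    1 ≤ 1 + c * csDelta ζ r d :=
  le_add_of_nonneg_right (mul_nonneg hc (csDelta_nonneg hζ hr d))

theorem cadm_Wp (hζ : Zok ζ) (hr : CAdm n r) {c : ℝ} (hc : 0 ≤ c) : CAdm n (Wp ζ n c r) := by
  exact cadm_cum n fun d => div_nonneg (hr.dq_nonneg d) (mul_nonneg
    (zero_le_one.trans (wpb_one_le hζ hr hc _)) (zero_le_one.trans (wpb_one_le hζ hr hc _)))

theorem Wp_le (hζ : Zok ζ) (hr : CAdm n r) {c : ℝ} (hc : 0 ≤ c) (k : ℕ) :
    Wp ζ n c r k ≤ r k := by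
  refine le_trans ?_ (congrFun (cum_dq hr) k).le
  unfold Wp cum
  exact Finset.sum_le_sum fun d _ => div_le_self (hr.dq_nonneg d)
    (one_le_mul_of_one_le_of_one_le (wpb_one_le hζ hr hc d) (wpb_one_le hζ hr hc (d + 1)))

theorem Wp_zero (hr : CAdm n r) : Wp ζ n 0 r = r := by
  simp only [Wp, zero_mul, add_zero, mul_one, div_one]
  exact cum_dq hr

theorem csDelta_Wp (hζ : Zok ζ) (hr : CAdm n r) {c : ℝ} (hc : 0 ≤ c) {d : ℕ} (hd : d ≤ n + 1) :
    csDelta ζ (Wp ζ n c r) d = csDelta ζ r d / (1 + c * csDelta ζ r d) := by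
  induction d with
  | zero => simp [csDelta]
  | succ d ih =>
    have h1 := wpb_one_le hζ hr hc d
    have h2 := wpb_one_le hζ hr hc (d + 1)
    rw [csDelta_step, ih (by omega), dq_Wp c (by omega)]
    rw [csDelta_step] at h2 ⊢
    generalize csDelta ζ r d = a at *
    have e1 : 1 + c * a ≠ 0 := by linarith
    have e2 : 1 + c * (a + ζ d * dq r d) ≠ 0 := by linarith
    rw [← mul_div_assoc, div_add_div _ _ e1 (mul_ne_zero e1 e2),
      div_eq_div_iff (mul_ne_zero e1 (mul_ne_zero e1 e2)) e2]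
    ring

theorem Lc_zero (ζ : ℕ → ℝ) (n : ℕ) (r : ℕ → ℝ) : Lc ζ n 0 r = 0 := by
  simp [Lc, qc]

theorem cadm_pP {L : Type} [Fintype L] (hζ : Zok ζ) (hr : CAdm n r) {κ : L → ℝ}
    (hκ : ∀ l, 0 ≤ κ l) (β : L → ℝ) : CAdm n (pP ζ n κ β r) := by
  refine ⟨fun a b hab => Finset.sum_le_sum fun l _ =>
    mul_le_mul_of_nonneg_left ((cadm_Wp hζ hr (hκ l)).anti hab) (sq_nonneg _), fun d hd => ?_⟩
  exact Finset.sum_eq_zero fun l _ => by rw [(cadm_Wp hζ hr (hκ l)).zero d hd, mul_zero]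

theorem pP_le {L : Type} [Fintype L] (hζ : Zok ζ) (hr : CAdm n r) {κ β : L → ℝ} {κm : ℝ}
    (hκ : ∀ l, 0 ≤ κ l ∧ κ l ≤ κm) : pP ζ n κ β r 0 ≤ κm ^ 2 * (∑ l, β l ^ 2) * r 0 := by
  rw [Finset.mul_sum, Finset.sum_mul]
  refine Finset.sum_le_sum fun l _ => ?_
  have h := cadm_Wp hζ hr (hκ l).1
  have h0 : 0 ≤ Wp ζ n (κ l) r 0 := (h.zero (n + 1) (by omega)).ge.trans (h.anti (Nat.zero_le _))
  refine mul_le_mul ?_ (Wp_le hζ hr (hκ l).1 0) h0 (by positivity)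
  rw [mul_pow]
  exact mul_le_mul_of_nonneg_right (pow_le_pow_left₀ (hκ l).1 (hκ l).2 2) (sq_nonneg _)

theorem dq_pP {L : Type} [Fintype L] (κ β : L → ℝ) (d : ℕ) :
    dq (pP ζ n κ β r) d = ∑ l, (κ l * β l) ^ 2 * dq (Wp ζ n (κ l) r) d := by
  simp only [dq, pP, mul_sub, Finset.sum_sub_distrib]

theorem cadm_rhoP {O : Type} [Fintype O] (hζ : Zok ζ) (hr : CAdm n r) {c : O → ℝ}
    (hc : ∀ o, 0 ≤ c o) : CAdm n (rhoP ζ n c r) := by
  refine ⟨fun a b hab => div_le_div_of_nonneg_right (Finset.sum_le_sum fun o _ =>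
    (cadm_Wp hζ hr (hc o)).anti hab) (Nat.cast_nonneg _), fun d hd => ?_⟩
  rw [rhoP, avg, Finset.sum_eq_zero fun o _ => (cadm_Wp hζ hr (hc o)).zero d hd, zero_div]

theorem rhoP_sub_QQ {O : Type} [Fintype O] (c : O → ℝ) (d : ℕ) :
    rhoP ζ n c r 0 - QQ ζ (rhoP ζ n c r) d
      = avg fun o => Wp ζ n (c o) r 0 - QQ ζ (Wp ζ n (c o) r) d := by
  simp only [rhoP, avg, QQ, Finset.sum_sub_distrib, sub_div]
  rw [Finset.sum_comm]
  simp only [Finset.sum_div, Finset.mul_sum, mul_div_assoc]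

theorem csDelta_rhoP {O : Type} [Fintype O] (hζ : Zok ζ) (hr : CAdm n r) {c : O → ℝ}
    (hc : ∀ o, 0 ≤ c o) {d : ℕ} (hd : d ≤ n + 1) :
    csDelta ζ (rhoP ζ n c r) d = Mf c (csDelta ζ r d) := by
  simp only [Mf, ← fun o => csDelta_Wp hζ hr (hc o) hd]
  simp only [rhoP, avg, csDelta]
  rw [Finset.sum_comm]
  simp only [Finset.sum_div, Finset.mul_sum, mul_div_assoc, ← Finset.sum_sub_distrib, ← sub_div]

end Vale.Agent.P166
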