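import Vale.Agent.P166.Lin
import Vale.Agent.P166.CavJet
import Vale.Agent.P166.Tilt
import Vale.Agent.P166.WpB

/-! # Evaluation of the finite dimensional cavity systems -/

namespace Vale.Agent.P166

open MeasureTheory ProbabilityTheory Vale.Agent.P157

variable {n : ℕ} {ζ : ℕ → ℝ}

namespace FinYAux

theorem gtop_add {W Ω : Type} [NormedAddCommGroup W] [MeasurableSpace W] [BorelSpace W]
    [SecondCountableTopology W] [MeasurableSpace Ω] {μ : Measure Ω} [IsProbabilityMeasure μ]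
    {H : W → Ω → ℝ} (hH : HG H) (c : ℝ) (w : W) :
    lse μ 1 (fun x => H w x + c) = gtop μ H w + c :=
  lse_add_const (hH.eint w).integrable ((hH.eint w).2 1) c

theorem qc_zero (z v : ℝ) : qc z v 0 = 0 := by
  unfold qc
  split_ifs <;> simp

theorem gen {L : Type} [Fintype L] (hζ : Zok ζ) {r : ℕ → ℝ} (hr : CAdm n r) {κ : L → ℝ}
    (hκ : ∀ l, 0 ≤ κ l) (d0 : ℕ) {σ : ℝ} (hσ : 0 ≤ σ) {H η : (L → ℝ) → Bool → ℝ} (hH : HG H)
    (hη : BM2 η) :
    TR UnifAux.mu2 ζ n d0 σ (fun d (_ : L) => dq r d)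
        (fun t ε => -(∑ l, κ l * t l ^ 2) / 2 + H t ε) η
      = -(∑ l, Lc ζ n (κ l) r)
        + TR UnifAux.mu2 ζ n d0 σ (fun d l => dq (Wp ζ n (κ l) r) d) H η := by
  have hT := hg_trH hH hη
  set κ' : Option L → ℝ := fun o => o.elim 0 κ with hκ'
  have hk : ∀ o, 0 ≤ κ' o := fun o => by
    rcases o with _ | l
    · exact le_rfl
    · exact hκ l
  have e : gtop UnifAux.mu2 (trH (fun t ε => -(∑ l, κ l * t l ^ 2) / 2 + H t ε) η)
      = fun u => -(∑ o, κ' o * u o ^ 2) / 2 + gtop UnifAux.mu2 (trH H η) u := by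
    funext u
    rw [add_comm, ← gtop_add hT]
    unfold gtop
    congr 1
    funext x
    simp only [trH, Fintype.sum_option, hκ', Option.elim, zero_mul, zero_add]
    ring
  have hv := optS_nonneg d0 hσ (s := fun d (_ : L) => dq r d) fun d _ => hr.dq_nonneg d
  unfold TR GV
  rw [e, tilt hζ hv hk hT.lg_gtop
    (δ := fun d o => ∑ k ∈ Finset.range d, ζ k * optS d0 σ (fun d (_ : L) => dq r d) k o)
    (fun _ _ => rfl) (n + 1)]
  congr 1
  · simp only [Fintype.sum_option, hκ', Option.elim, zero_div, qc_zero, Finset.sum_const_zero,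
      zero_add]
    rfl
  · refine congrFun (X_congr fun j hj => ⟨rfl, ?_⟩) 0
    unfold gvs
    congr 1
    funext o
    rcases o with _ | l
    · simp [hκ', optS]
    · simp only [hκ', optS, Option.elim]
      rw [dq_Wp _ (Nat.lt_succ_iff.1 hj)]
      rfl

theorem bm_sg : BM UnifAux.sg :=
  ⟨measurable_of_countable _, 1, fun b => (UnifAux.abs_sg b).le⟩

theorem hg_lin {L : Type} [Fintype L] (a : L → ℝ) (c : ℝ) :
    HG fun (t : L → ℝ) (ε : Bool) => (∑ l, a l * t l) * UnifAux.sg ε + c := by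
  have h := hg_lsH (E := fun _ : Bool => c) (ξ := fun l ε => a l * UnifAux.sg ε) (BM.const c)
    fun l => bm_sg.const_mul _
  have e : (fun (t : L → ℝ) (ε : Bool) => (∑ l, a l * t l) * UnifAux.sg ε + c)
      = lsH (fun _ : Bool => c) fun l ε => a l * UnifAux.sg ε := by
    funext t ε
    rw [lsH, add_comm, Finset.sum_mul]
    congr 1
    exact Finset.sum_congr rfl fun l _ => by ring
  rw [e]
  exact h

theorem sg_sq (ε : Bool) : UnifAux.sg ε ^ 2 = 1 := by
  rw [← sq_abs, UnifAux.abs_sg, one_pow]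

theorem core {L : ℝ} (hL : 0 < L) {a b : ℝ} (ha : 0 ≤ a) (hb : 0 ≤ b) :
    |∫ u, (∫ y, clp L (u + y) ∂(g1 a)) ^ 2 ∂(g1 b) - b| ≤ ((a + b) + 3 * (a + b) ^ 2) / L := by
  have hid : ∀ v : ℝ, EInt (g1 v) fun z => z := fun v => by
    simpa using LG.eint (noise_g1 v) (Ψ := fun u : ℝ => u) ⟨measurable_id, 1, fun w => by simp⟩ 0
  have hbm : BM (clp L) := ⟨measurable_clp L, L, abs_clp_le hL⟩
  have i1 : ∀ u, Integrable (fun y => clp L (u + y)) (g1 a) := fun u =>
    (ChainAux.shift hbm u).integrable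
  have i2 : ∀ u : ℝ, Integrable (fun y => u + y) (g1 a) := fun u =>
    (integrable_const u).add (hid a).integrable
  have m1 : ∀ u : ℝ, |∫ y, clp L (u + y) ∂(g1 a) - u| ≤ (u ^ 2 + a) / L := fun u => by
    have e : ∫ y, (u + y) ∂(g1 a) = u := by
      rw [integral_add (integrable_const u) (hid a).integrable, integral_id_g1]
      simp
    have h1 : ∫ y, clp L (u + y) ∂(g1 a) - u = ∫ y, (clp L (u + y) - (u + y)) ∂(g1 a) := by
      rw [integral_sub (i1 u) (i2 u), e]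
    rw [h1, ← (TiltAux.sq_one ha u).2, ← integral_div]
    refine abs_integral_le_integral_abs.trans (integral_mono ((i1 u).sub (i2 u)).abs
      ((TiltAux.sq_one ha u).1.div_const L) fun y => abs_clp_sub hL _)
  have m2 : ∀ u : ℝ, |∫ y, clp L (u + y) ∂(g1 a)| ≤ (1 + (u ^ 2 + a)) / 2 := fun u => by
    have h1 : ∫ y, (1 + (u + y) ^ 2) / 2 ∂(g1 a) = (1 + (u ^ 2 + a)) / 2 := by
      rw [integral_div, integral_add (integrable_const _) (TiltAux.sq_one ha u).1,
        (TiltAux.sq_one ha u).2]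
      simp
    rw [← h1]
    refine abs_integral_le_integral_abs.trans (integral_mono (i1 u).abs
      (((integrable_const _).add (TiltAux.sq_one ha u).1).div_const 2) fun y => ?_)
    refine (abs_clp_le_abs hL _).trans ?_
    have := sq_abs (u + y)
    nlinarith [sq_nonneg (|u + y| - 1)]
  have m3 : ∀ u : ℝ, |(∫ y, clp L (u + y) ∂(g1 a)) ^ 2 - u ^ 2|
      ≤ (u ^ 4 + (1 + 3 * a / 2) * u ^ 2 + (a + a ^ 2 / 2)) / L := fun u => by
    have h1 := m1 u
    have h2 := m2 u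
    generalize ∫ y, clp L (u + y) ∂(g1 a) = m at h1 h2
    have h3 : |m + u| ≤ 1 + u ^ 2 + a / 2 := by
      refine (abs_add_le _ _).trans ?_
      have := sq_abs u
      nlinarith [sq_nonneg (|u| - 1)]
    rw [show m ^ 2 - u ^ 2 = (m - u) * (m + u) by ring, abs_mul]
    refine (mul_le_mul h1 h3 (abs_nonneg _) (by positivity)).trans (le_of_eq ?_)
    ring
  have hm : BM fun u => ∫ y, clp L (u + y) ∂(g1 a) := by
    refine ⟨?_, L, fun u => ?_⟩
    · exact (StronglyMeasurable.integral_prod_right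
        (f := fun u y : ℝ => clp L (u + y))
        ((measurable_clp L).comp (measurable_fst.add measurable_snd)).stronglyMeasurable).measurable
    · have := norm_integral_le_of_norm_le_const (μ := g1 a) (f := fun y => clp L (u + y)) (C := L)
        (ae_of_all _ fun y => abs_clp_le hL _)
      simpa using this
  have j1 : Integrable (fun u : ℝ => u ^ 4 + (1 + 3 * a / 2) * u ^ 2) (g1 b) :=
    ((hid b).integrable_pow 4).add (((hid b).integrable_pow 2).const_mul _)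
  have h4 : ∫ u, (u ^ 4 + (1 + 3 * a / 2) * u ^ 2 + (a + a ^ 2 / 2)) / L ∂(g1 b)
      = (3 * b ^ 2 + (1 + 3 * a / 2) * b + (a + a ^ 2 / 2)) / L := by
    rw [integral_div, integral_add j1 (integrable_const _),
      integral_add ((hid b).integrable_pow 4) (((hid b).integrable_pow 2).const_mul _),
      integral_const_mul, integral_four_g1 hb, integral_sq_g1 hb]
    simp
  have h5 : ∫ u, (∫ y, clp L (u + y) ∂(g1 a)) ^ 2 ∂(g1 b) - b
      = ∫ u, ((∫ y, clp L (u + y) ∂(g1 a)) ^ 2 - u ^ 2) ∂(g1 b) := by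
    rw [integral_sub (hm.pow 2).integrable ((hid b).integrable_pow 2), integral_sq_g1 hb]
  rw [h5]
  refine (abs_integral_le_integral_abs.trans (integral_mono
    ((hm.pow 2).integrable.sub ((hid b).integrable_pow 2)).abs
    ((j1.add (integrable_const _)).div_const L) m3)).trans ?_
  refine h4.le.trans (div_le_div_of_nonneg_right ?_ hL.le)
  nlinarith [mul_nonneg ha hb, sq_nonneg a]

theorem unit_int (v : ℝ) {f : ℝ → ℝ} (hf : Measurable f) :
    ∫ z, f (z ()) ∂(gv fun _ : Unit => v) = ∫ z, f z ∂(g1 v) :=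
  integral_comp_eval (μ := fun _ : Unit => g1 v) (f := f) hf.aestronglyMeasurable

theorem bm2_prC {L : ℝ} (hL : 0 < L) : BM2 (prC L) :=
  ⟨(measurable_clp L).comp ((measurable_pi_apply ()).comp measurable_fst), L,
    fun _ _ => abs_clp_le hL _⟩

theorem sum_Ico {w : ℕ → ℝ} {k d : ℕ} (h : k ≤ d) : ∑ j ∈ Finset.Ico k d, dq w j = w k - w d := by
  induction d, h using Nat.le_induction with
  | base => simp
  | succ d h ih =>
    rw [Finset.sum_Ico_succ_top h, ih, dq]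
    ring

/-- Evaluation of a one coordinate vector. -/
def ev : (Unit → ℝ) →+ ℝ := Pi.evalAddMonoidHom (fun _ : Unit => ℝ) ()

theorem meas_ev : Measurable ev := measurable_pi_apply ()

theorem map_ev (p : ℕ → ℝ) (j : ℕ) :
    (gvs (fun d (_ : Unit) => dq p d) j).map ev = g1s (dq p) j :=
  (measurePreserving_eval (fun _ : Unit => g1 (dq p j)) ()).map_eq

theorem lsH_ev (w : Unit → ℝ) :
    lsH (fun _ => 0) (fun _ : Unit => UnifAux.sg) w = fun b => (ev w + 0) * UnifAux.sg b := by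
  funext b
  simp [lsH, ev]

theorem top_ev (w : Unit → ℝ) :
    gtop UnifAux.mu2 (lsH (fun _ => 0) fun _ : Unit => UnifAux.sg) w = lc (ev w + 0) := by
  rw [← UnifAux.gtop_two, gtop, gtop, lsH_ev]

theorem gib_ev (w : Unit → ℝ) :
    gib UnifAux.mu2 (lsH (fun _ => 0) fun _ : Unit => UnifAux.sg) (fun _ b => UnifAux.sg b) w
      = Real.tanh (ev w + 0) := by
  rw [← UnifAux.gib_two, gib, gib, lsH_ev]

theorem meas_tanh : Measurable Real.tanh := by
  have : Real.tanh = fun x => Real.sinh x / Real.cosh x := funext Real.tanh_eq_sinh_div_cosh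
  rw [this]
  exact Real.continuous_sinh.measurable.div Real.continuous_cosh.measurable

theorem prob (p : ℕ → ℝ) (j : ℕ) : IsProbabilityMeasure (g1s (dq p) j) :=
  (noise_g1 _).prob

end FinYAux

open FinYAux

theorem xq_scalar (hζ : Zok ζ) {r : ℕ → ℝ} (hr : CAdm n r) {c : ℝ} (hc : 0 ≤ c) (d0 : ℕ) {σ : ℝ}
    (hσ : 0 ≤ σ) {η : (Unit → ℝ) → Bool → ℝ} (hη : BM2 η) :
    XC ζ n d0 σ r (cavQ (fun _ : Unit => c) 0) η
      = -Lc ζ n c r + XC ζ n d0 σ (Wp ζ n c r) (fun _ _ => 0) η := by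
  have h := gen hζ hr (κ := fun _ : Unit => c) (fun _ => hc) d0 hσ (H := fun _ _ => 0)
    (hg_of_bm2 (BM2.const 0)) hη
  have e : cavQ (fun _ : Unit => c) 0
      = fun (t : Unit → ℝ) (_ : Bool) => -(∑ l, c * t l ^ 2) / 2 + 0 := by
    funext t ε
    simp [cavQ, Qf]
  unfold XC
  rw [e, h]
  simp

theorem xq_spin {L : Type} [Fintype L] (hζ : Zok ζ) {r : ℕ → ℝ} (hr : CAdm n r) {κ : L → ℝ}
    (hκ : ∀ l, 0 ≤ κ l) (β : L → ℝ) (d0 : ℕ) {σ : ℝ} (hσ : 0 ≤ σ) :
    XC ζ n d0 σ r (cavQ κ β) prS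
      = -(∑ l, κ l * β l ^ 2) / 2 - ∑ l, Lc ζ n (κ l) r
        + SL UnifAux.mu2 ζ n d0 σ (fun d (_ : Unit) => dq (pP ζ n κ β r) d) (fun _ => 0)
            (fun _ => UnifAux.sg) UnifAux.sg := by
  classical
  have hη : BM2 (prS (L := L)) := bm2_const bm_sg
  have h := gen hζ hr hκ d0 hσ (hg_lin (fun l => -(κ l * β l)) (-(∑ l, κ l * β l ^ 2) / 2)) hη
  have e : cavQ κ β = fun (t : L → ℝ) (ε : Bool) => -(∑ l, κ l * t l ^ 2) / 2
      + ((∑ l, -(κ l * β l) * t l) * UnifAux.sg ε + -(∑ l, κ l * β l ^ 2) / 2) := by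
    funext t ε
    have h1 : Qf κ β t ε = ∑ l, κ l * t l ^ 2 - 2 * ((∑ l, -(κ l * β l) * t l) * UnifAux.sg ε)
        + ∑ l, κ l * β l ^ 2 := by
      rw [Qf, Finset.sum_mul, Finset.mul_sum, ← Finset.sum_sub_distrib, ← Finset.sum_add_distrib]
      refine Finset.sum_congr rfl fun l _ => ?_
      have := sg_sq ε
      linear_combination κ l * β l ^ 2 * this
    rw [cavQ, h1]
    ring
  have hT : HG (trH (lsH (fun _ => 0) fun _ : Unit => UnifAux.sg) fun _ x => UnifAux.sg x) :=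
    hg_trH (hg_lsH (BM.const 0) fun _ => bm_sg) (bm2_const bm_sg)
  set M : Option Unit → Option L → ℝ := fun k o =>
    k.elim (o.elim 1 fun _ => 0) fun _ => o.elim 0 fun l => -(κ l * β l) with hM
  have hT0 := hg_trH (hg_lin (fun l => -(κ l * β l)) 0) hη
  have e2 : gtop UnifAux.mu2 (trH (fun (t : L → ℝ) (ε : Bool) =>
        (∑ l, -(κ l * β l) * t l) * UnifAux.sg ε + -(∑ l, κ l * β l ^ 2) / 2) prS)
      = fun u => gtop UnifAux.mu2 (trH (fun (t : L → ℝ) (ε : Bool) =>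
        (∑ l, -(κ l * β l) * t l) * UnifAux.sg ε + 0) prS) u + -(∑ l, κ l * β l ^ 2) / 2 := by
    funext u
    rw [← gtop_add hT0]
    unfold gtop
    congr 1
    funext x
    simp only [trH]
    ring
  have e3 : gtop UnifAux.mu2 (trH (fun (t : L → ℝ) (ε : Bool) =>
        (∑ l, -(κ l * β l) * t l) * UnifAux.sg ε + 0) prS)
      = fun u => gtop UnifAux.mu2
        (trH (lsH (fun _ => 0) fun _ : Unit => UnifAux.sg) fun _ x => UnifAux.sg x)
        fun k => ∑ o, M k o * u o := by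
    funext u
    unfold gtop
    congr 1
    funext x
    simp [trH, lsH, prS, hM, Fintype.sum_option]
  have hv := optS_nonneg d0 hσ (s := fun d l => dq (Wp ζ n (κ l) r) d)
    fun d l => (cadm_Wp hζ hr (hκ l)).dq_nonneg d
  unfold XC
  rw [e, h]
  unfold SL TR GV
  rw [e2, (cas_gvs hζ _ hT0.lg_gtop).X_add_const, e3,
    X_lin M ζ hv (optS d0 σ fun d (_ : Unit) => dq (pP ζ n κ β r) d) hT.lg_gtop.1]
  · ring
  · intro j _ k l
    rcases k with _ | k <;> rcases l with _ | l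
    · simp [hM, optS, Fintype.sum_option]
    · simp [hM, optS, Fintype.sum_option]
    · simp [hM, optS, Fintype.sum_option]
    · simp only [hM, optS, Fintype.sum_option, Option.elim, mul_zero, zero_add, if_true, dq_pP]
      exact Finset.sum_congr rfl fun l _ => by ring

theorem db_clp (hζ : Zok ζ) {w : ℕ → ℝ} (hw : CAdm n w) {L : ℝ} (hL : 0 < L) {d : ℕ}
    (hd : d ≤ n) :
    |Db ζ (gvs fun d (_ : Unit) => dq w d) UnifAux.mu2 (fun _ _ => 0) (prC L) (fun _ _ => 0) n d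
        - (w 0 - QQ ζ w d)| ≤ 6 * (1 + w 0) ^ 2 / L := by
  have hs : ∀ d (_ : Unit), 0 ≤ dq w d := fun d _ => hw.dq_nonneg d
  have hn : w (n + 1) = 0 := hw.zero _ (Nat.lt_succ_self n)
  have h0 := hw.nonneg 0
  have hp := bm2_prC hL
  have hcl : BM fun u : Unit → ℝ => clp L (u ()) :=
    ⟨(measurable_clp L).comp (measurable_pi_apply ()), L, fun _ => abs_clp_le hL _⟩
  have e1 : EG ζ (gvs fun d (_ : Unit) => dq w d) UnifAux.mu2 (fun _ _ => 0)
      (fun u x => 0 + prC L u x ^ 2) n = ∫ u, (∫ y, clp L (u + y) ∂(g1 0)) ^ 2 ∂(g1 (w 0)) := by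
    rw [eg_zero hs ((BM2.const 0).add (hp.pow 2)), Finset.range_eq_Ico,
      sum_Ico (Nat.zero_le _), hn, sub_zero, g1_of_nonpos le_rfl]
    simp only [prC, zero_add, integral_const, probReal_univ, one_smul, integral_dirac, add_zero]
    exact unit_int _ ((measurable_clp L).pow_const 2)
  have e2 : ∀ k, k ≤ n + 1 → Esq ζ (gvs fun d (_ : Unit) => dq w d) UnifAux.mu2 (fun _ _ => 0)
      (prC L) n k = ∫ u, (∫ y, clp L (u + y) ∂(g1 (w 0 - w k))) ^ 2 ∂(g1 (w k)) := by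
    intro k hk
    have g : gib UnifAux.mu2 (fun (_ : Unit → ℝ) (_ : Bool) => (0 : ℝ)) (prC L)
        = fun u => clp L (u ()) := by
      funext u
      rw [gib_zero]
      simp only [prC, integral_const, probReal_univ, one_smul]
    have e3 : ∀ u : Unit → ℝ, GE ζ (gvs fun d (_ : Unit) => dq w d) UnifAux.mu2 (fun _ _ => 0)
        (prC L) k u = ∫ y, clp L (u () + y) ∂(g1 (w 0 - w k)) := fun u => by
      rw [GE, gtop_zero, g, ex_zero hs hcl (Nat.zero_le k), sum_Ico (Nat.zero_le k)]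
      exact unit_int _ ((measurable_clp L).comp (measurable_const_add _))
    have hb := (bm_GE (μ := UnifAux.mu2) (hg_of_bm2 (BM2.const 0)) hζ
      (LinAux.noise fun d (_ : Unit) => dq w d) hp k).pow 2
    rw [Esq, gtop_zero, ex_zero hs hb hk, sum_Ico hk, hn, sub_zero]
    simp only [e3, zero_add]
    refine unit_int (f := fun u => (∫ y, clp L (u + y) ∂(g1 (w 0 - w k))) ^ 2) _ ?_
    exact (StronglyMeasurable.integral_prod_right (f := fun u y : ℝ => clp L (u + y))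
      ((measurable_clp L).comp
        (measurable_fst.add measurable_snd)).stronglyMeasurable).measurable.pow_const 2
  have b1 := core hL le_rfl h0
  rw [zero_add, ← e1] at b1
  have b2 := RespAux.wsum hζ d (a := fun k => Esq ζ (gvs fun d (_ : Unit) => dq w d) UnifAux.mu2
    (fun _ _ => 0) (prC L) n (k + 1) - w (k + 1)) (B := (w 0 + 3 * w 0 ^ 2) / L) (by positivity)
    fun k hk => by
      have := core hL (sub_nonneg.2 (hw.anti (Nat.zero_le (k + 1)))) (hw.nonneg (k + 1))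
      rw [sub_add_cancel, ← e2 (k + 1) (by omega)] at this
      exact this
  simp only [mul_sub (ζ _ - ζ _), Finset.sum_sub_distrib] at b2
  have b3 : (w 0 + 3 * w 0 ^ 2) / L + (w 0 + 3 * w 0 ^ 2) / L ≤ 6 * (1 + w 0) ^ 2 / L := by
    rw [← add_div]
    exact div_le_div_of_nonneg_right (by nlinarith) hL.le
  unfold Db QQ
  rw [abs_le] at b1 b2 ⊢
  constructor <;> linarith [b1.1, b1.2, b2.1, b2.2]

theorem ls_spin (p : ℕ → ℝ) :
    LS UnifAux.mu2 ζ n (fun d (_ : Unit) => dq p d) (fun _ => 0) (fun _ => UnifAux.sg)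
      = psi n ζ p lc := by
  rw [psi_eq_X _ _ _ lg_lc.1, LS, GV,
    X_push ev meas_ev 0 (prob p) lg_lc.1 top_ev (fun j _ => map_ev p j), map_zero, add_zero]

theorem ldb_spin (hζ : Zok ζ) (p : ℕ → ℝ) {d : ℕ} (hd : d ≤ n) :
    lDb UnifAux.mu2 ζ n (fun d (_ : Unit) => dq p d) (fun _ => 0) (fun _ => UnifAux.sg)
      UnifAux.sg d = 1 - QQ ζ (qt n ζ p) d := by
  have hH : HG (lsH (fun _ => 0) fun _ : Unit => UnifAux.sg) := hg_lsH (BM.const 0) fun _ => bm_sg
  have e3 : (fun (_ : Unit → ℝ) (b : Bool) => (0 : ℝ) + UnifAux.sg b ^ 2) = fun _ _ => 1 := by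
    funext _ b
    rw [zero_add, sg_sq]
  unfold lDb Db QQ EG
  rw [e3, GE_const hH hζ (LinAux.noise _)]
  congr 1
  refine Finset.sum_congr rfl fun k hk => ?_
  have hk' : k + 1 ≤ n := (Finset.mem_range.1 hk).trans_le hd
  rw [qt, if_neg (Nat.succ_ne_zero k), if_pos hk']
  congr 1
  unfold Esq GE rho1
  rw [Ex_push ev meas_ev 0 (prob p) lg_lc.1 top_ev (k + 1)
    (φ' := fun x => Ex ζ (g1s (dq p)) lc 0 Real.tanh (k + 1) x ^ 2)
    ((measurable_Ex (prob p) lg_lc.1 0 meas_tanh (k + 1)).pow_const 2)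
    (fun w => by
      rw [Ex_push ev meas_ev 0 (prob p) lg_lc.1 top_ev 0 meas_tanh gib_ev
        (fun j _ => map_ev p j) w])
    (fun j _ => map_ev p j), map_zero, add_zero]

theorem xc_scalar_exp (L : ℝ) (hL : 0 < L) : ∃ C : ℝ, 0 ≤ C ∧
    ∀ (n : ℕ) (ζ r : ℕ → ℝ) (c σ : ℝ) (d : ℕ), Zok ζ → ζ 0 = 1 → CAdm n r → 0 ≤ c → d ≤ n →
      0 ≤ σ → σ ≤ 1 →
      |XC ζ n d σ r (cavQ (fun _ : Unit => c) 0) (prC L) + Lc ζ n c r
          - σ / 2 * (Wp ζ n c r 0 - QQ ζ (Wp ζ n c r) d)|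
        ≤ C * (σ * √σ) + σ * (3 * (1 + r 0) ^ 2 / L) := by
  obtain ⟨C, hC, h⟩ := unifS L
  refine ⟨C, hC, fun n ζ r c σ d hζ hz hr hc hd h0 h1 => ?_⟩
  have hw := cadm_Wp hζ hr hc
  have h2 := h Unit Bool UnifAux.mu2 ζ (fun d (_ : Unit) => dq (Wp ζ n c r) d) (fun _ _ => 0)
    (prC L) hζ hz (fun d _ => hw.dq_nonneg d) (hg_of_bm2 (BM2.const 0)) (bm2_prC hL).1
    (fun _ _ => abs_clp_le hL _) n d hd σ h0 h1
  have h3 := db_clp hζ hw hL hd
  have h4 : 6 * (1 + Wp ζ n c r 0) ^ 2 / L ≤ 2 * (3 * (1 + r 0) ^ 2 / L) := by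
    rw [← mul_div_assoc]
    refine div_le_div_of_nonneg_right ?_ hL.le
    have := Wp_le hζ hr hc 0
    have := hw.nonneg 0
    nlinarith
  rw [xq_scalar hζ hr hc d h0 (bm2_prC hL), XC]
  rw [gv_zero, sub_zero] at h2
  have h5 := abs_le.1 (h3.trans h4)
  have h6 := mul_le_mul_of_nonneg_left h5.1 h0
  have h7 := mul_le_mul_of_nonneg_left h5.2 h0
  rw [abs_le] at h2 ⊢
  constructor <;> linarith [h2.1, h2.2]

theorem xc_spin_exp : ∃ C : ℝ, 0 ≤ C ∧
    ∀ (L : Type) [Fintype L] (n : ℕ) (ζ r : ℕ → ℝ) (κ β : L → ℝ) (σ : ℝ) (d : ℕ), Zok ζ →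
      ζ 0 = 1 → CAdm n r → (∀ l, 0 ≤ κ l) → d ≤ n → 0 ≤ σ → σ ≤ 1 →
      |XC ζ n d σ r (cavQ κ β) prS
          - (-(∑ l, κ l * β l ^ 2) / 2 - ∑ l, Lc ζ n (κ l) r + psi n ζ (pP ζ n κ β r) lc)
          - σ / 2 * (1 - QQ ζ (qt n ζ (pP ζ n κ β r)) d)| ≤ C * (σ * √σ) := by
  obtain ⟨C, hC, h⟩ := unifS 1
  refine ⟨C, hC, fun L _ n ζ r κ β σ d hζ hz hr hκ hd h0 h1 => ?_⟩
  have hp := cadm_pP hζ hr hκ β
  have h2 := h Unit Bool UnifAux.mu2 ζ (fun d (_ : Unit) => dq (pP ζ n κ β r) d)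
    (lsH (fun _ => 0) fun _ => UnifAux.sg) (fun _ x => UnifAux.sg x) hζ hz
    (fun d _ => hp.dq_nonneg d) (hg_lsH (BM.const 0) fun _ => bm_sg) (bm2_const bm_sg).1
    (fun _ x => (UnifAux.abs_sg x).le) n d hd σ h0 h1
  rw [xq_spin hζ hr hκ β d h0, ← ls_spin, ← ldb_spin hζ _ hd]
  refine le_of_eq_of_le (congrArg _ ?_) h2
  unfold SL LS lDb
  ring

end Vale.Agent.P166
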