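import Vale.Agent.P166.Var

/-! # Link with the pressure -/

namespace Vale.Agent.P166

open MeasureTheory Filter Topology Vale.Agent.P157

variable {S : Type} [Fintype S] [DecidableEq S]

theorem link_X_dirac (ζ : ℕ → ℝ) (Ψ : (S → ℝ) → ℝ) (d : ℕ) :
    X ζ (gvs fun _ (_ : S) => (0 : ℝ)) Ψ d = Ψ := by
  induction d with
  | zero => rfl
  | succ d ih =>
    have e : gvs (fun _ (_ : S) => (0 : ℝ)) d = Measure.dirac 0 := gv_of_nonpos fun _ => le_rfl
    rw [X, ih, e, T_dirac]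

theorem link_zok : Zok fun _ => 1 := ⟨antitone_const, fun _ => zero_le_one, le_rfl⟩

theorem link_pos (c : S → ℝ) (U : OG S) : 0 < ∫ x, Real.exp (EQ c U x) ∂(cube S) := by
  rw [integral_cube]
  exact mul_pos (by positivity) (Finset.sum_pos (fun _ _ => Real.exp_pos _) Finset.univ_nonempty)

theorem link_quad (lam : S → ℝ) (U : OG S) (x : S → Bool) :
    sp x ⬝ᵥ ((U.1.transpose * Matrix.diagonal lam * U.1).mulVec (sp x)) =
      ∑ i, lam i * yv U i x ^ 2 := by
  rw [← Matrix.mulVec_mulVec, ← Matrix.mulVec_mulVec, Matrix.dotProduct_mulVec,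
    Matrix.vecMul_transpose, dotProduct]
  refine Finset.sum_congr rfl fun i _ => ?_
  rw [Matrix.mulVec_diagonal, yv]
  ring

theorem F0_eq_XM (ζ : ℕ → ℝ) (n : ℕ) (c : S → ℝ) (U : OG S) :
    F0 c U = XM ζ n (fun _ _ => 0) c U := by
  rw [XM, LS, GV, link_X_dirac, gtop, lse, if_neg one_ne_zero, inv_one, one_mul, F0]
  simp only [lsH, Pi.zero_apply, zero_mul, Finset.sum_const_zero, add_zero, one_mul]

theorem bm_F0 (c : S → ℝ) : BM (F0 c) := by
  have e : F0 c = XM (fun _ => 1) 0 (fun _ _ => 0) c := funext fun U => F0_eq_XM _ 0 c U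
  rw [e]
  exact bm_XM link_zok rfl 0 (fun _ _ => le_rfl) c

theorem F0_anti {c c' : S → ℝ} (h : ∀ i, c i ≤ c' i) (U : OG S) : F0 c' U ≤ F0 c U := by
  refine Real.log_le_log (link_pos c' U) (integral_mono (bm_fin _).integrable
    (bm_fin _).integrable fun x => Real.exp_le_exp.2 ?_)
  have : ∑ i, c i * yv U i x ^ 2 ≤ ∑ i, c' i * yv U i x ^ 2 :=
    Finset.sum_le_sum fun i _ => mul_le_mul_of_nonneg_right (h i) (sq_nonneg _)
  unfold EQ
  linarith

theorem pressure_eq (β Λ : ℝ) {N : ℕ} (hN : 1 ≤ N) (lam : Fin N → ℝ) (U : OG (Fin N)) :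
    pressure β lam U = β * Λ / 2 + (N : ℝ)⁻¹ * F0 (fun i => β * (Λ - lam i)) U := by
  have h0 : (N : ℝ) ≠ 0 := by positivity
  have h1 : ∀ b : Fin N → Bool,
      β / 2 * (sp b ⬝ᵥ ((U.1.transpose * Matrix.diagonal lam * U.1).mulVec (sp b))) =
        β * Λ / 2 * N + EQ (fun i => β * (Λ - lam i)) U b := by
    intro b
    have e := yv_sum_sq U b
    rw [Fintype.card_fin] at e
    rw [link_quad, EQ, ← e, Finset.mul_sum, Finset.mul_sum, neg_div, Finset.sum_div,
      ← sub_eq_add_neg, ← Finset.sum_sub_distrib]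
    exact Finset.sum_congr rfl fun i _ => by ring
  have h2 : pressure β lam U = (N : ℝ)⁻¹ * Real.log (((2 : ℝ) ^ N)⁻¹ * ∑ b : Fin N → Bool,
      Real.exp (β / 2 * (sp b ⬝ᵥ
        ((U.1.transpose * Matrix.diagonal lam * U.1).mulVec (sp b))))) := rfl
  have h3 := link_pos (fun i => β * (Λ - lam i)) U
  rw [h2, F0]
  rw [integral_cube, Fintype.card_fin] at h3 ⊢
  simp only [h1, Real.exp_add]
  rw [← Finset.mul_sum, mul_left_comm, Real.log_mul (Real.exp_pos _).ne' h3.ne', Real.log_exp,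
    mul_add]
  congr 1
  field_simp

theorem integral_pressure (β Λ : ℝ) {N : ℕ} (hN : 1 ≤ N) (lam : Fin N → ℝ) :
    ∫ U, pressure β lam U ∂(haarO (Fin N))
      = β * Λ / 2 + (N : ℝ)⁻¹ * ∫ U, F0 (fun i => β * (Λ - lam i)) U ∂(haarO (Fin N)) := by
  simp only [pressure_eq β Λ hN lam]
  rw [integral_add (integrable_const _) ((bm_F0 _).integrable.const_mul _), integral_const_mul,
    integral_const, probReal_univ, one_smul]

theorem conc_pressure {β : ℝ} (hβ : 0 ≤ β) {lam : ∀ N : ℕ, Fin N → ℝ} {lo hi : ℝ}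
    (h : ∀ᶠ N : ℕ in atTop, ∀ i, lo ≤ lam N i ∧ lam N i ≤ hi) {L : ℝ}
    (hL : Tendsto (fun N : ℕ => ∫ U, pressure β (lam N) U ∂(haarO (Fin N))) atTop (𝓝 L))
    {ε : ℝ} (hε : 0 < ε) :
    Tendsto (fun N : ℕ => haarO (Fin N) {U | ε ≤ |pressure β (lam N) U - L|}) atTop (𝓝 0) := by
  refine ENNReal.tendsto_nhds_zero.2 fun δ hδ => ?_
  by_cases ht : δ = ⊤
  · exact Eventually.of_forall fun _ => ht ▸ le_top
  have hd : 0 < δ.toReal := ENNReal.toReal_pos hδ.ne' ht
  filter_upwards [h, eventually_ge_atTop 1,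
    dev_XM 0 (max (β * (hi - lo)) 0) (half_pos hε) hd,
    Metric.tendsto_nhds.1 hL (ε / 2) (half_pos hε)] with N hl hN hdev hc
  have hN0 : (0 : ℝ) < N := by exact_mod_cast hN
  have key := hdev (Fin N) (fun _ => 1) (fun _ _ => 0) (fun i => β * (hi - lam N i))
    (by rw [Fintype.card_fin]; linarith) link_zok rfl (fun _ _ => le_rfl)
    (fun _ _ _ => le_max_right _ _) (fun i => ⟨mul_nonneg hβ (sub_nonneg.2 (hl i).2),
      (mul_le_mul_of_nonneg_left (by linarith [(hl i).1]) hβ).trans (le_max_left _ _)⟩)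
  simp only [← F0_eq_XM] at key
  refine le_trans (measure_mono fun U hU => ?_)
    ((ENNReal.toReal_le_toReal (measure_ne_top _ _) ht).1 key)
  have hU' : ε ≤ |pressure β (lam N) U - L| := hU
  rw [Real.dist_eq, integral_pressure β hi hN] at hc
  rw [pressure_eq β hi hN] at hU'
  show ε / 2 * N ≤ |F0 (fun i => β * (hi - lam N i)) U -
    ∫ U', F0 (fun i => β * (hi - lam N i)) U' ∂(haarO (Fin N))|
  generalize F0 (fun i => β * (hi - lam N i)) U = a at hU' ⊢
  generalize ∫ U', F0 (fun i => β * (hi - lam N i)) U' ∂(haarO (Fin N)) = b at hc ⊢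
  have e : β * hi / 2 + (N : ℝ)⁻¹ * a - L =
      (N : ℝ)⁻¹ * (a - b) + (β * hi / 2 + (N : ℝ)⁻¹ * b - L) := by ring
  have t := abs_add_le ((N : ℝ)⁻¹ * (a - b)) (β * hi / 2 + (N : ℝ)⁻¹ * b - L)
  rw [← e, abs_mul, abs_of_pos (inv_pos.2 hN0)] at t
  rw [← le_div_iff₀ hN0, div_eq_inv_mul |a - b|]
  linarith

end Vale.Agent.P166
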