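import Vale.Agent.P166.Geo1

/-! # The arrowhead form and perturbation of quadratic forms -/

namespace Vale.Agent.P166

open Matrix Vale.Agent.P157

variable {A : Type} [Fintype A] [DecidableEq A]

namespace Geo2Aux

theorem exists_diag (B : Matrix A A ℝ) (hB : Bᵀ = B) :
    ∃ (P : OG A) (κ : A → ℝ), P.1ᵀ * B * P.1 = Matrix.diagonal κ := by
  have hH : B.IsHermitian := by
    rw [Matrix.IsHermitian, Matrix.conjTranspose_eq_transpose_of_trivial, hB]
  have h1 := hH.conjStarAlgAut_star_eigenvectorUnitary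
  rw [Unitary.conjStarAlgAut_apply, Unitary.coe_star, star_star, Matrix.star_eq_conjTranspose,
    Matrix.conjTranspose_eq_transpose_of_trivial] at h1
  have h2 := (Unitary.mem_iff.mp hH.eigenvectorUnitary.2).2
  rw [Matrix.star_eq_conjTranspose, Matrix.conjTranspose_eq_transpose_of_trivial] at h2
  exact ⟨⟨hH.eigenvectorUnitary.1, (Matrix.mem_orthogonalGroup_iff A ℝ).2 h2⟩, hH.eigenvalues, h1⟩

theorem quad_eq {S T : Type} [Fintype S] [DecidableEq S] [Fintype T] (c : S → ℝ)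
    (Q : Matrix S T ℝ) (w : T → ℝ) :
    ∑ o, c o * (Q *ᵥ w) o ^ 2 = w ⬝ᵥ (Qᵀ * Matrix.diagonal c * Q) *ᵥ w := by
  rw [← Matrix.mulVec_mulVec, ← Matrix.mulVec_mulVec, Matrix.dotProduct_mulVec,
    Matrix.vecMul_transpose, dotProduct]
  refine Finset.sum_congr rfl fun o _ => ?_
  rw [Matrix.mulVec_diagonal]
  ring

theorem KK_pos (A : Type) [Fintype A] : 0 < KK A := by
  unfold KK
  positivity

theorem KK_card (A : Type) [Fintype A] : (Fintype.card (Option A) : ℝ) = KK A := by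
  simp [KK]

theorem k_sq (A : Type) [Fintype A] : (√(KK A))⁻¹ ^ 2 = (KK A)⁻¹ := by
  rw [inv_pow, Real.sq_sqrt (KK_pos A).le]

theorem row_sum (R : OG (Option A)) (o : Option A) (h : R.1 o none = (√(KK A))⁻¹) :
    ∑ a, R.1 o (some a) ^ 2 = 1 - (KK A)⁻¹ := by
  have := og_row R o
  rw [Fintype.sum_option, h, k_sq] at this
  linarith

theorem mulVec_row (R : OG (Option A)) (o o' : Option A) :
    (R.1 *ᵥ R.1 o) o' = if o' = o then 1 else 0 := by
  have := congrFun (congrFun (og_mul_tr R) o') o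
  rw [Matrix.one_apply] at this
  rw [← this]
  rfl

/-- the polarized form of the arrowhead identity -/
theorem polar {c : Option A → ℝ} {κ β : A → ℝ} {R : OG (Option A)} (h : Arrow c κ β R)
    (z : Option A → ℝ) (o : Option A) : c o * (R.1 *ᵥ z) o =
      ∑ a, κ a * (z (some a) + z none * β a) * (R.1 o (some a) + (√(KK A))⁻¹ * β a) := by
  have h1 := h.quad (z + R.1 o)
  have h2 := h.quad (z - R.1 o)
  have h3 : ∑ o', c o' * (R.1 *ᵥ (z + R.1 o)) o' ^ 2 - ∑ o', c o' * (R.1 *ᵥ (z - R.1 o)) o' ^ 2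
      = 4 * (c o * (R.1 *ᵥ z) o) := by
    rw [← Finset.sum_sub_distrib, Finset.sum_eq_single o]
    · simp only [Matrix.mulVec_add, Matrix.mulVec_sub, Pi.add_apply, Pi.sub_apply, mulVec_row,
        if_true]
      ring
    · intro o' _ ho
      simp only [Matrix.mulVec_add, Matrix.mulVec_sub, Pi.add_apply, Pi.sub_apply, mulVec_row,
        if_neg ho]
      ring
    · exact fun ho => absurd (Finset.mem_univ o) ho
  rw [h1, h2, ← Finset.sum_sub_distrib] at h3
  have h4 : 4 * ∑ a, κ a * (z (some a) + z none * β a) * (R.1 o (some a) + (√(KK A))⁻¹ * β a)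
      = 4 * (c o * (R.1 *ᵥ z) o) := by
    rw [← h3, Finset.mul_sum]
    refine Finset.sum_congr rfl fun a _ => ?_
    simp only [Pi.add_apply, Pi.sub_apply, h.col o]
    ring
  linarith

theorem ent_some {c : Option A → ℝ} {κ β : A → ℝ} {R : OG (Option A)} (h : Arrow c κ β R)
    (o : Option A) (a : A) :
    c o * R.1 o (some a) = κ a * (R.1 o (some a) + (√(KK A))⁻¹ * β a) := by
  have h1 := polar h (Pi.single (some a) 1) o
  rw [Finset.sum_eq_single a] at h1
  · simpa using h1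
  · intro b _ hb
    simp [hb]
  · exact fun ha => absurd (Finset.mem_univ a) ha

theorem ent_none {c : Option A → ℝ} {κ β : A → ℝ} {R : OG (Option A)} (h : Arrow c κ β R)
    (o : Option A) :
    c o * (√(KK A))⁻¹ = ∑ a, κ a * β a * (R.1 o (some a) + (√(KK A))⁻¹ * β a) := by
  have h1 := polar h (Pi.single none 1) o
  simpa [h.col o] using h1

theorem sg_sq (x : Bool) : UnifAux.sg x ^ 2 = 1 := by cases x <;> simp [UnifAux.sg]

theorem pert {ι : Type} [Fintype ι] {c a d : ι → ℝ} {cm e X : ℝ} (hcm : 0 ≤ cm)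
    (hc : ∀ i, 0 ≤ c i ∧ c i ≤ cm) (he : 0 < e) (hd : ∑ i, d i ^ 2 ≤ e ^ 2 * X) :
    |∑ i, c i * (a i + d i) ^ 2 - ∑ i, c i * a i ^ 2|
      ≤ e * cm * (∑ i, a i ^ 2 + (1 + e) * X) := by
  have h1 : ∀ i, e * |c i * (a i + d i) ^ 2 - c i * a i ^ 2|
      ≤ cm * (e ^ 2 * a i ^ 2 + (1 + e) * d i ^ 2) := by
    intro i
    have h2 : e * |(a i + d i) ^ 2 - a i ^ 2| ≤ e ^ 2 * a i ^ 2 + (1 + e) * d i ^ 2 := by
      rw [← abs_of_pos he, ← abs_mul, abs_of_pos he, abs_le]
      have h3 := mul_nonneg he.le (sq_nonneg (d i))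
      constructor
      · nlinarith [sq_nonneg (e * a i + d i)]
      · nlinarith [sq_nonneg (e * a i - d i)]
    rw [← mul_sub, abs_mul, abs_of_nonneg (hc i).1, mul_left_comm]
    exact mul_le_mul (hc i).2 h2 (by positivity) hcm
  refine le_of_mul_le_mul_left ?_ he
  rw [← Finset.sum_sub_distrib]
  calc e * |∑ i, (c i * (a i + d i) ^ 2 - c i * a i ^ 2)|
      ≤ e * ∑ i, |c i * (a i + d i) ^ 2 - c i * a i ^ 2| :=
        mul_le_mul_of_nonneg_left (Finset.abs_sum_le_sum_abs _ _) he.le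
    _ ≤ ∑ i, cm * (e ^ 2 * a i ^ 2 + (1 + e) * d i ^ 2) := by
        rw [Finset.mul_sum]
        exact Finset.sum_le_sum fun i _ => h1 i
    _ = cm * (e ^ 2 * ∑ i, a i ^ 2 + (1 + e) * ∑ i, d i ^ 2) := by
        rw [← Finset.mul_sum, Finset.sum_add_distrib, ← Finset.mul_sum, ← Finset.mul_sum]
    _ ≤ cm * (e ^ 2 * ∑ i, a i ^ 2 + (1 + e) * (e ^ 2 * X)) := by gcongr
    _ = _ := by ring

theorem exists_small {s ε P Q : ℝ} (hs : 0 < s) (hε : 0 < ε) (hP : 0 ≤ P) (hQ : 0 ≤ Q) :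
    ∃ e, 0 < e ∧ e ≤ 1 / 2 ∧ e * P ≤ s ∧ e * Q ≤ ε := by
  refine ⟨min (1 / 2) (min (s / (P + 1)) (ε / (Q + 1))), by positivity, min_le_left _ _, ?_, ?_⟩
  · calc _ ≤ s / (P + 1) * (P + 1) :=
          mul_le_mul ((min_le_right _ _).trans (min_le_left _ _)) (by linarith) hP (by positivity)
      _ = s := div_mul_cancel₀ _ (by positivity)
  · calc _ ≤ ε / (Q + 1) * (Q + 1) :=
          mul_le_mul ((min_le_right _ _).trans (min_le_right _ _)) (by linarith) hQ
            (by positivity)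
      _ = ε := div_mul_cancel₀ _ (by positivity)

end Geo2Aux

open Geo2Aux

theorem exists_arrow {c : Option A → ℝ} (h0 : c none = 0) {c0 cm : ℝ} (hc0 : 0 ≤ c0)
    (hc : ∀ a, c0 ≤ c (some a) ∧ c (some a) ≤ cm) :
    ∃ (κ β : A → ℝ) (R : OG (Option A)), Arrow c κ β R ∧ (∀ a, c0 / KK A ≤ κ a ∧ κ a ≤ cm) ∧
      ∑ a, β a ^ 2 = KK A - 1 := by
  have hK := KK_pos A
  have hk : 0 < √(KK A) := Real.sqrt_pos.2 hK
  obtain ⟨R0, hR0⟩ := exists_col (fun _ : Option A => (√(KK A))⁻¹) (by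
    rw [Finset.sum_const, Finset.card_univ, nsmul_eq_mul, KK_card, k_sq,
      mul_inv_cancel₀ hK.ne']) none
  set Q : Matrix (Option A) A ℝ := R0.1.submatrix id some with hQ
  obtain ⟨P, κ, hP⟩ := exists_diag (Qᵀ * Matrix.diagonal c * Q) (by
    rw [Matrix.transpose_mul, Matrix.transpose_mul, Matrix.transpose_transpose,
      Matrix.diagonal_transpose, Matrix.mul_assoc])
  set R : OG (Option A) := R0 * emb P with hR
  have hcol : ∀ o, R.1 o none = (√(KK A))⁻¹ := by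
    intro o
    rw [hR, og_mul, Matrix.mul_apply, Fintype.sum_option, ← hR0 o]
    simp [emb]
  have hq : ∀ w : A → ℝ, ∑ o, c o * (R.1 *ᵥ fun o' => o'.elim 0 w) o ^ 2 = ∑ a, κ a * w a ^ 2 := by
    intro w
    have h1 : (R.1 *ᵥ fun o' => o'.elim 0 w) = (Q * P.1) *ᵥ w := by
      rw [hR, og_mul, ← Matrix.mulVec_mulVec, ← Matrix.mulVec_mulVec, emb_mulVec]
      funext o
      simp [hQ, Matrix.mulVec, dotProduct, Fintype.sum_option]
    have h2 : (Q * P.1)ᵀ * Matrix.diagonal c * (Q * P.1) = Matrix.diagonal κ := by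
      rw [← hP, Matrix.transpose_mul]
      simp only [Matrix.mul_assoc]
    rw [h1, quad_eq, h2, dotProduct]
    refine Finset.sum_congr rfl fun a _ => ?_
    rw [Matrix.mulVec_diagonal]
    ring
  refine ⟨κ, fun a => -(√(KK A) * R.1 none (some a)), R, ⟨hcol, fun z => ?_⟩, fun a => ?_, ?_⟩
  · rw [← hq]
    have h1 : z = (fun o' : Option A => o'.elim 0 fun a =>
        z (some a) + z none * -(√(KK A) * R.1 none (some a))) + (z none * √(KK A)) • R.1 none := by
      funext o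
      rcases o with _ | a
      · simp only [Pi.add_apply, Pi.smul_apply, Option.elim, smul_eq_mul, hcol]
        field_simp
        ring
      · simp only [Pi.add_apply, Pi.smul_apply, Option.elim, smul_eq_mul]
        ring
    refine Finset.sum_congr rfl fun o _ => ?_
    conv_lhs => rw [h1]
    rw [Matrix.mulVec_add, Matrix.mulVec_smul, Pi.add_apply, Pi.smul_apply, mulVec_row]
    rcases o with _ | a
    · rw [h0, zero_mul, zero_mul]
    · simp
  · have h1 : κ a = ∑ b, c (some b) * R.1 (some b) (some a) ^ 2 := by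
      have h2 := hq (Pi.single a 1)
      have h3 : (fun o' : Option A => o'.elim (0 : ℝ) (Pi.single a 1)) = Pi.single (some a) 1 := by
        funext o
        rcases o with _ | b
        · simp
        · simp [Pi.single_apply]
      rw [h3, Fintype.sum_option, h0, zero_mul, zero_add,
        Finset.sum_eq_single a (f := fun b => κ b * _)] at h2
      · simpa using h2.symm
      · intro b _ hb
        simp [hb]
      · exact fun ha => absurd (Finset.mem_univ a) ha
    have h4 := og_col R (some a)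
    rw [Fintype.sum_option] at h4
    have h5 : R.1 none (some a) ^ 2 ≤ 1 - (KK A)⁻¹ := by
      rw [← row_sum R none (hcol none)]
      exact Finset.single_le_sum (f := fun b => R.1 none (some b) ^ 2) (fun b _ => sq_nonneg _)
        (Finset.mem_univ a)
    have hcm : 0 ≤ cm := hc0.trans ((hc a).1.trans (hc a).2)
    constructor
    · calc c0 / KK A ≤ c0 * ∑ b, R.1 (some b) (some a) ^ 2 := by
            rw [div_eq_mul_inv]
            exact mul_le_mul_of_nonneg_left (by linarith) hc0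
        _ ≤ κ a := by
            rw [h1, Finset.mul_sum]
            exact Finset.sum_le_sum fun b _ => mul_le_mul_of_nonneg_right (hc b).1 (sq_nonneg _)
    · calc κ a ≤ cm * ∑ b, R.1 (some b) (some a) ^ 2 := by
            rw [h1, Finset.mul_sum]
            exact Finset.sum_le_sum fun b _ => mul_le_mul_of_nonneg_right (hc b).2 (sq_nonneg _)
        _ ≤ cm * 1 := mul_le_mul_of_nonneg_left (by nlinarith [sq_nonneg (R.1 none (some a))]) hcm
        _ = cm := mul_one _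
  · simp only [neg_sq, mul_pow, Real.sq_sqrt hK.le]
    rw [← Finset.mul_sum, row_sum R none (hcol none), mul_sub, mul_one, mul_inv_cancel₀ hK.ne']

theorem alg_of_arrow {c : Option A → ℝ} (hc : ∀ o, 0 ≤ c o) {κ β : A → ℝ} (hκ : ∀ a, 0 ≤ κ a)
    {R : OG (Option A)} (h : Arrow c κ β R) : Alg c κ β := by
  have hK := KK_pos A
  have hk2 := k_sq A
  have e1 := ent_some h
  have e0 := ent_none h
  have hcol := h.col
  have hrow := fun o => row_sum R o (hcol o)
  set k := (√(KK A))⁻¹ with hk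
  have horth : ∀ a, ∑ o, R.1 o (some a) * k = 0 := by
    intro a
    have := congrFun (congrFun (og_tr_mul R) (some a)) none
    rw [Matrix.mul_apply, Matrix.one_apply_ne (by simp)] at this
    simpa only [Matrix.transpose_apply, hcol] using this
  have key : ∀ δ, 0 ≤ δ → ∀ a o, R.1 o (some a) / (1 + c o * δ) = R.1 o (some a) / (1 + κ a * δ)
      - δ * κ a * β a / (1 + κ a * δ) * k / (1 + c o * δ) := by
    intro δ hδ a o
    have h1 : 0 < 1 + c o * δ := by have := hc o; positivity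
    have h2 : 0 < 1 + κ a * δ := by have := hκ a; positivity
    have h3 : R.1 o (some a) * (1 + c o * δ) - δ * κ a * β a * k
        = R.1 o (some a) * (1 + κ a * δ) := by linear_combination δ * e1 o a
    generalize 1 + c o * δ = D at h1 h3
    generalize 1 + κ a * δ = E at h2 h3
    clear_value k
    field_simp
    linear_combination -h3
  have s1 : ∀ δ, 0 ≤ δ → ∀ a, ∑ o, R.1 o (some a) * k / (1 + c o * δ)
      = -(δ * κ a * β a / (1 + κ a * δ) * ((KK A)⁻¹ * ∑ o, 1 / (1 + c o * δ))) := by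
    intro δ hδ a
    have h1 : ∀ o, R.1 o (some a) * k / (1 + c o * δ) = R.1 o (some a) * k / (1 + κ a * δ)
        - δ * κ a * β a / (1 + κ a * δ) * ((KK A)⁻¹ * (1 / (1 + c o * δ))) := by
      intro o
      rw [← hk2]
      linear_combination k * key δ hδ a o
    simp only [h1]
    rw [Finset.sum_sub_distrib, ← Finset.sum_div, horth, ← Finset.mul_sum, ← Finset.mul_sum]
    ring
  constructor
  · intro δ hδ
    have hpos : 0 < ∑ o, 1 / (1 + c o * δ) :=
      Finset.sum_pos (fun o _ => by have := hc o; positivity) Finset.univ_nonempty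
    have h1 : ∀ o, (KK A)⁻¹ * (c o / (1 + c o * δ)) = ∑ a, κ a * β a *
        (R.1 o (some a) * k / (1 + c o * δ) + β a * ((KK A)⁻¹ * (1 / (1 + c o * δ)))) := by
      intro o
      have h2 : (KK A)⁻¹ * (c o / (1 + c o * δ)) = c o * k * (k / (1 + c o * δ)) := by
        rw [← hk2]; ring
      rw [h2, e0 o, Finset.sum_mul]
      refine Finset.sum_congr rfl fun a _ => ?_
      rw [← hk2]
      ring
    have h2 : (KK A)⁻¹ * ∑ o, c o / (1 + c o * δ) = (KK A)⁻¹ *
        ((∑ a, κ a * β a ^ 2 - ∑ a, (κ a * β a) ^ 2 * (δ / (1 + κ a * δ)))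
          * ∑ o, 1 / (1 + c o * δ)) := by
      rw [Finset.mul_sum]
      simp only [h1]
      rw [Finset.sum_comm, ← Finset.sum_sub_distrib, Finset.sum_mul, Finset.mul_sum]
      refine Finset.sum_congr rfl fun a _ => ?_
      rw [← Finset.mul_sum, Finset.sum_add_distrib, s1 δ hδ a, ← Finset.mul_sum, ← Finset.mul_sum]
      ring
    have h3 := mul_left_cancel₀ (inv_ne_zero hK.ne') h2
    rw [rt, h3, div_eq_iff hpos.ne']
    ring
  · intro δ hδ
    have h1 : ∀ a, ∑ o, c o / (1 + c o * δ) * R.1 o (some a) ^ 2 = κ a / (1 + κ a * δ)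
        - Mf c δ * ((κ a * β a) ^ 2 / (1 + κ a * δ) ^ 2) := by
      intro a
      have h2 : 0 < 1 + κ a * δ := by have := hκ a; positivity
      have h3 : ∀ o, c o / (1 + c o * δ) * R.1 o (some a) ^ 2
          = κ a / (1 + κ a * δ) * R.1 o (some a) ^ 2
            + κ a * (β a - δ * κ a * β a / (1 + κ a * δ))
              * (R.1 o (some a) * k / (1 + c o * δ)) := by
        intro o
        linear_combination (R.1 o (some a) / (1 + c o * δ)) * e1 o a
          + κ a * R.1 o (some a) * key δ hδ a o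
      have h4 : Mf c δ = δ * ((KK A)⁻¹ * ∑ o, 1 / (1 + c o * δ)) := by
        rw [Mf, avg, KK_card, Finset.mul_sum, Finset.mul_sum, Finset.sum_div]
        exact Finset.sum_congr rfl fun o _ => by ring
      simp only [h3]
      rw [Finset.sum_add_distrib, ← Finset.mul_sum, ← Finset.mul_sum, og_col, s1 δ hδ a, h4]
      field_simp
      ring
    have h5 : ∑ a, ∑ o, c o / (1 + c o * δ) * R.1 o (some a) ^ 2
        = (1 - (KK A)⁻¹) * ∑ o, c o / (1 + c o * δ) := by
      rw [Finset.sum_comm, Finset.mul_sum]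
      refine Finset.sum_congr rfl fun o _ => ?_
      rw [← Finset.mul_sum, hrow o, mul_comm]
    simp only [h1] at h5
    rw [Finset.sum_sub_distrib, ← Finset.mul_sum] at h5
    linarith

theorem qf_nonneg {L : Type} [Fintype L] {κ : L → ℝ} (hκ : ∀ l, 0 ≤ κ l) (β t : L → ℝ)
    (ε : Bool) : 0 ≤ Qf κ β t ε := Finset.sum_nonneg fun l _ => mul_nonneg (hκ l) (sq_nonneg _)

theorem qf_add {L : Type} [Fintype L] (κ β t : L → ℝ) (s : ℝ) (ε : Bool) :
    Qf (fun l => κ l + s) β t ε = Qf κ β t ε + s * Qf (fun _ => 1) β t ε := by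
  unfold Qf
  rw [Finset.mul_sum, ← Finset.sum_add_distrib]
  exact Finset.sum_congr rfl fun l _ => by ring

theorem sum_sq_le_qf {L : Type} [Fintype L] (β t : L → ℝ) (ε : Bool) :
    ∑ l, t l ^ 2 ≤ 2 * Qf (fun _ => 1) β t ε + 2 * ∑ l, β l ^ 2 := by
  unfold Qf
  rw [Finset.mul_sum, Finset.mul_sum, ← Finset.sum_add_distrib]
  refine Finset.sum_le_sum fun l _ => ?_
  have h : (UnifAux.sg ε * β l) ^ 2 = β l ^ 2 := by rw [mul_pow, sg_sq, one_mul]
  nlinarith [sq_nonneg (t l + 2 * (UnifAux.sg ε * β l))]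

theorem qf_sq_le {L : Type} [Fintype L] {κ β : L → ℝ} {κm : ℝ} (hκ : ∀ l, 0 ≤ κ l ∧ κ l ≤ κm)
    (hβ : ∑ l, β l ^ 2 ≤ κm) (t : L → ℝ) (ε : Bool) :
    Qf κ β t ε ^ 2 ≤ 8 * κm ^ 2 * (Fintype.card L * ∑ l, t l ^ 4 + κm ^ 2) := by
  have hm : 0 ≤ κm := (Finset.sum_nonneg fun l _ => sq_nonneg _).trans hβ
  have h1 : Qf κ β t ε ≤ 2 * κm * (∑ l, t l ^ 2 + κm) := by
    calc Qf κ β t ε ≤ ∑ l, 2 * κm * (t l ^ 2 + β l ^ 2) := by
          refine Finset.sum_le_sum fun l _ => ?_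
          have h : (UnifAux.sg ε * β l) ^ 2 = β l ^ 2 := by rw [mul_pow, sg_sq, one_mul]
          have h2 : (t l + UnifAux.sg ε * β l) ^ 2 ≤ 2 * (t l ^ 2 + β l ^ 2) := by
            nlinarith [sq_nonneg (t l - UnifAux.sg ε * β l)]
          calc _ ≤ κm * (2 * (t l ^ 2 + β l ^ 2)) := mul_le_mul (hκ l).2 h2 (sq_nonneg _) hm
            _ = _ := by ring
      _ = 2 * κm * (∑ l, t l ^ 2 + ∑ l, β l ^ 2) := by
          rw [← Finset.mul_sum, Finset.sum_add_distrib]
      _ ≤ _ := by gcongr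
  have h2 : (∑ l, t l ^ 2) ^ 2 ≤ Fintype.card L * ∑ l, t l ^ 4 := by
    have := sq_sum_le_card_mul_sum_sq (s := (Finset.univ : Finset L)) (f := fun l => t l ^ 2)
    simpa only [Finset.card_univ, ← pow_mul] using this
  have h3 : (∑ l, t l ^ 2 + κm) ^ 2 ≤ 2 * (Fintype.card L * ∑ l, t l ^ 4 + κm ^ 2) := by
    nlinarith [sq_nonneg (∑ l, t l ^ 2 - κm)]
  calc Qf κ β t ε ^ 2 ≤ (2 * κm * (∑ l, t l ^ 2 + κm)) ^ 2 :=
        pow_le_pow_left₀ (qf_nonneg (fun l => (hκ l).1) β t ε) h1 2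
    _ = 4 * κm ^ 2 * (∑ l, t l ^ 2 + κm) ^ 2 := by ring
    _ ≤ 4 * κm ^ 2 * (2 * (Fintype.card L * ∑ l, t l ^ 4 + κm ^ 2)) := by gcongr
    _ = _ := by ring

theorem Geo2Aux.finish {L : Type} [Fintype L] {κ β t : L → ℝ} {x : Bool} {s ε Y : ℝ}
    (h : |Y - Qf κ β t x| ≤ s * Qf (fun _ => 1) β t x + ε) :
    Y ≤ Qf (fun l => κ l + s) β t x + ε ∧ Qf (fun l => κ l - s) β t x ≤ Y + ε := by
  simp only [sub_eq_add_neg (κ _) s, qf_add]
  rw [abs_le] at h
  constructor <;> linarith [h.1, h.2]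

theorem qf_pert {s ε : ℝ} (hs : 0 < s) (hε : 0 < ε) (κm : ℝ) : ∃ e, 0 < e ∧ e ≤ 1 / 2 ∧
    ∀ (L : Type) [Fintype L] (κ β t t' : L → ℝ) (x : Bool), (∀ l, 0 ≤ κ l ∧ κ l ≤ κm) →
      ∑ l, β l ^ 2 ≤ κm → ∑ l, (t' l - t l) ^ 2 ≤ e ^ 2 * ∑ l, t l ^ 2 →
      Qf κ β t' x ≤ Qf (fun l => κ l + s) β t x + ε ∧
        Qf (fun l => κ l - s) β t x ≤ Qf κ β t' x + ε := by
  obtain ⟨e, he, he2, h1, h2⟩ := exists_small (P := 4 * |κm|) (Q := 3 * κm ^ 2) hs hε
    (by positivity) (by positivity)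
  refine ⟨e, he, he2, fun L _ κ β t t' x hκ hβ ht => finish ?_⟩
  have hm : 0 ≤ κm := (Finset.sum_nonneg fun l _ => sq_nonneg _).trans hβ
  rw [abs_of_nonneg hm] at h1
  have h3 := pert (a := fun l => t l + UnifAux.sg x * β l) hm hκ he ht
  have h4 : ∑ l, κ l * (t l + UnifAux.sg x * β l + (t' l - t l)) ^ 2 = Qf κ β t' x :=
    Finset.sum_congr rfl fun l _ => by ring
  have h5 : ∑ l, (t l + UnifAux.sg x * β l) ^ 2 = Qf (fun _ => 1) β t x :=
    Finset.sum_congr rfl fun l _ => (one_mul _).symm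
  rw [h4, h5] at h3
  have h6 := sum_sq_le_qf β t x
  have h7 := qf_nonneg (κ := fun _ : L => (1 : ℝ)) (fun _ => zero_le_one) β t x
  have h8 : 0 ≤ ∑ l, t l ^ 2 := Finset.sum_nonneg fun l _ => sq_nonneg _
  refine h3.trans ?_
  calc e * κm * (Qf (fun _ => 1) β t x + (1 + e) * ∑ l, t l ^ 2)
      ≤ e * κm * (Qf (fun _ => 1) β t x + 3 / 2 * (2 * Qf (fun _ => 1) β t x + 2 * κm)) := by
        gcongr
        · linarith
        · linarith
    _ = e * (4 * κm) * Qf (fun _ => 1) β t x + e * (3 * κm ^ 2) := by ring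
    _ ≤ _ := by gcongr

theorem qf_arrow {s ε : ℝ} (hs : 0 < s) (hε : 0 < ε) (cm : ℝ) : ∃ e, 0 < e ∧
    ∀ (A : Type) [Fintype A] [DecidableEq A] (c : Option A → ℝ) (κ β : A → ℝ) (R : OG (Option A))
      (t : A → ℝ) (x : Bool) (z : Option A → ℝ), Arrow c κ β R → (∀ o, 0 ≤ c o ∧ c o ≤ cm) →
      (∀ a, 0 ≤ κ a ∧ κ a ≤ cm) → ∑ a, β a ^ 2 ≤ cm →
      ∑ o, (z o - (R.1 *ᵥ fun o' => o'.elim (UnifAux.sg x) t) o) ^ 2
        ≤ e ^ 2 * (1 + ∑ a, t a ^ 2) →
      ∑ o, c o * z o ^ 2 ≤ Qf (fun a => κ a + s) β t x + ε ∧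
        Qf (fun a => κ a - s) β t x ≤ ∑ o, c o * z o ^ 2 + ε := by
  obtain ⟨e, he, he2, h1, h2⟩ := exists_small (P := 6 * |cm|) (Q := 3 * |cm| + 6 * cm ^ 2) hs hε
    (by positivity) (by positivity)
  refine ⟨e, he, fun A _ _ c κ β R t x z hA hc _ hβ hz => finish ?_⟩
  have hm : 0 ≤ cm := (Finset.sum_nonneg fun l _ => sq_nonneg _).trans hβ
  rw [abs_of_nonneg hm] at h1 h2
  have h3 := pert (a := R.1 *ᵥ fun o' => o'.elim (UnifAux.sg x) t) hm hc he hz
  have h4 : ∑ o, c o * (R.1 *ᵥ fun o' => o'.elim (UnifAux.sg x) t) o ^ 2 = Qf κ β t x := hA.quad _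
  have h5 : ∑ o, (R.1 *ᵥ fun o' => o'.elim (UnifAux.sg x) t) o ^ 2 = 1 + ∑ a, t a ^ 2 := by
    rw [og_norm, Fintype.sum_option]
    simp only [Option.elim, sg_sq]
  simp only [add_sub_cancel] at h3
  rw [h4, h5] at h3
  have h6 := sum_sq_le_qf β t x
  have h7 := qf_nonneg (κ := fun _ : A => (1 : ℝ)) (fun _ => zero_le_one) β t x
  have h8 : 0 ≤ ∑ l, t l ^ 2 := Finset.sum_nonneg fun l _ => sq_nonneg _
  refine h3.trans ?_
  calc e * cm * (1 + ∑ a, t a ^ 2 + (1 + e) * (1 + ∑ a, t a ^ 2))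
      = e * cm * ((2 + e) * (1 + ∑ a, t a ^ 2)) := by ring
    _ ≤ e * cm * (3 * (1 + (2 * Qf (fun _ => 1) β t x + 2 * cm))) := by
        gcongr
        · linarith
        · linarith
    _ = e * (6 * cm) * Qf (fun _ => 1) β t x + e * (3 * cm + 6 * cm ^ 2) := by ring
    _ ≤ _ := by gcongr

end Vale.Agent.P166
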