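import Vale.Agent.P166.FQ
import Vale.Agent.P166.Moves
import Vale.Agent.P166.Geo2

/-! # Adding one spin -/

namespace Vale.Agent.P166

open MeasureTheory ProbabilityTheory Matrix Filter Topology Vale.Agent.P157

namespace SpinAux

variable {S A : Type} [Fintype S] [DecidableEq S] [Fintype A] [DecidableEq A]

/-- The indices outside the range of `jj`. -/
def rest (jj : A → S) : Finset S := Finset.univ.filter fun i => ∀ a, jj a ≠ i

omit [DecidableEq A] in
theorem sumS {jj : A → S} (hj : Function.Injective jj) (G : S → ℝ) :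
    ∑ i, G i = ∑ a, G (jj a) + ∑ i ∈ rest jj, G i := by
  rw [← Finset.sum_filter_add_sum_filter_not Finset.univ (fun i => ∀ a, jj a ≠ i), add_comm]
  congr 1
  rw [← Finset.sum_image (s := Finset.univ) (g := jj) (f := G) fun a _ b _ h => hj h]
  refine Finset.sum_congr ?_ fun _ _ => rfl
  ext i
  simp

omit [DecidableEq A] in
theorem sumO {jj : A → S} (hj : Function.Injective jj) (F : Option S → ℝ) :
    ∑ i, F i = ∑ o : Option A, F (o.map jj) + ∑ i ∈ rest jj, F (some i) := by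
  rw [Fintype.sum_option, Fintype.sum_option, sumS hj, add_assoc]
  rfl

omit [Fintype S] [DecidableEq S] [Fintype A] [DecidableEq A] in
theorem b1_map {b0 : S → Option A} {jj : A → S} {b1 : Option S → Option A} (h : AddS b0 jj b1)
    (o : Option A) : b1 (o.map jj) = o := by
  cases o
  · exact h.new
  · exact h.mv _

theorem quad0 {b0 : S → Option A} {jj : A → S} {b1 : Option S → Option A} (h : AddS b0 jj b1)
    (f : Option A → ℝ) (y y' : S → ℝ) :
    ∑ i, f (b0 i) * (y i * y' i) = f none * ∑ a, y (jj a) * y' (jj a)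
      + ∑ i ∈ rest jj, f (b0 i) * (y i * y' i) := by
  rw [sumS h.inj, Finset.mul_sum]
  simp only [h.top]

theorem quad1 {b0 : S → Option A} {jj : A → S} {b1 : Option S → Option A} (h : AddS b0 jj b1)
    {C : OG (Option A)} {O : OG (Option S)}
    (h1 : ∀ (y : Option S → ℝ) (o : Option A),
      (O.1 *ᵥ y) (o.map jj) = (C.1 *ᵥ fun o' => y (o'.map jj)) o)
    (h2 : ∀ (y : Option S → ℝ) i, (∀ o : Option A, o.map jj ≠ i) → (O.1 *ᵥ y) i = y i)
    (f : Option A → ℝ) (y y' : S → ℝ) (e e' : ℝ) :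
    ∑ i, f (b1 i) * ((O.1 *ᵥ fun o => o.elim e y) i * (O.1 *ᵥ fun o => o.elim e' y') i)
      = ∑ o, f o * ((C.1 *ᵥ fun o' => o'.elim e fun a => y (jj a)) o
          * (C.1 *ᵥ fun o' => o'.elim e' fun a => y' (jj a)) o)
        + ∑ i ∈ rest jj, f (b0 i) * (y i * y' i) := by
  have e1 : ∀ (y : S → ℝ) (e : ℝ), (fun o' : Option A => (o'.map jj).elim e y)
      = fun o' => o'.elim e fun a => y (jj a) := fun y e => funext fun o => by cases o <;> rfl
  rw [sumO h.inj]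
  congr 1
  · refine Finset.sum_congr rfl fun o _ => ?_
    rw [b1_map h, h1, h1, e1, e1]
  · refine Finset.sum_congr rfl fun i hi => ?_
    have hi' : ∀ a, jj a ≠ i := (Finset.mem_filter.1 hi).2
    have h3 : ∀ o : Option A, o.map jj ≠ some i := by
      rintro (_ | a) h4
      · cases h4
      · exact hi' a (Option.some.inj h4)
    rw [h.old i hi', h2 _ _ h3, h2 _ _ h3]
    rfl

omit [DecidableEq A] in
theorem elim_dot (e e' : ℝ) (t t' : A → ℝ) :
    ∑ o : Option A, o.elim e t * o.elim e' t' = e * e' + ∑ a, t a * t' a := by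
  rw [Fintype.sum_option]
  rfl

theorem sg_sq (x : Bool) : UnifAux.sg x ^ 2 = 1 := by
  rw [← sq_abs, UnifAux.abs_sg, one_pow]

theorem norm_z (C : OG (Option A)) (t : A → ℝ) (x : Bool) :
    ∑ o, (C.1 *ᵥ fun o' => o'.elim (UnifAux.sg x) t) o ^ 2 = 1 + ∑ a, t a ^ 2 := by
  rw [og_norm, Fintype.sum_option, ← sg_sq x]
  rfl

end SpinAux

open SpinAux

/-- The value at `O * emb V` when `O` acts as `C` on the distinguished coordinates. -/
theorem spin_cmp {S A : Type} [Fintype S] [DecidableEq S] [Fintype A] [DecidableEq A]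
    {ζ : ℕ → ℝ} (hζ : Zok ζ) (hz : ζ 0 = 1) (n : ℕ) (ca : A → ℝ) (ϑ : ℕ → ℝ)
    {b0 : S → Option A} {jj : A → S} {b1 : Option S → Option A} (h : AddS b0 jj b1) (d0 : ℕ)
    {σ : ℝ} (hσ : 0 ≤ σ) (C : OG (Option A)) (O : OG (Option S))
    (h1 : ∀ (y : Option S → ℝ) (o : Option A),
      (O.1 *ᵥ y) (o.map jj) = (C.1 *ᵥ fun o' => y (o'.map jj)) o)
    (h2 : ∀ (y : Option S → ℝ) i, (∀ o : Option A, o.map jj ≠ i) → (O.1 *ᵥ y) i = y i)
    (V : OG S) {Pm Pp : (A → ℝ) → Bool → ℝ}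
    (hm : ∀ t x, Pm t x + (∑ d ∈ Finset.Icc 1 n, ϑ d ^ 2) * (∑ a, t a ^ 2) / 2
      ≤ -(∑ o, cv ca (ϑ 0) o * (C.1 *ᵥ fun o' => o'.elim (UnifAux.sg x) t) o ^ 2) / 2)
    (hp : ∀ t x, -(∑ o, cv ca (ϑ 0) o * (C.1 *ᵥ fun o' => o'.elim (UnifAux.sg x) t) o ^ 2) / 2
      + (∑ d ∈ Finset.Icc 1 n, ϑ d ^ 2) / 2 ≤ Pp t x) :
    CX ζ n ca 0 b0 ϑ d0 σ Pm prS V (fun x a => yv V (jj a) x)
      ≤ SL (cube (Option S)) ζ n d0 σ (sb 0 ϑ b1) (EQ (cb ca ϑ b1) (O * emb V)) (yv (O * emb V))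
          (fun x => sp x none) ∧
    SL (cube (Option S)) ζ n d0 σ (sb 0 ϑ b1) (EQ (cb ca ϑ b1) (O * emb V)) (yv (O * emb V))
          (fun x => sp x none)
      ≤ CX ζ n ca 0 b0 ϑ d0 σ Pp prS V (fun x a => yv V (jj a) x) := by
  rw [sl_map (μ' := (cube S).prod UnifAux.mu2) (measurable_of_finite _) cube_option
    (measurable_of_finite _) (fun _ => measurable_of_finite _) (measurable_of_finite _)]
  set z : (S → Bool) × Bool → Option A → ℝ :=
    fun p => C.1 *ᵥ fun o' => o'.elim (UnifAux.sg p.2) fun a => yv V (jj a) p.1 with hzd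
  have k0 := fun (f : Option A → ℝ) (p p' : (S → Bool) × Bool) =>
    quad0 h f (fun i => yv V i p.1) (fun i => yv V i p'.1)
  have k1 : ∀ (f : Option A → ℝ) (p p' : (S → Bool) × Bool),
      ∑ i, f (b1 i) * (yv (O * emb V) i (fun o => o.elim p.2 p.1)
        * yv (O * emb V) i (fun o => o.elim p'.2 p'.1))
      = ∑ o, f o * (z p o * z p' o) + ∑ i ∈ rest jj, f (b0 i) * (yv V i p.1 * yv V i p'.1) := by
    intro f p p'
    simp only [yv_emb]
    exact quad1 h h1 h2 f _ _ _ _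
  have hE : ∀ p : (S → Bool) × Bool, EQ (cb ca ϑ b1) (O * emb V) (fun o => o.elim p.2 p.1)
      = EQ (cb ca ϑ b0) V p.1 - (∑ o, cv ca (ϑ 0) o * z p o ^ 2) / 2 := by
    intro p
    have a0 := k0 (cv ca (ϑ 0)) p p
    have a1 := k1 (cv ca (ϑ 0)) p p
    have a2 : cv ca (ϑ 0) none = 0 := rfl
    rw [a2, zero_mul, zero_add] at a0
    simp only [EQ, cb, sq]
    rw [a0, a1]
    ring
  have hK : ∀ (d : ℕ) (p p' : (S → Bool) × Bool), ∑ o, sv 0 ϑ d o * (z p o * z p' o)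
      = sq0 ϑ d * (z p none * z p' none) := by
    intro d p p'
    rw [Fintype.sum_option]
    simp [sv, sq0]
  constructor
  · refine sl_cmp hζ hz (bm_fin _) (bm_fin _) (fun _ => bm_fin _) (fun _ => bm_fin _) (bm_fin _)
      (sb_nonneg _ _ _) (sb_nonneg _ _ _) (κ := A) (κ' := Unit)
      (p := fun a p => yv V (jj a) p.1) (p' := fun _ p => z p none) (fun _ => bm_fin _)
      (fun _ => bm_fin _) (u := fun d _ => sq0 ϑ d) (u' := fun d _ => sq0 ϑ d)
      (fun d _ => sq0_nonneg _ d) (fun d _ => sq0_nonneg _ d) n (fun d _ p p' => ?_)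
      (fun p => ?_) d0 hσ
    · have a0 := k0 (sv 0 ϑ d) p p'
      have a1 := k1 (sv 0 ϑ d) p p'
      have a2 : sv (A := A) 0 ϑ d none = sq0 ϑ d := rfl
      rw [a2] at a0
      rw [hK] at a1
      simp only [sb, Fintype.sum_unique]
      rw [a0, a1, ← Finset.mul_sum]
      ring
    · have a0 := hm (fun a => yv V (jj a) p.1) p.2
      simp only [← Finset.mul_sum]
      rw [hE, ← Finset.sum_mul, CrudeAux.sum_sq0]
      linarith
  · refine sl_cmp hζ hz (bm_fin _) (bm_fin _) (fun _ => bm_fin _) (fun _ => bm_fin _) (bm_fin _)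
      (sb_nonneg _ _ _) (sb_nonneg _ _ _) (κ := Unit) (κ' := A)
      (p := fun _ p => UnifAux.sg p.2) (p' := fun a p => z p (some a)) (fun _ => bm_fin _)
      (fun _ => bm_fin _) (u := fun d _ => sq0 ϑ d) (u' := fun d _ => sq0 ϑ d)
      (fun d _ => sq0_nonneg _ d) (fun d _ => sq0_nonneg _ d) n (fun d _ p p' => ?_)
      (fun p => ?_) d0 hσ
    · have a0 := k0 (sv 0 ϑ d) p p'
      have a1 := k1 (sv 0 ϑ d) p p'
      have a2 : sv (A := A) 0 ϑ d none = sq0 ϑ d := rfl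
      have a3 : ∑ o, z p o * z p' o = _ := og_dot C _ _
      rw [elim_dot, Fintype.sum_option] at a3
      rw [a2] at a0
      rw [hK] at a1
      simp only [sb, Fintype.sum_unique]
      rw [a0, a1, ← Finset.mul_sum]
      linear_combination (-sq0 ϑ d) * a3
    · have a0 := hp (fun a => yv V (jj a) p.1) p.2
      simp only [Fintype.sum_unique, sg_sq, mul_one]
      rw [hE, CrudeAux.sum_sq0]
      linarith

namespace SpinAux

variable {S A : Type} [Fintype S] [DecidableEq S] [Fintype A] [DecidableEq A]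

/-- The value of the enlarged system. -/
noncomputable def ff (ζ : ℕ → ℝ) (n : ℕ) (ca : A → ℝ) (ϑ : ℕ → ℝ) (b1 : Option S → Option A)
    (d0 : ℕ) (σ : ℝ) (W : OG (Option S)) : ℝ :=
  SL (cube (Option S)) ζ n d0 σ (sb 0 ϑ b1) (EQ (cb ca ϑ b1) W) (yv W) fun x => sp x none

/-- Mass of the first column in a block. -/
noncomputable def ms (b1 : Option S → Option A) (U : OG (Option S)) (o : Option A) : ℝ :=
  ∑ i : {i // b1 i = o}, U.1 i.1 none ^ 2

omit [Fintype A] in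
theorem ms_nonneg (b1 : Option S → Option A) (U : OG (Option S)) (o : Option A) :
    0 ≤ ms b1 U o := Finset.sum_nonneg fun _ _ => sq_nonneg _

theorem sum_ms (b1 : Option S → Option A) (U : OG (Option S)) : ∑ o, √(ms b1 U o) ^ 2 = 1 := by
  simp only [Real.sq_sqrt (ms_nonneg b1 U _)]
  rw [← og_col U none]
  exact Fintype.sum_fiberwise b1 fun i => U.1 i none ^ 2

omit [Fintype A] [DecidableEq A] in
theorem bm_prS : BM (Function.uncurry (prS : (A → ℝ) → Bool → ℝ)) :=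
  ⟨(measurable_of_finite UnifAux.sg).comp measurable_snd, 1, fun p => (UnifAux.abs_sg p.2).le⟩

variable {ζ : ℕ → ℝ} (hζ : Zok ζ) (hz : ζ 0 = 1) (n : ℕ) (ca : A → ℝ) (ϑ : ℕ → ℝ)
  {b0 : S → Option A} {jj : A → S} {b1 : Option S → Option A}
include hζ hz

theorem bm_ff (b1 : Option S → Option A) (d0 : ℕ) (σ : ℝ) : BM (ff ζ n ca ϑ b1 d0 σ) :=
  bm_TB hζ hz n ca 0 b1 ϑ d0 σ (η := fun _ x => sp x none)
    ⟨(measurable_of_finite fun x : Option S → Bool => sp x none).comp measurable_snd, 1,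
      fun p => (UnifAux.abs_sg (p.2 none)).le⟩

theorem int_ff (b1 : Option S → Option A) (d0 : ℕ) (σ : ℝ) (O : OG (Option S)) :
    Integrable (fun V => ff ζ n ca ϑ b1 d0 σ (O * emb V)) (haarO S) := by
  obtain ⟨h1, C, h2⟩ := bm_ff hζ hz n ca ϑ b1 d0 σ
  exact BM.integrable ⟨h1.comp (measurable_og_mul.comp (measurable_const.prodMk measurable_emb)),
    C, fun _ => h2 _⟩

theorem int_avg (b1 : Option S → Option A) (d0 : ℕ) (σ : ℝ) :
    Integrable (fun U => ∫ V, ff ζ n ca ϑ b1 d0 σ (U * emb V) ∂(haarO S)) (haarO (Option S)) := by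
  obtain ⟨h1, C, h2⟩ := bm_ff hζ hz n ca ϑ b1 d0 σ
  have : Integrable (fun p : OG (Option S) × OG S => ff ζ n ca ϑ b1 d0 σ (p.1 * emb p.2))
      ((haarO (Option S)).prod (haarO S)) :=
    BM.integrable ⟨h1.comp (measurable_og_mul.comp
      (measurable_fst.prodMk (measurable_emb.comp measurable_snd))), C, fun _ => h2 _⟩
  exact this.integral_prod_left

theorem avg_cmp (h : AddS b0 jj b1) (d0 : ℕ) {σ : ℝ} (hσ : 0 ≤ σ) (U : OG (Option S))
    (C : OG (Option A)) (hC : ∀ o, C.1 o none = √(ms b1 U o)) {κ κ' β : A → ℝ} {c c' : ℝ}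
    (hm : ∀ t x, cavQ κ β t x - c + (∑ d ∈ Finset.Icc 1 n, ϑ d ^ 2) * (∑ a, t a ^ 2) / 2
      ≤ -(∑ o, cv ca (ϑ 0) o * (C.1 *ᵥ fun o' => o'.elim (UnifAux.sg x) t) o ^ 2) / 2)
    (hp : ∀ t x, -(∑ o, cv ca (ϑ 0) o * (C.1 *ᵥ fun o' => o'.elim (UnifAux.sg x) t) o ^ 2) / 2
      + (∑ d ∈ Finset.Icc 1 n, ϑ d ^ 2) / 2 ≤ cavQ κ' β t x + c') :
    FP ζ n ca 0 b0 ϑ d0 σ (cavQ κ β) prS jj - c
        ≤ ∫ V, ff ζ n ca ϑ b1 d0 σ (U * emb V) ∂(haarO S) ∧
      ∫ V, ff ζ n ca ϑ b1 d0 σ (U * emb V) ∂(haarO S)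
        ≤ FP ζ n ca 0 b0 ϑ d0 σ (cavQ κ' β) prS jj + c' := by
  have hinj : Function.Injective (Option.map jj) := Option.map_injective h.inj
  obtain ⟨O, h1, h2, -⟩ := exists_ext hinj C
  obtain ⟨O₁, hO₁, h3⟩ := exists_align b1 (Option.map jj) (b1_map h) fun i => U.1 i none
  have e1 : ∀ V, ff ζ n ca ϑ b1 d0 σ (U * emb V) = ff ζ n ca ϑ b1 d0 σ (O₁ * U * emb V) := by
    intro V
    rw [mul_assoc]
    exact (sl_rot hζ hz hO₁ n ca 0 ϑ d0 hσ _ _).symm
  have e2 : ∀ o, (O₁ * U).1 o none = O.1 o none := by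
    intro i
    have a1 : (O₁ * U).1 i none = (O₁.1 *ᵥ fun i => U.1 i none) i := rfl
    have a2 : O.1 i none = (O.1 *ᵥ Pi.single none 1) i := by simp
    rw [a1, a2, h3]
    split_ifs with hi
    · have a3 : (fun o' : Option A => (Pi.single none 1 : Option S → ℝ) (o'.map jj))
          = Pi.single none 1 := funext fun o => by cases o <;> simp
      conv_rhs => rw [hi, h1, a3]
      simp only [Matrix.mulVec_single_one, Matrix.col_apply, hC, ms]
    · have a3 : ∀ o : Option A, o.map jj ≠ i := by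
        rintro o rfl
        exact hi (by rw [b1_map h])
      rw [h2 _ _ a3]
      have a4 : i ≠ none := (a3 none).symm
      simp [a4]
  simp only [e1]
  rw [avg_emb_congr e2]
  have key := fun V => spin_cmp hζ hz n ca ϑ h d0 hσ C O h1 h2 V
    (Pm := fun t x => cavQ κ β t x - c) (Pp := fun t x => cavQ κ' β t x + c') hm hp
  have i0 := int_ff hζ hz n ca ϑ b1 d0 σ O
  have i1 := fun κ : A → ℝ =>
    (bm_FQ hζ hz n ca 0 b0 ϑ d0 σ κ β bm_prS jj).integrable (ν := haarO S)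
  constructor
  · refine le_trans (le_of_eq ?_) (integral_mono ((i1 κ).sub (integrable_const c)) i0 fun V => ?_)
    · simp only [Pi.sub_apply]
      rw [integral_sub (i1 κ) (integrable_const c)]
      simp [FP]
    · refine le_trans ?_ (key V).1
      have := sl_le (μ := (cube S).prod UnifAux.mu2) hζ
        (E := fun x => EQ (cb ca ϑ b0) V x.1 + cavQ κ β (fun a => yv V (jj a) x.1) x.2)
        (E' := fun x => EQ (cb ca ϑ b0) V x.1 + (cavQ κ β (fun a => yv V (jj a) x.1) x.2 - c))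
        (ξ := fun i x => yv V i x.1) (η := fun x => UnifAux.sg x.2) (η' := fun x => UnifAux.sg x.2)
        (bm_fin _) (bm_fin _) (fun _ => bm_fin _) (bm_fin _) (bm_fin _) (c := -c) (e := 0)
        (fun x => by linarith) (fun x => by simp) n d0 σ (sb 0 ϑ b0)
      rw [sub_zero, ← sub_eq_add_neg] at this
      exact this
  · refine le_trans (integral_mono i0 ((i1 κ').add (integrable_const c')) fun V => ?_) (le_of_eq ?_)
    · refine le_trans (key V).2 ?_
      have := sl_le (μ := (cube S).prod UnifAux.mu2) hζ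
        (E := fun x => EQ (cb ca ϑ b0) V x.1 + (cavQ κ' β (fun a => yv V (jj a) x.1) x.2 + c'))
        (E' := fun x => EQ (cb ca ϑ b0) V x.1 + cavQ κ' β (fun a => yv V (jj a) x.1) x.2)
        (ξ := fun i x => yv V i x.1) (η := fun x => UnifAux.sg x.2) (η' := fun x => UnifAux.sg x.2)
        (bm_fin _) (bm_fin _) (fun _ => bm_fin _) (bm_fin _) (bm_fin _) (c := -c') (e := 0)
        (fun x => by linarith) (fun x => by simp) n d0 σ (sb 0 ϑ b0)
      rw [sub_zero, ← sub_eq_add_neg, sub_le_iff_le_add] at this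
      exact this
    · simp only [Pi.add_apply]
      rw [integral_add (i1 κ') (integrable_const c')]
      simp [FP]

omit hζ hz [Fintype A] [DecidableEq A] in
theorem cv_mem {n : ℕ} {cm : ℝ} {ca : A → ℝ} {ϑ : ℕ → ℝ} (h : Par0 n cm ca 0 ϑ) (o : Option A) :
    0 ≤ cv ca (ϑ 0) o ∧ cv ca (ϑ 0) o ≤ 2 * cm := by
  have h0 := h.a0
  rcases o with _ | a
  · exact ⟨le_rfl, by change (0 : ℝ) ≤ _; linarith [h0.1, h0.2]⟩
  · have h1 := h.c a
    exact ⟨add_nonneg h1.1 h0.1, by change ca a + ϑ 0 ≤ _; linarith [h0.2, h1.2]⟩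

end SpinAux

theorem crude_spin (A : Type) [Fintype A] [DecidableEq A] (cm : ℝ) : ∃ C : ℝ, 0 ≤ C ∧
    ∀ (S : Type) [Fintype S] [DecidableEq S] (ζ : ℕ → ℝ) (n : ℕ) (ca : A → ℝ) (ϑ : ℕ → ℝ)
      (b0 : S → Option A) (jj : A → S) (b1 : Option S → Option A) (D : ℝ) (N : ℕ), Zok ζ →
      ζ 0 = 1 → Par0 n cm ca 0 ϑ → AddS b0 jj b1 → Bal D N b0 → 2 * D ≤ N → 1 ≤ N →
      (∀ (d0 : ℕ) (σ : ℝ) (U : OG (Option S)), 0 ≤ σ →
        |∫ V, SL (cube (Option S)) ζ n d0 σ (sb 0 ϑ b1) (EQ (cb ca ϑ b1) (U * emb V))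
            (yv (U * emb V)) (fun x => sp x none) ∂(haarO S) - AV ζ n ca 0 b0 ϑ| ≤ C) ∧
      |AV ζ n ca 0 b1 ϑ - AV ζ n ca 0 b0 ϑ| ≤ C := by
  obtain ⟨C₀, hC₀, H⟩ := fq_crude A A (3 * cm)
  refine ⟨C₀ + 1 + |cm|, by positivity, ?_⟩
  intro S _ _ ζ n ca ϑ b0 jj b1 D N hζ hz hP h hB hD hN
  have hcm : 0 ≤ cm := hP.a0.1.trans hP.a0.2
  have hT : ∑ d ∈ Finset.Icc 1 n, ϑ d ^ 2 ≤ cm := by simpa using hP.gap
  have key : ∀ (d0 : ℕ) (σ : ℝ) (U : OG (Option S)), 0 ≤ σ →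
      |∫ V, ff ζ n ca ϑ b1 d0 σ (U * emb V) ∂(haarO S) - AV ζ n ca 0 b0 ϑ| ≤ C₀ + 1 + |cm| := by
    intro d0 σ U hσ
    obtain ⟨C, hC⟩ := exists_col _ (sum_ms b1 U) none
    have a1 := (H S ζ n ca 0 b0 ϑ d0 σ D 1 N (fun _ => 3 * cm) 0 prS jj hζ hz hB hD hN
      (fun _ => ⟨by linarith, le_rfl⟩) (by simpa using hcm) bm_prS.1
      fun _ x => (UnifAux.abs_sg x).le).1
    have a2 := (H S ζ n ca 0 b0 ϑ d0 σ D 1 N (fun _ => 0) 0 prS jj hζ hz hB hD hN
      (fun _ => ⟨le_rfl, by linarith⟩) (by simpa using hcm) bm_prS.1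
      fun _ x => (UnifAux.abs_sg x).le).2
    have a3 := avg_cmp hζ hz n ca ϑ h d0 hσ U C hC (κ := fun _ => 3 * cm) (κ' := fun _ => 0)
      (β := 0) (c := cm) (c' := cm) (fun t x => by
        have b1 : ∑ o, cv ca (ϑ 0) o * (C.1 *ᵥ fun o' => o'.elim (UnifAux.sg x) t) o ^ 2
            ≤ 2 * cm * (1 + ∑ a, t a ^ 2) := by
          rw [← norm_z C t x, Finset.mul_sum]
          exact Finset.sum_le_sum fun o _ =>
            mul_le_mul_of_nonneg_right (cv_mem hP o).2 (sq_nonneg _)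
        have b2 : cavQ (fun _ => 3 * cm) 0 t x = -(3 * cm * ∑ a, t a ^ 2) / 2 := by
          simp [cavQ, Qf, Finset.mul_sum]
        have b3 := mul_le_mul_of_nonneg_right hT
          (Finset.sum_nonneg fun a (_ : a ∈ Finset.univ) => sq_nonneg (t a))
        rw [b2]
        linarith) (fun t x => by
        have b1 : 0 ≤ ∑ o, cv ca (ϑ 0) o * (C.1 *ᵥ fun o' => o'.elim (UnifAux.sg x) t) o ^ 2 :=
          Finset.sum_nonneg fun o _ => mul_nonneg (cv_mem hP o).1 (sq_nonneg _)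
        have b2 : cavQ (fun _ => 0) 0 t x = 0 := by simp [cavQ, Qf]
        rw [b2]
        linarith)
    rw [abs_of_nonneg hcm, abs_le]
    constructor <;> linarith [a3.1, a3.2]
  refine ⟨key, ?_⟩
  have e : AV ζ n ca 0 b1 ϑ = ∫ U, ∫ V, ff ζ n ca ϑ b1 0 0 (U * emb V) ∂(haarO S)
      ∂(haarO (Option S)) := by
    rw [← integral_emb (bm_ff hζ hz n ca ϑ b1 0 0), ← tb_zero n ca 0 b1 ϑ 0 fun _ x => sp x none]
    rfl
  have i := int_avg hζ hz n ca ϑ b1 0 0
  have := norm_integral_le_of_norm_le_const (μ := haarO (Option S))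
    (f := fun U => ∫ V, ff ζ n ca ϑ b1 0 0 (U * emb V) ∂(haarO S) - AV ζ n ca 0 b0 ϑ)
    (Eventually.of_forall fun U => key 0 0 U le_rfl)
  rw [integral_sub i (integrable_const _), ← e] at this
  simpa using this

namespace SpinAux

theorem sqrt_dev {a K : ℝ} (ha : 0 ≤ a) (hK : 0 < K) :
    (√a - (√K)⁻¹) ^ 2 ≤ K * (a - K⁻¹) ^ 2 := by
  have h1 := Real.sqrt_pos.2 hK
  have h2 := Real.sqrt_nonneg a
  have e : K * (a - K⁻¹) ^ 2 = (√a - (√K)⁻¹) ^ 2 * (√a * √K + 1) ^ 2 := by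
    conv_lhs => rw [← Real.sq_sqrt ha, ← Real.sq_sqrt hK.le]
    field_simp
    ring
  rw [e]
  exact le_mul_of_one_le_right (sq_nonneg _) (one_le_pow₀ (by nlinarith))

theorem frac_dev {K f m N D : ℝ} (hK : 1 ≤ K) (hm : 0 < m) (h1 : |K * f - N| ≤ D)
    (h2 : |m - N| ≤ D) : (f / m - K⁻¹) ^ 2 ≤ (2 * D / m) ^ 2 := by
  have hK0 : 0 < K := by linarith
  have e : f / m - K⁻¹ = (K * f - m) / m / K := by field_simp
  have h3 : |K * f - m| ≤ 2 * D := by
    rw [abs_le] at h1 h2 ⊢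
    constructor <;> linarith [h1.1, h1.2, h2.1, h2.2]
  rw [← sq_abs, e, abs_div, abs_div, abs_of_pos hm, abs_of_pos hK0]
  refine pow_le_pow_left₀ (by positivity) ?_ 2
  exact (div_le_self (by positivity) hK).trans (div_le_div_of_nonneg_right h3 hm.le)

end SpinAux

theorem spin_split (A : Type) [Fintype A] [DecidableEq A] {s ε : ℝ} (hs : 0 < s) (hε : 0 < ε)
    (cm κm : ℝ) : ∃ t0 : ℝ, 0 < t0 ∧ ∀ D : ℝ, ∀ᶠ N : ℕ in atTop,
    ∀ (S : Type) [Fintype S] [DecidableEq S] (ζ : ℕ → ℝ) (n : ℕ) (ca : A → ℝ) (ϑ : ℕ → ℝ)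
      (b0 : S → Option A) (jj : A → S) (b1 : Option S → Option A) (κ β : A → ℝ)
      (R : OG (Option A)) (d0 : ℕ) (σ : ℝ), Zok ζ → ζ 0 = 1 → Par0 n cm ca 0 ϑ →
      ∑ d ∈ Finset.Icc 1 n, ϑ d ^ 2 ≤ t0 → AddS b0 jj b1 → Bal D N b0 →
      Arrow (cv ca (ϑ 0)) κ β R → (∀ a, s ≤ κ a ∧ κ a ≤ κm) → ∑ a, β a ^ 2 ≤ κm → 0 ≤ σ →
      FP ζ n ca 0 b0 ϑ d0 σ (cavQ (fun a => κ a + s) β) prS jj - ε
          ≤ TB ζ n ca 0 b1 ϑ d0 σ (fun _ x => sp x none) ∧
        TB ζ n ca 0 b1 ϑ d0 σ (fun _ x => sp x none)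
          ≤ FP ζ n ca 0 b0 ϑ d0 σ (cavQ (fun a => κ a - s) β) prS jj + ε := by
  obtain ⟨C₀, hC₀, H₀⟩ := fq_crude A A (κm + s)
  obtain ⟨C₁, hC₁, H₁⟩ := crude_spin A cm
  obtain ⟨e, he, H₂⟩ := qf_arrow (half_pos hs) (half_pos hε) (max (2 * cm) κm)
  have hK : (1 : ℝ) ≤ KK A := KK_pos
  set K := KK A with hKd
  have hK0 : 0 < K := by linarith
  set M : ℝ := (C₀ + C₁ + 1) * (64 * K / e ^ 2) with hM
  have hM0 : 0 ≤ M := by positivity
  refine ⟨min (s / 4) (ε / (4 * (|κm| + 1))), by positivity, fun D => ?_⟩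
  have l0 : Tendsto (fun N : ℕ => ((N : ℝ) - (D + K ^ 2))⁻¹) atTop (𝓝 0) :=
    (tendsto_atTop_add_const_right _ (-(D + K ^ 2)) tendsto_natCast_atTop_atTop).inv_tendsto_atTop
  have l1 : Tendsto (fun N : ℕ => M * (K * (2 * ((N : ℝ) - (D + K ^ 2))⁻¹))) atTop (𝓝 0) := by
    simpa using ((l0.const_mul 2).const_mul K).const_mul M
  have l2 : Tendsto (fun N : ℕ => (2 * (D + K ^ 2) * ((N : ℝ) - (D + K ^ 2))⁻¹) ^ 2) atTop
      (𝓝 0) := by
    simpa using (l0.const_mul (2 * (D + K ^ 2))).pow 2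
  filter_upwards [l1.eventually_le_const (half_pos hε),
    l2.eventually_le_const (by positivity : 0 < e ^ 2 / (64 * K ^ 2)), eventually_ge_atTop 1,
    tendsto_natCast_atTop_atTop.eventually_ge_atTop (2 * D),
    tendsto_natCast_atTop_atTop.eventually_gt_atTop (D + K ^ 2)] with N n1 n2 hN hD hD'
  intro S _ _ ζ n ca ϑ b0 jj b1 κ β R d0 σ hζ hz hP hT h hB hA hκ hβ hσ
  have hκm : 0 ≤ κm := (Finset.sum_nonneg fun a _ => sq_nonneg (β a)).trans hβ
  have hT0 : 0 ≤ ∑ d ∈ Finset.Icc 1 n, ϑ d ^ 2 := Finset.sum_nonneg fun _ _ => sq_nonneg _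
  have hT1 := hT.trans (min_le_left _ _)
  have hT2 := hT.trans (min_le_right _ _)
  rw [abs_of_nonneg hκm, le_div_iff₀ (by positivity)] at hT2
  have hB1 := bal_addS hB h
  have hc := bal_card hB1
  set m : ℝ := (Fintype.card (Option S) : ℝ) with hmd
  have hD0 : 0 ≤ D + K ^ 2 := (abs_nonneg _).trans hc
  have hm0 : 0 < (N : ℝ) - (D + K ^ 2) := sub_pos.2 hD'
  have hm1 : (N : ℝ) - (D + K ^ 2) ≤ m := by linarith [(abs_le.1 hc).1]
  have hm : 0 < m := hm0.trans_le hm1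
  have hm2 : m⁻¹ ≤ ((N : ℝ) - (D + K ^ 2))⁻¹ := inv_anti₀ hm0 hm1
  set φ : OG (Option S) → ℝ := fun U => ∑ o, (ms b1 U o - fib b1 o / m) ^ 2 with hφ
  have hφ0 : ∀ U, 0 ≤ φ U := fun U => Finset.sum_nonneg fun _ _ => sq_nonneg _
  have bφ : ∀ o, BM fun U : OG (Option S) => (ms b1 U o - fib b1 o / m) ^ 2 := fun o =>
    ((BM.sum _ fun i _ => BM.pow ⟨measurable_entry i.1 none, 1, fun U => og_abs_le U _ _⟩ 2).sub
      (BM.const _)).pow 2
  have iφ : Integrable φ (haarO (Option S)) := (BM.sum _ fun o _ => bφ o).integrable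
  have hcard : (Fintype.card (Option A) : ℝ) = K := by simp [hKd, KK]
  have eφ : ∫ U, φ U ∂(haarO (Option S)) ≤ K * (2 * ((N : ℝ) - (D + K ^ 2))⁻¹) := by
    rw [hφ, integral_finsetSum _ fun o _ => (bφ o).integrable]
    refine (Finset.sum_le_sum fun o _ => col_block (fun i => b1 i = o) none).trans ?_
    rw [Finset.sum_const, Finset.card_univ, nsmul_eq_mul, hcard, ← hmd, div_eq_mul_inv]
    exact mul_le_mul_of_nonneg_left (by linarith) hK0.le
  have f1 := (H₀ S ζ n ca 0 b0 ϑ d0 σ D 1 N (fun a => κ a + s) β prS jj hζ hz hB hD hN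
    (fun a => ⟨by linarith [(hκ a).1], by linarith [(hκ a).2]⟩) (by linarith) bm_prS.1
    fun _ x => (UnifAux.abs_sg x).le).2
  have f2 := (H₀ S ζ n ca 0 b0 ϑ d0 σ D 1 N (fun a => κ a - s) β prS jj hζ hz hB hD hN
    (fun a => ⟨by linarith [(hκ a).1], by linarith [(hκ a).2]⟩) (by linarith) bm_prS.1
    fun _ x => (UnifAux.abs_sg x).le).1
  have key : ∀ U, FP ζ n ca 0 b0 ϑ d0 σ (cavQ (fun a => κ a + s) β) prS jj - ε / 2 - M * φ U
        ≤ ∫ V, ff ζ n ca ϑ b1 d0 σ (U * emb V) ∂(haarO S) ∧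
      ∫ V, ff ζ n ca ϑ b1 d0 σ (U * emb V) ∂(haarO S)
        ≤ FP ζ n ca 0 b0 ϑ d0 σ (cavQ (fun a => κ a - s) β) prS jj + ε / 2 + M * φ U := by
    intro U
    have g0 := mul_nonneg hM0 (hφ0 U)
    by_cases hg : φ U ≤ e ^ 2 / (64 * K)
    · have c1 : ∑ o, (√(ms b1 U o) - R.1 o none) ^ 2 ≤ (e / 4) ^ 2 := by
        have c2 : ∀ o, (√(ms b1 U o) - R.1 o none) ^ 2
            ≤ 2 * K * (ms b1 U o - fib b1 o / m) ^ 2 + 2 * K * (e ^ 2 / (64 * K ^ 2)) := by
          intro o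
          have d1 := sqrt_dev (ms_nonneg b1 U o) hK0
          have d2 := frac_dev hK hm (hB1 o) hc
          have d3 : (2 * (D + K ^ 2) / m) ^ 2
              ≤ (2 * (D + K ^ 2) * ((N : ℝ) - (D + K ^ 2))⁻¹) ^ 2 := by
            rw [div_eq_mul_inv]
            exact pow_le_pow_left₀ (by positivity)
              (mul_le_mul_of_nonneg_left hm2 (by positivity)) 2
          have d4 : (ms b1 U o - K⁻¹) ^ 2
              ≤ 2 * (ms b1 U o - fib b1 o / m) ^ 2 + 2 * (e ^ 2 / (64 * K ^ 2)) := by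
            nlinarith [sq_nonneg (ms b1 U o - fib b1 o / m - (fib b1 o / m - K⁻¹))]
          have d5 := mul_le_mul_of_nonneg_left d4 hK0.le
          rw [hA.col]
          linarith
        refine (Finset.sum_le_sum fun o _ => c2 o).trans ?_
        rw [Finset.sum_add_distrib, ← Finset.mul_sum, Finset.sum_const, Finset.card_univ,
          nsmul_eq_mul, hcard]
        have d1 := mul_le_mul_of_nonneg_left hg (by positivity : 0 ≤ 2 * K)
        have d2 : 2 * K * (e ^ 2 / (64 * K)) + K * (2 * K * (e ^ 2 / (64 * K ^ 2)))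
            = (e / 4) ^ 2 := by
          field_simp
          ring
        linarith
      obtain ⟨C', hC1, hC2⟩ := exists_close _ _ (og_col R none) (sum_ms b1 U) c1
      have q := fun (t : A → ℝ) (x : Bool) => H₂ A (cv ca (ϑ 0)) κ β R t x
        ((C' * R).1 *ᵥ fun o' => o'.elim (UnifAux.sg x) t) hA
        (fun o => ⟨(cv_mem hP o).1, (cv_mem hP o).2.trans (le_max_left _ _)⟩)
        (fun a => ⟨hs.le.trans (hκ a).1, (hκ a).2.trans (le_max_right _ _)⟩)
        (hβ.trans (le_max_right _ _)) (by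
          have := hC2 (R.1 *ᵥ fun o' => o'.elim (UnifAux.sg x) t)
          rw [norm_z] at this
          rw [og_mul, ← Matrix.mulVec_mulVec]
          linarith)
      have a3 := avg_cmp hζ hz n ca ϑ h d0 hσ U (C' * R) (fun o => congrFun hC1 o)
        (κ := fun a => κ a + s) (κ' := fun a => κ a - s) (β := β) (c := ε / 2) (c' := ε / 2)
        (fun t x => by
          have b1 := (q t x).1
          have b2 := qf_add κ β t s x
          have b3 := qf_add κ β t (s / 2) x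
          have b4 := mul_le_mul_of_nonneg_left (sum_sq_le_qf β t x) hT0
          have b5 := mul_le_mul_of_nonneg_right hT1 (qf_nonneg (fun _ => zero_le_one) β t x)
          have b6 := mul_le_mul_of_nonneg_left hβ hT0
          unfold cavQ
          linarith) (fun t x => by
          have b1 := (q t x).2
          have b2 := qf_add κ β t (-s) x
          have b3 := qf_add κ β t (-(s / 2)) x
          have b5 := mul_nonneg hs.le (qf_nonneg (fun _ => zero_le_one) β t x)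
          have b6 := mul_nonneg hT0 hκm
          simp only [← sub_eq_add_neg] at b2 b3
          unfold cavQ
          linarith)
      constructor <;> linarith [a3.1, a3.2]
    · have c1 := abs_le.1 ((H₁ S ζ n ca ϑ b0 jj b1 D N hζ hz hP h hB hD hN).1 d0 σ U hσ)
      have c2 := mul_le_mul_of_nonneg_left (not_le.1 hg).le hM0
      have c3 : M * (e ^ 2 / (64 * K)) = C₀ + C₁ + 1 := by
        rw [hM]
        field_simp
      unfold ff
      constructor <;> linarith [c1.1, c1.2]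
  have e0 : TB ζ n ca 0 b1 ϑ d0 σ (fun _ x => sp x none)
      = ∫ U, ∫ V, ff ζ n ca ϑ b1 d0 σ (U * emb V) ∂(haarO S) ∂(haarO (Option S)) := by
    rw [← integral_emb (bm_ff hζ hz n ca ϑ b1 d0 σ)]
    rfl
  have i := int_avg hζ hz n ca ϑ b1 d0 σ
  have j1 := integral_mono ((integrable_const _).sub (iφ.const_mul M)) i fun U => (key U).1
  have j2 := integral_mono i ((integrable_const _).add (iφ.const_mul M)) fun U => (key U).2
  simp only [Pi.sub_apply, Pi.add_apply] at j1 j2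
  rw [integral_sub (integrable_const _) (iφ.const_mul M), integral_const_mul, ← e0] at j1
  rw [integral_add (integrable_const _) (iφ.const_mul M), integral_const_mul, ← e0] at j2
  simp only [integral_const, probReal_univ, one_smul] at j1 j2
  have j3 := mul_le_mul_of_nonneg_left eφ hM0
  constructor <;> linarith

end Vale.Agent.P166
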