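import Vale.Agent.P166.WardQ
import Vale.Agent.P166.Spin
import Vale.Agent.P166.FinY

/-! # The spin cavity equations -/

namespace Vale.Agent.P166

open MeasureTheory ProbabilityTheory Filter Topology Vale.Agent.P157

theorem spin_main (A : Type) [Fintype A] [DecidableEq A] {ε κ0 : ℝ} (hε : 0 < ε) (h0 : 0 < κ0)
    (cm κm : ℝ) : ∃ e0 : ℝ, 0 < e0 ∧
    ∀ (n : ℕ) (ζ : ℕ → ℝ) (me Θ θm : ℝ), Reg n ζ me 0 0 Θ θm → me ≤ e0 →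
    ∀ D : ℝ, ∀ᶠ k in 𝓝[>] (0 : ℝ), ∀ᶠ y in 𝓝[>] (0 : ℝ), ∀ᶠ N : ℕ in atTop,
    ∀ (S : Type) [Fintype S] [DecidableEq S] (ca : A → ℝ) (b0 : S → Option A) (jj : A → S)
      (b1 : Option S → Option A) (ϑ τ r : ℕ → ℝ) (κ β : A → ℝ) (R : OG (Option A)),
      Bal D N b0 → Par n Θ θm cm e0 ca 0 ϑ → SDz (AV ζ n ca 0 b0) ϑ τ y (k * y * N) n →
      Rel n ζ (KK A) N ϑ τ r e0 → AddS b0 jj b1 → Arrow (cv ca (ϑ 0)) κ β R →
      (∀ a, κ0 ≤ κ a ∧ κ a ≤ κm) → ∑ a, β a ^ 2 ≤ κm →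
      |AV ζ n ca 0 b1 ϑ - AV ζ n ca 0 b0 ϑ
        - (-(∑ a, κ a * β a ^ 2) / 2 - ∑ a, Lc ζ n (κ a) r + psi n ζ (pP ζ n κ β r) lc)| ≤ ε ∧
      ∀ d, d ≤ n → |DB ζ n ca 0 b1 ϑ (fun _ x => sp x none) d
        - (1 - QQ ζ (qt n ζ (pP ζ n κ β r)) d)| ≤ ε := by
  obtain ⟨C1, hC1, htb⟩ := tb_unif 1
  obtain ⟨C2, hC2, hxc⟩ := xc_spin_exp
  obtain ⟨C3, hC3, hlip⟩ := fq_lip A A h0 κm
  obtain ⟨ρ, hρ0, hρ1, hρ⟩ : ∃ ρ : ℝ, 0 < ρ ∧ ρ ≤ 1 ∧ (C1 + C2) * ρ ≤ ε / 8 := by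
    refine ⟨min 1 (ε / 8 / (C1 + C2 + 1)), by positivity, min_le_left _ _, ?_⟩
    have h := (le_div_iff₀ (by positivity)).1 (min_le_right 1 (ε / 8 / (C1 + C2 + 1)))
    have h' : 0 < min 1 (ε / 8 / (C1 + C2 + 1)) := by positivity
    linarith
  have hσ : 0 < ρ ^ 2 := by positivity
  have hσ1 : ρ ^ 2 ≤ 1 := pow_le_one₀ hρ0.le hρ1
  have hε1 : 0 < ε * ρ ^ 2 / 16 := by positivity
  obtain ⟨s, hs0, hs1, hs⟩ : ∃ s : ℝ, 0 < s ∧ s ≤ κ0 / 2 ∧ C3 * (1 + 1) * s ≤ ε * ρ ^ 2 / 16 := by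
    refine ⟨min (κ0 / 2) (ε * ρ ^ 2 / 16 / (2 * C3 + 1)), by positivity, min_le_left _ _, ?_⟩
    have h := (le_div_iff₀ (by positivity)).1
      (min_le_right (κ0 / 2) (ε * ρ ^ 2 / 16 / (2 * C3 + 1)))
    have h' : 0 < min (κ0 / 2) (ε * ρ ^ 2 / 16 / (2 * C3 + 1)) := by positivity
    linarith
  obtain ⟨e1, he1, hfq⟩ := fq_main A A hε1 zero_le_one le_rfl h0 κm
  obtain ⟨t0, ht0, hsp⟩ := spin_split A hs0 hε1 cm κm
  refine ⟨min e1 t0, lt_min he1 ht0, fun n ζ me Θ θm hR hme D => ?_⟩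
  filter_upwards [hfq n ζ me Θ θm hR (hme.trans (min_le_left _ _)) cm D] with k hk
  filter_upwards [hk] with y hy
  filter_upwards [hy, hsp D, eventually_ge_atTop 1,
    tendsto_natCast_atTop_atTop.eventually_ge_atTop (2 * D)] with N h1 h2 hN hD
  intro S _ _ ca b0 jj b1 ϑ τ r κ β R hB hP hS hr hA hW hκ hβ
  have hζ := hR.z.zok
  have hz := hR.z.z0
  have hκ0 : ∀ a, 0 ≤ κ a := fun a => h0.le.trans (hκ a).1
  have key : ∀ d σ, 0 ≤ σ → σ ≤ 1 → |TB ζ n ca 0 b1 ϑ d σ (fun _ x => sp x none) -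
      AV ζ n ca 0 b0 ϑ - XC ζ n d σ r (cavQ κ β) prS| ≤ 3 * (ε * ρ ^ 2 / 16) := by
    intro d σ hσ0 hσ1
    have q1 := abs_le.1 (h1 S ca 0 b0 ϑ τ r _ σ d κ β prS jj hB hP hS
      (hr.mono (min_le_left _ _)) hσ0 hσ1 hA.inj hA.top hκ hβ (cj_prS A) (hom_prS A))
    have q2 := h2 S ζ n ca ϑ b0 jj b1 κ β R d σ hζ hz hP.p0
      (le_trans (by simpa using hP.gap) (min_le_right e1 t0)) hA hB hW
      (fun a => ⟨by linarith [(hκ a).1], (hκ a).2⟩) hβ hσ0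
    have q3 := fun s' => hlip S ζ n ca 0 b0 ϑ d σ D 1 s' N κ β prS jj hζ hz hB hD hN hκ hβ
      (cj_prS A).meas (cj_prS A).bd
    have q4 := abs_le.1 (q3 s ((abs_of_pos hs0).trans_le hs1))
    have q5 := abs_le.1 (q3 (-s) (((abs_neg s).trans (abs_of_pos hs0)).trans_le hs1))
    simp only [← sub_eq_add_neg, abs_neg, abs_of_pos hs0] at q4 q5
    rw [abs_le]
    constructor <;> linarith [q1.1, q1.2, q2.1, q2.2, q4.1, q4.2, q5.1, q5.2]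
  have k0 := abs_le.1 (key 0 0 le_rfl zero_le_one)
  have k1 := abs_le.1 (hxc A n ζ r κ β 0 0 hζ hz hr.cadm hκ0 (Nat.zero_le n) le_rfl zero_le_one)
  rw [tb_zero] at k0
  rw [zero_div, zero_mul, zero_mul, mul_zero] at k1
  have hε2 := mul_le_mul_of_nonneg_left hσ1 hε.le
  refine ⟨abs_le.2 ⟨by linarith [k0.1, k1.1], by linarith [k0.2, k1.2]⟩, fun d hd => ?_⟩
  have k2 := abs_le.1 (key d _ hσ.le hσ1)
  have k3 := abs_le.1 (hxc A n ζ r κ β _ d hζ hz hr.cadm hκ0 hd hσ.le hσ1)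
  have k4 := abs_le.1 (htb (Option S) A ζ n ca 0 b1 ϑ (fun _ x => sp x none) d _ hζ hz
    ((measurable_of_finite fun x : Option S → Bool => sp x none).comp measurable_snd)
    (fun _ x => by unfold sp; split_ifs <;> simp) hd hσ.le hσ1)
  rw [Real.sqrt_sq hρ0.le] at k3 k4
  have k5 := mul_le_mul_of_nonneg_left hρ hσ.le
  rw [abs_le]
  constructor <;> refine le_of_mul_le_mul_left ?_ hσ <;>
    linarith [k0.1, k0.2, k1.1, k1.2, k2.1, k2.2, k3.1, k3.2, k4.1, k4.2]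

end Vale.Agent.P166
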