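import Vale.Agent.P166.Self
import Vale.Agent.P166.WardP
import Vale.Agent.P166.Link

/-! # Lower bound for the block model -/

namespace Vale.Agent.P166

open MeasureTheory Filter Topology Vale.Agent.P157

namespace LBA

variable {A : Type} [Fintype A] [DecidableEq A]

/-- The constant of the one dimensional step. -/
noncomputable def Cf (A : Type) [Fintype A] (cm κm : ℝ) : ℝ :=
  1 / 2 + (KK A * (cm + 1) ^ 2 + (cm + 1)) + 3 * (κm ^ 3 * KK A) + κm ^ 2 / 2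

theorem final_1d {n : ℕ} {ζ r : ℕ → ℝ} (hζ : ZAdm n ζ) (hr : CAdm n r) (hr0 : r 0 ≤ 2 * KK A)
    {ca κ β : A → ℝ} {cm κm a0 e I : ℝ} (hcm : 0 ≤ cm) (hc : ∀ a, 0 ≤ ca a ∧ ca a ≤ cm)
    (ha0 : 0 ≤ a0) (ha1 : a0 ≤ 1) (hae : a0 ≤ e) (he : 0 < e) (hκm : 0 ≤ κm)
    (hκ : ∀ a, 0 ≤ κ a ∧ κ a ≤ κm) (hβ : ∑ a, β a ^ 2 ≤ κm) (hA : Alg (cv ca a0) κ β)
    (hI : ∀ q, Adm n ζ q → I ≤ isingS n ζ q + Ec (cv ca 0) n ζ q)
    (h : ∀ d, d ≤ n → |rhoP ζ n (cv ca a0) r 0 - QQ ζ (rhoP ζ n (cv ca a0) r) d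
      - (1 - QQ ζ (qt n ζ (pP ζ n κ β r)) d)| ≤ e) :
    I - Cf A cm κm * e
      ≤ (-(∑ a, κ a * β a ^ 2) / 2 - ∑ a, Lc ζ n (κ a) r + psi n ζ (pP ζ n κ β r) lc)
        + (1 - (KK A)⁻¹) * ∑ a, Lc ζ n (ca a + a0) r := by
  have hz := hζ.zok
  have hK := KK_pos' (A := A)
  have k1 : Cok (cv ca a0) (cm + 1) :=
    cok_cv (by positivity) fun a => ⟨add_nonneg (hc a).1 ha0, by linarith [(hc a).2]⟩
  have k0 : Cok (cv ca 0) (cm + 1) :=
    cok_cv (by positivity) fun a => ⟨by linarith [(hc a).1], by linarith [(hc a).2]⟩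
  have hid := lb_id hζ hr k1 (fun a => (hκ a).1) hA
  have hL : ∑ o, Lc ζ n (cv ca a0 o) r = ∑ a, Lc ζ n (ca a + a0) r := by
    rw [Fintype.sum_option]
    simp only [cv, Option.elim, Lc_zero, zero_add]
  rw [hL] at hid
  have hp := cadm_pP (n := n) hz hr (fun a => (hκ a).1) β
  have hρ := cadm_rhoP (n := n) hz hr k1.nn
  have hp0 := pP_le (n := n) (β := β) hz hr hκ
  obtain ⟨p, hpd⟩ : ∃ p, p = pP ζ n κ β r := ⟨_, rfl⟩
  obtain ⟨ρ, hρd⟩ : ∃ ρ, ρ = rhoP ζ n (cv ca a0) r := ⟨_, rfl⟩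
  rw [← hpd] at hid hp hp0 h ⊢
  rw [← hρd] at hid hρ h
  have hq0 : ∀ c : ℕ → ℝ, QQ ζ c 0 = 0 := fun c => by simp [QQ]
  have h0 := abs_le.1 (h 0 (Nat.zero_le n))
  rw [hq0, hq0] at h0
  have hqt := cadm_qt (n := n) hz p
  have hqt0 : qt n ζ p 0 = 1 := by simp [qt]
  have hadm := adm_shr hζ hqt hqt0 he
  have hconj := ising_conj hζ hp (c := 0) (q := ρ) ⟨fun _ _ _ => le_rfl, fun _ _ => rfl⟩
    (η1 := 2 * e) (by positivity) he (fun d _ hd => by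
      have := abs_le.1 (h d hd)
      rw [add_zero, abs_le]
      constructor <;> linarith [this.1, this.2, h0.1, h0.2])
  rw [add_zero] at hconj
  have hcmp := Ec_cmp hζ hadm.cadm hρ k1 (ε := 2 * e) (by positivity) (fun d hd => by
    have a1 := abs_le.1 (h d hd)
    have a2 := abs_le.1 (abs_QQ_shr hζ hqt hqt0 he d)
    rw [hadm.q0]
    linarith [a1.1, a2.2]) (by rw [hadm.q0]; linarith [h0.2])
  have hsh := Ec_shift (n := n) (ζ := ζ) (q := shr e (qt n ζ p)) k0 k1 (a := a0) (fun o => by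
    rcases o with _ | a <;> simp only [cv, Option.elim] <;> linarith) ha0
    (by rw [hadm.q0]; exact zero_le_one)
  rw [hadm.q0, card_option_eq] at hcmp
  rw [hadm.q0] at hsh
  have hI' := hI _ hadm
  have hp1 : p 0 ≤ κm ^ 3 * (2 * KK A) := by
    refine hp0.trans ?_
    have := mul_le_mul (mul_le_mul_of_nonneg_left hβ (sq_nonneg κm)) hr0 (hr.nonneg 0)
      (by positivity)
    linarith
  have hp2 := hp.nonneg 0
  obtain ⟨T, hT⟩ : ∃ T, T = ∑ a, κ a * β a ^ 2 := ⟨_, rfl⟩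
  have hT0 : 0 ≤ T := by
    rw [hT]
    exact Finset.sum_nonneg fun a _ => mul_nonneg (hκ a).1 (sq_nonneg _)
  have hT1 : T ≤ κm ^ 2 := by
    rw [hT]
    calc ∑ a, κ a * β a ^ 2 ≤ ∑ a, κm * β a ^ 2 :=
          Finset.sum_le_sum fun a _ => mul_le_mul_of_nonneg_right (hκ a).2 (sq_nonneg _)
      _ ≤ κm * κm := by rw [← Finset.mul_sum]; exact mul_le_mul_of_nonneg_left hβ hκm
      _ = κm ^ 2 := by ring
  rw [← hT] at hid ⊢
  have b1 : T * (1 - ρ 0) ≤ κm ^ 2 * e :=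
    (mul_le_mul_of_nonneg_left (by linarith [h0.1]) hT0).trans
      (mul_le_mul_of_nonneg_right hT1 he.le)
  have b2 : p 0 * (ρ 0 - 1) ≤ p 0 * e := mul_le_mul_of_nonneg_left (by linarith [h0.2]) hp2
  have b3 := mul_le_mul_of_nonneg_right hp1 he.le
  unfold Cf
  linarith

theorem self_cons {S : Type} [Fintype S] [DecidableEq S] {n : ℕ} {ζ : ℕ → ℝ}
    (hζ : Zok ζ) (hz : ζ 0 = 1) {ca : A → ℝ} {ϑ τ r p : ℕ → ℝ} {b : S → Option A} {D : ℝ}
    {N : ℕ} (hN : 1 ≤ N) (hb : Bal D N b) (hD : D ≤ N) (hc : ∀ a, 0 ≤ ca a + ϑ 0) {k y e m : ℝ}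
    (he : 0 < e) (hy : 0 < y) (hym : y ≤ m) (hϑ : ∀ d, 1 ≤ d → d ≤ n → m ≤ ϑ d) (hk0 : 0 ≤ k)
    (hk : k ≤ e) (hkm : k ≤ e * m) (hDe : D * (2 * KK A + 1) ≤ e * N)
    (hsd : SDz (AV ζ n ca 0 b) ϑ τ y (k * y * N) n) (hrel : Rel n ζ (KK A) N ϑ τ r e)
    (h : ∀ i a, b i = some a → ∀ d, d ≤ n → |DB ζ n ca 0 b ϑ (fun U x => yv U i x) d
      - (Wp ζ n (ca a + ϑ 0) r 0 - QQ ζ (Wp ζ n (ca a + ϑ 0) r) d)| ≤ e) {i0 : S}
    (h' : ∀ d, d ≤ n → |DB ζ n ca 0 b ϑ (fun _ x => sp x i0) d - (1 - QQ ζ (qt n ζ p) d)| ≤ e) :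
    ∀ d, d ≤ n → |rhoP ζ n (cv ca (ϑ 0)) r 0 - QQ ζ (rhoP ζ n (cv ca (ϑ 0)) r) d
      - (1 - QQ ζ (qt n ζ p) d)| ≤ 7 * e := by
  have hK := KK_pos' (A := A)
  have hK1 : (1 : ℝ) ≤ KK A := KK_pos
  have hN' : (1 : ℝ) ≤ N := by exact_mod_cast hN
  have hN0 : (0 : ℝ) < N := by linarith
  have hcard := abs_le.1 (bal_card hb)
  have hD0 : 0 ≤ D := (abs_nonneg _).trans (hb none)
  intro d hd
  rcases Nat.eq_zero_or_pos d with rfl | h1
  · have hq0 : ∀ c : ℕ → ℝ, QQ ζ c 0 = 0 := fun c => by simp [QQ]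
    have := rho_zero hζ hz hN hb hD hc hy (fun d h1 h2 => hym.trans (hϑ d h1 h2)) hsd hrel he.le
      he.le fun i a hi => h i a hi 0 (Nat.zero_le n)
    rw [hq0, hq0, sub_zero, sub_zero]
    refine le_of_mul_le_mul_left (this.trans ?_) hN0
    have := mul_le_mul_of_nonneg_left hk hN0.le
    nlinarith
  have hm0 : 0 < m := lt_of_lt_of_le hy hym
  have hϑd := hϑ d h1 hd
  have hϑ0 : 0 < ϑ d := by linarith
  have a1 := abs_le.1 (rest_est hζ hrel.cadm hrel.r0 hc hb (by linarith [hcard.2]) he.le d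
    fun i a hi => h i a hi d hd)
  have a2 := (top_of_sdz hζ hz n ca 0 b ϑ hy (fun d h1 h2 => hym.trans (hϑ d h1 h2)) hsd).2 d h1 hd
  have a3 := sum_db hζ hz n ca 0 b ϑ d
  rw [sum_top_rest b, Finset.sum_congr rfl fun i _ => db_spin_sym (ζ := ζ) n ca 0 b ϑ i i0 d,
    Finset.sum_const, Finset.card_univ, nsmul_eq_mul] at a3
  obtain ⟨T, hT⟩ : ∃ T, T = ∑ i : {i // b i = none},
    DB ζ n ca 0 b ϑ (fun U x => yv U i.1 x) d := ⟨_, rfl⟩
  rw [← hT] at a2 a3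
  have a4 : |T - τ d / ϑ d| ≤ e * N := by
    have e1 : T - τ d / ϑ d = (ϑ d * T - τ d) / ϑ d := by field_simp
    rw [e1, abs_div, abs_of_pos hϑ0, div_le_iff₀ hϑ0]
    refine a2.trans ?_
    have e2 : k * y * N / y = k * N := by field_simp
    rw [e2]
    have := mul_le_mul_of_nonneg_right (hkm.trans (mul_le_mul_of_nonneg_left hϑd he.le)) hN0.le
    linarith
  have a5 : |N / KK A * (r 0 - QQ ζ r d) - τ d / ϑ d| ≤ e * N := by
    have e1 : N / KK A * (r 0 - QQ ζ r d) - τ d / ϑ d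
        = (N * (r 0 - QQ ζ r d) - KK A * (τ d / ϑ d)) / KK A := by field_simp
    rw [e1, abs_div, abs_of_pos hK, div_le_iff₀ hK]
    exact (hrel.lev d h1 hd).trans (le_mul_of_one_le_right (by positivity) hK1)
  have a6 := abs_le.1 (h' d hd)
  have a7 := QQ_bounds hζ (cadm_qt (n := n) hζ p) d
  rw [show qt n ζ p 0 = 1 by simp [qt]] at a7
  obtain ⟨Q, hQ⟩ : ∃ Q, Q = 1 - QQ ζ (qt n ζ p) d := ⟨_, rfl⟩
  rw [← hQ] at a6 ⊢
  have hQ0 : 0 ≤ Q := by linarith [a7.2]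
  have hQ1 : Q ≤ 1 := by linarith [a7.1]
  obtain ⟨x, hx⟩ : ∃ x, x = DB ζ n ca 0 b ϑ (fun _ x => sp x i0) d := ⟨_, rfl⟩
  rw [← hx] at a3 a6
  have hS0 : (0 : ℝ) ≤ Fintype.card S := Nat.cast_nonneg _
  have b1 : |(Fintype.card S : ℝ) * x - N * Q| ≤ 2 * N * e + D := by
    have e1 : (Fintype.card S : ℝ) * x - N * Q
        = Fintype.card S * (x - Q) + (Fintype.card S - N) * Q := by ring
    rw [e1]
    refine (abs_add_le _ _).trans (add_le_add ?_ ?_)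
    · rw [abs_mul, abs_of_nonneg hS0]
      exact mul_le_mul (by linarith [hcard.2]) (abs_le.2 a6) (abs_nonneg _) (by positivity)
    · rw [abs_mul, abs_of_nonneg hQ0]
      exact (mul_le_of_le_one_right (abs_nonneg _) hQ1).trans (abs_le.2 hcard)
  refine le_of_mul_le_mul_left ?_ hN0
  rw [← abs_of_pos hN0, ← abs_mul, abs_of_pos hN0, abs_le]
  rw [abs_le] at a4 a5 b1
  constructor <;> linarith [a1.1, a1.2, a4.1, a4.2, a5.1, a5.2, b1.1, b1.2]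

theorem near_of_close {N : ℕ} {z : Option A → ℕ} (h : ∀ o, |(z o : ℝ) - sz A N o| ≤ KK A) :
    Near (2 * KK A ^ 2) N z := fun o => by
  have hK := KK_pos' (A := A)
  have e : KK A * z o - N = KK A * (z o - sz A N o) + (KK A * sz A N o - N) := by ring
  rw [e]
  refine (abs_add_le _ _).trans ?_
  rw [abs_mul, abs_of_pos hK]
  have := mul_le_mul_of_nonneg_left (h o) hK.le
  linarith [sz_bal (A := A) N o]

theorem card_le_of_near {N : ℕ} {z : Option A → ℕ} (h : Near (2 * KK A ^ 2) N z)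
    (hN : 3 * KK A ^ 2 ≤ N) : Fintype.card A ≤ z none := by
  have hK := KK_pos' (A := A)
  have h1 := (abs_le.1 (h none)).1
  have h2 : KK A * KK A ≤ KK A * z none := by linarith
  have h3 := le_of_mul_le_mul_left h2 hK
  have h4 : (Fintype.card A : ℝ) ≤ z none := by
    unfold KK at h3
    linarith
  exact_mod_cast h4

theorem good_step (A : Type) [Fintype A] [DecidableEq A] {c0 cm e : ℝ} (h0 : 0 < c0)
    (hcm : 0 ≤ cm) (he : 0 < e) : ∃ e0 : ℝ, 0 < e0 ∧ e0 ≤ 1 ∧ e0 ≤ e ∧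
    ∀ (n : ℕ) (ζ : ℕ → ℝ) (m : ℝ), Reg n ζ e0 0 0 1 m →
    ∀ᶠ k in 𝓝[>] (0 : ℝ), ∀ᶠ y in 𝓝[>] (0 : ℝ), ∀ᶠ N : ℕ in atTop,
    ∀ (ca : A → ℝ) (ϑ : ℕ → ℝ) (I : ℝ), (∀ a, c0 ≤ ca a ∧ ca a ≤ cm) →
      Par n 1 m (cm + 1) e0 ca 0 ϑ → ϑ 0 ≤ e0 →
      (∀ q, Adm n ζ q → I ≤ isingS n ζ q + Ec (cv ca 0) n ζ q) →
      (∀ d, d ≤ n → sd2 (Vz ζ n ca 0 (sz A N)) ϑ d y ≤ k * y * N) →
      KK A * (I - (7 * Cf A cm (max (cm + 1) (KK A)) + KK A) * e)
        ≤ Vz ζ n ca 0 (fun o => sz A N o + 1) ϑ - Vz ζ n ca 0 (sz A N) ϑ := by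
  have hK := KK_pos' (A := A)
  have hK1 : (1 : ℝ) ≤ KK A := KK_pos
  obtain ⟨e1, he1, hS⟩ := scalar_main A he h0 (cm + 1)
  obtain ⟨e2, he2, hP⟩ := spin_main A he (div_pos h0 hK) (cm + 1) (max (cm + 1) (KK A))
  obtain ⟨C, hC0, hC⟩ := vz_close A (cm + 1 + 1) (2 * KK A ^ 2)
  obtain ⟨e0, he0, h01, h02, h03, h04⟩ : ∃ e0 : ℝ, 0 < e0 ∧ e0 ≤ 1 ∧ e0 ≤ e ∧ e0 ≤ e1 ∧ e0 ≤ e2 :=
    ⟨min (min 1 e) (min e1 e2), by positivity, (min_le_left _ _).trans (min_le_left _ _),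
      (min_le_left _ _).trans (min_le_right _ _), (min_le_right _ _).trans (min_le_left _ _),
      (min_le_right _ _).trans (min_le_right _ _)⟩
  refine ⟨e0, he0, h01, h02, fun n ζ m hR => ?_⟩
  have hζ := hR.z.zok
  have hz := hR.z.z0
  have hm0 := hR.θm0
  filter_upwards [hS n ζ e0 1 m hR h03 (2 * KK A ^ 2), hP n ζ e0 1 m hR h04 (2 * KK A ^ 2),
    base_rel A hR he0 (cm + 1) (2 * KK A ^ 2),
    Ioc_mem_nhdsGT (show (0 : ℝ) < min e (e * m) by positivity)] with k hk1 hk2 hk3 hk4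
  filter_upwards [hk1, hk2, hk3, Ioc_mem_nhdsGT (show (0 : ℝ) < min m (1 / 3) by positivity)]
    with y hy1 hy2 hy3 hy4
  have hT : Tendsto (fun N : ℕ => (N : ℝ)) atTop atTop := tendsto_natCast_atTop_atTop
  have hky : 0 < k * y := mul_pos hk4.1 hy4.1
  filter_upwards [hy1, hy2, hy3, hC, eventually_ge_atTop 1, hT.eventually_ge_atTop (3 * KK A ^ 2),
    hT.eventually_ge_atTop (2 * KK A ^ 2 * (2 * KK A + 1) / e),
    hT.eventually_ge_atTop (4 * C / (k * y))] with N hN1 hN2 hN3 hNC hN hNa hNb hNc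
  intro ca ϑ I hc hpar hϑ0 hI hsec
  rw [div_le_iff₀ he] at hNb
  rw [div_le_iff₀ hky] at hNc
  have hym : y ≤ m := hy4.2.trans (min_le_left _ _)
  have hy3' : y ≤ 1 / 3 := hy4.2.trans (min_le_right _ _)
  have hz0 : Near (2 * KK A ^ 2) N (sz A N) := near_of_close fun o => by simp [hK.le]
  obtain ⟨τ, hτ⟩ := sdz_of_second (U := Vz ζ n ca 0 (sz A N)) (θ := ϑ) (n := n)
    (κ := k * y * N / 2) hy4.1 fun d hd => by
      have := hsec d hd
      unfold sd2 at this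
      linarith
  have hsdz : ∀ z, Near (2 * KK A ^ 2) N z → SDz (Vz ζ n ca 0 z) ϑ τ y (k * y * N) n := by
    intro z hz'
    refine (hτ.of_close (C := C) fun d hd a ha => ?_).mono (by linarith)
    rw [abs_of_pos hy4.1] at ha
    exact hNC ζ n ca _ z _ hζ hz (hpar.upd zero_le_one hym (by linarith) hd ha) hz' hz0
  have hpar1 : Par n 1 m (cm + 1) e1 ca 0 ϑ := { hpar with gap := hpar.gap.trans h03 }
  have hpar2 : Par n 1 m (cm + 1) e2 ca 0 ϑ := { hpar with gap := hpar.gap.trans h04 }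
  have hbal : ∀ z, Near (2 * KK A ^ 2) N z →
      Bal (2 * KK A ^ 2) N (fun p : (Σ o : Option A, Fin (z o)) => p.1) := fun z hz' o => by
    rw [fib_sigma]
    exact hz' o
  obtain ⟨r, hr⟩ := hN3 _ ca 0 _ ϑ τ e0 (hbal _ hz0) hpar (hsdz _ hz0)
  have ha0 : 0 ≤ ϑ 0 := hpar.p0.a0.1
  obtain ⟨κ, β, R, hAr, hκ, hβ⟩ := exists_arrow (c := cv ca (ϑ 0)) rfl (c0 := c0) (cm := cm + 1)
    h0.le fun a => by
      simp only [cv, Option.elim]
      constructor <;> linarith [(hc a).1, (hc a).2]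
  have hκ0 : ∀ a, 0 ≤ κ a := fun a => (div_pos h0 hK).le.trans (hκ a).1
  have hκ' : ∀ a, c0 / KK A ≤ κ a ∧ κ a ≤ max (cm + 1) (KK A) := fun a =>
    ⟨(hκ a).1, (hκ a).2.trans (le_max_left _ _)⟩
  have hβ' : ∑ a, β a ^ 2 ≤ max (cm + 1) (KK A) := by
    rw [hβ]
    linarith [le_max_right (cm + 1) (KK A)]
  have hc0 : ∀ a, 0 ≤ ca a + ϑ 0 := fun a => add_nonneg (h0.le.trans (hc a).1) ha0
  have hAlg := alg_of_arrow (fun o => by
    rcases o with _ | a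
    · exact le_rfl
    · exact hc0 a) hκ0 hAr
  -- self-consistency
  obtain ⟨jj, b1, hadd⟩ := exists_addS
    (b0 := fun p : (Σ o : Option A, Fin (sz A N o)) => p.1)
    (by rw [fib_sigma]; exact card_le_of_near hz0 hNa)
  have hb1 : Bal (2 * KK A ^ 2) N b1 := by
    have := bal_addS (bal_sz (N := N) fun o => fib_sigma _ o) hadd
    rwa [← two_mul] at this
  have hsd1 : SDz (AV ζ n ca 0 b1) ϑ τ y (k * y * N) n := by
    rw [vz_eq]
    exact hsdz _ hb1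
  have hsc := self_cons hζ hz hN hb1 (by linarith [sq_nonneg (KK A)]) hc0 he hy4.1 hym
    (fun d h1 h2 => (hpar.fld d h1 h2).1) hk4.1.le (hk4.2.trans (min_le_left _ _))
    (hk4.2.trans (min_le_right _ _)) (by linarith) hsd1 (hr.mono h02)
    (fun i a hi => (hN1 _ ca 0 b1 ϑ τ r i a hb1 hpar1 (hc a).1 hsd1 (hr.mono h03) hi).2)
    (hN2 _ ca _ jj b1 ϑ τ r κ β R (hbal _ hz0) hpar2 (hsdz _ hz0) (hr.mono h04) hadd hAr hκ'
      hβ').2
  have hfin := final_1d hR.z hr.cadm hr.r0 hcm (fun a => ⟨h0.le.trans (hc a).1, (hc a).2⟩) ha0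
    (hϑ0.trans h01) (show ϑ 0 ≤ 7 * e by linarith) (by positivity)
    (hK.le.trans (le_max_right _ _)) (fun a => ⟨hκ0 a, (hκ' a).2⟩) hβ' hAlg hI hsc
  have hch := chain_sizes (fun z => Vz ζ n ca 0 z ϑ) (sz A N) (card_le_of_near hz0 hNa)
    ((-(∑ a, κ a * β a ^ 2) / 2 - ∑ a, Lc ζ n (κ a) r + psi n ζ (pP ζ n κ β r) lc) - e)
    (fun a => Lc ζ n (ca a + ϑ 0) r - e) (fun z z' hz1 hz2 hz3 => by
      have hn := near_of_close hz1
      obtain ⟨jj, b1, hadd⟩ := exists_addS (b0 := fun p : (Σ o : Option A, Fin (z o)) => p.1)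
        (by rw [fib_sigma]; exact card_le_of_near hn hNa)
      have h1 := (abs_le.1 (hN2 _ ca _ jj b1 ϑ τ r κ β R (hbal _ hn) hpar2 (hsdz _ hn)
        (hr.mono h04) hadd hAr hκ' hβ').1).1
      have h2 : fib b1 = z' := by
        obtain ⟨f1, f2⟩ := fib_addS hadd
        funext o
        rcases o with _ | a
        · rw [fib_sigma] at f1
          omega
        · rw [f2, fib_sigma, hz3]
      rw [vz_eq ζ n ca 0 b1, h2] at h1
      change _ ≤ Vz ζ n ca 0 z' ϑ - Vz ζ n ca 0 z ϑ - _ at h1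
      linarith) (fun z z' a hz1 hz2 hz3 hz4 => by
      have hn := near_of_close hz1
      obtain ⟨j, hj⟩ := exists_of_fib (b := fun p : (Σ o : Option A, Fin (z o)) => p.1)
        (o := some a) (by rw [fib_sigma]; omega)
      have h1 := (abs_le.1 (hN1 _ ca 0 _ ϑ τ r j a (hbal _ hn) hpar1 (hc a).1 (hsdz _ hn)
        (hr.mono h03) hj).1).2
      have h2 : fib (Function.update (fun p : (Σ o : Option A, Fin (z o)) => p.1) j none) = z' := by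
        obtain ⟨f1, f2, f3⟩ := fib_update hj
        funext o
        rcases o with _ | a'
        · rw [f1, fib_sigma, hz2]
        · by_cases ha : a' = a
          · subst ha
            rw [fib_sigma] at f2
            exact Nat.add_right_cancel (f2.trans hz3.symm)
          · rw [f3 a' ha, fib_sigma, hz4 a' ha]
      rw [vz_eq ζ n ca 0 (Function.update _ j none), h2] at h1
      change Vz ζ n ca 0 z ϑ - Vz ζ n ca 0 z' ϑ + _ ≤ _ at h1
      linarith)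
  refine le_trans ?_ hch
  rw [Finset.sum_sub_distrib, Finset.sum_const, Finset.card_univ, nsmul_eq_mul,
    show (Fintype.card A : ℝ) = KK A - 1 by simp [KK]]
  have b1 := mul_le_mul_of_nonneg_left hfin hK.le
  have e3 : ∀ u v : ℝ, KK A * (u + (1 - (KK A)⁻¹) * v) = KK A * u + (KK A - 1) * v := by
    intro u v
    field_simp
  rw [e3] at b1
  have b2 := mul_le_mul_of_nonneg_right hK1 he.le
  linarith

end LBA

theorem lb_disc (A : Type) [Fintype A] [DecidableEq A] {ca : A → ℝ} {c0 cm : ℝ} (h0 : 0 < c0)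
    (hcm : 0 ≤ cm) (hc : ∀ a, c0 ≤ ca a ∧ ca a ≤ cm) {I : ℝ}
    (hI : ∀ n ζ q, Adm n ζ q → I ≤ isingS n ζ q + Ec (cv ca 0) n ζ q) {δ : ℝ} (hδ : 0 < δ) :
    ∀ᶠ N : ℕ in atTop, ∀ b : Fin N → Option A, (∀ o, fib b o = sz A N o) →
      (I - δ) * N ≤ ∫ U, F0 (cb ca 0 b) U ∂(haarO (Fin N)) := by
  have hK := KK_pos' (A := A)
  obtain ⟨M, hM⟩ : ∃ M, M = 7 * LBA.Cf A cm (max (cm + 1) (KK A)) + KK A := ⟨_, rfl⟩
  have hM0 : 0 ≤ M := by
    rw [hM, LBA.Cf]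
    positivity
  obtain ⟨e, he, heδ⟩ : ∃ e : ℝ, 0 < e ∧ (M + 1) * e ≤ δ / 2 :=
    ⟨δ / 2 / (M + 1), by positivity, le_of_eq (by field_simp)⟩
  obtain ⟨e0, he0, h01, h02, hgood⟩ := LBA.good_step A h0 hcm he
  rw [← hM] at hgood
  obtain ⟨n, ζ, hζ, hmesh⟩ := exists_grid (η := e0 ^ 2) (by positivity)
  have hzok := hζ.zok
  have hn0 : (0 : ℝ) ≤ n := Nat.cast_nonneg n
  obtain ⟨ε, hεd⟩ : ∃ ε : ℝ, ε = e0 / (2 * (n + 1)) := ⟨_, rfl⟩
  have hε : 0 < ε := by rw [hεd]; positivity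
  have hεt : ε * (2 * (n + 1)) = e0 := by rw [hεd]; field_simp
  have hε1 : 2 * ε ≤ e0 := by nlinarith
  have hnε : 4 * n * ε ^ 2 ≤ e0 := by nlinarith
  have hR : Reg n ζ e0 0 0 1 ε := ⟨hζ, he0, h01, hmesh, le_rfl, le_rfl, zero_le_one, hε⟩
  have hbox : ∀ ϑ, Box (Finset.range (n + 1)) ε ϑ → ∀ d, d ≤ n → ε ≤ ϑ d ∧ ϑ d ≤ 2 * ε :=
    fun ϑ h d hd => h d (Finset.mem_range.2 (by omega))
  have hsum : ∀ ϑ, Box (Finset.range (n + 1)) ε ϑ → ∑ d ∈ Finset.Icc 1 n, ϑ d ^ 2 ≤ e0 := by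
    intro ϑ h
    calc ∑ d ∈ Finset.Icc 1 n, ϑ d ^ 2 ≤ ∑ _d ∈ Finset.Icc 1 n, (2 * ε) ^ 2 :=
          Finset.sum_le_sum fun d hd => by
            obtain ⟨a1, a2⟩ := hbox ϑ h d (Finset.mem_Icc.1 hd).2
            exact pow_le_pow_left₀ (by linarith) a2 2
      _ = 4 * n * ε ^ 2 := by simp; ring
      _ ≤ e0 := hnε
  have hpar : ∀ ϑ, Box (Finset.range (n + 1)) ε ϑ → Par n 1 ε (cm + 1) e0 ca 0 ϑ := by
    intro ϑ h
    have a0 := hbox ϑ h 0 (Nat.zero_le n)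
    have a1 : ∑ d ∈ Finset.Icc 1 n, (ϑ d ^ 2 - (0 : ℕ → ℝ) d ^ 2) ≤ e0 := by
      simpa using hsum ϑ h
    refine ⟨⟨fun a => ⟨h0.le.trans (hc a).1, by linarith [(hc a).2]⟩, ⟨by linarith, by linarith⟩,
      fun d _ h2 => ⟨le_rfl, hε.le.trans (hbox ϑ h d h2).1⟩, by linarith⟩,
      fun d _ h2 => ⟨(hbox ϑ h d h2).1, ?_⟩, a0.1, fun d _ h2 => ?_, a1⟩
    · obtain ⟨b1, b2⟩ := hbox ϑ h d h2
      nlinarith
    · simpa using (hbox ϑ h d h2).1
  have hcard : ∀ N : ℕ, (Fintype.card (Σ o : Option A, Fin (sz A N o)) : ℝ) = N := fun N => by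
    simp only [Fintype.card_sigma, Fintype.card_fin, sum_sz]
  obtain ⟨C, -, hC⟩ := vz_close A (cm + 1) (2 * KK A ^ 2)
  have hKb : ((Fintype.card A + 1 : ℕ) : ℝ) = KK A := by simp [KK]
  have hsz : ∀ N, sz A (N + (Fintype.card A + 1)) = fun o => sz A N o + 1 := fun N =>
    funext (sz_add N)
  have hmain := avg_lower (Finset.range (n + 1)) hε (Kb := Fintype.card A + 1) (by omega) 4 0 C
    (I - M * e) (e / 2) (fun N => Vz ζ n ca 0 (sz A N)) (fun N => Vz ζ n ca 0 (sz A N))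
    (fun N => ∫ U, F0 (cb ca 0 fun p : (Σ o : Option A, Fin (sz A N o)) => p.1) U ∂(haarO _))
    ?_ ?_ ?_ ?_ ?_ (half_pos hδ)
  · filter_upwards [hmain] with N hN b hb
    have hN0 : (0 : ℝ) ≤ N := Nat.cast_nonneg N
    have e1 := f0_fiber (cv ca 0) (b := b)
      (b' := fun p : (Σ o : Option A, Fin (sz A N o)) => p.1) fun o => by rw [hb, fib_sigma]
    refine le_trans (mul_le_mul_of_nonneg_right (by linarith) hN0) (hN.trans_eq e1.symm)
  · refine Eventually.of_forall fun N ϑ _ j _ a b ha1 ha2 hb1 hb2 => ?_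
    have hN0 : (0 : ℝ) ≤ N := Nat.cast_nonneg N
    refine (av_lip hzok hζ.z0 n ca 0 _ ϑ j a b).trans ?_
    have hsq : |a ^ 2 - b ^ 2| ≤ 3 * |a - b| := by
      rw [show a ^ 2 - b ^ 2 = (a + b) * (a - b) by ring, abs_mul]
      exact mul_le_mul_of_nonneg_right (abs_le.2 ⟨by linarith, by linarith⟩) (abs_nonneg _)
    rw [hcard]
    have := mul_le_mul_of_nonneg_left hsq hN0
    have := mul_nonneg hN0 (abs_nonneg (a - b))
    linarith
  · refine Eventually.of_forall fun N ϑ h j hj y hy0 hy => ?_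
    have hj' : j ≤ n := by have := Finset.mem_range.1 hj; omega
    have := av_sd hzok hζ.z0 n ca 0 (fun p : (Σ o : Option A, Fin (sz A N o)) => p.1) ϑ hj' hy0.le
      (y := y) (by linarith [(hbox ϑ h j hj').1])
    rw [zero_mul, zero_mul, neg_zero]
    exact this
  · filter_upwards [hgood n ζ ε hR] with k hk
    filter_upwards [hk] with y hy
    filter_upwards [hy] with N hN ϑ h hsd
    rw [hKb, hsz]
    exact hN ca ϑ I hc (hpar ϑ h) (by linarith [(hbox ϑ h 0 (Nat.zero_le n)).2]) (hI n ζ)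
      fun d hd => hsd d (Finset.mem_range.2 (by omega))
  · filter_upwards [hC] with N hN ϑ h
    have hK1 : (1 : ℝ) ≤ KK A := KK_pos
    refine (abs_le.1 (hN ζ n ca ϑ _ _ hzok hζ.z0 (hpar ϑ h).p0 (LBA.near_of_close fun o => ?_)
      (LBA.near_of_close fun o => by simp [hK.le]))).1
    rw [sz_add]
    simpa using hK1
  · refine Eventually.of_forall fun N ϑ h => ?_
    have hN0 : (0 : ℝ) ≤ N := Nat.cast_nonneg N
    have h1 := av_le_F0 hzok hζ.z0 n ca 0 (fun p : (Σ o : Option A, Fin (sz A N o)) => p.1) ϑ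
      (by linarith [(hbox ϑ h 0 (Nat.zero_le n)).1]) fun d _ _ => by simpa using sq_nonneg (ϑ d)
    rw [hcard] at h1
    have h2 := mul_le_mul_of_nonneg_left ((hsum ϑ h).trans h02) hN0
    change Vz ζ n ca 0 (sz A N) ϑ ≤ _ at h1
    linarith

end Vale.Agent.P166
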