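import Vale.Agent.P166.UB
import Vale.Agent.P166.LB
import Vale.Agent.P166.Disc
import Vale.Agent.P166.Link

/-! # The limit of the pressure -/

namespace Vale.Agent.P166

open MeasureTheory Filter Topology BoundedContinuousFunction Vale.Agent.P157

theorem isingS_nonneg {n : ℕ} {ζ q : ℕ → ℝ} (h : Adm n ζ q) : 0 ≤ isingS n ζ q := by
  refine le_trans ?_ (le_csSup (isingObj_bdd h)
    ⟨fun _ => 0, antitone_const, fun _ _ => rfl, rfl⟩)
  have h1 := (X_lc_bounds h.zadm.zok (v := dq fun _ => 0) (fun d => by simp [dq]) (n + 1)).1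
  rw [← psi_eq_X n ζ _ lg_lc.1] at h1
  simp only [pairing, zero_mul, mul_zero, Finset.sum_const_zero, zero_div, sub_zero, add_zero]
  exact h1

theorem limit {β : ℝ} (hβ : 0 < β) {μ : Measure ℝ} [IsProbabilityMeasure μ]
    (hc : IsCompact μ.support) {lam : ∀ N : ℕ, Fin N → ℝ}
    (hw : ∀ f : ℝ →ᵇ ℝ,
      Tendsto (fun N : ℕ => (N : ℝ)⁻¹ * ∑ i, f (lam N i)) atTop (𝓝 (∫ t, f t ∂μ)))
    (hmin : Tendsto (fun N : ℕ => ⨅ i, lam N i) atTop (𝓝 (sInf μ.support)))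
    (hmax : Tendsto (fun N : ℕ => ⨆ i, lam N i) atTop (𝓝 (sSup μ.support))) :
    ∃ L : ℝ, IsGLB {y | ∃ n ζ q, Adm n ζ q ∧ y = isingS n ζ q + energyE β μ n ζ q} L ∧
      Tendsto (fun N : ℕ => ∫ U, pressure β (lam N) U ∂(haarO (Fin N))) atTop (𝓝 L) := by
  obtain ⟨T, hT⟩ : ∃ T, T = {y | ∃ n ζ q, Adm n ζ q ∧ y = isingS n ζ q + energyE β μ n ζ q} :=
    ⟨_, rfl⟩
  rw [← hT]
  have hne : T.Nonempty := by
    obtain ⟨n, ζ, q, h⟩ := exists_adm
    rw [hT]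
    exact ⟨_, n, ζ, q, h, rfl⟩
  have hcok : ∀ {m : ℕ} {ca : Fin m → ℝ} {c0 cm : ℝ}, 0 < c0 → 0 ≤ cm →
      (∀ a, c0 ≤ ca a ∧ ca a ≤ cm) → Cok (cv ca 0) cm := fun h0 hcm hca =>
    cok_cv hcm fun a => ⟨by linarith [(hca a).1], by linarith [(hca a).2]⟩
  have hbd : BddBelow T := by
    obtain ⟨m, ca, Λ, c0, cm, h0, hcm, hca, hR, -⟩ := disc_ub hc hw hmin hmax hβ one_pos
    refine ⟨β * Λ / 2 - cm / 2 - 1 / 2, fun y hy => ?_⟩
    rw [hT] at hy
    obtain ⟨n, ζ, q, h, rfl⟩ := hy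
    have h1 := energy_le hc hβ (hcok h0 hcm hca) hR h
    have h2 := (Ec_bounds (n := n) (ζ := ζ) (q := q) (hcok h0 hcm hca)
      (by rw [h.q0]; exact zero_le_one)).1
    rw [h.q0] at h2
    linarith [isingS_nonneg h]
  refine ⟨sInf T, isGLB_csInf hne hbd, tendsto_order.2 ⟨fun a ha => ?_, fun a ha => ?_⟩⟩
  · obtain ⟨ε, hε⟩ : ∃ ε, ε = (sInf T - a) / 2 := ⟨_, rfl⟩
    have hε0 : 0 < ε := by rw [hε]; linarith
    obtain ⟨m, ca, Λ, c0, cm, h0, hcm, hca, hR, hb⟩ := disc_lb hc hw hmin hmax hβ hε0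
    have hlb := lb_disc (Fin m) h0 hcm hca (I := sInf T - β * Λ / 2 - ε / 2) (fun n ζ q h => by
      have h1 := le_energy hc hβ (hcok h0 hcm hca) hR h
      have h2 : sInf T ≤ isingS n ζ q + energyE β μ n ζ q :=
        csInf_le hbd (hT ▸ ⟨n, ζ, q, h, rfl⟩)
      linarith) hε0
    filter_upwards [hlb, hb, eventually_ge_atTop 1] with N hN ⟨b, hb1, hb2⟩ hN1
    have hN0 : (0 : ℝ) < N := by exact_mod_cast hN1
    have h1 := (hN b hb1).trans (integral_mono (bm_F0 _).integrable (bm_F0 _).integrable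
      fun U => F0_anti (c := fun i => β * (Λ - lam N i)) hb2 U)
    rw [integral_pressure β Λ hN1]
    rw [mul_comm, ← le_inv_mul_iff₀ hN0] at h1
    linarith
  · obtain ⟨y, hy, hya⟩ := exists_lt_of_csInf_lt hne ha
    rw [hT] at hy
    obtain ⟨n, ζ, q, h, rfl⟩ := hy
    obtain ⟨ε, hε⟩ : ∃ ε, ε = (a - (isingS n ζ q + energyE β μ n ζ q)) / 2 := ⟨_, rfl⟩
    have hε0 : 0 < ε := by rw [hε]; linarith
    obtain ⟨m, ca, Λ, c0, cm, h0, hcm, hca, hR, hb⟩ := disc_ub hc hw hmin hmax hβ hε0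
    have h2 := energy_le hc hβ (hcok h0 hcm hca) hR h
    filter_upwards [ub_disc (Fin m) h0 hcm hca h hε0, hb, eventually_ge_atTop 1]
      with N hN ⟨b, hb1, hb2⟩ hN1
    have hN0 : (0 : ℝ) < N := by exact_mod_cast hN1
    have h1 := (integral_mono (bm_F0 _).integrable (bm_F0 _).integrable
      fun U => F0_anti (c' := fun i => β * (Λ - lam N i)) hb2 U).trans (hN b hb1)
    rw [integral_pressure β Λ hN1]
    rw [← inv_mul_le_iff₀ hN0] at h1
    linarith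

end Vale.Agent.P166
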