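import Vale.Agent.P166.Model
import Vale.Agent.P166.CavJet

/-! # From orthonormal frames to Gaussian combinations -/

namespace Vale.Agent.P166

open MeasureTheory ProbabilityTheory Filter Topology Vale.Agent.P157

theorem fp_frame {S A L : Type} [Fintype S] [DecidableEq S] [Fintype A] [DecidableEq A]
    [Fintype L] [DecidableEq L] {ζ : ℕ → ℝ} (hζ : Zok ζ) (hz : ζ 0 = 1) (n : ℕ) (ca : A → ℝ)
    (θ : ℕ → ℝ) (b : S → Option A) (ϑ : ℕ → ℝ) (d0 : ℕ) {σ : ℝ} (hσ : 0 ≤ σ)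
    (Pc η : (L → ℝ) → Bool → ℝ) {jj : L → S} (hj : Function.Injective jj)
    (ht : ∀ l, b (jj l) = none) (F : L → {i // b i = none} → ℝ)
    (hF : ∀ l l', ∑ i, F l i * F l' i = if l = l' then 1 else 0) :
    FP ζ n ca θ b ϑ d0 σ Pc η jj
      = ∫ U, CX ζ n ca θ b ϑ d0 σ Pc η U (fun x l => ∑ i, F l i * yv U i.1 x) ∂(haarO S) := by
  obtain ⟨V, hV⟩ := exists_frame (S := {i // b i = none}) (j := fun l => ⟨jj l, ht l⟩)
    (fun l l' h => hj (congrArg Subtype.val h)) F hF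
  obtain ⟨O, hO1, -, hO3⟩ := exists_ext (L := {i // b i = none}) (j := Subtype.val)
    Subtype.val_injective V
  have hO : BlockO b O := by
    intro i i' hne
    by_contra h0
    rcases hO3 i i' h0 with h | ⟨⟨l, hl⟩, l', hl'⟩
    · exact hne (by rw [h])
    · exact hne (by rw [← hl, ← hl', l.2, l'.2])
  unfold FP
  rw [← integral_left O fun U => CX ζ n ca θ b ϑ d0 σ Pc η U fun x l => yv U (jj l) x]
  refine integral_congr_ae (Eventually.of_forall fun U => ?_)
  dsimp only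
  rw [cx_rot hζ hz hO n ca θ ϑ d0 hσ]
  have e : (fun (x : S → Bool) (l : L) => yv (O * U) (jj l) x)
      = fun x l => ∑ i, F l i * yv U i.1 x := by
    funext x l
    rw [yv_mul, hO1 (fun j => yv U j x) ⟨jj l, ht l⟩]
    exact Finset.sum_congr rfl fun i _ => congrArg (· * yv U i.1 x) (hV l i)
  rw [e]

namespace FrameAux

theorem dev_le {K D m N : ℝ} (hK : 0 ≤ K) (hN : 1 ≤ N) (h : |K * m - N| ≤ D) :
    2 * m * (K / N) ^ 2 + (m * (K / N) - 1) ^ 2 ≤ (2 * (1 + D) * K + D ^ 2) / N := by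
  have hN0 : 0 < N := by linarith
  have hD : 0 ≤ D := (abs_nonneg _).trans h
  have h1 : (K * m - N) ^ 2 ≤ D ^ 2 := sq_le_sq' (abs_le.1 h).1 (abs_le.1 h).2
  have h2 : K * m ≤ (1 + D) * N := by nlinarith [(abs_le.1 h).2]
  have e : 2 * m * (K / N) ^ 2 + (m * (K / N) - 1) ^ 2
      = ((2 * (K * m) * K + (K * m - N) ^ 2) / N) / N := by
    field_simp
  rw [e]
  refine div_le_div_of_nonneg_right ?_ hN0.le
  rw [div_le_iff₀ hN0]
  have h3 : 2 * (K * m) * K ≤ 2 * ((1 + D) * N) * K := by gcongr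
  nlinarith [sq_nonneg D]

theorem int_ge {Y : Type} [MeasurableSpace Y] {ν : Measure Y} [IsProbabilityMeasure ν]
    {f dv : Y → ℝ} (hf : Integrable f ν) (hdv : Integrable dv ν) (h0 : ∀ y, 0 ≤ dv y)
    {a M e p : ℝ} (hM : 0 ≤ M) (he : 0 < e) (hg : ∀ y, dv y ≤ e → a ≤ f y)
    (hb : ∀ y, a - M ≤ f y) (hp : ∫ y, dv y ∂ν ≤ p) : a - M / e * p ≤ ∫ y, f y ∂ν := by
  have hc : 0 ≤ M / e := div_nonneg hM he.le
  have h1 : ∫ y, (a - M / e * dv y) ∂ν ≤ ∫ y, f y ∂ν := by
    refine integral_mono ((integrable_const a).sub (hdv.const_mul _)) hf fun y => ?_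
    dsimp only
    rcases le_total (dv y) e with h | h
    · have := mul_nonneg hc (h0 y)
      linarith [hg y h]
    · have h2 : M / e * e ≤ M / e * dv y := mul_le_mul_of_nonneg_left h hc
      rw [div_mul_cancel₀ M he.ne'] at h2
      linarith [hb y]
  rw [integral_sub (integrable_const a) (hdv.const_mul _), integral_const, integral_const_mul] at h1
  simp only [probReal_univ, one_smul] at h1
  have := mul_le_mul_of_nonneg_left hp hc
  linarith

variable {S A L : Type} [Fintype S] [DecidableEq S] [Fintype A] [DecidableEq A] [Fintype L]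
  {ζ : ℕ → ℝ}

theorem cx_le (hζ : Zok ζ) (n : ℕ) (ca : A → ℝ) (θ : ℕ → ℝ) (b : S → Option A) (ϑ : ℕ → ℝ)
    (d0 : ℕ) (σ : ℝ) {Pc Pc' η : (L → ℝ) → Bool → ℝ} (U : OG S) {t t' : (S → Bool) → L → ℝ}
    {c e : ℝ} (h : ∀ x ε, Pc (t x) ε + c ≤ Pc' (t' x) ε)
    (he : ∀ x ε, |η (t' x) ε - η (t x) ε| ≤ e) :
    CX ζ n ca θ b ϑ d0 σ Pc η U t + c - e ≤ CX ζ n ca θ b ϑ d0 σ Pc' η U t' := by
  unfold CX
  exact sl_le (μ := (cube S).prod UnifAux.mu2)
    (E := fun x => EQ (cb ca ϑ b) U x.1 + Pc (t x.1) x.2)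
    (E' := fun x => EQ (cb ca ϑ b) U x.1 + Pc' (t' x.1) x.2) (ξ := fun i x => yv U i x.1)
    (η := fun x => η (t x.1) x.2) (η' := fun x => η (t' x.1) x.2) hζ (bm_fin _) (bm_fin _)
    (fun _ => bm_fin _) (bm_fin _) (bm_fin _) (fun x => by linarith [h x.1 x.2])
    (fun x => he x.1 x.2) n d0 σ (sb θ ϑ b)

theorem int_shift {f g : OG S → ℝ} (hf : BM f) (hg : BM g) {c : ℝ} (h : ∀ U, f U - c ≤ g U) :
    ∫ U, f U ∂(haarO S) - c ≤ ∫ U, g U ∂(haarO S) := by
  have h1 : ∫ U, (f U - c) ∂(haarO S) ≤ ∫ U, g U ∂(haarO S) :=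
    integral_mono (hf.integrable.sub (integrable_const c)) hg.integrable h
  rw [integral_sub hf.integrable (integrable_const c), integral_const] at h1
  simpa using h1

end FrameAux

open FrameAux

theorem frame_link (A L : Type) [Fintype A] [DecidableEq A] [Fintype L] [DecidableEq L]
    {s ε R Lh : ℝ} (hs : 0 < s) (hε : 0 < ε) (hR : 0 < R) (hLh : 0 ≤ Lh) (κm Lb D : ℝ) :
    ∀ᶠ N : ℕ in atTop,
    ∀ (S : Type) [Fintype S] [DecidableEq S] (ζ : ℕ → ℝ) (n : ℕ) (ca : A → ℝ) (θ : ℕ → ℝ)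
      (b : S → Option A) (ϑ : ℕ → ℝ) (d0 : ℕ) (σ : ℝ) (κ β : L → ℝ) (η : (L → ℝ) → Bool → ℝ)
      (jj : L → S), Zok ζ → ζ 0 = 1 → 0 ≤ σ → Bal D N b → Function.Injective jj →
      (∀ l, b (jj l) = none) → (∀ l, s ≤ κ l ∧ κ l ≤ κm) → ∑ l, β l ^ 2 ≤ κm →
      Measurable (Function.uncurry η) → (∀ t x, |η t x| ≤ Lb) → Hom η Lh →
      FP ζ n ca θ b ϑ d0 σ (cavE R (fun l => κ l + s) β) η jj - ε
          ≤ CV ζ n ca θ b ϑ d0 σ (cavE R κ β) η (KK A / N) ∧
        CV ζ n ca θ b ϑ d0 σ (cavE R κ β) η (KK A / N)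
          ≤ FP ζ n ca θ b ϑ d0 σ (cavE R (fun l => κ l - s) β) η jj + ε := by
  obtain ⟨e0, he0, he0', hq⟩ := qf_pert hs (half_pos hε) κm
  obtain ⟨e, he⟩ : ∃ e, e = min e0 (ε / 4 / (Lh + 1)) := ⟨_, rfl⟩
  have hep : 0 < e := by rw [he]; positivity
  have hee : e ≤ e0 := by rw [he]; exact min_le_left _ _
  have heL : Lh * e ≤ ε / 4 := by
    have h1 : e ≤ ε / 4 / (Lh + 1) := by rw [he]; exact min_le_right _ _
    rw [le_div_iff₀ (by linarith)] at h1
    nlinarith
  obtain ⟨c, hc⟩ : ∃ c, c = 2 * (R + Lb) / e ^ 2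
    * ((Fintype.card L : ℝ) ^ 2 * (2 * (1 + D) * KK A + D ^ 2)) := ⟨_, rfl⟩
  filter_upwards [eventually_ge_atTop 1,
    tendsto_natCast_atTop_atTop.eventually_ge_atTop (c / (ε / 2))] with N hN hNc
  intro S _ _ ζ n ca θ b ϑ d0 σ κ β η jj hζ hz hσ hB hj ht hκ hβ hηm hηb hH
  have hN1 : (1 : ℝ) ≤ N := by exact_mod_cast hN
  have hN0 : (0 : ℝ) < N := by linarith
  have hK1 : (1 : ℝ) ≤ KK A := KK_pos
  have hLb : 0 ≤ Lb := (abs_nonneg _).trans (hηb 0 true)
  have hκ0 : ∀ l, 0 ≤ κ l := fun l => hs.le.trans (hκ l).1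
  have hκp : ∀ l, 0 ≤ κ l + s := fun l => by linarith [hκ0 l]
  have hκn : ∀ l, 0 ≤ κ l - s := fun l => sub_nonneg.2 (hκ l).1
  have hmx1 : R ≤ R + Lb := by linarith
  have hmx2 : Lb ≤ R + Lb := by linarith
  -- bounded measurability
  have bmU : ∀ (κ' : L → ℝ), (∀ l, 0 ≤ κ' l) → ∀ t : OG S → (S → Bool) → L → ℝ,
      (∀ x l, Measurable fun U => t U x l) →
      BM fun U => CX ζ n ca θ b ϑ d0 σ (cavE R κ' β) η U (t U) := fun κ' h' t htm =>
    bm_CX hζ hz n ca θ b ϑ d0 σ (measurable_cavE R κ' β) hηm measurable_id htm (C := R + Lb)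
      (fun _ _ _ => (abs_cavE_le hR h' β _ _).trans hmx1) fun _ _ _ => (hηb _ _).trans hmx2
  have mG : ∀ (G : L × {i // b i = none} → ℝ) x l,
      Measurable fun U : OG S => tG G (fun j : {i // b i = none} => yv U j.1 x) l :=
    fun G x l => Finset.measurable_sum _ fun j _ => (measurable_yv j.1 x).const_mul _
  have mF : ∀ (F : L → {i // b i = none} → ℝ) x l,
      Measurable fun U : OG S => ∑ i, F l i * yv U i.1 x :=
    fun F x l => Finset.measurable_sum _ fun j _ => (measurable_yv j.1 x).const_mul _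
  have bmP : BM fun p : OG S × (L × {i // b i = none} → ℝ) =>
      CX ζ n ca θ b ϑ d0 σ (cavE R κ β) η p.1
        fun x => tG p.2 fun j : {i // b i = none} => yv p.1 j.1 x :=
    bm_CX hζ hz n ca θ b ϑ d0 σ (measurable_cavE R κ β) hηm measurable_fst
      (t := fun p x => tG p.2 fun j : {i // b i = none} => yv p.1 j.1 x)
      (fun x l => Finset.measurable_sum _ fun j _ =>
        ((measurable_pi_apply (l, j)).comp measurable_snd).mul
          ((measurable_yv j.1 x).comp measurable_fst)) (C := R + Lb)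
      (fun _ _ _ => (abs_cavE_le hR hκ0 β _ _).trans hmx1) fun _ _ _ => (hηb _ _).trans hmx2
  have iP := bmP.integrable
    (ν := (haarO S).prod (gv fun _ : L × {i // b i = none} => KK A / N))
  have hswap : CV ζ n ca θ b ϑ d0 σ (cavE R κ β) η (KK A / N)
      = ∫ G, ∫ U, CX ζ n ca θ b ϑ d0 σ (cavE R κ β) η U
          (fun x => tG G fun j : {i // b i = none} => yv U j.1 x) ∂(haarO S)
        ∂(gv fun _ : L × {i // b i = none} => KK A / N) :=
    integral_integral_swap (f := fun U G => CX ζ n ca θ b ϑ d0 σ (cavE R κ β) η U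
      fun x => tG G fun j : {i // b i = none} => yv U j.1 x) iP
  have iH := iP.integral_prod_right
  -- the deviation of the Gram matrix
  obtain ⟨hd1, hd2⟩ := gram_dev L {i // b i = none} (v := KK A / N) (by positivity)
  have hd3 := hd2.trans (mul_le_mul_of_nonneg_left
    (dev_le (m := Fintype.card {i // b i = none}) (by linarith) hN1 (hB none)) (sq_nonneg _))
  have hfin : 2 * (R + Lb) / e ^ 2
      * ((Fintype.card L : ℝ) ^ 2 * ((2 * (1 + D) * KK A + D ^ 2) / N)) ≤ ε / 2 := by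
    rw [← mul_div_assoc, ← mul_div_assoc, ← hc, div_le_iff₀ hN0]
    rw [div_le_iff₀ (half_pos hε)] at hNc
    linarith
  have hd0 : ∀ G : L × {i // b i = none} → ℝ,
      0 ≤ ∑ l, ∑ l', (∑ j, G (l, j) * G (l', j) - if l = l' then 1 else 0) ^ 2 :=
    fun G => Finset.sum_nonneg fun _ _ => Finset.sum_nonneg fun _ _ => sq_nonneg _
  -- crude comparison
  have crude : ∀ (κ' : L → ℝ), (∀ l, 0 ≤ κ' l) → ∀ (U : OG S) (t t' : (S → Bool) → L → ℝ),
      |CX ζ n ca θ b ϑ d0 σ (cavE R κ' β) η U t' - CX ζ n ca θ b ϑ d0 σ (cavE R κ β) η U t|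
        ≤ 2 * (R + Lb) := by
    intro κ' h' U t t'
    have h1 := abs_le.1 (cx_abs hζ hz n ca θ b ϑ d0 σ (cavE R κ' β) η U t'
      (fun _ _ => abs_cavE_le hR h' β _ _) fun _ _ => hηb _ _)
    have h2 := abs_le.1 (cx_abs hζ hz n ca θ b ϑ d0 σ (cavE R κ β) η U t
      (fun _ _ => abs_cavE_le hR hκ0 β _ _) fun _ _ => hηb _ _)
    rw [abs_le]
    constructor <;> linarith [h1.1, h1.2, h2.1, h2.2]
  have mJ : ∀ x l, Measurable fun U : OG S => yv U (jj l) x := fun x l => measurable_yv _ x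
  -- good Gaussian matrices
  have good : ∀ G : L × {i // b i = none} → ℝ,
      ∑ l, ∑ l', (∑ j, G (l, j) * G (l', j) - if l = l' then 1 else 0) ^ 2 ≤ e ^ 2 →
      FP ζ n ca θ b ϑ d0 σ (cavE R (fun l => κ l + s) β) η jj - ε / 2
        ≤ ∫ U, CX ζ n ca θ b ϑ d0 σ (cavE R κ β) η U
          (fun x => tG G fun j : {i // b i = none} => yv U j.1 x) ∂(haarO S) ∧
      ∫ U, CX ζ n ca θ b ϑ d0 σ (cavE R κ β) η U
          (fun x => tG G fun j : {i // b i = none} => yv U j.1 x) ∂(haarO S) - ε / 2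
        ≤ FP ζ n ca θ b ϑ d0 σ (cavE R (fun l => κ l - s) β) η jj := by
    intro G hG
    obtain ⟨F, hF, hFG⟩ := exists_polar G hep.le (hee.trans he0') hG
    have hQ := fun (v : {i // b i = none} → ℝ) (x : Bool) =>
      hq L κ β (fun l => ∑ j, F l j * v j) (tG G v) x (fun l => ⟨hκ0 l, (hκ l).2⟩) hβ
        ((hFG v).trans (mul_le_mul_of_nonneg_right (pow_le_pow_left₀ hep.le hee 2)
          (Finset.sum_nonneg fun _ _ => sq_nonneg _)))
    have hE := fun (v : {i // b i = none} → ℝ) (x : Bool) =>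
      (hH e (fun l => ∑ j, F l j * v j) (tG G v) x hep.le (hee.trans he0') (hFG v)).trans heL
    rw [fp_frame hζ hz n ca θ b ϑ d0 hσ _ η hj ht F hF,
      fp_frame hζ hz n ca θ b ϑ d0 hσ _ η hj ht F hF]
    constructor
    · refine int_shift (bmU _ hκp _ (mF F)) (bmU _ hκ0 _ (mG G)) fun U => ?_
      have := cx_le hζ n ca θ b ϑ d0 σ (Pc := cavE R (fun l => κ l + s) β) (Pc' := cavE R κ β)
        (η := η) U (t := fun x l => ∑ i, F l i * yv U i.1 x)
        (t' := fun x => tG G fun j : {i // b i = none} => yv U j.1 x) (c := -(ε / 2 / 2))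
        (e := ε / 4)
        (fun x ε' => fR_le_add hR (qf_nonneg hκp β _ ε') (half_pos hε).le (hQ _ ε').1)
        fun x ε' => hE _ ε'
      linarith
    · refine int_shift (bmU _ hκ0 _ (mG G)) (bmU _ hκn _ (mF F)) fun U => ?_
      have := cx_le hζ n ca θ b ϑ d0 σ (Pc := cavE R κ β) (Pc' := cavE R (fun l => κ l - s) β)
        (η := η) U (t' := fun x l => ∑ i, F l i * yv U i.1 x)
        (t := fun x => tG G fun j : {i // b i = none} => yv U j.1 x) (c := -(ε / 2 / 2))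
        (e := ε / 4)
        (fun x ε' => fR_le_add hR (qf_nonneg hκ0 β _ ε') (half_pos hε).le (hQ _ ε').2)
        fun x ε' => (abs_sub_comm _ _).trans_le (hE _ ε')
      linarith
  have hM : 0 ≤ 2 * (R + Lb) := by linarith
  rw [hswap]
  constructor
  · have := int_ge iH hd1 hd0 hM (pow_pos hep 2) (fun G hG => (good G hG).1) (fun G => ?_) hd3
    · linarith
    · have h1 := int_shift (bmU _ hκp _ mJ) (bmU _ hκ0 _ (mG G)) (c := 2 * (R + Lb)) fun U => by
        linarith [(abs_le.1 (crude _ hκp U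
          (fun x => tG G fun j : {i // b i = none} => yv U j.1 x) fun x l => yv U (jj l) x)).2]
      unfold FP
      linarith
  · have := int_ge iH.neg hd1 hd0 hM (pow_pos hep 2)
      (a := -(FP ζ n ca θ b ϑ d0 σ (cavE R (fun l => κ l - s) β) η jj + ε / 2))
      (fun G hG => by
        have := (good G hG).2
        simp only [Pi.neg_apply]
        linarith) (fun G => ?_) hd3
    · simp only [Pi.neg_apply, integral_neg] at this
      linarith
    · have h1 := int_shift (bmU _ hκ0 _ (mG G)) (bmU _ hκn _ mJ) (c := 2 * (R + Lb)) fun U => by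
        linarith [(abs_le.1 (crude _ hκn U
          (fun x => tG G fun j : {i // b i = none} => yv U j.1 x) fun x l => yv U (jj l) x)).1]
      unfold FP
      simp only [Pi.neg_apply]
      linarith

end Vale.Agent.P166
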