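import Vale.Agent.P166.Haar

/-! # Constructions of orthogonal matrices -/

namespace Vale.Agent.P166

open Matrix

variable {S : Type} [Fintype S] [DecidableEq S]

namespace Geo1Aux

theorem refl_swap (u u' : S → ℝ) (h : ∑ i, u i ^ 2 = ∑ i, u' i ^ 2) :
    (refl (u - u')).1 *ᵥ u = u' := by
  rw [refl_mulVec]
  have h1 : (u - u') ⬝ᵥ (u - u') = 2 * ((u - u') ⬝ᵥ u) := by
    have e : ∑ i, (u - u') i * (u - u') i
        = 2 * ∑ i, (u - u') i * u i + (∑ i, u' i ^ 2 - ∑ i, u i ^ 2) := by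
      rw [Finset.mul_sum, ← Finset.sum_sub_distrib, ← Finset.sum_add_distrib]
      refine Finset.sum_congr rfl fun i _ => ?_
      simp only [Pi.sub_apply]
      ring
    simp only [dotProduct]
    rw [e, h]
    ring
  by_cases h0 : (u - u') ⬝ᵥ (u - u') = 0
  · have h2 : u - u' = 0 := dotProduct_self_eq_zero.1 h0
    rw [h2, smul_zero, sub_zero]
    exact sub_eq_zero.1 h2
  · have h3 : 2 / ((u - u') ⬝ᵥ (u - u')) * ((u - u') ⬝ᵥ u) = 1 := by
      rw [div_mul_eq_mul_div, ← h1, div_self h0]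
    rw [h3, one_smul, sub_sub_cancel]

theorem spec {L : Type} [Fintype L] [DecidableEq L] (A : Matrix L L ℝ) (hA : Aᵀ = A) :
    ∃ (U : OG L) (d : L → ℝ), A = U.1 * diagonal d * U.1ᵀ := by
  have hH : A.IsHermitian := by
    unfold Matrix.IsHermitian
    rw [conjTranspose_eq_transpose_of_trivial, hA]
  refine ⟨hH.eigenvectorUnitary, hH.eigenvalues, ?_⟩
  have h := hH.spectral_theorem
  rw [Unitary.conjStarAlgAut_apply] at h
  simpa [star_eq_conjTranspose, conjTranspose_eq_transpose_of_trivial] using h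

theorem frob {L : Type} [Fintype L] (A : Matrix L L ℝ) (x : L → ℝ) :
    ∑ l, (A *ᵥ x) l ^ 2 ≤ (∑ l, ∑ l', A l l' ^ 2) * ∑ l, x l ^ 2 := by
  rw [Finset.sum_mul]
  refine Finset.sum_le_sum fun l _ => ?_
  exact Finset.sum_mul_sq_le_sq_mul_sq _ _ _

end Geo1Aux

open Geo1Aux

theorem exists_ext {L : Type} [Fintype L] [DecidableEq L] {j : L → S} (hj : Function.Injective j)
    (V : OG L) : ∃ O : OG S,
      (∀ (y : S → ℝ) l, (O.1 *ᵥ y) (j l) = (V.1 *ᵥ fun l' => y (j l')) l) ∧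
      (∀ (y : S → ℝ) i, (∀ l, j l ≠ i) → (O.1 *ᵥ y) i = y i) ∧
      ∀ i i', O.1 i i' ≠ 0 → i = i' ∨ ((∃ l, j l = i) ∧ ∃ l, j l = i') := by
  obtain ⟨J, hJ⟩ : ∃ J : Matrix S L ℝ, ∀ i l, J i l = if j l = i then 1 else 0 :=
    ⟨Matrix.of fun i l => if j l = i then 1 else 0, fun _ _ => rfl⟩
  have hJJ : Jᵀ * J = 1 := by
    ext l l'
    simp [Matrix.mul_apply, hJ, Matrix.one_apply, hj.eq_iff, eq_comm]
  have hT : ∀ y : S → ℝ, Jᵀ *ᵥ y = fun l => y (j l) := by
    intro y
    ext l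
    simp [Matrix.mulVec, dotProduct, hJ]
  have hV := og_mul_tr V
  have hO : (1 + J * (V.1 - 1) * Jᵀ) ∈ Matrix.orthogonalGroup S ℝ := by
    rw [Matrix.mem_orthogonalGroup_iff]
    have e1 : (1 + J * (V.1 - 1) * Jᵀ)ᵀ = 1 + J * (V.1ᵀ - 1) * Jᵀ := by
      simp [Matrix.transpose_mul, Matrix.mul_assoc]
    have e2 : J * (V.1 - 1) * Jᵀ * (J * (V.1ᵀ - 1) * Jᵀ)
        = J * ((V.1 - 1) * (V.1ᵀ - 1)) * Jᵀ := by
      have : Jᵀ * (J * (V.1ᵀ - 1) * Jᵀ) = (V.1ᵀ - 1) * Jᵀ := by
        rw [← Matrix.mul_assoc, ← Matrix.mul_assoc, hJJ, Matrix.one_mul]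
      rw [Matrix.mul_assoc (J * (V.1 - 1)), this]
      simp only [Matrix.mul_assoc]
    have e3 : (V.1 - 1) * (V.1ᵀ - 1) = -(V.1 - 1) - (V.1ᵀ - 1) := by
      rw [sub_mul, mul_sub, mul_sub, hV]
      simp only [Matrix.mul_one, Matrix.one_mul]
      abel
    rw [e1, add_mul, mul_add, mul_add, e2, e3]
    simp only [Matrix.mul_one, Matrix.one_mul, Matrix.mul_sub, Matrix.sub_mul, Matrix.mul_neg,
      Matrix.neg_mul]
    abel
  have hmv : ∀ (y : S → ℝ) i, ((1 + J * (V.1 - 1) * Jᵀ) *ᵥ y) i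
      = y i + (J *ᵥ ((V.1 *ᵥ fun l' => y (j l')) - fun l' => y (j l'))) i := by
    intro y i
    rw [Matrix.add_mulVec, Matrix.one_mulVec, ← Matrix.mulVec_mulVec, ← Matrix.mulVec_mulVec, hT,
      Matrix.sub_mulVec, Matrix.one_mulVec]
    rfl
  refine ⟨⟨_, hO⟩, fun y l => ?_, fun y i hi => ?_, fun i i' h => ?_⟩
  · show ((1 + J * (V.1 - 1) * Jᵀ) *ᵥ y) (j l) = _
    rw [hmv]
    have : ∀ w : L → ℝ, (J *ᵥ w) (j l) = w l := by
      intro w
      simp [Matrix.mulVec, dotProduct, hJ, hj.eq_iff]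
    rw [this]
    simp
  · show ((1 + J * (V.1 - 1) * Jᵀ) *ᵥ y) i = _
    rw [hmv]
    have : ∀ w : L → ℝ, (J *ᵥ w) i = 0 := by
      intro w
      simp [Matrix.mulVec, dotProduct, hJ, hi]
    rw [this, add_zero]
  · by_contra hc
    apply h
    show (1 + J * (V.1 - 1) * Jᵀ : Matrix S S ℝ) i i' = 0
    rw [not_or, not_and_or] at hc
    obtain ⟨h1, h2⟩ := hc
    rw [Matrix.add_apply, Matrix.one_apply_ne h1, zero_add]
    rcases h2 with h2 | h2
    · have h3 : ∀ l, J i l = 0 := fun l => by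
        rw [hJ, if_neg fun h => h2 ⟨l, h⟩]
      simp [Matrix.mul_apply, h3]
    · have h3 : ∀ l, J i' l = 0 := fun l => by
        rw [hJ, if_neg fun h => h2 ⟨l, h⟩]
      rw [Matrix.mul_apply]
      simp [h3]

theorem exists_col (m : S → ℝ) (hm : ∑ i, m i ^ 2 = 1) (i0 : S) :
    ∃ C : OG S, ∀ i, C.1 i i0 = m i := by
  have h : ∑ i, (Pi.single i0 (1 : ℝ) : S → ℝ) i ^ 2 = ∑ i, m i ^ 2 := by
    rw [hm]
    simp [Pi.single_apply]
  refine ⟨refl (Pi.single i0 1 - m), fun i => ?_⟩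
  have := congrFun (refl_swap _ _ h) i
  rw [Matrix.mulVec_single_one] at this
  exact this

theorem exists_close (a a' : S → ℝ) (ha : ∑ i, a i ^ 2 = 1) (ha' : ∑ i, a' i ^ 2 = 1) {e : ℝ}
    (h : ∑ i, (a' i - a i) ^ 2 ≤ e ^ 2) :
    ∃ C : OG S, C.1 *ᵥ a = a' ∧
      ∀ z : S → ℝ, ∑ i, ((C.1 *ᵥ z) i - z i) ^ 2 ≤ 16 * e ^ 2 * ∑ i, z i ^ 2 := by
  by_cases he : 1 / 4 ≤ e ^ 2
  · refine ⟨refl (a - a'), refl_swap _ _ (ha.trans ha'.symm), fun z => ?_⟩
    have h1 := og_norm (refl (a - a')) z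
    have h2 : ∑ i, (((refl (a - a')).1 *ᵥ z) i - z i) ^ 2
        ≤ 2 * ∑ i, ((refl (a - a')).1 *ᵥ z) i ^ 2 + 2 * ∑ i, z i ^ 2 := by
      rw [Finset.mul_sum, Finset.mul_sum, ← Finset.sum_add_distrib]
      refine Finset.sum_le_sum fun i _ => ?_
      nlinarith [sq_nonneg (((refl (a - a')).1 *ᵥ z) i + z i)]
    have h3 : 0 ≤ ∑ i, z i ^ 2 := Finset.sum_nonneg fun i _ => sq_nonneg _
    nlinarith
  · rw [not_le] at he
    obtain ⟨c, hc⟩ : ∃ c, c = a ⬝ᵥ a' := ⟨_, rfl⟩
    have haa : a ⬝ᵥ a = 1 := by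
      rw [← ha]
      simp only [dotProduct, sq]
    have haa' : a' ⬝ᵥ a' = 1 := by
      rw [← ha']
      simp only [dotProduct, sq]
    have hc' : a' ⬝ᵥ a = c := by rw [hc, dotProduct_comm]
    have hd : ∑ i, (a' i - a i) ^ 2 = 2 - 2 * c := by
      have : ∑ i, (a' i - a i) ^ 2 = (a' - a) ⬝ᵥ (a' - a) := by
        simp only [dotProduct, sq, Pi.sub_apply]
      rw [this, sub_dotProduct, dotProduct_sub, dotProduct_sub, haa, haa', hc', ← hc]
      ring
    have hc1 : 7 / 8 < c := by linarith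
    have hs : (a + a') ⬝ᵥ (a + a') = 2 * (1 + c) := by
      rw [add_dotProduct, dotProduct_add, dotProduct_add, haa, haa', hc', ← hc]
      ring
    have hform : ∀ z : S → ℝ, (refl a' * refl (a + a')).1 *ᵥ z
        = z - ((a ⬝ᵥ z + a' ⬝ᵥ z) / (1 + c)) • (a + a') + (2 * (a ⬝ᵥ z)) • a' := by
      intro z
      rw [og_mul, ← Matrix.mulVec_mulVec, refl_mulVec (a + a'), refl_mulVec a', hs, haa',
        dotProduct_sub, dotProduct_smul, dotProduct_add, hc', haa', add_dotProduct]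
      have h1 : (1 + c) ≠ 0 := by linarith
      ext i
      simp only [Pi.sub_apply, Pi.add_apply, Pi.smul_apply, smul_eq_mul]
      field_simp
      ring
    refine ⟨refl a' * refl (a + a'), ?_, fun z => ?_⟩
    · rw [hform, haa, hc']
      have h1 : (1 + c) ≠ 0 := by linarith
      rw [div_self h1]
      ext i
      simp only [Pi.sub_apply, Pi.add_apply, Pi.smul_apply, smul_eq_mul]
      ring
    · obtain ⟨p, hp⟩ : ∃ p, p = a ⬝ᵥ z := ⟨_, rfl⟩
      obtain ⟨q, hq⟩ : ∃ q, q = a' ⬝ᵥ z := ⟨_, rfl⟩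
      obtain ⟨Z, hZ⟩ : ∃ Z, Z = ∑ i, z i ^ 2 := ⟨_, rfl⟩
      obtain ⟨t, ht⟩ : ∃ t, t = (p + q) / (1 + c) := ⟨_, rfl⟩
      have h1 : 0 < 1 + c := by linarith
      have htc : t * (1 + c) = p + q := by rw [ht, div_mul_cancel₀ _ h1.ne']
      have hp2 : p ^ 2 ≤ Z := by
        have := Finset.sum_mul_sq_le_sq_mul_sq Finset.univ a z
        rw [ha, one_mul, ← hZ] at this
        rw [hp]
        exact this
      have hq2 : q ^ 2 ≤ Z := by
        have := Finset.sum_mul_sq_le_sq_mul_sq Finset.univ a' z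
        rw [ha', one_mul, ← hZ] at this
        rw [hq]
        exact this
      have hZ0 : 0 ≤ Z := (sq_nonneg _).trans hp2
      have hpq : (q - p) ^ 2 ≤ e ^ 2 * Z := by
        have := Finset.sum_mul_sq_le_sq_mul_sq Finset.univ (fun i => a' i - a i) z
        rw [← hZ] at this
        have e1 : q - p = ∑ i, (a' i - a i) * z i := by
          rw [hp, hq]
          simp only [dotProduct, sub_mul, Finset.sum_sub_distrib]
        rw [e1]
        exact this.trans (mul_le_mul_of_nonneg_right h hZ0)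
      have hval : ∑ i, (((refl a' * refl (a + a')).1 *ᵥ z) i - z i) ^ 2
          = 2 * t ^ 2 * (1 + c) - 4 * p * t * (1 + c) + 4 * p ^ 2 := by
        rw [hform, ← hp, ← hq, ← ht]
        have e1 : ∀ i, ((z - t • (a + a') + (2 * p) • a') i - z i) ^ 2
            = t ^ 2 * a i ^ 2 + (2 * p - t) ^ 2 * a' i ^ 2
              - 2 * t * (2 * p - t) * (a i * a' i) := by
          intro i
          simp only [Pi.sub_apply, Pi.add_apply, Pi.smul_apply, smul_eq_mul]
          ring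
        simp only [e1, Finset.sum_sub_distrib, Finset.sum_add_distrib, ← Finset.mul_sum]
        have e2 : ∑ i, a i * a' i = c := hc.symm
        rw [ha, ha', e2]
        ring
      rw [hval, ← hZ]
      have h2 : (2 * t ^ 2 * (1 + c) - 4 * p * t * (1 + c) + 4 * p ^ 2) * (1 + c)
          = 2 * (q - p) ^ 2 + 4 * (p * q) * (1 - c) := by
        have e1 : (2 * t ^ 2 * (1 + c) - 4 * p * t * (1 + c) + 4 * p ^ 2) * (1 + c)
            = 2 * (t * (1 + c)) ^ 2 - 4 * p * (t * (1 + c)) * (1 + c) + 4 * p ^ 2 * (1 + c) := by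
          ring
        rw [e1, htc]
        ring
      have h3 : 1 - c ≤ e ^ 2 / 2 := by linarith
      have h4 : 0 ≤ 1 - c := by
        have : 0 ≤ ∑ i, (a' i - a i) ^ 2 := Finset.sum_nonneg fun i _ => sq_nonneg _
        linarith
      have h5 : p * q ≤ Z := by nlinarith [sq_nonneg (p - q)]
      have h6 : (p * q) * (1 - c) ≤ Z * (e ^ 2 / 2) :=
        (mul_le_mul_of_nonneg_right h5 h4).trans (mul_le_mul_of_nonneg_left h3 hZ0)
      have h7 : 0 ≤ e ^ 2 * Z := mul_nonneg (sq_nonneg _) hZ0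
      refine le_of_mul_le_mul_right ?_ h1
      rw [h2]
      nlinarith

theorem exists_align {T : Type} [DecidableEq T] (b : S → T) (j : T → S) (hj : ∀ o, b (j o) = o)
    (u : S → ℝ) : ∃ O : OG S, BlockO b O ∧ ∀ i, (O.1 *ᵥ u) i
      = if i = j (b i) then √(∑ i' : {i' // b i' = b i}, u i'.1 ^ 2) else 0 := by
  obtain ⟨n0, hn0⟩ : ∃ n0 : T → ℝ, ∀ o, n0 o = ∑ k, if b k = o then u k ^ 2 else 0 :=
    ⟨_, fun _ => rfl⟩
  have hsub : ∀ o, ∑ i' : {i' // b i' = o}, u i'.1 ^ 2 = n0 o := by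
    intro o
    rw [hn0, ← Finset.sum_filter]
    exact (Finset.sum_subtype _ (fun x => by simp) (fun k => u k ^ 2)).symm
  have hn0n : ∀ o, 0 ≤ n0 o := fun o => by
    rw [hn0]
    exact Finset.sum_nonneg fun k _ => by split_ifs <;> positivity
  obtain ⟨u', hu'⟩ : ∃ u' : S → ℝ, ∀ i, u' i = if i = j (b i) then √(n0 (b i)) else 0 :=
    ⟨_, fun _ => rfl⟩
  have hnu : ∀ o, (∑ k, if b k = o then u' k ^ 2 else 0) = n0 o := by
    intro o
    rw [Finset.sum_eq_single (j o)]
    · rw [if_pos (hj o), hu', hj, if_pos rfl, Real.sq_sqrt (hn0n o)]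
    · intro k _ hk
      split_ifs with h
      · rw [hu', h, if_neg hk]
        ring
      · rfl
    · simp
  obtain ⟨d, hd⟩ : ∃ d : S → ℝ, ∀ i, d i = u i - u' i := ⟨_, fun _ => rfl⟩
  obtain ⟨n, hn⟩ : ∃ n : T → ℝ, ∀ o, n o = ∑ k, if b k = o then d k ^ 2 else 0 :=
    ⟨_, fun _ => rfl⟩
  have hdu : ∀ o, n o = 2 * ∑ k, if b k = o then d k * u k else 0 := by
    intro o
    have e : n o = 2 * (∑ k, if b k = o then d k * u k else 0)
        + ((∑ k, if b k = o then u' k ^ 2 else 0) - ∑ k, if b k = o then u k ^ 2 else 0) := by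
      rw [hn, Finset.mul_sum, ← Finset.sum_sub_distrib, ← Finset.sum_add_distrib]
      refine Finset.sum_congr rfl fun k _ => ?_
      rw [hd]
      split_ifs <;> ring
    rw [e, hnu, ← hn0]
    ring
  obtain ⟨M, hM⟩ : ∃ M : Matrix S S ℝ, ∀ i i',
      M i i' = if b i = b i' then 2 / n (b i) * (d i * d i') else 0 :=
    ⟨Matrix.of fun i i' => if b i = b i' then 2 / n (b i) * (d i * d i') else 0, fun _ _ => rfl⟩
  have hMt : Mᵀ = M := by
    ext i i'
    rw [Matrix.transpose_apply, hM, hM]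
    by_cases h : b i = b i'
    · rw [if_pos h, if_pos h.symm, h, mul_comm (d i)]
    · rw [if_neg h, if_neg fun h' => h h'.symm]
  have hMM : M * M = M + M := by
    ext i i'
    rw [Matrix.mul_apply, Matrix.add_apply, hM i i']
    by_cases h : b i = b i'
    · rw [if_pos h]
      have e : ∀ k, M i k * M k i' = (2 / n (b i)) ^ 2 * (d i * d i')
          * if b k = b i then d k ^ 2 else 0 := by
        intro k
        rw [hM, hM]
        by_cases h' : b k = b i
        · rw [if_pos h'.symm, if_pos (h'.trans h), if_pos h', h']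
          ring
        · rw [if_neg fun h'' => h' h''.symm, if_neg h']
          ring
      simp only [e]
      rw [← Finset.mul_sum, ← hn]
      by_cases h0 : n (b i) = 0
      · simp [h0]
      · field_simp
        ring
    · rw [if_neg h, add_zero]
      refine Finset.sum_eq_zero fun k _ => ?_
      rw [hM, hM]
      by_cases h' : b i = b k
      · rw [if_neg (fun h'' => h (h'.trans h'') : ¬ b k = b i'), mul_zero]
      · rw [if_neg h', zero_mul]
  have hO : (1 - M) ∈ Matrix.orthogonalGroup S ℝ := by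
    rw [Matrix.mem_orthogonalGroup_iff, Matrix.transpose_sub, Matrix.transpose_one, hMt, sub_mul,
      mul_sub, mul_sub, hMM]
    simp only [Matrix.mul_one, Matrix.one_mul]
    abel
  refine ⟨⟨_, hO⟩, fun i i' h => ?_, fun i => ?_⟩
  · show (1 - M) i i' = 0
    rw [Matrix.sub_apply, hM, if_neg h, Matrix.one_apply_ne fun h' => h (by rw [h']), sub_zero]
  · show ((1 - M) *ᵥ u) i = _
    rw [hsub, ← hu', Matrix.sub_mulVec, Matrix.one_mulVec, Pi.sub_apply]
    have e : (M *ᵥ u) i = 2 / n (b i) * d i * ∑ k, if b k = b i then d k * u k else 0 := by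
      rw [Finset.mul_sum]
      refine Finset.sum_congr rfl fun k _ => ?_
      show M i k * u k = _
      rw [hM]
      by_cases h' : b k = b i
      · rw [if_pos h'.symm, if_pos h']
        ring
      · rw [if_neg fun h'' => h' h''.symm, if_neg h']
        ring
    rw [e]
    by_cases h0 : n (b i) = 0
    · have h1 : d i ^ 2 ≤ n (b i) := by
        rw [hn]
        have := Finset.single_le_sum (f := fun k => if b k = b i then d k ^ 2 else 0)
          (fun k _ => by split_ifs <;> positivity) (Finset.mem_univ i)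
        simpa using this
      have h2 : d i = 0 := by
        rw [h0] at h1
        exact pow_eq_zero_iff (two_ne_zero) |>.1 (le_antisymm h1 (sq_nonneg _))
      have h3 := hd i
      rw [h2] at h3 ⊢
      linarith
    · have h1 := hdu (b i)
      have h2 : (∑ k, if b k = b i then d k * u k else 0) = n (b i) / 2 := by linarith
      rw [h2]
      have h3 : 2 / n (b i) * d i * (n (b i) / 2) = d i := by field_simp
      rw [h3, hd]
      ring

theorem exists_frame {L : Type} [Fintype L] [DecidableEq L] {j : L → S}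
    (hj : Function.Injective j) (F : L → S → ℝ)
    (hF : ∀ l l', ∑ i, F l i * F l' i = if l = l' then 1 else 0) :
    ∃ V : OG S, ∀ l i, V.1 (j l) i = F l i := by
  obtain ⟨v, hv⟩ : ∃ v : S → EuclideanSpace ℝ S, ∀ l, v (j l) = WithLp.toLp 2 (F l) :=
    ⟨Function.extend j (fun l => WithLp.toLp 2 (F l)) 0, fun l => hj.extend_apply _ _ l⟩
  have hon : Orthonormal ℝ ((Set.range j).domRestrict v) := by
    rw [orthonormal_iff_ite]
    rintro ⟨x, hx⟩ ⟨x', hx'⟩
    simp only [Subtype.mk.injEq]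
    obtain ⟨l, rfl⟩ := hx
    obtain ⟨l', rfl⟩ := hx'
    show inner ℝ (v (j l)) (v (j l')) = _
    rw [hv, hv, PiLp.inner_apply]
    simp only [hj.eq_iff]
    rw [← hF]
    refine Finset.sum_congr rfl fun i _ => ?_
    simp [mul_comm]
  obtain ⟨B, hB⟩ := Orthonormal.exists_orthonormalBasis_extension_of_card_eq
    (ι := S) (by simp) hon
  have hO : (Matrix.of fun i k => B i k) ∈ Matrix.orthogonalGroup S ℝ := by
    rw [Matrix.mem_orthogonalGroup_iff]
    ext i i'
    have := orthonormal_iff_ite.1 B.orthonormal i i'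
    rw [PiLp.inner_apply] at this
    rw [Matrix.mul_apply, Matrix.one_apply, ← this]
    refine Finset.sum_congr rfl fun k _ => ?_
    simp [mul_comm]
  refine ⟨⟨_, hO⟩, fun l i => ?_⟩
  show B (j l) i = F l i
  rw [hB _ ⟨l, rfl⟩, hv]

theorem exists_polar {L B : Type} [Fintype L] [DecidableEq L] [Fintype B] (G : L × B → ℝ) {e : ℝ}
    (he0 : 0 ≤ e) (he : e ≤ 1 / 2)
    (h : ∑ l, ∑ l', (∑ j, G (l, j) * G (l', j) - if l = l' then 1 else 0) ^ 2 ≤ e ^ 2) :
    ∃ F : L → B → ℝ, (∀ l l', ∑ j, F l j * F l' j = if l = l' then 1 else 0) ∧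
      ∀ v : B → ℝ, ∑ l, (tG G v l - ∑ j, F l j * v j) ^ 2 ≤ e ^ 2 * ∑ l, (∑ j, F l j * v j) ^ 2 := by
  obtain ⟨A, hA⟩ : ∃ A : Matrix L B ℝ, ∀ l j, A l j = G (l, j) :=
    ⟨Matrix.of fun l j => G (l, j), fun _ _ => rfl⟩
  obtain ⟨U, d, hU⟩ := spec (A * Aᵀ) (by rw [Matrix.transpose_mul, Matrix.transpose_transpose])
  have h1 := og_mul_tr U
  have h2 := og_tr_mul U
  have hfr : ∑ l, ∑ l', (A * Aᵀ - 1 : Matrix L L ℝ) l l' ^ 2 ≤ e ^ 2 := by
    refine le_trans (le_of_eq ?_) h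
    refine Finset.sum_congr rfl fun l _ => Finset.sum_congr rfl fun l' _ => ?_
    simp only [Matrix.sub_apply, Matrix.mul_apply, Matrix.transpose_apply, hA, Matrix.one_apply]
  have hd : ∀ k, (d k - 1) ^ 2 ≤ e ^ 2 := by
    intro k
    have e1 : (A * Aᵀ - 1) * U.1 = U.1 * diagonal (fun k => d k - 1) := by
      rw [sub_mul, hU, Matrix.mul_assoc, h2, Matrix.mul_one, Matrix.one_mul, ← diagonal_sub,
        mul_sub, diagonal_one, Matrix.mul_one]
    have e2 : ∀ l, ((A * Aᵀ - 1) *ᵥ fun l' => U.1 l' k) l = U.1 l k * (d k - 1) := by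
      intro l
      have := congrFun (congrFun e1 l) k
      rw [Matrix.mul_diagonal] at this
      exact this
    have e3 := frob (A * Aᵀ - 1) fun l' => U.1 l' k
    simp only [e2, mul_pow] at e3
    rw [← Finset.sum_mul, og_col, one_mul, mul_one] at e3
    exact e3.trans hfr
  have hd1 : ∀ k, 1 / 2 ≤ d k := by
    intro k
    have := abs_le.1 (abs_le_of_sq_le_sq' (hd k) he0 |> fun h => abs_le.2 h)
    linarith [this.1]
  have hs0 : ∀ k, 0 < √(d k) := fun k => Real.sqrt_pos.2 (by linarith [hd1 k])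
  have hss : ∀ k, √(d k) * √(d k) = d k := fun k => Real.mul_self_sqrt (by linarith [hd1 k])
  have hs1 : ∀ k, (√(d k) - 1) ^ 2 ≤ e ^ 2 := by
    intro k
    refine le_trans ?_ (hd k)
    have e1 : d k - 1 = (√(d k) - 1) * (√(d k) + 1) := by
      have := hss k
      ring_nf
      nlinarith
    rw [e1, mul_pow]
    have e2 : 1 ≤ (√(d k) + 1) ^ 2 := by nlinarith [hs0 k]
    exact le_mul_of_one_le_right (sq_nonneg _) e2
  obtain ⟨F, hF⟩ : ∃ F : Matrix L B ℝ, F = U.1 * diagonal (fun k => (√(d k))⁻¹) * U.1ᵀ * A :=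
    ⟨_, rfl⟩
  have hc : ∀ X : Matrix L L ℝ, U.1ᵀ * (U.1 * X) = X := fun X => by
    rw [← Matrix.mul_assoc, h2, Matrix.one_mul]
  have hFF : F * Fᵀ = 1 := by
    have e1 : F * Fᵀ = U.1 * diagonal (fun k => (√(d k))⁻¹) * U.1ᵀ * (A * Aᵀ)
        * (U.1 * diagonal (fun k => (√(d k))⁻¹) * U.1ᵀ) := by
      rw [hF]
      simp only [Matrix.transpose_mul, Matrix.transpose_transpose, Matrix.diagonal_transpose,
        Matrix.mul_assoc]
    rw [e1, hU]
    simp only [Matrix.mul_assoc, hc]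
    rw [← Matrix.mul_assoc (diagonal _), ← Matrix.mul_assoc (diagonal _ * diagonal _),
      diagonal_mul_diagonal, diagonal_mul_diagonal]
    have e2 : (fun i => (√(d i))⁻¹ * d i * (√(d i))⁻¹) = fun _ => (1 : ℝ) := by
      funext k
      have := hs0 k
      rw [← hss k]
      simp only [hss k]
      field_simp
      rw [sq, hss k]
    rw [e2, diagonal_one, Matrix.one_mul, h1]
  have hAF : A - F = U.1 * diagonal (fun k => √(d k) - 1) * U.1ᵀ * F := by
    have e1 : U.1 * diagonal (fun k => √(d k)) * U.1ᵀ * F = A := by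
      rw [hF]
      simp only [← Matrix.mul_assoc]
      rw [Matrix.mul_assoc (U.1 * diagonal _) U.1ᵀ U.1, h2, Matrix.mul_one,
        Matrix.mul_assoc U.1 (diagonal _) (diagonal _), diagonal_mul_diagonal]
      have e2 : (fun i => √(d i) * (√(d i))⁻¹) = fun _ => (1 : ℝ) := by
        funext k
        exact mul_inv_cancel₀ (hs0 k).ne'
      rw [e2, diagonal_one, Matrix.mul_one, h1, Matrix.one_mul]
    rw [← diagonal_sub, mul_sub, sub_mul, Matrix.sub_mul, e1, diagonal_one, Matrix.mul_one, h1,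
      Matrix.one_mul]
  refine ⟨fun l j => F l j, fun l l' => ?_, fun v => ?_⟩
  · have := congrFun (congrFun hFF l) l'
    rw [Matrix.mul_apply, Matrix.one_apply] at this
    exact this
  · have e1 : ∀ l, tG G v l - ∑ j, F l j * v j = ((A - F) *ᵥ v) l := by
      intro l
      simp only [tG, Matrix.mulVec, dotProduct, Matrix.sub_apply, hA, sub_mul,
        Finset.sum_sub_distrib]
    have e2 : ∀ l, ∑ j, F l j * v j = (F *ᵥ v) l := fun l => rfl
    simp only [e1]
    simp only [e2]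
    rw [hAF, ← Matrix.mulVec_mulVec, ← Matrix.mulVec_mulVec, ← Matrix.mulVec_mulVec, og_norm,
      ← og_norm U⁻¹ (F *ᵥ v), og_inv, Finset.mul_sum]
    refine Finset.sum_le_sum fun k _ => ?_
    rw [Matrix.mulVec_diagonal, mul_pow]
    exact mul_le_mul_of_nonneg_right (hs1 k) (sq_nonneg _)

end Vale.Agent.P166
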