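import Vale.Agent.P166.Defs

/-! # Haar measure on the orthogonal group: invariance and basic matrix facts -/

namespace Vale.Agent.P166

open MeasureTheory ProbabilityTheory Matrix Vale.Agent.P157

variable {S : Type} [Fintype S] [DecidableEq S]

instance : IsProbabilityMeasure (haarO S) := by
  refine ⟨?_⟩
  have h := Measure.haarMeasure_self (G := OG S) (K₀ := ⊤)
  rwa [TopologicalSpace.PositiveCompacts.coe_top] at h

instance : (haarO S).IsMulLeftInvariant := by
  unfold haarO
  infer_instance

theorem hr_second : SecondCountableTopology (OG S) := by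
  have : SecondCountableTopology (Matrix S S ℝ) :=
    inferInstanceAs (SecondCountableTopology (S → S → ℝ))
  exact TopologicalSpace.Subtype.secondCountableTopology _

theorem hr_uniq (ν : Measure (OG S)) [IsProbabilityMeasure ν] [ν.IsMulLeftInvariant] :
    ν = haarO S := by
  have : (haarO S).IsHaarMeasure := by unfold haarO; infer_instance
  have h := Measure.isMulInvariant_eq_smul_of_compactSpace ν (haarO S)
  have h1 : ν Set.univ = (Measure.haarScalarFactor ν (haarO S) • haarO S) Set.univ := by
    rw [← h]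
  rw [Measure.coe_nnreal_smul_apply, measure_univ, measure_univ, mul_one] at h1
  have h2 : Measure.haarScalarFactor ν (haarO S) = 1 := by exact_mod_cast h1.symm
  rw [h, h2, one_smul]

instance : (haarO S).IsMulRightInvariant := by
  refine ⟨fun g => ?_⟩
  have : IsProbabilityMeasure ((haarO S).map (· * g)) :=
    Measure.isProbabilityMeasure_map (measurable_mul_const g).aemeasurable
  exact hr_uniq _

theorem haar_inv : (haarO S).map (fun U => U⁻¹) = haarO S := by
  have : IsProbabilityMeasure (haarO S).inv :=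
    Measure.isProbabilityMeasure_map measurable_inv.aemeasurable
  exact hr_uniq (haarO S).inv

theorem og_mul_tr (U : OG S) : U.1 * U.1ᵀ = 1 := by
  exact (Matrix.mem_orthogonalGroup_iff S ℝ).1 U.2

theorem og_tr_mul (U : OG S) : U.1ᵀ * U.1 = 1 := by
  exact (Matrix.mem_orthogonalGroup_iff' S ℝ).1 U.2

theorem og_mul (U V : OG S) : (U * V).1 = U.1 * V.1 := by
  rfl

theorem og_inv (U : OG S) : (U⁻¹).1 = U.1ᵀ := by
  rfl

theorem og_dot (U : OG S) (v w : S → ℝ) : ∑ i, (U.1 *ᵥ v) i * (U.1 *ᵥ w) i = ∑ i, v i * w i := by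
  have h : (U.1 *ᵥ v) ⬝ᵥ (U.1 *ᵥ w) = v ⬝ᵥ w := by
    rw [dotProduct_mulVec, vecMul_mulVec, og_tr_mul, vecMul_one]
  exact h

theorem og_norm (U : OG S) (v : S → ℝ) : ∑ i, (U.1 *ᵥ v) i ^ 2 = ∑ i, v i ^ 2 := by
  simpa only [sq] using og_dot U v v

theorem og_col (U : OG S) (j : S) : ∑ i, U.1 i j ^ 2 = 1 := by
  have := congrFun (congrFun (og_tr_mul U) j) j
  simpa [Matrix.mul_apply, sq] using this

theorem og_row (U : OG S) (i : S) : ∑ j, U.1 i j ^ 2 = 1 := by
  have := congrFun (congrFun (og_mul_tr U) i) i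
  simpa [Matrix.mul_apply, sq] using this

theorem og_abs_le (U : OG S) (i j : S) : |U.1 i j| ≤ 1 := by
  have h : U.1 i j ^ 2 ≤ 1 := by
    rw [← og_row U i]
    exact Finset.single_le_sum (f := fun k => U.1 i k ^ 2) (fun k _ => sq_nonneg _)
      (Finset.mem_univ j)
  exact (sq_le_one_iff_abs_le_one _).1 h

theorem measurable_entry (i j : S) : Measurable fun U : OG S => U.1 i j := by
  have h : Continuous fun U : OG S => U.1 i j :=
    (continuous_apply j).comp ((continuous_apply i).comp continuous_subtype_val)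
  exact h.measurable

theorem measurable_og {Y : Type} [MeasurableSpace Y] {f : Y → OG S}
    (h : ∀ i j, Measurable fun p => (f p).1 i j) : Measurable f := by
  have hi : Topology.IsInducing (fun U : OG S => (fun i j => U.1 i j : S → S → ℝ)) :=
    Topology.IsInducing.subtypeVal
  have h1 : Measurable fun p => (fun i j => (f p).1 i j : S → S → ℝ) :=
    measurable_pi_lambda _ fun i => measurable_pi_lambda _ fun j => h i j
  refine measurable_of_isOpen fun s hs => ?_
  obtain ⟨t, ht, rfl⟩ := hi.isOpen_iff.1 hs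
  exact h1 ht.measurableSet

theorem measurable_og_mul : Measurable fun p : OG S × OG S => p.1 * p.2 := by
  refine measurable_og fun i j => ?_
  simp only [og_mul, Matrix.mul_apply]
  exact Finset.measurable_fun_sum _ fun k _ =>
    ((measurable_entry i k).comp measurable_fst).mul ((measurable_entry k j).comp measurable_snd)

theorem integral_left (O : OG S) (f : OG S → ℝ) :
    ∫ U, f (O * U) ∂(haarO S) = ∫ U, f U ∂(haarO S) := by
  exact integral_mul_left_eq_self f O

theorem integral_right (O : OG S) (f : OG S → ℝ) :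
    ∫ U, f (U * O) ∂(haarO S) = ∫ U, f U ∂(haarO S) := by
  exact integral_mul_right_eq_self f O

theorem integral_inv (f : OG S → ℝ) : ∫ U, f U⁻¹ ∂(haarO S) = ∫ U, f U ∂(haarO S) := by
  have : (haarO S).IsInvInvariant := ⟨haar_inv⟩
  exact integral_inv_eq_self f (haarO S)

theorem hr_reO_mul {S' : Type} [Fintype S'] [DecidableEq S'] (e : S ≃ S') (U V : OG S) :
    reO e (U * V) = reO e U * reO e V := by
  apply Subtype.ext
  simp only [reO, og_mul, Matrix.reindex_apply, Matrix.submatrix_mul_equiv]

theorem hr_reO_symm {S' : Type} [Fintype S'] [DecidableEq S'] (e : S ≃ S') (U : OG S) :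
    reO e.symm (reO e U) = U := by
  apply Subtype.ext
  simp [reO]

theorem hr_reO_meas {S' : Type} [Fintype S'] [DecidableEq S'] (e : S ≃ S') :
    Measurable (reO e : OG S → OG S') :=
  measurable_og fun i j => measurable_entry (e.symm i) (e.symm j)

theorem integral_reO {S' : Type} [Fintype S'] [DecidableEq S'] (e : S ≃ S') (f : OG S' → ℝ) :
    ∫ U, f (reO e U) ∂(haarO S) = ∫ U, f U ∂(haarO S') := by
  let E : OG S ≃ᵐ OG S' :=
    { toFun := reO e
      invFun := reO e.symm
      left_inv := hr_reO_symm e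
      right_inv := hr_reO_symm e.symm
      measurable_toFun := hr_reO_meas e
      measurable_invFun := hr_reO_meas e.symm }
  have : IsProbabilityMeasure ((haarO S).map (reO e)) :=
    Measure.isProbabilityMeasure_map (hr_reO_meas e).aemeasurable
  have : ((haarO S).map (reO e)).IsMulLeftInvariant := by
    refine ⟨fun g => ?_⟩
    rw [Measure.map_map (measurable_const_mul g) (hr_reO_meas e)]
    have h1 : (fun x => g * x) ∘ reO e = reO e ∘ fun x => reO e.symm g * x := by
      funext x
      have h2 : reO e (reO e.symm g) = g := hr_reO_symm e.symm g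
      simp only [Function.comp_apply, hr_reO_mul, h2]
    rw [h1, ← Measure.map_map (hr_reO_meas e) (measurable_const_mul _), map_mul_left_eq_self]
  rw [← hr_uniq ((haarO S).map (reO e))]
  exact (integral_map_equiv (μ := haarO S) E f).symm

theorem reO_mulVec {S' : Type} [Fintype S'] [DecidableEq S'] (e : S ≃ S') (U : OG S)
    (v : S' → ℝ) (i : S) : ((reO e U).1 *ᵥ v) (e i) = (U.1 *ᵥ fun j => v (e j)) i := by
  simp only [reO, Matrix.mulVec, dotProduct, Matrix.reindex_apply, Matrix.submatrix_apply,
    Equiv.symm_apply_apply]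
  rw [← e.sum_comp]
  simp

theorem permO_mulVec (e : S ≃ S) (v : S → ℝ) (i : S) : ((permO e).1 *ᵥ v) i = v (e i) := by
  simp [permO, Matrix.mulVec, dotProduct]

theorem refl_mulVec (u v : S → ℝ) :
    (refl u).1 *ᵥ v = v - (2 / (u ⬝ᵥ u) * (u ⬝ᵥ v)) • u := by
  funext i
  simp only [refl, Matrix.sub_mulVec, Matrix.one_mulVec, Matrix.smul_mulVec, Pi.sub_apply,
    Pi.smul_apply, smul_eq_mul]
  have h : (Matrix.vecMulVec u u *ᵥ v) i = (u ⬝ᵥ v) * u i := by
    simp only [Matrix.mulVec, dotProduct, Matrix.vecMulVec_apply, Finset.sum_mul]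
    exact Finset.sum_congr rfl fun k _ => by ring
  rw [h, mul_assoc]

theorem measurable_refl : Measurable (refl : (S → ℝ) → OG S) := by
  refine measurable_og fun i j => ?_
  simp only [refl, Matrix.sub_apply, Matrix.smul_apply, Matrix.vecMulVec_apply, smul_eq_mul,
    dotProduct]
  refine measurable_const.sub (Measurable.mul (measurable_const.div ?_) ?_)
  · exact Finset.measurable_fun_sum _ fun k _ => (measurable_pi_apply k).mul (measurable_pi_apply k)
  · exact (measurable_pi_apply i).mul (measurable_pi_apply j)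

theorem hr_ext {U V : OG S} (h : ∀ v, U.1 *ᵥ v = V.1 *ᵥ v) : U = V := by
  apply Subtype.ext
  ext i j
  have := congrFun (h (Pi.single j 1)) i
  simpa using this

theorem refl_conj (O : OG S) (u : S → ℝ) : O * refl u = refl (O.1 *ᵥ u) * O := by
  refine hr_ext fun v => ?_
  have h1 : (O.1 *ᵥ u) ⬝ᵥ (O.1 *ᵥ u) = u ⬝ᵥ u := og_dot O u u
  have h2 : (O.1 *ᵥ u) ⬝ᵥ (O.1 *ᵥ v) = u ⬝ᵥ v := og_dot O u v
  rw [og_mul, og_mul, ← Matrix.mulVec_mulVec, ← Matrix.mulVec_mulVec, refl_mulVec, refl_mulVec,
    Matrix.mulVec_sub, Matrix.mulVec_smul, h1, h2]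

theorem emb_mul (V V' : OG S) : emb (V * V') = emb V * emb V' := by
  apply Subtype.ext
  rw [og_mul]
  ext i j
  rcases i with _ | a <;> rcases j with _ | b <;> simp [emb, Matrix.mul_apply]

theorem emb_mulVec (V : OG S) (z : Option S → ℝ) :
    (emb V).1 *ᵥ z = fun o => o.elim (z none) (V.1 *ᵥ fun i => z (some i)) := by
  funext o
  rcases o with _ | a <;> simp [emb, Matrix.mulVec, dotProduct]

theorem emb_refl (u : S → ℝ) : emb (refl u) = refl fun o => o.elim 0 u := by
  apply Subtype.ext
  have h : ((fun o : Option S => o.elim 0 u) ⬝ᵥ fun o : Option S => o.elim 0 u) = u ⬝ᵥ u := by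
    simp [dotProduct]
  ext i j
  rcases i with _ | a <;> rcases j with _ | b <;>
    simp [emb, refl, h, Matrix.vecMulVec_apply, Matrix.one_apply]

theorem measurable_emb : Measurable (emb : OG S → OG (Option S)) := by
  refine measurable_og fun i j => ?_
  rcases i with _ | a <;> rcases j with _ | b
  · exact measurable_const
  · exact measurable_const
  · exact measurable_const
  · exact measurable_entry a b

theorem fix_kernel (O : OG (Option S)) (h : O.1 none none = 1) : ∃ V, O = emb V := by
  have hr : ∀ b, O.1 none (some b) = 0 := by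
    intro b
    have h1 := og_row O none
    rw [Fintype.sum_option, h] at h1
    have h2 : ∑ b, O.1 none (some b) ^ 2 = 0 := by linarith
    exact pow_eq_zero_iff two_ne_zero |>.1
      ((Finset.sum_eq_zero_iff_of_nonneg fun _ _ => sq_nonneg _).1 h2 b (Finset.mem_univ b))
  have hc : ∀ a, O.1 (some a) none = 0 := by
    intro a
    have h1 := og_col O none
    rw [Fintype.sum_option, h] at h1
    have h2 : ∑ a, O.1 (some a) none ^ 2 = 0 := by linarith
    exact pow_eq_zero_iff two_ne_zero |>.1
      ((Finset.sum_eq_zero_iff_of_nonneg fun _ _ => sq_nonneg _).1 h2 a (Finset.mem_univ a))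
  refine ⟨⟨Matrix.of fun a b => O.1 (some a) (some b), ?_⟩, ?_⟩
  · rw [Matrix.mem_orthogonalGroup_iff]
    ext a b
    have := congrFun (congrFun (og_mul_tr O) (some a)) (some b)
    simpa [Matrix.mul_apply, Matrix.one_apply, hc] using this
  · apply Subtype.ext
    ext i j
    rcases i with _ | a <;> rcases j with _ | b <;> simp [emb, h, hr, hc]

theorem integral_emb {f : OG (Option S) → ℝ} (hf : BM f) :
    ∫ U, f U ∂(haarO (Option S))
      = ∫ U, ∫ V, f (U * emb V) ∂(haarO S) ∂(haarO (Option S)) := by
  obtain ⟨hm, C, hC⟩ := hf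
  have h1 : Measurable fun p : OG (Option S) × OG S => f (p.1 * emb p.2) :=
    hm.comp (measurable_og_mul.comp (measurable_fst.prodMk (measurable_emb.comp measurable_snd)))
  have h2 : Integrable (Function.uncurry fun (U : OG (Option S)) (V : OG S) => f (U * emb V))
      ((haarO (Option S)).prod (haarO S)) :=
    Integrable.of_bound h1.aestronglyMeasurable C (Filter.Eventually.of_forall fun p => hC _)
  rw [integral_integral_swap h2]
  simp only [integral_right]
  simp

theorem avg_emb_congr {U U' : OG (Option S)} (h : ∀ o, U.1 o none = U'.1 o none)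
    (f : OG (Option S) → ℝ) :
    ∫ V, f (U * emb V) ∂(haarO S) = ∫ V, f (U' * emb V) ∂(haarO S) := by
  have h1 : (U⁻¹ * U').1 none none = 1 := by
    rw [og_mul, og_inv, Matrix.mul_apply, ← og_col U none]
    exact Finset.sum_congr rfl fun o _ => by rw [Matrix.transpose_apply, ← h o, sq]
  obtain ⟨W, hW⟩ := fix_kernel _ h1
  have h2 : U' = U * emb W := by rw [← hW, mul_inv_cancel_left]
  rw [h2, ← integral_left W fun V => f (U * emb V)]
  simp only [emb_mul, mul_assoc]

theorem rot_kernel {T : Type} {b : S → T} {O : OG S} (hO : BlockO b O) {a : S → ℝ}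
    (ha : ∀ i j, b i = b j → a i = a j) (v w : S → ℝ) :
    ∑ i, a i * ((O.1 *ᵥ v) i * (O.1 *ᵥ w) i) = ∑ i, a i * (v i * w i) := by
  have h1 : Matrix.diagonal a * O.1 = O.1 * Matrix.diagonal a := by
    ext i j
    rw [Matrix.diagonal_mul, Matrix.mul_diagonal]
    by_cases hb : b i = b j
    · rw [ha i j hb, mul_comm]
    · rw [hO i j hb, mul_zero, zero_mul]
  have h2 : ∀ x y : S → ℝ, ∑ i, a i * (x i * y i) = ∑ i, x i * (Matrix.diagonal a *ᵥ y) i :=
    fun x y => Finset.sum_congr rfl fun i _ => by rw [Matrix.mulVec_diagonal]; ring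
  rw [h2, h2, Matrix.mulVec_mulVec, h1, ← Matrix.mulVec_mulVec, og_dot]

end Vale.Agent.P166
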