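import Vale.Agent.P166.Haar

/-! # Moments of a column of a Haar matrix; Gram matrix of Gaussian vectors -/

namespace Vale.Agent.P166

open MeasureTheory ProbabilityTheory Matrix Vale.Agent.P157

variable {S : Type} [Fintype S] [DecidableEq S]

namespace HaarM

theorem sq_sum {Ω T : Type} [MeasurableSpace Ω] {μ : Measure Ω} [IsProbabilityMeasure μ]
    [Fintype T] [DecidableEq T] {Y : T → Ω → ℝ} (hY : ∀ t, MemLp (Y t) 2 μ) {α β γ : ℝ}
    (h2 : ∀ t t', ∫ x, Y t x * Y t' x ∂μ = α + if t = t' then β else 0)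
    (h1 : ∀ t, ∫ x, Y t x ∂μ = γ) (δ : ℝ) :
    Integrable (fun x => (∑ t, Y t x - δ) ^ 2) μ ∧ ∫ x, (∑ t, Y t x - δ) ^ 2 ∂μ =
      Fintype.card T ^ 2 * α + Fintype.card T * β - 2 * δ * (Fintype.card T * γ) + δ ^ 2 := by
  have i2 : ∀ t t', Integrable (fun x => Y t x * Y t' x) μ := fun t t' =>
    (hY t).integrable_mul (hY t')
  have i1 : ∀ t, Integrable (Y t) μ := fun t => (hY t).integrable one_le_two
  have j2 : ∀ t, Integrable (fun x => ∑ t', Y t x * Y t' x) μ := fun t =>
    integrable_finsetSum _ fun t' _ => i2 t t'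
  have k2 := integrable_finsetSum Finset.univ fun t _ => j2 t
  have k1 := (integrable_finsetSum Finset.univ fun t _ => i1 t).const_mul (2 * δ)
  have e : (fun x => (∑ t, Y t x - δ) ^ 2) =
      fun x => ∑ t, ∑ t', Y t x * Y t' x - 2 * δ * ∑ t, Y t x + δ ^ 2 := by
    funext x
    rw [← Finset.sum_mul_sum]
    ring
  rw [e]
  refine ⟨(k2.sub k1).add (integrable_const _), ?_⟩
  rw [integral_add (by exact k2.sub k1) (integrable_const _), integral_sub k2 k1, integral_const_mul,
    integral_finsetSum _ fun t _ => j2 t, integral_finsetSum _ fun t _ => i1 t]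
  simp only [integral_finsetSum _ fun t' _ => i2 _ t', h1, h2, Finset.sum_add_distrib,
    Finset.sum_ite_eq, Finset.mem_univ, if_true, Finset.sum_const, Finset.card_univ, nsmul_eq_mul,
    integral_const, probReal_univ, one_smul]
  ring

theorem col_pow (v : S → ℝ) (i0 j : S) (k : ℕ) :
    ∫ U, (∑ i, v i * U.1 i j) ^ (2 * k) ∂(haarO S) =
      (∑ i, v i ^ 2) ^ k * ∫ U, U.1 i0 j ^ (2 * k) ∂(haarO S) := by
  obtain ⟨O, hO, h⟩ := exists_rot v i0
  rw [← integral_left ⟨O, (Matrix.mem_orthogonalGroup_iff' S ℝ).2 hO⟩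
    fun U => U.1 i0 j ^ (2 * k), ← integral_const_mul]
  refine integral_congr_ae (ae_of_all _ fun U => ?_)
  simp only
  rw [h fun i => U.1 i j, mul_pow, pow_mul,
    Real.sq_sqrt (Finset.sum_nonneg fun i _ => sq_nonneg _), og_mul]
  rfl

theorem entry_pow (i i0 j : S) (k : ℕ) :
    ∫ U, U.1 i j ^ (2 * k) ∂(haarO S) = ∫ U, U.1 i0 j ^ (2 * k) ∂(haarO S) := by
  simpa [Pi.single_apply] using col_pow (Pi.single i 1) i0 j k

theorem memLp_mul (i k j : S) : MemLp (fun U : OG S => U.1 i j * U.1 k j) 2 (haarO S) :=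
  MemLp.of_bound ((measurable_entry i j).mul (measurable_entry k j)).aestronglyMeasurable 1
    (ae_of_all _ fun U => by
      rw [Real.norm_eq_abs, abs_mul]
      exact mul_le_one₀ (og_abs_le U i j) (abs_nonneg _) (og_abs_le U k j))

theorem memLp_sq (i j : S) : MemLp (fun U : OG S => U.1 i j ^ 2) 2 (haarO S) := by
  simpa only [sq] using memLp_mul i i j

theorem mixed (i k j : S) : ∫ U, U.1 i j ^ 2 * U.1 k j ^ 2 ∂(haarO S) =
    (∫ U, U.1 j j ^ 4 ∂(haarO S)) / 3 +
      if i = k then 2 * (∫ U, U.1 j j ^ 4 ∂(haarO S)) / 3 else 0 := by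
  have e1 := fun i => entry_pow i j j 2
  simp only [Nat.reduceMul] at e1
  split_ifs with h
  · simp only [h, ← pow_add, Nat.reduceAdd, e1]
    ring
  have key : ∀ s : ℝ, s ^ 2 = 1 → ∫ U, (U.1 i j + s * U.1 k j) ^ 4 ∂(haarO S) =
      4 * ∫ U, U.1 j j ^ 4 ∂(haarO S) := fun s hs => by
    have h1 := col_pow (Pi.single i 1 + Pi.single k s) j j 2
    have h2 : ∑ l, ((Pi.single i 1 + Pi.single k s : S → ℝ) l) ^ 2 = 2 := by
      have : ∀ l, ((Pi.single i 1 + Pi.single k s : S → ℝ) l) ^ 2 =
          (if l = i then 1 else 0) + if l = k then 1 else 0 := fun l => by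
        by_cases h3 : l = i
        · simp [h3, h]
        · by_cases h4 : l = k
          · simp [h4, hs, Ne.symm h]
          · simp [h3, h4]
      simp only [this, Finset.sum_add_distrib, Finset.sum_ite_eq', Finset.mem_univ, if_true]
      norm_num
    rw [h2] at h1
    simp only [Pi.add_apply, add_mul, Finset.sum_add_distrib, Pi.single_apply, ite_mul, one_mul,
      zero_mul, Finset.sum_ite_eq', Finset.mem_univ, if_true, Nat.reduceMul] at h1
    rw [h1]
    norm_num
  have i4 : ∀ s : ℝ, Integrable (fun U : OG S => (U.1 i j + s * U.1 k j) ^ 4) (haarO S) :=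
    fun s => Integrable.of_bound
      (((measurable_entry i j).add ((measurable_entry k j).const_mul s)).pow_const
        4).aestronglyMeasurable ((1 + |s|) ^ 4) (ae_of_all _ fun U => by
      rw [Real.norm_eq_abs, abs_pow]
      refine pow_le_pow_left₀ (abs_nonneg _) ((abs_add_le _ _).trans ?_) 4
      rw [abs_mul]
      exact add_le_add (og_abs_le U i j) (mul_le_of_le_one_right (abs_nonneg _) (og_abs_le U k j)))
  have j4 : ∀ l, Integrable (fun U : OG S => U.1 l j ^ 4) (haarO S) := fun l => by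
    simpa only [← pow_mul] using (memLp_sq l j).integrable_sq
  have j2 : Integrable (fun U : OG S => U.1 i j ^ 2 * U.1 k j ^ 2) (haarO S) :=
    (memLp_sq i j).integrable_mul (memLp_sq k j)
  have h3 := integral_add (i4 1) (i4 (-1))
  have e : ∀ U : OG S, (U.1 i j + 1 * U.1 k j) ^ 4 + (U.1 i j + -1 * U.1 k j) ^ 4 =
      2 * U.1 i j ^ 4 + 2 * U.1 k j ^ 4 + 12 * (U.1 i j ^ 2 * U.1 k j ^ 2) := fun U => by ring
  simp only [e] at h3
  rw [key 1 (by norm_num), key (-1) (by norm_num),
    integral_add (by exact ((j4 i).const_mul 2).add ((j4 k).const_mul 2)) (j2.const_mul 12),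
    integral_add ((j4 i).const_mul 2) ((j4 k).const_mul 2), integral_const_mul, integral_const_mul,
    integral_const_mul, e1 i, e1 k] at h3
  linarith

theorem second (i j : S) : ∫ U, U.1 i j ^ 2 ∂(haarO S) = (Fintype.card S : ℝ)⁻¹ := by
  have e1 := fun k => entry_pow k i j 1
  simp only [mul_one] at e1
  have h := integral_finsetSum (μ := haarO S) Finset.univ fun k _ =>
    (memLp_sq k j).integrable one_le_two
  simp only [og_col, e1, integral_const, probReal_univ, one_smul, Finset.sum_const,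
    Finset.card_univ, nsmul_eq_mul] at h
  exact eq_inv_of_mul_eq_one_right h.symm

theorem fourth (j : S) : ∫ U, U.1 j j ^ 4 ∂(haarO S) =
    3 / ((Fintype.card S : ℝ) * (Fintype.card S + 2)) := by
  have hm : (0 : ℝ) < Fintype.card S := by exact_mod_cast Fintype.card_pos_iff.2 ⟨j⟩
  have h := (sq_sum (fun i => memLp_sq i j) (fun i k => mixed i k j) (fun i => second i j) 0).2
  simp only [og_col, sub_zero, one_pow, integral_const, probReal_univ, one_smul] at h
  rw [eq_div_iff (by positivity)]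
  linarith

section gauss

variable {ι : Type} [Fintype ι] {v : ℝ}

theorem int_coord (a : ι) {f : ℝ → ℝ} (hf : Measurable f) :
    ∫ z, f (z a) ∂(gv fun _ : ι => v) = ∫ t, f t ∂(g1 v) := by
  have hp : MeasurePreserving (Function.eval a) (gv fun _ : ι => v) (g1 v) :=
    measurePreserving_eval (fun _ : ι => g1 v) a
  rw [← hp.map_eq, integral_map hp.measurable.aemeasurable hf.aestronglyMeasurable]

theorem int_four (a : ι) : Integrable (fun z : ι → ℝ => z a ^ 4) (gv fun _ : ι => v) := by
  have hp : MeasurePreserving (Function.eval a) (gv fun _ : ι => v) (g1 v) :=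
    measurePreserving_eval (fun _ : ι => g1 v) a
  have h : LG fun u : ℝ => u := ⟨measurable_id, 1, fun w => by rw [Real.norm_eq_abs]; linarith⟩
  have h1 : Integrable (fun z : ℝ => z ^ 4) (g1 v) := by
    simpa using (h.eint (noise_g1 v) 0).integrable_pow 4
  exact hp.integrable_comp_of_integrable h1

theorem memLp_pair (a b : ι) : MemLp (fun z : ι → ℝ => z a * z b) 2 (gv fun _ : ι => v) := by
  refine (memLp_two_iff_integrable_sq (by fun_prop)).2
    (((int_four a).add (int_four b)).mono' (by fun_prop) (ae_of_all _ fun z => ?_))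
  rw [Real.norm_eq_abs, abs_of_nonneg (sq_nonneg _), Pi.add_apply]
  nlinarith [sq_nonneg (z a ^ 2 - z b ^ 2), sq_nonneg (z a * z b)]

theorem int_sq_sq (hv : 0 ≤ v) {a b : ι} (h : a ≠ b) :
    ∫ z, z a ^ 2 * z b ^ 2 ∂(gv fun _ : ι => v) = v ^ 2 := by
  classical
  have h1 := gv_coord_indep (fun _ : ι => v) b (F := fun z => z a ^ 2) (by fun_prop)
    (g := fun t => t ^ 2) (by fun_prop)
  simp only [Function.update_of_ne h] at h1
  rw [h1, int_coord a (f := fun t => t ^ 2) (by fun_prop), integral_sq_g1 hv, sq]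

theorem int_odd (a : ι) {F : (ι → ℝ) → ℝ} [DecidableEq ι] (hF : Measurable F)
    (h : ∀ z, F (Function.update z a 0) = F z) :
    ∫ z, F z * z a ∂(gv fun _ : ι => v) = 0 := by
  have h1 := gv_coord_indep (fun _ : ι => v) a hF (g := fun t => t) measurable_id
  simpa only [h, integral_id_g1, mul_zero] using h1

theorem gram_entry {L B : Type} [Fintype L] [DecidableEq L] [Fintype B] (hv : 0 ≤ v) (l l' : L) :
    Integrable (fun G : L × B → ℝ => (∑ j, G (l, j) * G (l', j) - if l = l' then 1 else 0) ^ 2)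
      (gv fun _ : L × B => v) ∧
    ∫ G, (∑ j, G (l, j) * G (l', j) - if l = l' then 1 else 0) ^ 2 ∂(gv fun _ : L × B => v)
      ≤ 2 * Fintype.card B * v ^ 2 + (Fintype.card B * v - 1) ^ 2 := by
  classical
  split_ifs with h
  · subst h
    obtain ⟨h1, h2⟩ := sq_sum (μ := gv fun _ : L × B => v) (fun j => memLp_pair (l, j) (l, j))
      (α := v ^ 2) (β := 2 * v ^ 2) (γ := v) (fun j j' => by
        simp only [← sq]
        split_ifs with h
        · simp only [h, ← pow_add]
          rw [int_coord (l, j') (f := fun t => t ^ (2 + 2)) (by fun_prop), integral_four_g1 hv]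
          ring
        · rw [int_sq_sq hv (by simpa using h), add_zero]) (fun j => by
        simp only [← sq]
        rw [int_coord (l, j) (f := fun t => t ^ 2) (by fun_prop), integral_sq_g1 hv]) 1
    exact ⟨h1, h2.trans_le (le_of_eq (by ring))⟩
  · obtain ⟨h1, h2⟩ := sq_sum (μ := gv fun _ : L × B => v) (fun j => memLp_pair (l, j) (l', j))
      (α := 0) (β := v ^ 2) (γ := 0) (fun j j' => by
        split_ifs with h'
        · rw [zero_add, ← int_sq_sq hv (a := (l, j)) (b := (l', j)) (by simpa using h), ← h']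
          exact integral_congr_ae (ae_of_all _ fun z => by ring)
        · rw [zero_add, ← int_odd (v := v) (l', j')
            (F := fun z => z (l, j) * z (l', j) * z (l, j')) (by fun_prop)
            fun z => by simp [Function.update_of_ne, h, h']]
          exact integral_congr_ae (ae_of_all _ fun z => by ring))
      (fun j => int_odd (l', j) (F := fun z => z (l, j)) (by fun_prop)
        fun z => by simp [Function.update_of_ne, h]) 0
    refine ⟨h1, h2.trans_le ?_⟩
    have : (0 : ℝ) ≤ Fintype.card B * v ^ 2 := by positivity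
    nlinarith [sq_nonneg ((Fintype.card B : ℝ) * v - 1)]

end gauss

end HaarM

open HaarM

theorem col_four (v : S → ℝ) (j : S) :
    ∫ U, (∑ i, v i * U.1 i j) ^ 4 ∂(haarO S)
      ≤ 3 * (∑ i, v i ^ 2) ^ 2 / (Fintype.card S : ℝ) ^ 2 := by
  have hm : (0 : ℝ) < Fintype.card S := by exact_mod_cast Fintype.card_pos_iff.2 ⟨j⟩
  have h := col_pow v j j 2
  simp only [Nat.reduceMul] at h
  rw [h, fourth, mul_div_assoc', mul_comm _ (3 : ℝ)]
  exact div_le_div_of_nonneg_left (by positivity) (by positivity) (by nlinarith)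

theorem row_four (v : S → ℝ) (j : S) :
    ∫ U, (U.1 *ᵥ v) j ^ 4 ∂(haarO S) ≤ 3 * (∑ i, v i ^ 2) ^ 2 / (Fintype.card S : ℝ) ^ 2 := by
  refine le_of_eq_of_le ?_ (col_four v j)
  rw [← integral_inv]
  refine integral_congr_ae (ae_of_all _ fun U => ?_)
  simp only [og_inv, Matrix.mulVec, dotProduct, Matrix.transpose_apply, mul_comm]

theorem col_block (p : S → Prop) [DecidablePred p] (j : S) :
    ∫ U, (∑ i : {i // p i}, U.1 i.1 j ^ 2 - (Fintype.card {i // p i} : ℝ) / Fintype.card S) ^ 2
      ∂(haarO S) ≤ 2 / Fintype.card S := by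
  have hm : (0 : ℝ) < Fintype.card S := by exact_mod_cast Fintype.card_pos_iff.2 ⟨j⟩
  have hb : (Fintype.card {i // p i} : ℝ) ≤ Fintype.card S := by
    exact_mod_cast Fintype.card_subtype_le p
  have h0 : (0 : ℝ) ≤ Fintype.card {i // p i} := Nat.cast_nonneg _
  rw [(sq_sum (fun i : {i // p i} => memLp_sq i.1 j)
    (fun i k => (mixed i.1 k.1 j).trans (by simp only [Subtype.ext_iff]; rfl))
    (fun i => second i.1 j) _).2, fourth]
  generalize (Fintype.card {i // p i} : ℝ) = b at *
  generalize (Fintype.card S : ℝ) = m at *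
  have e : b ^ 2 * (3 / (m * (m + 2)) / 3) + b * (2 * (3 / (m * (m + 2))) / 3) -
      2 * (b / m) * (b * m⁻¹) + (b / m) ^ 2 = 2 * (b * (m - b)) / (m ^ 2 * (m + 2)) := by
    field_simp
    ring
  rw [e, div_le_div_iff₀ (by positivity) hm]
  have h1 : b * (m - b) ≤ m * (m + 2) := by nlinarith
  nlinarith [mul_le_mul_of_nonneg_right h1 hm.le]

theorem gram_dev (L B : Type) [Fintype L] [DecidableEq L] [Fintype B] {v : ℝ} (hv : 0 ≤ v) :
    Integrable (fun G : L × B → ℝ =>
      ∑ l, ∑ l', (∑ j, G (l, j) * G (l', j) - if l = l' then 1 else 0) ^ 2)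
      (gv fun _ : L × B => v) ∧
    ∫ G, ∑ l, ∑ l', (∑ j, G (l, j) * G (l', j) - if l = l' then 1 else 0) ^ 2
        ∂(gv fun _ : L × B => v)
      ≤ (Fintype.card L : ℝ) ^ 2 *
        (2 * Fintype.card B * v ^ 2 + (Fintype.card B * v - 1) ^ 2) := by
  have h := fun l : L => integrable_finsetSum Finset.univ fun l' _ =>
    (gram_entry (B := B) hv l l').1
  refine ⟨integrable_finsetSum _ fun l _ => h l, ?_⟩
  rw [integral_finsetSum _ fun l _ => h l]
  refine (Finset.sum_le_sum fun l _ => (integral_finsetSum _ fun l' _ =>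
    (gram_entry (B := B) hv l l').1).trans_le
      (Finset.sum_le_sum fun l' _ => (gram_entry hv l l').2)).trans_eq ?_
  simp only [Finset.sum_const, Finset.card_univ, nsmul_eq_mul]
  ring

end Vale.Agent.P166
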