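import Vale.Agent.P166.Trick

/-! # Linear systems: basic facts -/

set_option linter.unusedSectionVars false

namespace Vale.Agent.P166

open MeasureTheory ProbabilityTheory Vale.Agent.P157

variable {ι Ω : Type} [Fintype ι] [MeasurableSpace Ω] {μ : Measure Ω} [IsProbabilityMeasure μ]
  {ζ : ℕ → ℝ} {E E' η η' g m : Ω → ℝ} {ξ : ι → Ω → ℝ}

theorem bm2_const {W : Type} [NormedAddCommGroup W] [MeasurableSpace W] (hg : BM g) :
    BM2 fun (_ : W) x => g x := by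
  obtain ⟨h, C, hC⟩ := hg
  exact ⟨h.comp measurable_snd, C, fun _ x => hC x⟩

theorem measurable_lsH (hE : Measurable E) (hξ : ∀ i, Measurable (ξ i)) :
    Measurable (Function.uncurry (lsH E ξ)) := by
  exact (hE.comp measurable_snd).add (Finset.measurable_sum _ fun i _ =>
    ((measurable_pi_apply i).comp measurable_fst).mul ((hξ i).comp measurable_snd))

theorem hg_lsH (hE : BM E) (hξ : ∀ i, BM (ξ i)) : HG (lsH E ξ) := by
  obtain ⟨C, hC⟩ := hE.2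
  choose D hD using fun i => (hξ i).2
  refine ⟨measurable_lsH hE.1 fun i => (hξ i).1, |C| + ∑ i, |D i|, fun w x => ?_⟩
  have h1 : |∑ i, w i * ξ i x| ≤ (∑ i, |D i|) * ‖w‖ := by
    rw [Finset.sum_mul]
    refine (Finset.abs_sum_le_sum_abs _ _).trans (Finset.sum_le_sum fun i _ => ?_)
    rw [abs_mul, mul_comm]
    exact mul_le_mul ((hD i x).trans (le_abs_self _)) (norm_le_pi_norm w i) (abs_nonneg _)
      (abs_nonneg _)
  have h2 : 0 ≤ ∑ i, |D i| := by positivity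
  have h3 := mul_nonneg (abs_nonneg C) (norm_nonneg w)
  have h4 := abs_add_le (E x) (∑ i, w i * ξ i x)
  have h5 := (hC x).trans (le_abs_self C)
  unfold lsH
  linarith

namespace LinAux

theorem shift (w v : ι → ℝ) (t : ℝ) (x : Ω) :
    lsH E ξ (w + t • v) x = lsH E ξ w x + t * ∑ i, v i * ξ i x := by
  simp only [lsH, Pi.add_apply, Pi.smul_apply, smul_eq_mul, add_mul, Finset.sum_add_distrib,
    Finset.mul_sum, mul_assoc, add_assoc]

theorem fjet {v : ι → ℝ} {K : ℝ} (hm : Measurable m) (hK : 0 ≤ K) (h : ∀ x, |m x| ≤ K)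
    (hv : ∀ x, ∑ i, v i * ξ i x = m x) : FJet (lsH E ξ) v (fun _ x => m x) (fun _ _ => 0) K := by
  refine ⟨hK, hm.comp measurable_snd, measurable_const, fun _ => h, fun _ _ => by simpa using hK,
    fun w x t => ?_, fun w x t => ?_⟩
  · rw [shift, hv, add_sub_cancel_left, abs_mul, mul_comm]
    exact mul_le_mul_of_nonneg_right (h x) (abs_nonneg t)
  · rw [shift, hv, add_sub_cancel_left, sub_self, mul_zero, sub_zero, abs_zero]
    positivity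

theorem mc (hg : Measurable g) : Measurable (Function.uncurry fun (_ : ι → ℝ) x => g x) :=
  hg.comp measurable_snd

theorem noise (s : ℕ → ι → ℝ) (d : ℕ) : Noise (gvs s d) := noise_gv _

theorem gv_congr (H : (ι → ℝ) → Ω → ℝ) (n : ℕ) {s s' : ℕ → ι → ℝ}
    (hs : ∀ d, d ≤ n → ∀ i, s d i = s' d i) : GV μ ζ n s H = GV μ ζ n s' H :=
  congrFun (X_congr fun j hj => ⟨rfl, congrArg gv (funext (hs j (Nat.le_of_lt_succ hj)))⟩) 0

section map
variable {Ω' : Type} [MeasurableSpace Ω'] {μ' : Measure Ω'} {φ : Ω' → Ω} (hφ : Measurable φ)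
  (hμ : μ'.map φ = μ) {H G : (ι → ℝ) → Ω → ℝ} (hH : Measurable (Function.uncurry H))
include hφ hμ hH

theorem gtop_map : gtop μ H = gtop μ' fun w x => H w (φ x) :=
  funext fun _ => hμ ▸ lse_map hφ 1 hH.of_uncurry_left

theorem gib_map (hG : Measurable (Function.uncurry G)) :
    gib μ H G = gib μ' (fun w x => H w (φ x)) fun w x => G w (φ x) :=
  funext fun _ => hμ ▸ gexp_map hφ 1 hH.of_uncurry_left hG.of_uncurry_left

end map

end LinAux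

theorem hj_lsH [DecidableEq ι] (hE : BM E) (hξ : ∀ i, BM (ξ i)) :
    HJ (lsH E ξ) (fun i _ x => ξ i x) fun _ _ _ => 0 := by
  choose D hD using fun i => (hξ i).2
  exact ⟨hg_lsH hE hξ, ∑ i, |D i|, fun i => LinAux.fjet (hξ i).1 (by positivity)
    (fun x => ((hD i x).trans (le_abs_self _)).trans
      (Finset.single_le_sum (fun j _ => abs_nonneg (D j)) (Finset.mem_univ i)))
    fun x => by simp [Pi.single_apply]⟩

theorem blk_lsH [DecidableEq ι] (hξ : ∀ i, BM (ξ i)) {B : Type} [Fintype B] (e : B ↪ ι) {Λ : ℝ}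
    (h : ∀ x, ∑ j, ξ (e j) x ^ 2 ≤ Λ) (b : ℝ) :
    Blk (lsH E ξ) (fun i _ x => ξ i x) e 0 b Λ := by
  refine ⟨le_rfl, fun c => ?_, fun c w x => ?_, .inl rfl, fun _ => h⟩
  · obtain ⟨hm, C, hC⟩ := BM.sum Finset.univ fun j _ => (hξ (e j)).const_mul (c j)
    exact ⟨_, |C|, LinAux.fjet hm (abs_nonneg C) (fun x => (hC x).trans (le_abs_self C))
      fun x => ConcAux.sum_blk e c _, fun _ _ => by simp⟩
  · have h1 := LinAux.shift (E := E) (ξ := ξ) w (blk e c) 1 x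
    rw [one_smul, one_mul, ConcAux.sum_blk] at h1
    simp [h1]

theorem lsH_add (E g : Ω → ℝ) (ξ : ι → Ω → ℝ) :
    lsH (fun x => E x + g x) ξ = fun w x => lsH E ξ w x + g x := by
  funext w x
  exact add_right_comm _ _ _

theorem sl_zero (hE : Measurable E) (hξ : ∀ i, Measurable (ξ i)) (hη : Measurable η) (n d0 : ℕ)
    (s : ℕ → ι → ℝ) : SL μ ζ n d0 0 s E ξ η = LS μ ζ n s E ξ := by
  exact tr_zero (measurable_lsH hE hξ) (LinAux.mc hη) n d0 s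

theorem sl_abs (hζ : Zok ζ) (hE : BM E) (hξ : ∀ i, BM (ξ i)) (hη : Measurable η) {L : ℝ}
    (hL : ∀ x, |η x| ≤ L) (n d0 : ℕ) (σ : ℝ) (s : ℕ → ι → ℝ) :
    |SL μ ζ n d0 σ s E ξ η - LS μ ζ n s E ξ| ≤ L := by
  exact tr_abs hζ (hg_lsH hE hξ) (LinAux.mc hη) (fun _ => hL) n d0 σ s

theorem sl_le (hζ : Zok ζ) (hE : BM E) (hE' : BM E') (hξ : ∀ i, BM (ξ i)) (hη : BM η)
    (hη' : BM η') {c e : ℝ} (h : ∀ x, E x + c ≤ E' x) (he : ∀ x, |η' x - η x| ≤ e) (n d0 : ℕ)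
    (σ : ℝ) (s : ℕ → ι → ℝ) : SL μ ζ n d0 σ s E ξ η + c - e ≤ SL μ ζ n d0 σ s E' ξ η' := by
  exact tr_le hζ (hg_lsH hE hξ) (hg_lsH hE' hξ) (bm2_const hη) (bm2_const hη')
    (fun w x => by unfold lsH; linarith [h x]) (fun _ => he) n d0 σ s

theorem ls_le (hζ : Zok ζ) (hE : BM E) (hE' : BM E') (hξ : ∀ i, BM (ξ i)) {c : ℝ}
    (h : ∀ x, E x + c ≤ E' x) (n : ℕ) (s : ℕ → ι → ℝ) :
    LS μ ζ n s E ξ + c ≤ LS μ ζ n s E' ξ := by
  exact x_mono hζ (LinAux.noise s) (hg_lsH hE hξ) (hg_lsH hE' hξ)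
    (fun w x => by unfold lsH; linarith [h x]) _ _

theorem ls_jensen (hζ : Zok ζ) (hE : BM E) (hξ : ∀ i, BM (ξ i)) (hg : BM g) (n : ℕ)
    (s : ℕ → ι → ℝ) :
    lEG μ ζ n s E ξ g ≤ LS μ ζ n s (fun x => E x + g x) ξ - LS μ ζ n s E ξ := by
  rw [LS, lsH_add]
  exact x_jensen hζ (LinAux.noise s) (hg_lsH hE hξ) (bm2_const hg) _ _

theorem sl_convex (hζ : Zok ζ) (hE : BM E) (hξ : ∀ i, BM (ξ i)) (hη : BM η) (hg : BM g)
    (n d0 : ℕ) (σ : ℝ) (s : ℕ → ι → ℝ) :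
    ConvexOn ℝ Set.univ fun t : ℝ => SL μ ζ n d0 σ s (fun x => E x + t * g x) ξ η := by
  simp only [SL, lsH_add E]
  exact tr_convex hζ (hg_lsH hE hξ) (bm2_const hη) (bm2_const hg) n d0 σ s

theorem sl_trunc (hζ : Zok ζ) (hz : ζ 0 = 1) (hE : BM E) (hξ : ∀ i, BM (ξ i)) (hη : Measurable η)
    {L : ℝ} (hL : ∀ x, |η x| ≤ L) {u v : Ω → ℝ} (hu : BM u) (hv : BM v)
    (huv : ∀ x x', 0 ≤ (u x - u x') * (v x - v x')) (hv0 : ∀ x, v x ≤ 0) (n d0 : ℕ) (σ : ℝ)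
    (s : ℕ → ι → ℝ) :
    SL μ ζ n d0 σ s (fun x => E x + u x) ξ η - SL μ ζ n d0 σ s (fun x => E x + u x + v x) ξ η
      ≤ Real.exp (4 * L) * lEG μ ζ n s E ξ fun x => -v x := by
  rw [SL, SL, lsH_add (fun x => E x + u x), lsH_add]
  exact tr_trunc hζ hz (hg_lsH hE hξ) (LinAux.mc hη) (fun _ => hL) (bm2_const hu)
    (bm2_const hv) (fun _ x _ x' => huv x x') (fun _ => hv0) n d0 σ s

theorem ls_zero (n : ℕ) {s : ℕ → ι → ℝ} (hs : ∀ d, d ≤ n → ∀ i, s d i = 0) :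
    LS μ ζ n s E ξ = Real.log (∫ x, Real.exp (E x) ∂μ) := by
  have key : ∀ d, d ≤ n + 1 → X ζ (gvs s) (gtop μ (lsH E ξ)) d = gtop μ (lsH E ξ) := by
    intro d hd
    induction d with
    | zero => rfl
    | succ d ih =>
      rw [X_succ, ih (by omega), gvs, gv_of_nonpos fun i => (hs d (by omega) i).le, T_dirac]
  rw [LS, GV, key _ le_rfl, gtop_eq]
  simp [lsH]

theorem sl_congr (n d0 : ℕ) (σ : ℝ) {s s' : ℕ → ι → ℝ} (hs : ∀ d, d ≤ n → ∀ i, s d i = s' d i) :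
    SL μ ζ n d0 σ s E ξ η = SL μ ζ n d0 σ s' E ξ η := by
  exact LinAux.gv_congr _ n fun d hd o => by
    rcases o with _ | i
    exacts [rfl, hs d hd i]

theorem ls_congr (n : ℕ) {s s' : ℕ → ι → ℝ} (hs : ∀ d, d ≤ n → ∀ i, s d i = s' d i) :
    LS μ ζ n s E ξ = LS μ ζ n s' E ξ := by
  exact LinAux.gv_congr _ n hs

section leg
variable (hζ : Zok ζ) (hE : BM E) (hξ : ∀ i, BM (ξ i)) (n : ℕ) (s : ℕ → ι → ℝ)
include hζ hE hξ

theorem leg_const (c : ℝ) : lEG μ ζ n s E ξ (fun _ => c) = c := by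
  exact GE_const (hg_lsH hE hξ) hζ (LinAux.noise s) c _ _

theorem leg_mono {g g' : Ω → ℝ} (hg : BM g) (hg' : BM g') (h : ∀ x, g x ≤ g' x) :
    lEG μ ζ n s E ξ g ≤ lEG μ ζ n s E ξ g' := by
  exact GE_mono (hg_lsH hE hξ) hζ (LinAux.noise s) (bm2_const hg) (bm2_const hg') (fun _ => h) _ _

theorem leg_add {g g' : Ω → ℝ} (hg : BM g) (hg' : BM g') :
    lEG μ ζ n s E ξ (fun x => g x + g' x) = lEG μ ζ n s E ξ g + lEG μ ζ n s E ξ g' := by
  exact GE_add (hg_lsH hE hξ) hζ (LinAux.noise s) (bm2_const hg) (bm2_const hg') _ _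

theorem leg_sum {B : Type} (t : Finset B) {g : B → Ω → ℝ} (hg : ∀ j ∈ t, BM (g j)) :
    lEG μ ζ n s E ξ (fun x => ∑ j ∈ t, g j x) = ∑ j ∈ t, lEG μ ζ n s E ξ (g j) := by
  exact GE_sum (hg_lsH hE hξ) hζ (LinAux.noise s) t (g := fun j _ x => g j x)
    (fun j hj => bm2_const (hg j hj)) _ _

theorem ldb_zero (m : Ω → ℝ) : lDb μ ζ n s E ξ m 0 = lEG μ ζ n s E ξ fun x => m x ^ 2 := by
  exact db_zero (hg_lsH hE hξ) hζ (LinAux.noise s) n

theorem ldb_nonneg (hm : BM m) {d : ℕ} (hd : d ≤ n) : 0 ≤ lDb μ ζ n s E ξ m d := by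
  exact db_nonneg (hg_lsH hE hξ) hζ (LinAux.noise s) (bm2_const hm) hd

theorem ldb_le (m : Ω → ℝ) (d : ℕ) : lDb μ ζ n s E ξ m d ≤ lDb μ ζ n s E ξ m 0 := by
  rw [ldb_zero hζ hE hξ]
  exact db_le (hg_lsH hE hξ) hζ (LinAux.noise s) n d

end leg

theorem leg_const_mul (n : ℕ) (s : ℕ → ι → ℝ) (c : ℝ) (g : Ω → ℝ) :
    lEG μ ζ n s E ξ (fun x => c * g x) = c * lEG μ ζ n s E ξ g := by
  exact GE_const_mul c (fun _ x => g x) _ _

theorem leg_nonneg (n : ℕ) (s : ℕ → ι → ℝ) (h : ∀ x, 0 ≤ g x) : 0 ≤ lEG μ ζ n s E ξ g := by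
  exact GE_nonneg (fun _ => h) _ _

section map
variable {Ω' : Type} [MeasurableSpace Ω'] {μ' : Measure Ω'} [IsProbabilityMeasure μ']
  {φ : Ω' → Ω} (hφ : Measurable φ) (hμ : μ'.map φ = μ) (hE : Measurable E)
  (hξ : ∀ i, Measurable (ξ i))
include hφ hμ hE hξ

theorem sl_map (hη : Measurable η) (n d0 : ℕ) (σ : ℝ) (s : ℕ → ι → ℝ) :
    SL μ ζ n d0 σ s E ξ η
      = SL μ' ζ n d0 σ s (fun x => E (φ x)) (fun i x => ξ i (φ x)) fun x => η (φ x) := by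
  rw [SL, TR, GV, LinAux.gtop_map hφ hμ
    (measurable_trH (measurable_lsH hE hξ) (LinAux.mc hη))]
  rfl

theorem ls_map (n : ℕ) (s : ℕ → ι → ℝ) :
    LS μ ζ n s E ξ = LS μ' ζ n s (fun x => E (φ x)) fun i x => ξ i (φ x) := by
  rw [LS, GV, LinAux.gtop_map hφ hμ (measurable_lsH hE hξ)]
  rfl

theorem leg_map (hg : Measurable g) (n : ℕ) (s : ℕ → ι → ℝ) :
    lEG μ ζ n s E ξ g
      = lEG μ' ζ n s (fun x => E (φ x)) (fun i x => ξ i (φ x)) fun x => g (φ x) := by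
  rw [lEG, EG, GE, LinAux.gib_map hφ hμ (measurable_lsH hE hξ) (LinAux.mc hg),
    LinAux.gtop_map hφ hμ (measurable_lsH hE hξ)]
  rfl

theorem ldb_map (hm : Measurable m) (n : ℕ) (s : ℕ → ι → ℝ) (d : ℕ) :
    lDb μ ζ n s E ξ m d
      = lDb μ' ζ n s (fun x => E (φ x)) (fun i x => ξ i (φ x)) (fun x => m (φ x)) d := by
  simp only [lDb, Db, EG, Esq, GE, zero_add]
  rw [LinAux.gib_map hφ hμ (measurable_lsH hE hξ) (LinAux.mc hm),
    LinAux.gib_map hφ hμ (measurable_lsH hE hξ) (LinAux.mc (hm.pow_const 2)),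
    LinAux.gtop_map hφ hμ (measurable_lsH hE hξ)]
  rfl

end map

end Vale.Agent.P166
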