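import Vale.Agent.P166.Cmp
import Vale.Agent.P166.HaarM
import Vale.Agent.P166.Geo1

/-! # The model: measurability, invariance, moments -/

namespace Vale.Agent.P166

open MeasureTheory ProbabilityTheory Matrix Vale.Agent.P157

variable {S : Type} [Fintype S] [DecidableEq S] {A : Type} [Fintype A] [DecidableEq A]
  {ζ : ℕ → ℝ}

theorem ModelAux.map_cube {Ω : Type} [Finite Ω] [MeasurableSpace Ω] [MeasurableSingletonClass Ω]
    {μ : Measure Ω} (E : Ω ≃ (S → Bool)) (h : ∀ a, μ {a} = ((2 : ENNReal) ^ Fintype.card S)⁻¹) :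
    μ.map E = cube S := by
  refine Measure.ext_of_singleton fun b => ?_
  have h2 : E ⁻¹' {b} = {E.symm b} := by
    ext c
    exact E.eq_symm_apply.symm
  rw [Measure.map_apply (measurable_of_finite _) (measurableSet_singleton b), h2, h, cube,
    IsingBAux.unif_single]

theorem ModelAux.mu2_single (b : Bool) : UnifAux.mu2 {b} = (2 : ENNReal)⁻¹ := by
  cases b <;> simp [UnifAux.mu2]

theorem integral_cube (F : (S → Bool) → ℝ) :
    ∫ x, F x ∂(cube S) = ((2 : ℝ) ^ Fintype.card S)⁻¹ * ∑ x, F x := by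
  rw [integral_fintype Integrable.of_finite, Finset.mul_sum]
  refine Finset.sum_congr rfl fun b _ => ?_
  rw [Measure.real, cube, IsingBAux.unif_single, smul_eq_mul, ENNReal.toReal_inv,
    ENNReal.toReal_pow, ENNReal.toReal_ofNat]

theorem cube_map_equiv {S' : Type} [Fintype S'] [DecidableEq S'] (e : S ≃ S') :
    (cube S).map (fun x i => x (e.symm i)) = cube S' := by
  exact ModelAux.map_cube (e.arrowCongr (Equiv.refl Bool)) fun a => by
    rw [cube, IsingBAux.unif_single, Fintype.card_congr e]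

theorem cube_map_flip (i : S) :
    (cube S).map (fun x => Function.update x i (!x i)) = cube S := by
  have h : Function.Involutive fun x : S → Bool => Function.update x i (!x i) := fun x => by simp
  exact ModelAux.map_cube h.toPerm fun a => by rw [cube, IsingBAux.unif_single]

theorem cube_option :
    ((cube S).prod UnifAux.mu2).map (fun p (o : Option S) => o.elim p.2 p.1)
      = cube (Option S) := by
  let E : (S → Bool) × Bool ≃ (Option S → Bool) :=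
    ⟨fun p o => o.elim p.2 p.1, fun x => (fun i => x (some i), x none), fun p => rfl,
      fun x => funext fun o => by cases o <;> rfl⟩
  refine ModelAux.map_cube E fun a => ?_
  rw [← Set.singleton_prod_singleton, Measure.prod_prod, cube, IsingBAux.unif_single,
    ModelAux.mu2_single, Fintype.card_option, pow_succ,
    ENNReal.mul_inv (Or.inr (by simp)) (Or.inr (by simp))]

theorem bm_fin {Ω : Type} [Finite Ω] [MeasurableSpace Ω] [MeasurableSingletonClass Ω]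
    (g : Ω → ℝ) : BM g := by
  obtain ⟨C, hC⟩ := (Set.finite_range fun x => |g x|).bddAbove
  exact ⟨measurable_of_finite _, C, fun x => hC ⟨x, rfl⟩⟩

theorem bm_par_fin {Y Ω : Type} [MeasurableSpace Y] [Finite Ω] [MeasurableSpace Ω]
    [MeasurableSingletonClass Ω] {g : Y → Ω → ℝ} (h : ∀ x, Measurable fun p => g p x) {C : ℝ}
    (hC : ∀ p x, |g p x| ≤ C) : BM (Function.uncurry g) := by
  exact ⟨measurable_from_prod_countable_left h, C, fun p => hC p.1 p.2⟩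

theorem sp_sq (x : S → Bool) (i : S) : sp x i ^ 2 = 1 := by
  unfold sp
  split_ifs <;> norm_num

theorem yv_sum_sq (U : OG S) (x : S → Bool) : ∑ i, yv U i x ^ 2 = Fintype.card S := by
  simp only [yv, og_norm, sp_sq, Finset.sum_const, Finset.card_univ, nsmul_eq_mul, mul_one]

theorem yv_dot (U : OG S) (x x' : S → Bool) :
    ∑ i, yv U i x * yv U i x' = ∑ i, sp x i * sp x' i := by
  exact og_dot U _ _

theorem yv_mul (O U : OG S) (i : S) (x : S → Bool) :
    yv (O * U) i x = (O.1 *ᵥ fun j => yv U j x) i := by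
  rw [yv, og_mul, ← Matrix.mulVec_mulVec]
  rfl

theorem yv_emb (O : OG (Option S)) (V : OG S) (i : Option S) (x : S → Bool) (ε : Bool) :
    yv (O * emb V) i (fun o => o.elim ε x)
      = (O.1 *ᵥ fun o => o.elim (UnifAux.sg ε) fun j => yv V j x) i := by
  rw [yv, og_mul, ← Matrix.mulVec_mulVec, emb_mulVec]
  rfl

theorem measurable_yv (i : S) (x : S → Bool) : Measurable fun U : OG S => yv U i x := by
  exact Finset.measurable_sum _ fun j _ => (measurable_entry i j).mul_const _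

theorem abs_yv_le (U : OG S) (i : S) (x : S → Bool) : |yv U i x| ≤ Fintype.card S := by
  have h1 : yv U i x ^ 2 ≤ Fintype.card S := yv_sum_sq U x ▸
    Finset.single_le_sum (f := fun i => yv U i x ^ 2) (fun _ _ => sq_nonneg _) (Finset.mem_univ i)
  have h2 : (1 : ℝ) ≤ Fintype.card S := Nat.one_le_cast.2 (Fintype.card_pos_iff.2 ⟨i⟩)
  exact abs_le_of_sq_le_sq' (by nlinarith) (by linarith) |> abs_le.2

theorem bm_yv (i : S) : BM (Function.uncurry fun (U : OG S) x => yv U i x) := by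
  exact bm_par_fin (measurable_yv i) fun U x => abs_yv_le U i x

theorem bm_EQ (c : S → ℝ) : BM (Function.uncurry (EQ c)) := by
  have h := (BM.sum Finset.univ fun i _ => ((bm_yv i).pow 2).const_mul (c i)).const_mul (-2⁻¹)
  have e : Function.uncurry (EQ c)
      = fun p => -2⁻¹ * ∑ i, c i * Function.uncurry (fun U x => yv U i x) p ^ 2 := by
    funext p
    simp only [Function.uncurry, EQ]
    ring
  rw [e]
  exact h

theorem ModelAux.sq0_nn (θ : ℕ → ℝ) (d : ℕ) : 0 ≤ sq0 θ d := by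
  unfold sq0
  split_ifs
  exacts [le_rfl, sq_nonneg _]

theorem sb_nonneg (θ ϑ : ℕ → ℝ) (b : S → Option A) (d : ℕ) (i : S) : 0 ≤ sb θ ϑ b d i := by
  unfold sb sv
  cases b i <;> exact ModelAux.sq0_nn _ _

theorem fam_top (θ : ℕ → ℝ) (b : S → Option A) :
    Fam (Function.Embedding.subtype fun i => b i = none) fun ϑ => sb θ ϑ b := by
  refine ⟨fun ϑ d i => sb_nonneg θ ϑ b d i, fun ϑ d j hd => ?_, fun ϑ ϑ' d i h => ?_⟩
  · simp [sb, sv, sq0, j.2, hd]
  · rcases hb : b i with _ | a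
    · obtain rfl := h.resolve_right fun h => h ⟨i, hb⟩ rfl
      simp [sb, sv, sq0, hb]
    · simp [sb, sv, hb]

theorem fam_rest (ϑ : ℕ → ℝ) (b : S → Option A) :
    Fam (Function.Embedding.subtype fun i => b i ≠ none) fun θ => sb θ ϑ b := by
  refine ⟨fun θ d i => sb_nonneg θ ϑ b d i, fun θ d j hd => ?_, fun θ θ' d i h => ?_⟩
  · obtain ⟨a, ha⟩ := Option.ne_none_iff_exists'.1 j.2
    simp [sb, sv, sq0, ha, hd]
  · rcases hb : b i with _ | a
    · simp [sb, sv, hb]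
    · obtain rfl := h.resolve_right fun h => h ⟨i, by simp [hb]⟩ rfl
      simp [sb, sv, sq0, hb]

theorem EQ_cb (ca : A → ℝ) (ϑ : ℕ → ℝ) (b : S → Option A) (U : OG S) (x : S → Bool) :
    EQ (cb ca ϑ b) U x = EQ (cb ca 0 b) U x
      + ϑ 0 * (-(∑ i : {i // b i ≠ none}, yv U i.1 x ^ 2) / 2) := by
  have h : ∀ i, cb ca ϑ b i * yv U i x ^ 2
      = cb ca 0 b i * yv U i x ^ 2 + ϑ 0 * if b i ≠ none then yv U i x ^ 2 else 0 := fun i => by
    unfold cb cv
    cases b i <;> simp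
    ring
  rw [← Finset.sum_subtype (Finset.univ.filter fun i => b i ≠ none) (by simp)
    fun i => yv U i x ^ 2, Finset.sum_filter]
  simp only [EQ, h, Finset.sum_add_distrib, ← Finset.mul_sum]
  ring

theorem top_add_rest (b : S → Option A) (U : OG S) (x : S → Bool) :
    ∑ i : {i // b i = none}, yv U i.1 x ^ 2 + ∑ i : {i // b i ≠ none}, yv U i.1 x ^ 2
      = Fintype.card S := by
  rw [← yv_sum_sq U x]
  exact Fintype.sum_subtype_add_sum_subtype (fun i => b i = none) fun i => yv U i x ^ 2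

theorem KK_pos : (1 : ℝ) ≤ KK A := by
  exact le_add_of_nonneg_left (Nat.cast_nonneg _)

theorem sum_fib (b : S → Option A) : ∑ o, fib b o = Fintype.card S := by
  simp only [fib, Fintype.card_subtype]
  exact (Finset.card_eq_sum_card_fiberwise fun i _ => Finset.mem_univ (b i)).symm

theorem sum_comp_fib (b : S → Option A) (f : Option A → ℝ) :
    ∑ i, f (b i) = ∑ o, fib b o * f o := by
  rw [← Finset.sum_fiberwise Finset.univ b fun i => f (b i)]
  refine Finset.sum_congr rfl fun o _ => ?_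
  rw [Finset.sum_congr rfl fun i hi => by rw [(Finset.mem_filter.1 hi).2], Finset.sum_const, fib,
    Fintype.card_subtype, nsmul_eq_mul]

theorem bal_card {D : ℝ} {N : ℕ} {b : S → Option A} (h : Bal D N b) :
    |(Fintype.card S : ℝ) - N| ≤ D := by
  have h1 : |∑ o, (KK A * fib b o - N)| ≤ ∑ _o : Option A, D :=
    (Finset.abs_sum_le_sum_abs _ _).trans (Finset.sum_le_sum fun o _ => h o)
  have h2 : (Fintype.card (Option A) : ℝ) = KK A := by simp [KK]
  have h3 : 0 < KK A := one_pos.trans_le KK_pos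
  rw [Finset.sum_sub_distrib, ← Finset.mul_sum, ← Nat.cast_sum, sum_fib, Finset.sum_const,
    Finset.sum_const, Finset.card_univ, nsmul_eq_mul, nsmul_eq_mul, h2, ← mul_sub, abs_mul,
    abs_of_pos h3] at h1
  exact le_of_mul_le_mul_left h1 h3

theorem ModelAux.comp {Y Z : Type} [MeasurableSpace Y] [MeasurableSpace Z] {f : Z → ℝ} (h : BM f)
    {u : Y → Z} (hu : Measurable u) : BM fun p => f (u p) :=
  ⟨h.1.comp hu, h.2.imp fun _ hC _ => hC _⟩

theorem ModelAux.rot {b : S → Option A} {O : OG S} (hO : BlockO b O) (a : Option A → ℝ) (U : OG S)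
    (x x' : S → Bool) : ∑ i, a (b i) * (yv (O * U) i x * yv (O * U) i x')
      = ∑ i, a (b i) * (yv U i x * yv U i x') := by
  simp only [yv_mul]
  exact rot_kernel hO (fun i j h => by rw [h]) _ _

theorem ModelAux.ker_rot {b : S → Option A} {O : OG S} (hO : BlockO b O) (θ ϑ : ℕ → ℝ) (U : OG S)
    (d : ℕ) (x x' : S → Bool) : ∑ i, sb θ ϑ b d i * (yv (O * U) i x * yv (O * U) i x')
      = ∑ i, sb θ ϑ b d i * (yv U i x * yv U i x') :=
  ModelAux.rot hO (sv θ ϑ d) U x x'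

theorem ModelAux.EQ_rot {b : S → Option A} {O : OG S} (hO : BlockO b O) (ca : A → ℝ) (ϑ : ℕ → ℝ)
    (U : OG S) : EQ (cb ca ϑ b) (O * U) = EQ (cb ca ϑ b) U := by
  funext x
  simp only [EQ, sq]
  exact congrArg (-· / 2) (ModelAux.rot hO (cv ca (ϑ 0)) U x x)

theorem ModelAux.leg_int (hζ : Zok ζ) {Y : Type} [MeasurableSpace Y] {ν : Measure Y}
    {g : Y → (S → Bool) → ℝ} (hg : ∀ x, Integrable (fun p => g p x) ν) {C : ℝ}
    (hC : ∀ x, ∫ p, g p x ∂ν ≤ C) (n : ℕ) (s : ℕ → S → ℝ) (E : (S → Bool) → ℝ)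
    (ξ : S → (S → Bool) → ℝ) : ∫ p, lEG (cube S) ζ n s E ξ (g p) ∂ν ≤ C := by
  have h : ∀ f, lEG (cube S) ζ n s E ξ f
      = ∑ x, lEG (cube S) ζ n s E ξ (fun x' => if x' = x then 1 else 0) * f x := fun f =>
    eg_sum (hg_lsH (bm_fin E) fun _ => bm_fin _) hζ (fun d => noise_gv _) f n
  simp only [fun p => h (g p)]
  rw [integral_finsetSum _ fun x _ => (hg x).const_mul _,
    ← leg_const (μ := cube S) hζ (bm_fin E) (fun i => bm_fin (ξ i)) n s C, h fun _ => C]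
  refine Finset.sum_le_sum fun x _ => ?_
  rw [integral_const_mul]
  exact mul_le_mul_of_nonneg_left (hC x) (leg_nonneg n s fun _ => by split_ifs <;> norm_num)

section bm
variable (hζ : Zok ζ) (hz : ζ 0 = 1)
include hζ hz

theorem bm_XM (n : ℕ) {s : ℕ → S → ℝ} (hs : ∀ d i, 0 ≤ s d i) (c : S → ℝ) : BM (XM ζ n s c) := by
  exact bm_ls_par (ξ := fun i U x => yv U i x) hζ hz (bm_EQ c) bm_yv hs n

theorem bm_XB (n : ℕ) (ca : A → ℝ) (θ : ℕ → ℝ) (b : S → Option A) (ϑ : ℕ → ℝ) :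
    BM (XB ζ n ca θ b ϑ) := by
  exact bm_XM hζ hz n (sb_nonneg θ ϑ b) _

theorem bm_TB (n : ℕ) (ca : A → ℝ) (θ : ℕ → ℝ) (b : S → Option A) (ϑ : ℕ → ℝ) (d0 : ℕ) (σ : ℝ)
    {η : OG S → (S → Bool) → ℝ} (hη : BM (Function.uncurry η)) :
    BM fun U => SL (cube S) ζ n d0 σ (sb θ ϑ b) (EQ (cb ca ϑ b) U) (yv U) (η U) := by
  exact bm_sl_par (ξ := fun i U x => yv U i x) hζ hz (bm_EQ _) bm_yv (sb_nonneg θ ϑ b) hη n d0 σ

theorem bm_DB (n : ℕ) (ca : A → ℝ) (θ : ℕ → ℝ) (b : S → Option A) (ϑ : ℕ → ℝ)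
    {m : OG S → (S → Bool) → ℝ} (hm : BM (Function.uncurry m)) (d : ℕ) :
    BM fun U => lDb (cube S) ζ n (sb θ ϑ b) (EQ (cb ca ϑ b) U) (yv U) (m U) d := by
  exact bm_ldb_par (ξ := fun i U x => yv U i x) hζ hz (bm_EQ _) bm_yv (sb_nonneg θ ϑ b) hm n d

theorem bm_GB (n : ℕ) (ca : A → ℝ) (θ : ℕ → ℝ) (b : S → Option A) (ϑ : ℕ → ℝ)
    {g : OG S → (S → Bool) → ℝ} (hg : BM (Function.uncurry g)) :
    BM fun U => lEG (cube S) ζ n (sb θ ϑ b) (EQ (cb ca ϑ b) U) (yv U) (g U) := by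
  exact bm_leg_par (ξ := fun i U x => yv U i x) hζ hz (bm_EQ _) bm_yv (sb_nonneg θ ϑ b) hg n

theorem bm_CX (n : ℕ) (ca : A → ℝ) (θ : ℕ → ℝ) (b : S → Option A) (ϑ : ℕ → ℝ) (d0 : ℕ) (σ : ℝ)
    {L : Type} [Fintype L] {Pc η : (L → ℝ) → Bool → ℝ} (hP : Measurable (Function.uncurry Pc))
    (hη : Measurable (Function.uncurry η)) {Y : Type} [MeasurableSpace Y] {u : Y → OG S}
    (hu : Measurable u) {t : Y → (S → Bool) → L → ℝ} (ht : ∀ x l, Measurable fun p => t p x l)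
    {C : ℝ} (hPb : ∀ p x ε, |Pc (t p x) ε| ≤ C) (hηb : ∀ p x ε, |η (t p x) ε| ≤ C) :
    BM fun p => CX ζ n ca θ b ϑ d0 σ Pc η (u p) (t p) := by
  have hm : Measurable fun q : Y × (S → Bool) × Bool => (u q.1, q.2.1) :=
    (hu.comp measurable_fst).prodMk measurable_snd.fst
  have ht' : ∀ x : (S → Bool) × Bool, Measurable fun p => (t p x.1, x.2) := fun x =>
    (measurable_pi_lambda _ (ht x.1)).prodMk measurable_const
  have h1 := ModelAux.comp (bm_EQ (cb ca ϑ b)) hm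
  have h2 := fun i => ModelAux.comp (bm_yv i) hm
  have h3 := bm_par_fin (g := fun p (x : (S → Bool) × Bool) => Pc (t p x.1) x.2)
    (fun x => hP.comp (ht' x)) fun p x => hPb p x.1 x.2
  have h4 := bm_par_fin (g := fun p (x : (S → Bool) × Bool) => η (t p x.1) x.2)
    (fun x => hη.comp (ht' x)) fun p x => hηb p x.1 x.2
  have h5 := h1.add h3
  have h6 := bm_sl_par (μ := (cube S).prod UnifAux.mu2)
    (E := fun p x => EQ (cb ca ϑ b) (u p) x.1 + Pc (t p x.1) x.2)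
    (ξ := fun i p x => yv (u p) i x.1) (η := fun p x => η (t p x.1) x.2) hζ hz h5 h2
    (sb_nonneg θ ϑ b) h4 n d0 σ
  exact h6

theorem bm_FQ (n : ℕ) (ca : A → ℝ) (θ : ℕ → ℝ) (b : S → Option A) (ϑ : ℕ → ℝ) (d0 : ℕ) (σ : ℝ)
    {L : Type} [Fintype L] (κ β : L → ℝ) {η : (L → ℝ) → Bool → ℝ}
    (hη : BM (Function.uncurry η)) (jj : L → S) :
    BM fun U => CX ζ n ca θ b ϑ d0 σ (cavQ κ β) η U fun x l => yv U (jj l) x := by
  obtain ⟨C, hC⟩ := hη.2
  have hP : Measurable (Function.uncurry (cavQ κ β)) := by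
    refine measurable_from_prod_countable_left fun ε => ?_
    simp only [Function.uncurry, cavQ, Qf]
    fun_prop
  refine bm_CX hζ hz n ca θ b ϑ d0 σ hP hη.1 measurable_id (fun x l => measurable_yv _ x)
    (C := max C (∑ l, |κ l| * (Fintype.card S + |β l|) ^ 2)) (fun U x ε => le_max_of_le_right ?_)
    fun U x ε => le_max_of_le_left (hC (_, ε))
  have h : |Qf κ β (fun l => yv U (jj l) x) ε| ≤ ∑ l, |κ l| * (Fintype.card S + |β l|) ^ 2 := by
    refine (Finset.abs_sum_le_sum_abs _ _).trans (Finset.sum_le_sum fun l _ => ?_)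
    rw [abs_mul, abs_pow]
    refine mul_le_mul_of_nonneg_left (pow_le_pow_left₀ (abs_nonneg _) ((abs_add_le _ _).trans
      (add_le_add (abs_yv_le U _ x) ?_)) 2) (abs_nonneg _)
    rw [abs_mul, UnifAux.abs_sg, one_mul]
  rw [cavQ, abs_div, abs_neg, abs_two]
  linarith [abs_nonneg (Qf κ β (fun l => yv U (jj l) x) ε)]

theorem sl_rot {b : S → Option A} {O : OG S} (hO : BlockO b O) (n : ℕ) (ca : A → ℝ)
    (θ ϑ : ℕ → ℝ) (d0 : ℕ) {σ : ℝ} (hσ : 0 ≤ σ) (U : OG S) (η : (S → Bool) → ℝ) :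
    SL (cube S) ζ n d0 σ (sb θ ϑ b) (EQ (cb ca ϑ b) (O * U)) (yv (O * U)) η
      = SL (cube S) ζ n d0 σ (sb θ ϑ b) (EQ (cb ca ϑ b) U) (yv U) η := by
  rw [ModelAux.EQ_rot hO]
  exact sl_cov hζ hz (bm_fin _) (fun _ => bm_fin _) (fun _ => bm_fin _) (sb_nonneg θ ϑ b)
    (sb_nonneg θ ϑ b) n (fun d _ => ModelAux.ker_rot hO θ ϑ U d) (bm_fin _) d0 hσ

theorem cx_rot {b : S → Option A} {O : OG S} (hO : BlockO b O) (n : ℕ) (ca : A → ℝ)
    (θ ϑ : ℕ → ℝ) (d0 : ℕ) {σ : ℝ} (hσ : 0 ≤ σ) {L : Type} (Pc η : (L → ℝ) → Bool → ℝ)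
    (U : OG S) (t : (S → Bool) → L → ℝ) :
    CX ζ n ca θ b ϑ d0 σ Pc η (O * U) t = CX ζ n ca θ b ϑ d0 σ Pc η U t := by
  rw [CX, CX, ModelAux.EQ_rot hO]
  exact sl_cov hζ hz (bm_fin _) (fun _ => bm_fin _) (fun _ => bm_fin _) (sb_nonneg θ ϑ b)
    (sb_nonneg θ ϑ b) n (fun d _ x x' => ModelAux.ker_rot hO θ ϑ U d x.1 x'.1) (bm_fin _) d0 hσ

theorem leg_rot {b : S → Option A} {O : OG S} (hO : BlockO b O) (n : ℕ) (ca : A → ℝ)
    (θ ϑ : ℕ → ℝ) (U : OG S) (g : (S → Bool) → ℝ) :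
    lEG (cube S) ζ n (sb θ ϑ b) (EQ (cb ca ϑ b) (O * U)) (yv (O * U)) g
      = lEG (cube S) ζ n (sb θ ϑ b) (EQ (cb ca ϑ b) U) (yv U) g := by
  rw [ModelAux.EQ_rot hO]
  exact leg_cov hζ hz (bm_fin _) (fun _ => bm_fin _) (fun _ => bm_fin _) (sb_nonneg θ ϑ b)
    (sb_nonneg θ ϑ b) n (fun d _ => ModelAux.ker_rot hO θ ϑ U d) (bm_fin _)

theorem cx_abs (n : ℕ) (ca : A → ℝ) (θ : ℕ → ℝ) (b : S → Option A) (ϑ : ℕ → ℝ) (d0 : ℕ) (σ : ℝ)
    {L : Type} (Pc η : (L → ℝ) → Bool → ℝ) (U : OG S) (t : (S → Bool) → L → ℝ) {K Lb : ℝ}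
    (hP : ∀ x ε, |Pc (t x) ε| ≤ K) (hη : ∀ x ε, |η (t x) ε| ≤ Lb) :
    |CX ζ n ca θ b ϑ d0 σ Pc η U t - XB ζ n ca θ b ϑ U| ≤ K + Lb := by
  have h0 : XB ζ n ca θ b ϑ U = LS ((cube S).prod UnifAux.mu2) ζ n (sb θ ϑ b)
      (fun x => EQ (cb ca ϑ b) U x.1) fun i x => yv U i x.1 :=
    ls_map measurable_fst Measure.fst_prod (measurable_of_finite _)
      (fun _ => measurable_of_finite _) n _
  have h1 := abs_le.1 (sl_abs (μ := (cube S).prod UnifAux.mu2) (ξ := fun i x => yv U i x.1) hζ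
    (bm_fin fun x => EQ (cb ca ϑ b) U x.1 + Pc (t x.1) x.2) (fun _ => bm_fin _)
    (measurable_of_finite fun x => η (t x.1) x.2) (fun x => hη x.1 x.2) n d0 σ (sb θ ϑ b))
  have h2 := ls_le (μ := (cube S).prod UnifAux.mu2) (ξ := fun i x => yv U i x.1) (c := -K) hζ
    (bm_fin fun x => EQ (cb ca ϑ b) U x.1) (bm_fin fun x => EQ (cb ca ϑ b) U x.1 + Pc (t x.1) x.2)
    (fun _ => bm_fin _) (fun x => by linarith [(abs_le.1 (hP x.1 x.2)).1]) n (sb θ ϑ b)
  have h3 := ls_le (μ := (cube S).prod UnifAux.mu2) (ξ := fun i x => yv U i x.1) (c := -K) hζ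
    (bm_fin fun x => EQ (cb ca ϑ b) U x.1 + Pc (t x.1) x.2) (bm_fin fun x => EQ (cb ca ϑ b) U x.1)
    (fun _ => bm_fin _) (fun x => by linarith [(abs_le.1 (hP x.1 x.2)).2]) n (sb θ ϑ b)
  rw [h0, CX, abs_le]
  constructor <;> linarith [h1.1, h1.2]

theorem mom4 (n : ℕ) (ca : A → ℝ) (θ : ℕ → ℝ) (b : S → Option A) (ϑ : ℕ → ℝ) (j : S) :
    GB ζ n ca θ b ϑ (fun U x => yv U j x ^ 4)
      ≤ 3 * ((Fintype.card S : ℝ) / fib b (b j)) ^ 2 := by
  let T := {i // b i = b j}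
  let g : OG T × OG S → (S → Bool) → ℝ := fun p x =>
    (p.1.1 *ᵥ fun l : T => yv p.2 l.1 x) ⟨j, rfl⟩ ^ 4
  let G : OG T × OG S → ℝ := fun p =>
    lEG (cube S) ζ n (sb θ ϑ b) (EQ (cb ca ϑ b) p.2) (yv p.2) (g p)
  have hm : Measurable fun q : (OG T × OG S) × (S → Bool) => (q.1.2, q.2) := by fun_prop
  have he : ∀ l l' : T, BM fun V : OG T => V.1 l l' := fun l l' =>
    ⟨measurable_entry l l', 1, fun V => og_abs_le V l l'⟩
  have hE := ModelAux.comp (bm_EQ (cb ca ϑ b)) hm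
  have hy := fun i => ModelAux.comp (bm_yv i) hm
  have hg' := (BM.sum Finset.univ fun l _ => (ModelAux.comp (he ⟨j, rfl⟩ l)
    (measurable_fst.fst (α := (OG T × OG S) × (S → Bool)))).mul (hy l.1)).pow 4
  have hg : BM (Function.uncurry g) := hg'
  have hG' := bm_leg_par (μ := cube S) (E := fun p : OG T × OG S => EQ (cb ca ϑ b) p.2)
    (ξ := fun i p x => yv p.2 i x) hζ hz hE hy (sb_nonneg θ ϑ b) hg n
  have hG : BM G := hG'
  have h1 : ∀ V, GB ζ n ca θ b ϑ (fun U x => yv U j x ^ 4) = ∫ U, G (V, U) ∂(haarO S) := fun V => by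
    obtain ⟨O, h1, -, h3⟩ := exists_ext (j := fun l : T => l.1) Subtype.val_injective V
    have hO : BlockO b O := fun i i' h => by
      by_contra k
      rcases h3 i i' k with rfl | ⟨⟨l, rfl⟩, l', rfl⟩
      exacts [h rfl, h (l.2.trans l'.2.symm)]
    rw [GB, ← integral_left O]
    refine integral_congr_ae (Filter.Eventually.of_forall fun U => ?_)
    refine (leg_rot hζ hz hO n ca θ ϑ U _).trans (congrArg _ (funext fun x => ?_))
    rw [yv_mul]
    exact congrArg (· ^ 4) (h1 _ ⟨j, rfl⟩)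
  have h2 : ∀ U, ∫ V, G (V, U) ∂(haarO T) ≤ 3 * ((Fintype.card S : ℝ) / fib b (b j)) ^ 2 := by
    intro U
    have hi := fun x : S → Bool => (ModelAux.comp hg (u := fun V => ((V, U), x))
      (by fun_prop)).integrable (ν := haarO T)
    refine ModelAux.leg_int (g := fun V => g (V, U)) hζ hi (fun x =>
      (row_four (fun l : T => yv U l.1 x) ⟨j, rfl⟩).trans ?_) n (sb θ ϑ b) (EQ (cb ca ϑ b) U) (yv U)
    have k := Fintype.sum_subtype_add_sum_subtype (fun i => b i = b j) fun i => yv U i x ^ 2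
    have k' : 0 ≤ ∑ i : {i // ¬b i = b j}, yv U i.1 x ^ 2 :=
      Finset.sum_nonneg fun _ _ => sq_nonneg _
    rw [yv_sum_sq] at k
    rw [div_pow, ← mul_div_assoc]
    exact div_le_div_of_nonneg_right (mul_le_mul_of_nonneg_left (pow_le_pow_left₀
      (Finset.sum_nonneg fun _ _ => sq_nonneg _) (by linarith) 2) (by norm_num)) (by positivity)
  calc _ = ∫ V, ∫ U, G (V, U) ∂(haarO S) ∂(haarO T) := by simp [← h1]
    _ = ∫ U, ∫ V, G (V, U) ∂(haarO T) ∂(haarO S) := integral_integral_swap hG.integrable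
    _ ≤ ∫ _U, 3 * ((Fintype.card S : ℝ) / fib b (b j)) ^ 2 ∂(haarO S) :=
      integral_mono hG.integrable.integral_prod_right (integrable_const _) h2
    _ = _ := by simp

theorem mom4_bal (n : ℕ) (ca : A → ℝ) (θ : ℕ → ℝ) {b : S → Option A} (ϑ : ℕ → ℝ) {D : ℝ} {N : ℕ}
    (h : Bal D N b) (hD : 2 * D ≤ N) (hN : 1 ≤ N) (j : S) :
    GB ζ n ca θ b ϑ (fun U x => yv U j x ^ 4) ≤ 27 * KK A ^ 2 := by
  refine (mom4 hζ hz n ca θ b ϑ j).trans ?_
  have h1 := (abs_le.1 (bal_card h)).2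
  have h2 := (abs_le.1 (h (b j))).1
  have h3 : (1 : ℝ) ≤ N := Nat.one_le_cast.2 hN
  have h4 : (0 : ℝ) < fib b (b j) := by
    exact_mod_cast Fintype.card_pos_iff.2 ⟨(⟨j, rfl⟩ : {i // b i = b j})⟩
  have h5 : (Fintype.card S : ℝ) / fib b (b j) ≤ 3 * KK A := by
    rw [div_le_iff₀ h4]
    linarith
  calc _ ≤ 3 * (3 * KK A) ^ 2 := by gcongr
    _ = _ := by ring

end bm

end Vale.Agent.P166
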