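import Vale.Agent.P166.Model

/-! # The averaged value: symmetries, convexity, tangents, crude bounds -/

namespace Vale.Agent.P166

open MeasureTheory ProbabilityTheory Matrix Vale.Agent.P157

variable {S : Type} [Fintype S] [DecidableEq S] {A : Type} [Fintype A] [DecidableEq A]
  {ζ : ℕ → ℝ}

namespace Model2Aux

theorem ls_equiv {ι ι' Ω : Type} [Fintype ι] [Fintype ι'] [MeasurableSpace Ω] {μ : Measure Ω}
    [IsProbabilityMeasure μ] (e : ι ≃ ι') (n : ℕ) (s : ℕ → ι' → ℝ) {E : Ω → ℝ}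
    {ξ : ι' → Ω → ℝ} (hE : BM E) (hξ : ∀ i, BM (ξ i)) :
    LS μ ζ n (fun d i => s d (e i)) E (fun i => ξ (e i)) = LS μ ζ n s E ξ := by
  have h := X_sel (fun k => some (e k))
    (fun k l i hk hl => e.injective (Option.some.inj (hk.trans hl.symm))) ζ s
    (fun d i => s d (e i)) (Ψ' := gtop μ (lsH E fun i => ξ (e i)))
    (hg_lsH hE fun i => hξ (e i)).lg_gtop.1 (d := n + 1) fun _ _ _ => rfl
  have h2 : (fun u : ι' → ℝ => gtop μ (lsH E fun i => ξ (e i))
      fun k => (some (e k)).elim 0 u) = gtop μ (lsH E ξ) := by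
    funext u
    refine congrArg (lse μ 1) (funext fun x => ?_)
    exact congrArg (E x + ·) (e.sum_comp fun i => u i * ξ i x)
  rw [h2] at h
  exact h.symm

theorem xm_equiv {S' : Type} [Fintype S'] [DecidableEq S'] (e : S ≃ S') (n : ℕ)
    (s : ℕ → S' → ℝ) (c : S' → ℝ) (U : OG S) :
    XM ζ n (fun d i => s d (e i)) (fun i => c (e i)) U = XM ζ n s c (reO e U) := by
  have hy : ∀ (i : S) (x : S → Bool),
      yv (reO e U) (e i) (fun j => x (e.symm j)) = yv U i x := fun i x => by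
    unfold yv
    rw [reO_mulVec]
    refine congrArg (fun v => (U.1 *ᵥ v) i) (funext fun j => ?_)
    simp only [sp, Equiv.symm_apply_apply]
  have hE : (fun x : S → Bool => EQ c (reO e U) fun j => x (e.symm j))
      = EQ (fun i => c (e i)) U := by
    funext x
    unfold EQ
    rw [← e.sum_comp]
    simp only [hy]
  unfold XM
  rw [ls_map (μ' := cube S) (φ := fun x j => x (e.symm j)) (measurable_of_finite _)
    (cube_map_equiv e) (measurable_of_finite _) (fun _ => measurable_of_finite _), hE,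
    ← ls_equiv e n s (bm_fin _) fun _ => bm_fin _]
  simp only [hy]

theorem f0_eq (ζ : ℕ → ℝ) (n : ℕ) (c : S → ℝ) (U : OG S) :
    F0 c U = XM ζ n (fun _ _ => 0) c U :=
  (ls_zero n fun _ _ _ => rfl).symm

omit [DecidableEq S] [Fintype A] in
theorem exists_equiv {S' : Type} [Fintype S'] [DecidableEq S'] {b : S → Option A}
    {b' : S' → Option A} (h : ∀ o, fib b o = fib b' o) : ∃ e : S ≃ S', ∀ i, b' (e i) = b i :=
  ⟨Equiv.ofFiberEquiv fun o => Fintype.equivOfCardEq (h o), Equiv.ofFiberEquiv_map _⟩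

omit [Fintype S] [DecidableEq S] [Fintype A] [DecidableEq A] in
theorem cb_congr (ca : A → ℝ) (b : S → Option A) {ϑ ϑ' : ℕ → ℝ} (h : ϑ 0 = ϑ' 0) :
    cb ca ϑ b = cb ca ϑ' b := by
  unfold cb
  rw [h]

omit [Fintype S] [DecidableEq S] [Fintype A] [DecidableEq A] in
theorem sb_congr (b : S → Option A) {θ θ' ϑ ϑ' : ℕ → ℝ} {n : ℕ}
    (h : ∀ d, 1 ≤ d → d ≤ n → θ d = θ' d) (h' : ∀ d, 1 ≤ d → d ≤ n → ϑ d = ϑ' d) (d : ℕ)
    (hd : d ≤ n) (i : S) : sb θ ϑ b d i = sb θ' ϑ' b d i := by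
  unfold sb sv sq0
  rcases Nat.eq_zero_or_pos d with rfl | h1
  · simp
  · rw [h d h1 hd, h' d h1 hd]

omit [Fintype S] [DecidableEq S] [Fintype A] [DecidableEq A] in
theorem sb_le (b : S → Option A) {θ ϑ : ℕ → ℝ} {n : ℕ}
    (h : ∀ d, 1 ≤ d → d ≤ n → θ d ^ 2 ≤ ϑ d ^ 2) {d : ℕ} (hd : d ≤ n) (i : S) :
    sb θ ϑ b d i ≤ sq0 ϑ d := by
  unfold sb sv
  rcases b i with _ | a
  · exact le_rfl
  · show sq0 θ d ≤ sq0 ϑ d
    unfold sq0
    split_ifs with h0
    · exact le_rfl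
    · exact h d (Nat.one_le_iff_ne_zero.2 h0) hd

theorem bm_sp (i : S) : BM (Function.uncurry fun (_ : OG S) (x : S → Bool) => sp x i) := by
  refine bm_par_fin (fun _ => measurable_const) (C := 1) fun _ x => ?_
  unfold sp
  split_ifs <;> simp

theorem abs_int_le {f : OG S → ℝ} {C : ℝ} (h : ∀ U, |f U| ≤ C) :
    |∫ U, f U ∂(haarO S)| ≤ C := by
  have := norm_integral_le_of_norm_le_const (μ := haarO S) (f := f) (C := C)
    (Filter.Eventually.of_forall h)
  simpa using this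

theorem int_le {f g h : OG S → ℝ} (hf : BM f) (hg : BM g) (hh : BM h)
    (hle : ∀ U, f U ≤ g U - h U) :
    ∫ U, f U ∂(haarO S) ≤ ∫ U, g U ∂(haarO S) - ∫ U, h U ∂(haarO S) := by
  rw [← integral_sub hg.integrable hh.integrable]
  exact integral_mono hf.integrable (hg.sub hh).integrable hle

theorem int_le_add {f g : OG S → ℝ} (hf : BM f) (hg : BM g) {c : ℝ}
    (hle : ∀ U, f U ≤ g U + c) : ∫ U, f U ∂(haarO S) ≤ ∫ U, g U ∂(haarO S) + c := by
  have h := integral_mono (μ := haarO S) hf.integrable (hg.add (BM.const c)).integrable hle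
  rw [integral_add hg.integrable (integrable_const c)] at h
  simpa using h

theorem tanh_bounds {u : ℝ} (hu : 0 ≤ u) : u - u ^ 2 ≤ Real.tanh u ∧ Real.tanh u ≤ u := by
  constructor
  · have h1 : 1 + 2 * u ≤ Real.exp u * Real.exp u := by
      rw [← Real.exp_add]
      linarith [Real.add_one_le_exp (u + u)]
    have h2 : Real.exp (-u) * Real.exp u = 1 := by
      rw [← Real.exp_add, neg_add_cancel, Real.exp_zero]
    have h3 := Real.exp_pos u
    have h4 := Real.exp_pos (-u)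
    have h5 : (1 + 2 * u) * Real.exp (-u) ≤ Real.exp u := by
      calc (1 + 2 * u) * Real.exp (-u) ≤ Real.exp u * Real.exp u * Real.exp (-u) :=
            mul_le_mul_of_nonneg_right h1 h4.le
        _ = Real.exp u * (Real.exp (-u) * Real.exp u) := by ring
        _ = Real.exp u := by rw [h2, mul_one]
    have h6 : u / (1 + u) ≤ Real.tanh u := by
      rw [Real.tanh_eq, div_le_div_iff₀ (by linarith) (by linarith)]
      nlinarith
    have h7 : u - u ^ 2 ≤ u / (1 + u) := by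
      rw [le_div_iff₀ (by linarith)]
      nlinarith [pow_nonneg hu 3]
    exact h7.trans h6
  · have hm : Monotone fun x : ℝ => x - Real.tanh x := by
      refine monotone_of_hasDerivAt_nonneg (f' := fun x => 1 - (1 - Real.tanh x ^ 2))
        (fun x => (hasDerivAt_id x).sub (JetAux.hasDerivAt_tanh x)) fun x => ?_
      show (0 : ℝ) ≤ 1 - (1 - Real.tanh x ^ 2)
      nlinarith [sq_nonneg (Real.tanh x)]
    have := hm hu
    simp only [Real.tanh_zero, sub_zero] at this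
    linarith

theorem tanh_sq (u : ℝ) : (Real.tanh u - u) ^ 2 ≤ u ^ 4 ∧ (Real.tanh u + u) ^ 2 ≤ 4 * u ^ 2 := by
  have key : ∀ v : ℝ, 0 ≤ v →
      (Real.tanh v - v) ^ 2 ≤ v ^ 4 ∧ (Real.tanh v + v) ^ 2 ≤ 4 * v ^ 2 := fun v hv => by
    obtain ⟨h1, h2⟩ := tanh_bounds hv
    have h3 : 0 ≤ Real.tanh v := MlrAux.tanh_nonneg hv
    constructor
    · nlinarith
    · nlinarith
  rcases le_total 0 u with h | h
  · exact key u h
  · obtain ⟨h1, h2⟩ := key (-u) (neg_nonneg.2 h)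
    rw [Real.tanh_neg] at h1 h2
    constructor
    · nlinarith
    · nlinarith

theorem clp_sq {L : ℝ} (hL : 0 < L) (y : ℝ) :
    (clp L y - y) ^ 2 ≤ (L⁻¹) ^ 2 * y ^ 4 ∧ (clp L y + y) ^ 2 ≤ 2 + 2 * y ^ 4 := by
  obtain ⟨h1, h2⟩ := tanh_sq (y / L)
  have hy : y = L * (y / L) := by field_simp
  have e1 : (clp L y - y) ^ 2 = L ^ 2 * (Real.tanh (y / L) - y / L) ^ 2 := by
    unfold clp
    field_simp
  have e2 : (clp L y + y) ^ 2 = L ^ 2 * (Real.tanh (y / L) + y / L) ^ 2 := by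
    unfold clp
    field_simp
  constructor
  · rw [e1]
    refine (mul_le_mul_of_nonneg_left h1 (sq_nonneg L)).trans_eq ?_
    field_simp
  · rw [e2]
    refine (mul_le_mul_of_nonneg_left h2 (sq_nonneg L)).trans ?_
    have e3 : L ^ 2 * (4 * (y / L) ^ 2) = 4 * y ^ 2 := by field_simp
    rw [e3]
    nlinarith [sq_nonneg (y ^ 2 - 1)]

theorem bm_clp (L : ℝ) (j : S) :
    BM (Function.uncurry fun (U : OG S) (x : S → Bool) => clp L (yv U j x)) := by
  refine BM.const_mul (φ := fun p : OG S × (S → Bool) => Real.tanh (yv p.1 j p.2 / L))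
    ⟨MonoAux.bm_tanh.1.comp ((bm_yv j).1.div_const L), 1, fun _ => MonoAux.abs_tanh_le _⟩ L

theorem gtop_sp : gtop (cube S) (lsH (fun _ => 0) fun i x => sp x i)
    = fun w : S → ℝ => ∑ i, lc (w i) := by
  funext w
  have h1 : ∑ x : S → Bool, Real.exp (lsH (fun _ => 0) (fun i x => sp x i) w x)
      = ∏ i, (2 * Real.cosh (w i)) := by
    have h2 : ∀ i, 2 * Real.cosh (w i)
        = ∑ c : Bool, Real.exp (w i * if c then 1 else -1) := fun i => by
      rw [Fintype.sum_bool, Real.cosh_eq]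
      simp only [if_true, mul_one, Bool.false_eq_true, if_false, mul_neg]
      ring
    simp only [h2]
    rw [Finset.prod_univ_sum, Fintype.piFinset_univ]
    refine Finset.sum_congr rfl fun x _ => ?_
    unfold lsH
    rw [zero_add]
    exact Real.exp_sum _ _
  rw [gtop_eq, integral_cube, h1, Finset.prod_mul_distrib, Finset.prod_const, Finset.card_univ,
    inv_mul_cancel_left₀ (by positivity), Real.log_prod fun i _ => (Real.cosh_pos _).ne']
  rfl

theorem ls_sp (hζ : Zok ζ) (n : ℕ) (v : ℕ → ℝ) :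
    LS (cube S) ζ n (fun d _ => v d) (fun _ => 0) (fun i x => sp x i)
      = Fintype.card S * psi n ζ (cum n v) lc := by
  unfold LS GV
  rw [psi_cum n ζ _ lg_lc.1, gtop_sp]
  refine (X_pi (cas_g1s hζ v lg_lc) (n + 1) 0).trans ?_
  simp only [Pi.zero_apply, Finset.sum_const, Finset.card_univ, nsmul_eq_mul]

theorem rest_bounds (b : S → Option A) (U : OG S) (x : S → Bool) :
    0 ≤ ∑ i : {i // b i ≠ none}, yv U i.1 x ^ 2 ∧
      ∑ i : {i // b i ≠ none}, yv U i.1 x ^ 2 ≤ Fintype.card S := by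
  refine ⟨Finset.sum_nonneg fun _ _ => sq_nonneg _, ?_⟩
  rw [← top_add_rest b U x]
  exact le_add_of_nonneg_left (Finset.sum_nonneg fun _ _ => sq_nonneg _)

theorem sum_split (b : S → Option A) (f : S → ℝ) :
    ∑ i : {i // b i = none}, f i.1 + ∑ i : {i // b i ≠ none}, f i.1 = ∑ i, f i :=
  Fintype.sum_subtype_add_sum_subtype (fun i => b i = none) f

theorem sum_sq0 (n : ℕ) (ϑ : ℕ → ℝ) :
    ∑ d ∈ Finset.range (n + 1), sq0 ϑ d = ∑ d ∈ Finset.Icc 1 n, ϑ d ^ 2 := by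
  induction n with
  | zero => simp [sq0]
  | succ k ih =>
    rw [Finset.sum_range_succ, ih, Finset.sum_Icc_succ_top (by omega)]
    simp [sq0]

end Model2Aux

open Model2Aux

theorem av_equiv {S' : Type} [Fintype S'] [DecidableEq S'] (e : S ≃ S') (n : ℕ) (ca : A → ℝ)
    (θ : ℕ → ℝ) (b' : S' → Option A) (ϑ : ℕ → ℝ) :
    AV ζ n ca θ (fun i => b' (e i)) ϑ = AV ζ n ca θ b' ϑ := by
  unfold AV
  rw [← integral_reO e]
  exact integral_congr_ae (Filter.Eventually.of_forall fun U =>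
    xm_equiv e n (sb θ ϑ b') (cb ca ϑ b') U)

theorem av_fiber {S' : Type} [Fintype S'] [DecidableEq S'] (n : ℕ) (ca : A → ℝ) (θ : ℕ → ℝ)
    {b : S → Option A} {b' : S' → Option A} (h : ∀ o, fib b o = fib b' o) (ϑ : ℕ → ℝ) :
    AV ζ n ca θ b ϑ = AV ζ n ca θ b' ϑ := by
  obtain ⟨e, he⟩ := exists_equiv h
  rw [← av_equiv e]
  simp only [he]

theorem f0_fiber {S' : Type} [Fintype S'] [DecidableEq S'] (f : Option A → ℝ)
    {b : S → Option A} {b' : S' → Option A} (h : ∀ o, fib b o = fib b' o) :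
    ∫ U, F0 (fun i => f (b i)) U ∂(haarO S) = ∫ U, F0 (fun i => f (b' i)) U ∂(haarO S') := by
  obtain ⟨e, he⟩ := exists_equiv h
  rw [← integral_reO e]
  refine integral_congr_ae (Filter.Eventually.of_forall fun U => ?_)
  show F0 (fun i => f (b i)) U = F0 (fun i => f (b' i)) (reO e U)
  rw [f0_eq (fun _ => 0) 0, f0_eq (fun _ => 0) 0, ← xm_equiv e]
  simp only [he]

theorem db_spin_sym (n : ℕ) (ca : A → ℝ) (θ : ℕ → ℝ) (b : S → Option A) (ϑ : ℕ → ℝ) (i i' : S)
    (d : ℕ) :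
    DB ζ n ca θ b ϑ (fun _ x => sp x i) d = DB ζ n ca θ b ϑ (fun _ x => sp x i') d := by
  unfold DB
  rw [← integral_right (permO (Equiv.swap i i').symm)
    fun U => lDb (cube S) ζ n (sb θ ϑ b) (EQ (cb ca ϑ b) U) (yv U) (fun x => sp x i') d]
  refine integral_congr_ae (Filter.Eventually.of_forall fun U => ?_)
  have hy : ∀ (j : S) (x : S → Bool), yv U j (fun k => x ((Equiv.swap i i').symm k))
      = yv (U * permO (Equiv.swap i i').symm) j x := fun j x => by
    unfold yv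
    rw [og_mul, ← Matrix.mulVec_mulVec]
    refine congrArg (fun v => (U.1 *ᵥ v) j) (funext fun k => ?_)
    rw [permO_mulVec]
    rfl
  have hE : (fun x : S → Bool => EQ (cb ca ϑ b) U fun k => x ((Equiv.swap i i').symm k))
      = EQ (cb ca ϑ b) (U * permO (Equiv.swap i i').symm) := by
    funext x
    unfold EQ
    simp only [hy]
  have hm : (fun x : S → Bool => sp (fun k => x ((Equiv.swap i i').symm k)) i)
      = fun x => sp x i' := by
    funext x
    simp only [sp, Equiv.symm_swap, Equiv.swap_apply_left]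
  show lDb (cube S) ζ n (sb θ ϑ b) (EQ (cb ca ϑ b) U) (yv U) (fun x => sp x i) d = _
  rw [ldb_map (μ' := cube S) (φ := fun x k => x ((Equiv.swap i i').symm k))
    (measurable_of_finite _) (cube_map_equiv _) (measurable_of_finite _)
    (fun _ => measurable_of_finite _) (measurable_of_finite _), hE, hm]
  simp only [hy]

theorem tb_zero (n : ℕ) (ca : A → ℝ) (θ : ℕ → ℝ) (b : S → Option A) (ϑ : ℕ → ℝ) (d0 : ℕ)
    (η : OG S → (S → Bool) → ℝ) : TB ζ n ca θ b ϑ d0 0 η = AV ζ n ca θ b ϑ := by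
  refine integral_congr_ae (Filter.Eventually.of_forall fun U => ?_)
  exact sl_zero (measurable_of_finite _) (fun _ => measurable_of_finite _)
    (measurable_of_finite _) n d0 _

theorem av_congr (n : ℕ) (ca : A → ℝ) (b : S → Option A) {θ θ' ϑ ϑ' : ℕ → ℝ}
    (h : ∀ d, 1 ≤ d → d ≤ n → θ d = θ' d) (h' : ∀ d, d ≤ n → ϑ d = ϑ' d) :
    AV ζ n ca θ b ϑ = AV ζ n ca θ' b ϑ' := by
  refine integral_congr_ae (Filter.Eventually.of_forall fun U => ?_)
  show XM ζ n _ _ U = XM ζ n _ _ U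
  rw [cb_congr ca b (h' 0 (Nat.zero_le n))]
  exact ls_congr n (sb_congr b h fun d _ hd => h' d hd)

theorem tb_unif (L : ℝ) : ∃ C : ℝ, 0 ≤ C ∧
    ∀ (S A : Type) [Fintype S] [DecidableEq S] [Fintype A] [DecidableEq A] (ζ : ℕ → ℝ) (n : ℕ)
      (ca : A → ℝ) (θ : ℕ → ℝ) (b : S → Option A) (ϑ : ℕ → ℝ) (η : OG S → (S → Bool) → ℝ)
      (d : ℕ) (σ : ℝ), Zok ζ → ζ 0 = 1 → Measurable (Function.uncurry η) →
      (∀ U x, |η U x| ≤ L) → d ≤ n → 0 ≤ σ → σ ≤ 1 →
      |TB ζ n ca θ b ϑ d σ η - AV ζ n ca θ b ϑ - σ / 2 * DB ζ n ca θ b ϑ η d|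
        ≤ C * (σ * √σ) := by
  obtain ⟨C, hC, h⟩ := unifS L
  refine ⟨C, hC, fun S A _ _ _ _ ζ n ca θ b ϑ η d σ hζ hz hη hL hd h0 h1 => ?_⟩
  have hb : BM (Function.uncurry η) := ⟨hη, L, fun p => hL p.1 p.2⟩
  have i1 := bm_TB hζ hz n ca θ b ϑ d σ hb
  have i2 := bm_XB hζ hz n ca θ b ϑ
  have i3 := (bm_DB hζ hz n ca θ b ϑ hb d).const_mul (σ / 2)
  unfold TB AV DB
  rw [← integral_const_mul, ← integral_sub i1.integrable i2.integrable,
    ← integral_sub (i1.sub i2).integrable i3.integrable]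
  refine abs_int_le fun U => ?_
  exact h S (S → Bool) (cube S) ζ (sb θ ϑ b) (lsH (EQ (cb ca ϑ b) U) (yv U)) (fun _ x => η U x)
    hζ hz (sb_nonneg θ ϑ b) (hg_lsH (bm_fin _) fun _ => bm_fin _) (bm2_const (bm_fin _)).1
    (fun _ x => hL U x) n d hd σ h0 h1

variable (hζ : Zok ζ) (hz : ζ 0 = 1) (n : ℕ) (ca : A → ℝ) (θ : ℕ → ℝ) (b : S → Option A)
  (ϑ : ℕ → ℝ)
include hζ hz

theorem sum_db (d : ℕ) :
    ∑ i, DB ζ n ca θ b ϑ (fun U x => yv U i x) d = ∑ i, DB ζ n ca θ b ϑ (fun _ x => sp x i) d := by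
  unfold DB
  rw [← integral_finsetSum _ fun i _ => (bm_DB hζ hz n ca θ b ϑ (bm_yv i) d).integrable,
    ← integral_finsetSum _ fun i _ => (bm_DB hζ hz n ca θ b ϑ (bm_sp i) d).integrable]
  refine integral_congr_ae (Filter.Eventually.of_forall fun U => ?_)
  have h := db_kernel (μ := cube S) (ν := gvs (sb θ ϑ b))
    (hg_lsH (E := EQ (cb ca ϑ b) U) (ξ := yv U) (bm_fin _) fun _ => bm_fin _) hζ
    (fun _ => noise_gv _) (m := fun i _ x => yv U i x) (m' := fun i _ x => sp x i)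
    (fun _ => bm2_const (bm_fin _)) (fun _ => bm2_const (bm_fin _)) (s := fun _ => 1)
    (s' := fun _ => 1) (fun _ x _ x' => by simp only [one_mul, yv_dot]) n d
  simp only [one_mul] at h
  exact h

theorem sum_db_zero : ∑ i, DB ζ n ca θ b ϑ (fun U x => yv U i x) 0 = Fintype.card S := by
  unfold DB
  rw [← integral_finsetSum _ fun i _ => (bm_DB hζ hz n ca θ b ϑ (bm_yv i) 0).integrable]
  have h : ∀ U : OG S, ∑ i, lDb (cube S) ζ n (sb θ ϑ b) (EQ (cb ca ϑ b) U) (yv U)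
      (fun x => yv U i x) 0 = Fintype.card S := fun U => by
    simp only [ldb_zero hζ (bm_fin _) fun _ => bm_fin _]
    rw [← leg_sum hζ (bm_fin _) (fun _ => bm_fin _) n _ _ fun _ _ => bm_fin _]
    simp only [yv_sum_sq]
    exact leg_const hζ (bm_fin _) (fun _ => bm_fin _) n _ _
  simp only [h, integral_const, probReal_univ, one_smul]

theorem db_y_nonneg (i : S) {d : ℕ} (hd : d ≤ n) :
    0 ≤ DB ζ n ca θ b ϑ (fun U x => yv U i x) d := by
  have _ := hz
  exact integral_nonneg fun U => ldb_nonneg hζ (bm_fin _) (fun _ => bm_fin _) n _ (bm_fin _) hd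

theorem db_y_le (i : S) (d : ℕ) :
    DB ζ n ca θ b ϑ (fun U x => yv U i x) d ≤ DB ζ n ca θ b ϑ (fun U x => yv U i x) 0 := by
  exact integral_mono (bm_DB hζ hz n ca θ b ϑ (bm_yv i) d).integrable
    (bm_DB hζ hz n ca θ b ϑ (bm_yv i) 0).integrable
    fun U => ldb_le hζ (bm_fin _) (fun _ => bm_fin _) n _ _ d

theorem db_clip (j : S) {L : ℝ} (hL : 0 < L) {d : ℕ} (hd : d ≤ n) :
    |DB ζ n ca θ b ϑ (fun U x => clp L (yv U j x)) d - DB ζ n ca θ b ϑ (fun U x => yv U j x) d|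
      ≤ (2 + 3 * GB ζ n ca θ b ϑ fun U x => yv U j x ^ 4) / L := by
  have i1 := bm_DB hζ hz n ca θ b ϑ (bm_clp L j) d
  have i2 := bm_DB hζ hz n ca θ b ϑ (bm_yv j) d
  have i3 := bm_GB hζ hz n ca θ b ϑ (g := fun U x => yv U j x ^ 4) ((bm_yv j).pow 4)
  have key : ∀ U : OG S,
      |lDb (cube S) ζ n (sb θ ϑ b) (EQ (cb ca ϑ b) U) (yv U) (fun x => clp L (yv U j x)) d
        - lDb (cube S) ζ n (sb θ ϑ b) (EQ (cb ca ϑ b) U) (yv U) (fun x => yv U j x) d|
      ≤ 3 / L * lEG (cube S) ζ n (sb θ ϑ b) (EQ (cb ca ϑ b) U) (yv U) (fun x => yv U j x ^ 4)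
        + 2 / L := fun U => by
    have hE : BM (EQ (cb ca ϑ b) U) := bm_fin _
    have hξ : ∀ i, BM (yv U i) := fun _ => bm_fin _
    have h := db_sub_le (μ := cube S) (ν := gvs (sb θ ϑ b)) (hg_lsH hE hξ) hζ
      (fun _ => noise_gv _) (m := fun _ x => clp L (yv U j x)) (m' := fun _ x => yv U j x)
      (bm2_const (bm_fin _)) (bm2_const (bm_fin _)) hd (inv_pos.2 hL)
    have h1 := leg_mono (μ := cube S) hζ hE hξ n (sb θ ϑ b)
      (g := fun x => (clp L (yv U j x) - yv U j x) ^ 2) (g' := fun x => L⁻¹ ^ 2 * yv U j x ^ 4)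
      (bm_fin _) (bm_fin _) fun x => (clp_sq hL _).1
    have h2 := leg_mono (μ := cube S) hζ hE hξ n (sb θ ϑ b)
      (g := fun x => (clp L (yv U j x) + yv U j x) ^ 2) (g' := fun x => 2 + 2 * yv U j x ^ 4)
      (bm_fin _) (bm_fin _) fun x => (clp_sq hL _).2
    rw [leg_const_mul] at h1
    rw [leg_add hζ hE hξ n _ (bm_fin _) (bm_fin _), leg_const hζ hE hξ, leg_const_mul] at h2
    refine h.trans ((add_le_add (div_le_div_of_nonneg_right h1 (inv_pos.2 hL).le)
      (mul_le_mul_of_nonneg_left h2 (inv_pos.2 hL).le)).trans_eq ?_)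
    field_simp
    ring
  have h1 := int_le_add (i1.sub i2).abs (i3.const_mul (3 / L)) key
  unfold DB GB
  rw [← integral_sub i1.integrable i2.integrable]
  refine (abs_integral_le_integral_abs.trans h1).trans_eq ?_
  rw [integral_const_mul]
  ring

theorem av_jensen (ca' : A → ℝ) {ϑ' : ℕ → ℝ} (h : ∀ d, 1 ≤ d → d ≤ n → ϑ' d = ϑ d) :
    -(∑ i, (cb ca' ϑ' b i - cb ca ϑ b i) * DB ζ n ca θ b ϑ (fun U x => yv U i x) 0) / 2
      ≤ AV ζ n ca' θ b ϑ' - AV ζ n ca θ b ϑ := by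
  have i1 : ∀ i, BM fun U => (cb ca' ϑ' b i - cb ca ϑ b i) *
      lDb (cube S) ζ n (sb θ ϑ b) (EQ (cb ca ϑ b) U) (yv U) (fun x => yv U i x) 0 :=
    fun i => (bm_DB hζ hz n ca θ b ϑ (bm_yv i) 0).const_mul _
  have h1 := int_le ((BM.sum Finset.univ fun i _ => i1 i).const_mul (-1 / 2))
    (bm_XB hζ hz n ca' θ b ϑ') (bm_XB hζ hz n ca θ b ϑ) fun U => by
      have hE : BM (EQ (cb ca ϑ b) U) := bm_fin _
      have hξ : ∀ i, BM (yv U i) := fun _ => bm_fin _
      have h2 := ls_jensen (μ := cube S) hζ hE hξ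
        (g := fun x => -1 / 2 * ∑ i, (cb ca' ϑ' b i - cb ca ϑ b i) * yv U i x ^ 2) (bm_fin _) n
        (sb θ ϑ b)
      have h3 : (fun x => EQ (cb ca ϑ b) U x
          + -1 / 2 * ∑ i, (cb ca' ϑ' b i - cb ca ϑ b i) * yv U i x ^ 2)
          = EQ (cb ca' ϑ' b) U := by
        funext x
        simp only [EQ, sub_mul, Finset.sum_sub_distrib]
        ring
      rw [h3, leg_const_mul, leg_sum hζ hE hξ n _ _ fun _ _ => bm_fin _,
        ls_congr (E := EQ (cb ca' ϑ' b) U) n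
          (sb_congr b (fun _ _ _ => rfl) fun d h1 h2 => (h d h1 h2).symm)] at h2
      simp only [leg_const_mul, ← ldb_zero hζ hE hξ] at h2
      exact h2
  rw [integral_const_mul, integral_finsetSum _ fun i _ => (i1 i).integrable] at h1
  simp only [integral_const_mul] at h1
  refine le_trans (le_of_eq ?_) h1
  unfold DB
  ring

theorem av_tan_top {d : ℕ} (hd : 1 ≤ d) (hdn : d ≤ n) (h0 : 0 < ϑ d) {y : ℝ} (hy : 0 ≤ ϑ d + y) :
    y * (ϑ d * ∑ i : {i // b i = none}, DB ζ n ca θ b ϑ (fun U x => yv U i.1 x) d)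
      ≤ AV ζ n ca θ b (Function.update ϑ d (ϑ d + y)) - AV ζ n ca θ b ϑ := by
  have i1 : ∀ i : {i // b i = none}, BM fun U =>
      lDb (cube S) ζ n (sb θ ϑ b) (EQ (cb ca ϑ b) U) (yv U) (fun x => yv U i.1 x) d :=
    fun i => bm_DB hζ hz n ca θ b ϑ (bm_yv i.1) d
  have h1 := int_le (((BM.sum Finset.univ fun i _ => i1 i).const_mul (ϑ d)).const_mul y)
    (bm_XB hζ hz n ca θ b (Function.update ϑ d (ϑ d + y))) (bm_XB hζ hz n ca θ b ϑ) fun U => by
      unfold XB XM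
      rw [cb_congr ca b (Function.update_of_ne (by omega : 0 ≠ d) (ϑ d + y) ϑ)]
      exact ls_tangent hζ hz (bm_fin _) (fun _ => bm_fin _) (fam_top θ b) ϑ hd hdn h0 hy
  rw [integral_const_mul, integral_const_mul,
    integral_finsetSum _ fun i _ => (i1 i).integrable] at h1
  exact h1

theorem av_tan_rest {d : ℕ} (hd : 1 ≤ d) (hdn : d ≤ n) (h0 : 0 < θ d) {y : ℝ} (hy : 0 ≤ θ d + y) :
    y * (θ d * ∑ i : {i // b i ≠ none}, DB ζ n ca θ b ϑ (fun U x => yv U i.1 x) d)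
      ≤ AV ζ n ca (Function.update θ d (θ d + y)) b ϑ - AV ζ n ca θ b ϑ := by
  have i1 : ∀ i : {i // b i ≠ none}, BM fun U =>
      lDb (cube S) ζ n (sb θ ϑ b) (EQ (cb ca ϑ b) U) (yv U) (fun x => yv U i.1 x) d :=
    fun i => bm_DB hζ hz n ca θ b ϑ (bm_yv i.1) d
  have h1 := int_le (((BM.sum Finset.univ fun i _ => i1 i).const_mul (θ d)).const_mul y)
    (bm_XB hζ hz n ca (Function.update θ d (θ d + y)) b ϑ) (bm_XB hζ hz n ca θ b ϑ) fun U =>
      ls_tangent hζ hz (bm_fin _) (fun _ => bm_fin _) (fam_rest ϑ b) θ hd hdn h0 hy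
  rw [integral_const_mul, integral_const_mul,
    integral_finsetSum _ fun i _ => (i1 i).integrable] at h1
  exact h1

theorem Model2Aux.av_tan_zero (y : ℝ) :
    -(y * ∑ i : {i // b i ≠ none}, DB ζ n ca θ b ϑ (fun U x => yv U i.1 x) 0) / 2
      ≤ AV ζ n ca θ b (Function.update ϑ 0 (ϑ 0 + y)) - AV ζ n ca θ b ϑ := by
  have h := av_jensen hζ hz n ca θ b ϑ ca (ϑ' := Function.update ϑ 0 (ϑ 0 + y))
    fun d h1 _ => Function.update_of_ne (by omega) _ _
  have h1 : ∀ i : {i // b i = none},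
      cb ca (Function.update ϑ 0 (ϑ 0 + y)) b i.1 - cb ca ϑ b i.1 = 0 := fun i => by
    simp only [cb, cv, i.2, Option.elim_none, sub_self]
  have h2 : ∀ i : {i // b i ≠ none},
      cb ca (Function.update ϑ 0 (ϑ 0 + y)) b i.1 - cb ca ϑ b i.1 = y := fun i => by
    obtain ⟨a, ha⟩ := Option.ne_none_iff_exists'.1 i.2
    simp only [cb, cv, ha, Option.elim_some, Function.update_self]
    ring
  rw [← sum_split b] at h
  simp only [h1, h2, zero_mul, Finset.sum_const_zero, zero_add, ← Finset.mul_sum] at h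
  exact h

theorem av_sd {d : ℕ} (hdn : d ≤ n) {y : ℝ} (hy0 : 0 ≤ y) (hy : y < ϑ d) :
    0 ≤ AV ζ n ca θ b (Function.update ϑ d (ϑ d + y))
      + AV ζ n ca θ b (Function.update ϑ d (ϑ d - y)) - 2 * AV ζ n ca θ b ϑ := by
  rcases Nat.eq_zero_or_pos d with rfl | hd
  · have h1 := av_tan_zero hζ hz n ca θ b ϑ y
    have h2 := av_tan_zero hζ hz n ca θ b ϑ (-y)
    rw [← sub_eq_add_neg] at h2
    linarith
  · have h1 := av_tan_top hζ hz n ca θ b ϑ hd hdn (hy0.trans_lt hy) (y := y) (by linarith)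
    have h2 := av_tan_top hζ hz n ca θ b ϑ hd hdn (hy0.trans_lt hy) (y := -y) (by linarith)
    rw [← sub_eq_add_neg] at h2
    linarith

theorem av_lip (d : ℕ) (a a' : ℝ) :
    |AV ζ n ca θ b (Function.update ϑ d a) - AV ζ n ca θ b (Function.update ϑ d a')|
      ≤ Fintype.card S * (|a ^ 2 - a' ^ 2| + |a - a'|) / 2 := by
  have hN : (0 : ℝ) ≤ Fintype.card S := Nat.cast_nonneg _
  unfold AV
  rw [← integral_sub (bm_XB hζ hz n ca θ b _).integrable (bm_XB hζ hz n ca θ b _).integrable]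
  refine abs_int_le fun U => ?_
  have hξ : ∀ i, BM (yv U i) := fun _ => bm_fin _
  unfold XB XM
  rcases Nat.eq_zero_or_pos d with rfl | hd
  · have key : ∀ a a' : ℝ,
        LS (cube S) ζ n (sb θ ϑ b) (EQ (cb ca (Function.update ϑ 0 a) b) U) (yv U)
          + -(Fintype.card S * |a - a'| / 2)
        ≤ LS (cube S) ζ n (sb θ ϑ b) (EQ (cb ca (Function.update ϑ 0 a') b) U) (yv U) :=
      fun a a' => ls_le hζ (bm_fin _) (bm_fin _) hξ (fun x => by
        rw [EQ_cb ca (Function.update ϑ 0 a), EQ_cb ca (Function.update ϑ 0 a'),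
          Function.update_self, Function.update_self]
        obtain ⟨h1, h2⟩ := rest_bounds b U x
        have h3 := mul_le_mul_of_nonneg_right h2 (abs_nonneg (a - a'))
        have h4 := mul_le_mul_of_nonneg_left (neg_le_abs (a - a')) h1
        linarith) n _
    have hs : ∀ a : ℝ, ∀ d, d ≤ n → ∀ i, sb θ (Function.update ϑ 0 a) b d i = sb θ ϑ b d i :=
      fun a => sb_congr b (fun _ _ _ => rfl) fun d h1 _ => Function.update_of_ne (by omega) _ _
    rw [ls_congr n (hs a), ls_congr n (hs a')]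
    have h1 := key a a'
    have h2 := key a' a
    rw [abs_sub_comm a' a] at h2
    have h3 := mul_nonneg hN (abs_nonneg (a ^ 2 - a' ^ 2))
    rw [abs_le]
    constructor <;> linarith
  · rw [cb_congr ca b (Function.update_of_ne (by omega : 0 ≠ d) a ϑ),
      cb_congr ca b (Function.update_of_ne (by omega : 0 ≠ d) a' ϑ)]
    have h := ls_lip (μ := cube S) hζ hz (bm_fin (EQ (cb ca ϑ b) U)) hξ
      (sb_nonneg θ (Function.update ϑ d a') b) (sb_nonneg θ (Function.update ϑ d a) b) n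
      (u := fun k => if k = d then |a ^ 2 - a' ^ 2| else 0)
      (fun k => by split_ifs <;> positivity) (fun k _ i => by
        unfold sb sv
        rcases b i with _ | c
        · show |sq0 _ k - sq0 _ k| ≤ _
          unfold sq0
          by_cases hk : k = d
          · subst hk
            simp [hd.ne']
          · simp [hk]
        · simp only [Option.elim_some, sub_self, abs_zero]
          split_ifs <;> positivity) fun x => (yv_sum_sq U x).le
    refine h.trans (div_le_div_of_nonneg_right (mul_le_mul_of_nonneg_left ?_ hN) (by norm_num))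
    rw [Finset.sum_ite_eq']
    split_ifs
    · exact le_add_of_nonneg_right (abs_nonneg _)
    · positivity

theorem top_of_sdz {τ : ℕ → ℝ} {y κ : ℝ} (hy : 0 < y) (hϑ : ∀ d, 1 ≤ d → d ≤ n → y ≤ ϑ d)
    (h : SDz (AV ζ n ca θ b) ϑ τ y κ n) :
    |∑ i : {i // b i = none}, DB ζ n ca θ b ϑ (fun U x => yv U i.1 x) 0
        - (Fintype.card S + 2 * τ 0)| ≤ 2 * κ / y ∧
    ∀ d, 1 ≤ d → d ≤ n →
      |ϑ d * ∑ i : {i // b i = none}, DB ζ n ca θ b ϑ (fun U x => yv U i.1 x) d - τ d|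
        ≤ κ / y := by
  constructor
  · obtain ⟨a1, a2⟩ := h 0 (Nat.zero_le n)
    have h1 := av_tan_zero hζ hz n ca θ b ϑ y
    have h2 := av_tan_zero hζ hz n ca θ b ϑ (-y)
    rw [← sub_eq_add_neg] at h2
    have h3 := sum_split b fun i => DB ζ n ca θ b ϑ (fun U x => yv U i x) 0
    rw [sum_db_zero hζ hz] at h3
    rw [le_div_iff₀ hy, ← abs_of_pos hy, ← abs_mul, ← h3, abs_le]
    constructor <;> linarith
  · intro d hd hdn
    obtain ⟨a1, a2⟩ := h d hdn
    have h0 := hϑ d hd hdn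
    have h1 := av_tan_top hζ hz n ca θ b ϑ hd hdn (hy.trans_le h0) (y := y) (by linarith)
    have h2 := av_tan_top hζ hz n ca θ b ϑ hd hdn (hy.trans_le h0) (y := -y) (by linarith)
    rw [← sub_eq_add_neg] at h2
    rw [le_div_iff₀ hy, ← abs_of_pos hy, ← abs_mul, abs_le]
    constructor <;> linarith

theorem av_le_iso (hc : ∀ a, 0 ≤ ca a) (h0 : 0 ≤ ϑ 0)
    (h : ∀ d, 1 ≤ d → d ≤ n → θ d ^ 2 ≤ ϑ d ^ 2) :
    AV ζ n ca θ b ϑ ≤ Fintype.card S * psi n ζ (cum n (sq0 ϑ)) lc := by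
  have h1 := int_le_add (bm_XB hζ hz n ca θ b ϑ) (BM.const 0)
    (c := Fintype.card S * psi n ζ (cum n (sq0 ϑ)) lc) fun U => by
      rw [zero_add, ← ls_sp hζ]
      refine ls_cmp hζ hz (bm_fin _) (bm_fin _) (fun _ => bm_fin _) (fun _ => bm_fin _)
        (sb_nonneg θ ϑ b) (fun d _ => sq0_nonneg ϑ d) (κ := Empty) (p := fun _ _ => 0)
        (p' := yv U) (fun _ => bm_fin _) (fun _ => bm_fin _) (u := fun _ _ => 0)
        (u' := fun d i => if d ≤ n then sq0 ϑ d - sb θ ϑ b d i else 0) (fun _ _ => le_rfl)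
        (fun d i => ?_) n (fun d hd x x' => ?_) fun x => ?_
      · split_ifs with hd
        · exact sub_nonneg.2 (sb_le b h hd i)
        · exact le_rfl
      · simp only [if_pos hd, Finset.univ_eq_empty, Finset.sum_empty, sub_mul,
          Finset.sum_sub_distrib, ← Finset.mul_sum, yv_dot]
        ring
      · have h2 : 0 ≤ ∑ i, cb ca ϑ b i * yv U i x ^ 2 := by
          refine Finset.sum_nonneg fun i _ => mul_nonneg ?_ (sq_nonneg _)
          unfold cb cv
          rcases b i with _ | a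
          · exact le_rfl
          · exact add_nonneg (hc a) h0
        simp only [Finset.univ_eq_empty, Finset.sum_empty, Finset.sum_const_zero, zero_div,
          add_zero, EQ]
        linarith
  rw [integral_zero, zero_add] at h1
  exact h1

theorem av_ge_F0 (h0 : 0 ≤ ϑ 0) :
    ∫ U, F0 (cb ca 0 b) U ∂(haarO S) - Fintype.card S * ϑ 0 / 2 ≤ AV ζ n ca θ b ϑ := by
  rw [sub_le_iff_le_add]
  simp only [f0_eq ζ n]
  refine int_le_add (bm_XM hζ hz n (fun _ _ => le_rfl) _) (bm_XB hζ hz n ca θ b ϑ) fun U => ?_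
  have hξ : ∀ i, BM (yv U i) := fun _ => bm_fin _
  have h1 : XM ζ n (fun _ _ => 0) (cb ca 0 b) U ≤ XM ζ n (sb θ ϑ b) (cb ca 0 b) U :=
    ls_cmp hζ hz (bm_fin _) (bm_fin _) hξ hξ (fun _ _ => le_rfl) (sb_nonneg θ ϑ b) (κ := Empty)
      (p := fun _ _ => 0) (p' := yv U) (fun _ => bm_fin _) hξ (u := fun _ _ => 0)
      (u' := sb θ ϑ b) (fun _ _ => le_rfl) (sb_nonneg θ ϑ b) n (fun d _ x x' => by simp)
      fun x => by simp
  have h2 : XM ζ n (sb θ ϑ b) (cb ca 0 b) U + -(Fintype.card S * ϑ 0 / 2)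
      ≤ XB ζ n ca θ b ϑ U :=
    ls_le hζ (bm_fin _) (bm_fin _) hξ (fun x => by
      rw [EQ_cb ca ϑ]
      have h3 := mul_le_mul_of_nonneg_left (rest_bounds b U x).2 h0
      linarith) n _
  linarith

theorem av_le_F0 (h0 : 0 ≤ ϑ 0) (h : ∀ d, 1 ≤ d → d ≤ n → θ d ^ 2 ≤ ϑ d ^ 2) :
    AV ζ n ca θ b ϑ ≤ ∫ U, F0 (cb ca 0 b) U ∂(haarO S)
      + Fintype.card S * (∑ d ∈ Finset.Icc 1 n, ϑ d ^ 2) / 2 := by
  simp only [f0_eq ζ n]
  refine int_le_add (bm_XB hζ hz n ca θ b ϑ) (bm_XM hζ hz n (fun _ _ => le_rfl) _) fun U => ?_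
  have hξ : ∀ i, BM (yv U i) := fun _ => bm_fin _
  have h1 : XB ζ n ca θ b ϑ U ≤ LS (cube S) ζ n (fun _ _ => 0) (fun x => EQ (cb ca 0 b) U x
      + Fintype.card S * (∑ d ∈ Finset.Icc 1 n, ϑ d ^ 2) / 2) (yv U) := by
    refine ls_cmp hζ hz (bm_fin _) (bm_fin _) hξ hξ (sb_nonneg θ ϑ b) (fun _ _ => le_rfl)
      (κ' := Empty) (p := yv U) (p' := fun _ _ => 0) hξ (fun _ => bm_fin _) (u := sb θ ϑ b)
      (u' := fun _ _ => 0) (sb_nonneg θ ϑ b) (fun _ _ => le_rfl) n (fun d _ x x' => by simp)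
      fun x => ?_
    have h2 : ∑ d ∈ Finset.range (n + 1), ∑ k, sb θ ϑ b d k * yv U k x ^ 2
        ≤ Fintype.card S * ∑ d ∈ Finset.Icc 1 n, ϑ d ^ 2 := by
      rw [← sum_sq0, Finset.mul_sum]
      refine Finset.sum_le_sum fun d hd => ?_
      rw [← yv_sum_sq U x, Finset.sum_mul]
      refine Finset.sum_le_sum fun k _ => ?_
      rw [mul_comm]
      exact mul_le_mul_of_nonneg_left
        (sb_le b h (Nat.lt_succ_iff.1 (Finset.mem_range.1 hd)) k) (sq_nonneg _)
    have h3 := mul_nonneg h0 (rest_bounds b U x).1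
    rw [EQ_cb ca ϑ]
    linarith
  have h4 := ls_le (μ := cube S) hζ (bm_fin fun x => EQ (cb ca 0 b) U x
      + Fintype.card S * (∑ d ∈ Finset.Icc 1 n, ϑ d ^ 2) / 2) (bm_fin (EQ (cb ca 0 b) U)) hξ
    (c := -(Fintype.card S * (∑ d ∈ Finset.Icc 1 n, ϑ d ^ 2) / 2)) (fun x => by linarith) n
    fun _ _ => 0
  unfold XM
  linarith

end Vale.Agent.P166
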