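import Vale.Agent.P166.Defs

/-! # The R-transform of finitely many atoms -/

namespace Vale.Agent.P166

open Vale.Agent.P157

variable {O : Type} [Fintype O] {c c' : O → ℝ} {cm : ℝ}

namespace OneDAux

omit [Fintype O] in
theorem ne (h : Cok c cm) : Nonempty O := ⟨h.zero.choose⟩

theorem card_pos (h : Cok c cm) : (0 : ℝ) < Fintype.card O := by
  have := ne h
  exact_mod_cast Fintype.card_pos

omit [Fintype O] in
theorem den_pos (h : Cok c cm) {δ : ℝ} (hδ : 0 ≤ δ) (o : O) : 0 < 1 + c o * δ := by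
  have := mul_nonneg (h.nn o) hδ
  linarith

theorem s1_pos (h : Cok c cm) {δ : ℝ} (hδ : 0 ≤ δ) : 0 < ∑ o, 1 / (1 + c o * δ) := by
  have := ne h
  exact Finset.sum_pos (fun o _ => one_div_pos.2 (den_pos h hδ o)) Finset.univ_nonempty

theorem s2_pos (h : Cok c cm) {δ : ℝ} (hδ : 0 ≤ δ) : 0 < ∑ o, 1 / (1 + c o * δ) ^ 2 := by
  have := ne h
  exact Finset.sum_pos (fun o _ => one_div_pos.2 (pow_pos (den_pos h hδ o) 2))
    Finset.univ_nonempty

omit [Fintype O] in
theorem term_le (h : Cok c cm) {δ δ' : ℝ} (hδ : 0 ≤ δ) (hδ' : δ < δ') (o : O) :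
    δ / (1 + c o * δ) < δ' / (1 + c o * δ') := by
  rw [div_lt_div_iff₀ (den_pos h hδ o) (den_pos h (hδ.trans hδ'.le) o)]
  linarith

theorem Mf_grow (h : Cok c cm) {δ δ' : ℝ} (hδ : 0 ≤ δ) (hδ' : δ ≤ δ') :
    δ' - δ ≤ Fintype.card O * (Mf c δ' - Mf c δ) := by
  obtain ⟨o, ho⟩ := h.zero
  have h1 := Finset.single_le_sum (s := Finset.univ)
    (f := fun o => δ' / (1 + c o * δ') - δ / (1 + c o * δ)) (a := o) (fun o _ => by
      rcases hδ'.eq_or_lt with e | e
      · rw [e, sub_self]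
      · exact sub_nonneg.2 (term_le h hδ e o).le) (Finset.mem_univ o)
  simp only [ho, zero_mul, add_zero, div_one, Finset.sum_sub_distrib] at h1
  unfold Mf avg
  rw [← sub_div, mul_div_cancel₀ _ (card_pos h).ne']
  exact h1

/-- symmetrisation of a difference of products of sums -/
theorem sym (u p p' : O → ℝ) :
    2 * ((∑ o, u o * p o) * ∑ o, p' o - (∑ o, u o * p' o) * ∑ o, p o) =
      ∑ o, ∑ o', (u o - u o') * (p o * p' o' - p' o * p o') := by
  have e1 : ∑ o, ∑ o', u o * p o * p' o' = (∑ o, u o * p o) * ∑ o, p' o :=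
    (Finset.sum_mul_sum _ _ _ _).symm
  have e2 : ∑ o, ∑ o', u o * p' o * p o' = (∑ o, u o * p' o) * ∑ o, p o :=
    (Finset.sum_mul_sum _ _ _ _).symm
  have e3 : ∑ o, ∑ o', u o' * p' o' * p o = (∑ o, u o * p' o) * ∑ o, p o := by
    rw [Finset.sum_comm, e2]
  have e4 : ∑ o, ∑ o', u o' * p o' * p' o = (∑ o, u o * p o) * ∑ o, p' o := by
    rw [Finset.sum_comm, e1]
  have e5 : ∀ o o', (u o - u o') * (p o * p' o' - p' o * p o') =
      u o * p o * p' o' - u o * p' o * p o' - u o' * p' o' * p o + u o' * p o' * p' o := by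
    intro o o'; ring
  simp only [e5, Finset.sum_add_distrib, Finset.sum_sub_distrib, e1, e2, e3, e4]
  ring

omit [Fintype O] in
theorem cross (h : Cok c cm) {δ δ' : ℝ} (hδ : 0 ≤ δ) (hδ' : 0 ≤ δ') (o o' : O) :
    1 / (1 + c o * δ) * (1 / (1 + c o' * δ')) - 1 / (1 + c o * δ') * (1 / (1 + c o' * δ)) =
      (c o - c o') * (δ' - δ) * (1 / (1 + c o * δ) * (1 / (1 + c o' * δ'))) *
        (1 / (1 + c o * δ') * (1 / (1 + c o' * δ))) := by
  have h1 := (den_pos h hδ o).ne'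
  have h2 := (den_pos h hδ o').ne'
  have h3 := (den_pos h hδ' o).ne'
  have h4 := (den_pos h hδ' o').ne'
  have e : (c o - c o') * (δ' - δ) =
      (1 + c o * δ') * (1 + c o' * δ) - (1 + c o * δ) * (1 + c o' * δ') := by ring
  rw [e]
  generalize 1 + c o * δ = p at h1
  generalize 1 + c o' * δ = q at h2
  generalize 1 + c o * δ' = p' at h3
  generalize 1 + c o' * δ' = q' at h4
  field_simp

theorem rt_diff (h : Cok c cm) {δ δ' : ℝ} (hδ : 0 ≤ δ) (hδ' : δ ≤ δ') :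
    0 ≤ rt c δ' - rt c δ ∧ rt c δ' - rt c δ ≤ cm ^ 2 * (δ' - δ) := by
  have hδ0 := hδ.trans hδ'
  have h1 := s1_pos h hδ
  have h2 := s1_pos h hδ0
  have hs := sym c (fun o => 1 / (1 + c o * δ)) (fun o => 1 / (1 + c o * δ'))
  have hp : ∀ o o', 0 ≤ (c o - c o') * (1 / (1 + c o * δ) * (1 / (1 + c o' * δ')) -
      1 / (1 + c o * δ') * (1 / (1 + c o' * δ))) ∧
      (c o - c o') * (1 / (1 + c o * δ) * (1 / (1 + c o' * δ')) -
      1 / (1 + c o * δ') * (1 / (1 + c o' * δ))) ≤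
      cm ^ 2 * (δ' - δ) * (1 / (1 + c o * δ) * (1 / (1 + c o' * δ'))) := by
    intro o o'
    rw [cross h hδ hδ0]
    have a1 := one_div_pos.2 (den_pos h hδ o)
    have a2 := one_div_pos.2 (den_pos h hδ o')
    have a3 := one_div_pos.2 (den_pos h hδ0 o)
    have a4 := one_div_pos.2 (den_pos h hδ0 o')
    have b2 : 1 / (1 + c o' * δ) ≤ 1 := by
      rw [div_le_one (den_pos h hδ o')]
      linarith [mul_nonneg (h.nn o') hδ]
    have b3 : 1 / (1 + c o * δ') ≤ 1 := by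
      rw [div_le_one (den_pos h hδ0 o)]
      linarith [mul_nonneg (h.nn o) hδ0]
    have b4 : (c o - c o') ^ 2 ≤ cm ^ 2 :=
      sq_le_sq' (by linarith [h.nn o, h.le o']) (by linarith [h.nn o', h.le o])
    have b5 : 1 / (1 + c o * δ') * (1 / (1 + c o' * δ)) ≤ 1 := mul_le_one₀ b3 a2.le b2
    have b6 := sub_nonneg.2 hδ'
    set A := 1 / (1 + c o * δ) * (1 / (1 + c o' * δ'))
    set B := 1 / (1 + c o * δ') * (1 / (1 + c o' * δ))
    have hA : 0 < A := mul_pos a1 a4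
    have hB : 0 < B := mul_pos a3 a2
    have e : (c o - c o') * ((c o - c o') * (δ' - δ) * A * B) =
        (c o - c o') ^ 2 * (δ' - δ) * A * B := by ring
    rw [e]
    refine ⟨by positivity, ?_⟩
    calc _ ≤ cm ^ 2 * (δ' - δ) * A * 1 := by gcongr
      _ = _ := mul_one _
  have hl := Finset.sum_nonneg fun o (_ : o ∈ Finset.univ) =>
    Finset.sum_nonneg fun o' (_ : o' ∈ Finset.univ) => (hp o o').1
  have hu := Finset.sum_le_sum fun o (_ : o ∈ Finset.univ) =>
    Finset.sum_le_sum fun o' (_ : o' ∈ Finset.univ) => (hp o o').2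
  simp only [← Finset.mul_sum, ← Finset.sum_mul] at hu
  rw [← hs] at hl hu
  simp only [mul_one_div] at hl hu
  have e : rt c δ' - rt c δ = ((∑ o, c o / (1 + c o * δ)) * ∑ o, 1 / (1 + c o * δ') -
      (∑ o, c o / (1 + c o * δ')) * ∑ o, 1 / (1 + c o * δ)) /
      ((∑ o, 1 / (1 + c o * δ)) * ∑ o, 1 / (1 + c o * δ')) := by
    unfold rt
    generalize ∑ o, 1 / (1 + c o * δ) = p at h1
    generalize ∑ o, 1 / (1 + c o * δ') = q at h2
    generalize ∑ o, c o / (1 + c o * δ) = p'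
    generalize ∑ o, c o / (1 + c o * δ') = q'
    field_simp
    ring
  rw [e]
  refine ⟨div_nonneg (by linarith) (mul_pos h1 h2).le, ?_⟩
  rw [div_le_iff₀ (mul_pos h1 h2)]
  linarith

end OneDAux

open OneDAux

theorem cok_cv {A : Type} [Fintype A] {ca : A → ℝ} {a0 cm : ℝ} (h0 : 0 ≤ cm)
    (h : ∀ a, 0 ≤ ca a + a0 ∧ ca a + a0 ≤ cm) : Cok (cv ca a0) cm := by
  refine ⟨fun o => ?_, fun o => ?_, ⟨none, rfl⟩⟩
  · cases o with
    | none => exact le_rfl
    | some a => exact (h a).1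
  · cases o with
    | none => exact h0
    | some a => exact (h a).2

theorem Mf_zero (c : O → ℝ) : Mf c 0 = 0 := by
  simp [Mf, avg]

theorem Mf_strictMono (h : Cok c cm) : StrictMonoOn (Mf c) (Set.Ici 0) := by
  intro δ hδ δ' _ hlt
  have := ne h
  exact div_lt_div_of_pos_right
    (Finset.sum_lt_sum_of_nonempty Finset.univ_nonempty fun o _ => term_le h hδ hlt o)
    (card_pos h)

theorem hasDerivAt_Mf (h : Cok c cm) {δ : ℝ} (hδ : 0 ≤ δ) :
    HasDerivAt (Mf c) (avg fun o => 1 / (1 + c o * δ) ^ 2) δ := by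
  have h1 : ∀ o, HasDerivAt (fun δ => δ / (1 + c o * δ)) (1 / (1 + c o * δ) ^ 2) δ := by
    intro o
    have h2 := (hasDerivAt_id' δ).fun_div
      (((hasDerivAt_id' δ).const_mul (c o)).const_add 1) (den_pos h hδ o).ne'
    refine h2.congr_deriv ?_
    congr 1
    ring
  exact (HasDerivAt.fun_sum fun o _ => h1 o).div_const _

theorem Minv_nonneg (c : O → ℝ) (x : ℝ) : 0 ≤ Minv c x :=
  Real.sInf_nonneg fun _ h => h.1

theorem Minv_Mf (h : Cok c cm) {δ : ℝ} (hδ : 0 ≤ δ) : Minv c (Mf c δ) = δ := by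
  have e : {δ' | 0 ≤ δ' ∧ Mf c δ ≤ Mf c δ'} = Set.Ici δ := by
    ext δ'
    constructor
    · rintro ⟨h1, h2⟩
      exact ((Mf_strictMono h).le_iff_le hδ h1).1 h2
    · intro h1
      exact ⟨hδ.trans h1, (Mf_strictMono h).monotoneOn hδ (hδ.trans h1) h1⟩
  unfold Minv
  rw [e, csInf_Ici]

theorem Mf_Minv (h : Cok c cm) {x : ℝ} (hx : 0 ≤ x) : Mf c (Minv c x) = x := by
  have hN := card_pos h
  have h0 : 0 ≤ Fintype.card O * x := mul_nonneg hN.le hx
  have hc : ContinuousOn (Mf c) (Set.Icc 0 (Fintype.card O * x)) :=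
    fun δ hδ => (hasDerivAt_Mf h hδ.1).continuousAt.continuousWithinAt
  have h1 := Mf_grow h le_rfl h0
  rw [Mf_zero, sub_zero, sub_zero] at h1
  obtain ⟨δ, hδ, rfl⟩ := intermediate_value_Icc h0 hc
    (show x ∈ Set.Icc _ _ from ⟨by rwa [Mf_zero], le_of_mul_le_mul_left h1 hN⟩)
  rw [Minv_Mf h hδ.1]

theorem OneDAux.Minv_of_nonpos (c : O → ℝ) {x : ℝ} (hx : x ≤ 0) : Minv c x = 0 :=
  le_antisymm (csInf_le ⟨0, fun _ h => h.1⟩ ⟨le_rfl, by rwa [Mf_zero]⟩) (Minv_nonneg c x)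

theorem Minv_mono (h : Cok c cm) : Monotone (Minv c) := by
  intro x x' hx
  rcases le_total x 0 with h0 | h0
  · rw [Minv_of_nonpos c h0]
    exact Minv_nonneg c x'
  · refine ((Mf_strictMono h).le_iff_le (Minv_nonneg c x) (Minv_nonneg c x')).1 ?_
    rwa [Mf_Minv h h0, Mf_Minv h (h0.trans hx)]

theorem Minv_pos (h : Cok c cm) {x : ℝ} (hx : 0 < x) : 0 < Minv c x := by
  refine lt_of_le_of_ne (Minv_nonneg c x) fun e => ?_
  have := Mf_Minv h hx.le
  rw [← e, Mf_zero] at this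
  exact hx.ne this

theorem OneDAux.Minv_lip (h : Cok c cm) {x x' : ℝ} (hx : x ≤ x') :
    Minv c x' - Minv c x ≤ Fintype.card O * (x' - x) := by
  have hN := card_pos h
  have h1 := Mf_grow h (Minv_nonneg c x) (Minv_mono h hx)
  rcases le_total x' 0 with h0 | h0
  · rw [Minv_of_nonpos c h0, Minv_of_nonpos c (hx.trans h0), sub_self]
    exact mul_nonneg hN.le (sub_nonneg.2 hx)
  rw [Mf_Minv h h0] at h1
  rcases le_total x 0 with h2 | h2
  · rw [Minv_of_nonpos c h2, Mf_zero] at h1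
    rw [Minv_of_nonpos c h2]
    exact h1.trans (mul_le_mul_of_nonneg_left (by linarith) hN.le)
  · rwa [Mf_Minv h h2] at h1

theorem continuous_Minv (h : Cok c cm) : Continuous (Minv c) := by
  refine (LipschitzWith.of_dist_le' (K := Fintype.card O) fun x x' => ?_).continuous
  rw [Real.dist_eq, Real.dist_eq]
  rcases le_total x x' with hx | hx
  · rw [abs_sub_comm, abs_sub_comm x, abs_of_nonneg (sub_nonneg.2 (Minv_mono h hx)),
      abs_of_nonneg (sub_nonneg.2 hx)]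
    exact Minv_lip h hx
  · rw [abs_of_nonneg (sub_nonneg.2 (Minv_mono h hx)), abs_of_nonneg (sub_nonneg.2 hx)]
    exact Minv_lip h hx

theorem continuousOn_rt (h : Cok c cm) : ContinuousOn (rt c) (Set.Ici 0) := by
  have h1 : ∀ (o : O) (a : ℝ), ContinuousOn (fun δ => a / (1 + c o * δ)) (Set.Ici 0) :=
    fun o a => continuousOn_const.div (by fun_prop) fun δ hδ => (den_pos h hδ o).ne'
  exact (continuousOn_finsetSum _ fun o _ => h1 o _).neg.div
    (continuousOn_finsetSum _ fun o _ => h1 o _) fun δ hδ => (s1_pos h hδ).ne'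

theorem continuous_Rc (h : Cok c cm) : Continuous (Rc c) :=
  (continuousOn_rt h).comp_continuous (continuous_Minv h) (Minv_nonneg c)

theorem Rc_bounds (h : Cok c cm) (x : ℝ) : -cm ≤ Rc c x ∧ Rc c x ≤ 0 := by
  have hδ := Minv_nonneg c x
  have h1 := s1_pos h hδ
  unfold Rc rt
  constructor
  · rw [le_div_iff₀ h1, neg_mul, neg_le_neg_iff, Finset.mul_sum]
    refine Finset.sum_le_sum fun o _ => ?_
    rw [mul_one_div]
    exact div_le_div_of_nonneg_right (h.le o) (den_pos h hδ o).le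
  · exact div_nonpos_of_nonpos_of_nonneg (neg_nonpos.2 (Finset.sum_nonneg fun o _ =>
      div_nonneg (h.nn o) (den_pos h hδ o).le)) h1.le

theorem Rc_eq (h : Cok c cm) {x : ℝ} (hx : 0 < x) : Rc c x = (Minv c x)⁻¹ - x⁻¹ := by
  have hδ := Minv_pos h hx
  have h1 := s1_pos h hδ.le
  have h2 := Mf_Minv h hx.le
  have hN := card_pos h
  unfold Rc
  generalize Minv c x = δ at hδ h1 h2
  have e1 : Mf c δ = δ * (∑ o, 1 / (1 + c o * δ)) / Fintype.card O := by
    unfold Mf avg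
    simp only [Finset.mul_sum, mul_one_div]
  have e2 : δ * ∑ o, c o / (1 + c o * δ) = Fintype.card O - ∑ o, 1 / (1 + c o * δ) := by
    rw [eq_sub_iff_add_eq, Finset.mul_sum, ← Finset.sum_add_distrib, ← Finset.card_univ,
      Finset.card_eq_sum_ones, Nat.cast_sum]
    refine Finset.sum_congr rfl fun o _ => ?_
    rw [← mul_div_assoc, ← add_div, Nat.cast_one, div_eq_one_iff_eq (den_pos h hδ.le o).ne']
    ring
  rw [← h2, e1]
  unfold rt
  generalize ∑ o, 1 / (1 + c o * δ) = p at h1 e2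
  generalize ∑ o, c o / (1 + c o * δ) = p' at e2
  field_simp
  linear_combination -e2

theorem Rc_mono (h : Cok c cm) : Monotone (Rc c) := fun x _ hx =>
  sub_nonneg.1 (rt_diff h (Minv_nonneg c x) (Minv_mono h hx)).1

theorem Rc_lip (h : Cok c cm) {x x' : ℝ} (hx : 0 ≤ x) (hxx : x ≤ x') :
    Rc c x' - Rc c x ≤ Fintype.card O * cm ^ 2 * (x' - x) := by
  have _ := hx
  refine (rt_diff h (Minv_nonneg c x) (Minv_mono h hxx)).2.trans ?_
  calc _ ≤ cm ^ 2 * (Fintype.card O * (x' - x)) :=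
        mul_le_mul_of_nonneg_left (Minv_lip h hxx) (sq_nonneg _)
    _ = _ := by ring

theorem Rc_tangent (h : Cok c cm) (h' : Cok c' cm) (x : ℝ) :
    -((∑ o, (c' o - c o) / (1 + c o * Minv c x) ^ 2) / ∑ o, 1 / (1 + c o * Minv c x) ^ 2)
      ≤ Rc c' x - Rc c x := by
  rcases le_or_gt x 0 with hx | hx
  · unfold Rc rt
    rw [Minv_of_nonpos c hx, Minv_of_nonpos c' hx]
    simp only [mul_zero, add_zero, one_pow, div_one, Finset.sum_sub_distrib]
    exact le_of_eq (by ring)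
  rw [Rc_eq h hx, Rc_eq h' hx]
  have hδ := Minv_pos h hx
  have hδ' := Minv_pos h' hx
  have h1 := s2_pos h hδ.le
  have h2 : Mf c' (Minv c' x) = Mf c (Minv c x) := by rw [Mf_Minv h hx.le, Mf_Minv h' hx.le]
  generalize Minv c x = δ at hδ h1 h2
  generalize Minv c' x = δ' at hδ' h2
  have h3 : ∑ o, δ' / (1 + c' o * δ') = ∑ o, δ / (1 + c o * δ) :=
    (div_left_inj' (card_pos h).ne').1 h2
  have h4 : ∀ o, δ / (1 + c o * δ) - δ ^ 2 * ((δ'⁻¹ - δ⁻¹) * (1 / (1 + c o * δ) ^ 2) +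
      (c' o - c o) / (1 + c o * δ) ^ 2) ≤ δ' / (1 + c' o * δ') := by
    intro o
    have a1 := den_pos h hδ.le o
    have a2 := den_pos h' hδ'.le o
    have e : δ' / (1 + c' o * δ') - (δ / (1 + c o * δ) - δ ^ 2 * ((δ'⁻¹ - δ⁻¹) *
        (1 / (1 + c o * δ) ^ 2) + (c' o - c o) / (1 + c o * δ) ^ 2)) =
        (δ' * (1 + c o * δ) - δ * (1 + c' o * δ')) ^ 2 /
          ((1 + c o * δ) ^ 2 * (δ' * (1 + c' o * δ'))) := by
      have e1 : c' o - c o = (1 + c' o * δ' - 1) / δ' - (1 + c o * δ - 1) / δ := by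
        rw [add_sub_cancel_left, add_sub_cancel_left, mul_div_cancel_right₀ _ hδ.ne',
          mul_div_cancel_right₀ _ hδ'.ne']
      rw [e1]
      generalize 1 + c o * δ = p at a1
      generalize 1 + c' o * δ' = q at a2
      field_simp
      ring
    rw [← sub_nonneg, e]
    positivity
  have h5 := Finset.sum_le_sum fun o (_ : o ∈ Finset.univ) => h4 o
  rw [h3, Finset.sum_sub_distrib, ← Finset.mul_sum, Finset.sum_add_distrib, ← Finset.mul_sum,
    sub_le_self_iff] at h5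
  have h6 := (mul_nonneg_iff_of_pos_left (pow_pos hδ 2)).1 h5
  rw [neg_le, le_div_iff₀ h1]
  linarith

theorem Rc_shift (h : Cok c cm) (h' : Cok c' cm) {a : ℝ} (hle : ∀ o, c' o ≤ c o + a) (ha : 0 ≤ a)
    (x : ℝ) : Rc c x - a ≤ Rc c' x := by
  have _ := ha
  have h1 := Rc_tangent h h' x
  have hδ := Minv_nonneg c x
  have h2 : (∑ o, (c' o - c o) / (1 + c o * Minv c x) ^ 2) /
      ∑ o, 1 / (1 + c o * Minv c x) ^ 2 ≤ a := by
    rw [div_le_iff₀ (s2_pos h hδ), Finset.mul_sum]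
    refine Finset.sum_le_sum fun o _ => ?_
    rw [mul_one_div]
    exact div_le_div_of_nonneg_right (by linarith [hle o]) (sq_nonneg _)
  linarith

theorem wavg_anti (h : Cok c cm) {u : O → ℝ} (hu : ∀ o o', 0 ≤ (c o - c o') * (u o - u o'))
    {δ δ' : ℝ} (hδ : 0 ≤ δ) (hδ' : δ ≤ δ') :
    (∑ o, u o / (1 + c o * δ') ^ 2) / ∑ o, 1 / (1 + c o * δ') ^ 2
      ≤ (∑ o, u o / (1 + c o * δ) ^ 2) / ∑ o, 1 / (1 + c o * δ) ^ 2 := by
  have hδ0 := hδ.trans hδ'
  have hs := sym u (fun o => 1 / (1 + c o * δ) ^ 2) (fun o => 1 / (1 + c o * δ') ^ 2)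
  have hp : ∀ o o', 0 ≤ (u o - u o') * (1 / (1 + c o * δ) ^ 2 * (1 / (1 + c o' * δ') ^ 2) -
      1 / (1 + c o * δ') ^ 2 * (1 / (1 + c o' * δ) ^ 2)) := by
    intro o o'
    have e := cross h hδ hδ0 o o'
    have a1 := one_div_pos.2 (den_pos h hδ o)
    have a2 := one_div_pos.2 (den_pos h hδ o')
    have a3 := one_div_pos.2 (den_pos h hδ0 o)
    have a4 := one_div_pos.2 (den_pos h hδ0 o')
    have b := hu o o'
    have b6 := sub_nonneg.2 hδ'
    simp only [← one_div_pow, ← mul_pow]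
    set A := 1 / (1 + c o * δ) * (1 / (1 + c o' * δ'))
    set B := 1 / (1 + c o * δ') * (1 / (1 + c o' * δ))
    have hA : 0 < A := mul_pos a1 a4
    have hB : 0 < B := mul_pos a3 a2
    have e2 : (u o - u o') * (A ^ 2 - B ^ 2) =
        (c o - c o') * (u o - u o') * ((δ' - δ) * A * B * (A + B)) := by
      rw [sq_sub_sq, e]; ring
    rw [e2]
    positivity
  have hl := Finset.sum_nonneg fun o (_ : o ∈ Finset.univ) =>
    Finset.sum_nonneg fun o' (_ : o' ∈ Finset.univ) => hp o o'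
  rw [← hs] at hl
  simp only [mul_one_div] at hl
  rw [div_le_div_iff₀ (s2_pos h hδ0) (s2_pos h hδ)]
  linarith

end Vale.Agent.P166
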