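import Vale.Agent.P166.OneD
import Vale.Agent.P166.Dl

/-! # The energy term of finitely many atoms -/

namespace Vale.Agent.P166

open MeasureTheory Vale.Agent.P157

variable {O : Type} [Fintype O] {c c' : O → ℝ} {cm : ℝ} {n : ℕ} {ζ q q' r : ℕ → ℝ}

namespace OneE

omit [Fintype O] in
theorem cm_nonneg (h : Cok c cm) : 0 ≤ cm := by
  obtain ⟨o, ho⟩ := h.zero
  exact ho ▸ h.le o

theorem den_pos {x δ : ℝ} (hx : 0 ≤ x) (hδ : 0 ≤ δ) : 0 < 1 + x * δ := by positivity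

theorem contOn_inv_sq (h : Cok c cm) (u : O → ℝ) :
    ContinuousOn (fun δ => ∑ o, u o / (1 + c o * δ) ^ 2) (Set.Ici 0) := by
  refine continuousOn_finsetSum _ fun o _ => ?_
  refine continuousOn_const.div (by fun_prop) fun δ hδ => ?_
  exact (pow_pos (den_pos (h.nn o) hδ) 2).ne'

theorem contOn_M' (h : Cok c cm) :
    ContinuousOn (fun δ => avg fun o => 1 / (1 + c o * δ) ^ 2) (Set.Ici 0) :=
  (contOn_inv_sq h fun _ => 1).div_const _

theorem sum_pos' (h : Cok c cm) {δ : ℝ} (hδ : 0 ≤ δ) : 0 < ∑ o, 1 / (1 + c o * δ) ^ 2 := by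
  obtain ⟨o, _⟩ := h.zero
  refine Finset.sum_pos (fun o _ => ?_) ⟨o, Finset.mem_univ o⟩
  have := den_pos (h.nn o) hδ
  positivity

theorem card_pos (h : Cok c cm) : (0 : ℝ) < Fintype.card O := by
  obtain ⟨o, _⟩ := h.zero
  exact_mod_cast Fintype.card_pos_iff.2 ⟨o⟩

theorem csDelta_top (hζ : ZAdm n ζ) (r : ℕ → ℝ) : csDelta ζ r (n + 1) = csDelta ζ r n := by
  rw [csDelta_step, hζ.zn n le_rfl, zero_mul, add_zero]

theorem Wp_top (hζ : ZAdm n ζ) (hr : CAdm n r) (x : ℝ) :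
    Wp ζ n x r n = r n * (1 / (1 + x * csDelta ζ r n) ^ 2) := by
  rw [Wp, cum, Nat.Ico_succ_singleton, Finset.sum_singleton, csDelta_top hζ, dq,
    hr.zero (n + 1) (Nat.lt_succ_self n), sub_zero, sq, mul_one_div]

theorem rhoP_top (hζ : ZAdm n ζ) (hr : CAdm n r) (c : O → ℝ) :
    rhoP ζ n c r n = r n * avg fun o => 1 / (1 + c o * csDelta ζ r n) ^ 2 := by
  simp only [rhoP, avg, Wp_top hζ hr, ← Finset.mul_sum, mul_div_assoc]

theorem zero_eq (hζ : ZAdm n ζ) (p : ℕ → ℝ) :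
    p 0 = ∑ d ∈ Finset.range n, (csDelta ζ p (d + 1) - csDelta ζ p d) / ζ d + p n := by
  have h : ∀ d ∈ Finset.range n, (csDelta ζ p (d + 1) - csDelta ζ p d) / ζ d = p d - p (d + 1) := by
    intro d hd
    have := (hζ.pos (Finset.mem_range.1 hd)).ne'
    rw [csDelta_step, dq]
    field_simp
    ring
  rw [Finset.sum_congr rfl h, Finset.sum_range_sub']
  ring

theorem subst (h : Cok c cm) {F Φ : ℝ → ℝ} (hF : ContinuousOn F (Set.Ici 0))
    (hΦ : ∀ δ, 0 ≤ δ → HasDerivAt Φ (F δ * avg fun o => 1 / (1 + c o * δ) ^ 2) δ)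
    {a b : ℝ} (ha : 0 ≤ a) (hb : 0 ≤ b) :
    ∫ x in Mf c a..Mf c b, F (Minv c x) = Φ b - Φ a := by
  have hs : Set.uIcc a b ⊆ Set.Ici 0 := fun x hx => (le_min ha hb).trans hx.1
  have hg : Continuous fun x => F (Minv c x) :=
    hF.comp_continuous (continuous_Minv h) (Minv_nonneg c)
  rw [← intervalIntegral.integral_comp_mul_deriv (f := Mf c)
    (f' := fun δ => avg fun o => 1 / (1 + c o * δ) ^ 2) (g := fun x => F (Minv c x))
    (fun x hx => hasDerivAt_Mf h (hs hx)) ((contOn_M' h).mono hs) hg,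
    ← intervalIntegral.integral_eq_sub_of_hasDerivAt (fun x hx => hΦ x (hs hx))
      ((hF.mul (contOn_M' h)).mono hs).intervalIntegrable]
  refine intervalIntegral.integral_congr fun x hx => ?_
  simp only [Function.comp, Minv_Mf h (hs hx)]

theorem cont_R (h : Cok c cm) (n : ℕ) (ζ q : ℕ → ℝ) :
    Continuous fun t => Rc c (dl n ζ q t) := (continuous_Rc h).comp (continuous_dl n ζ q)

theorem int_le {f : ℝ → ℝ} (hf : Continuous f) {a b K : ℝ} (hab : a ≤ b)
    (h : ∀ t, a ≤ t → t ≤ b → f t ≤ K) : ∫ t in a..b, f t ≤ (b - a) * K := by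
  have := intervalIntegral.integral_mono_on hab (hf.intervalIntegrable (μ := volume) a b)
    (continuous_const.intervalIntegrable (μ := volume) a b) (g := fun _ => K)
    fun t ht => h t ht.1 ht.2
  simpa using this

theorem le_int {f : ℝ → ℝ} (hf : Continuous f) {a b K : ℝ} (hab : a ≤ b)
    (h : ∀ t, a ≤ t → t ≤ b → K ≤ f t) : (b - a) * K ≤ ∫ t in a..b, f t := by
  have := intervalIntegral.integral_mono_on hab
    (continuous_const.intervalIntegrable (μ := volume) a b)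
    (hf.intervalIntegrable (μ := volume) a b) (f := fun _ => K)
    fun t ht => h t ht.1 ht.2
  simpa using this

theorem split {f : ℝ → ℝ} (hf : Continuous f) (a m b : ℝ) :
    ∫ t in a..b, f t = (∫ t in a..m, f t) + ∫ t in m..b, f t :=
  (intervalIntegral.integral_add_adjacent_intervals (hf.intervalIntegrable _ _)
    (hf.intervalIntegrable _ _)).symm

theorem int_sub {f g : ℝ → ℝ} (hf : Continuous f) (hg : Continuous g) (a b : ℝ) :
    ∫ t in a..b, (f t - g t) = (∫ t in a..b, f t) - ∫ t in a..b, g t :=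
  intervalIntegral.integral_sub (hf.intervalIntegrable _ _) (hg.intervalIntegrable _ _)

theorem hasDerivAt_frac {x δ : ℝ} (hx : 0 ≤ x) (hδ : 0 ≤ δ) :
    HasDerivAt (fun δ => δ / (1 + x * δ)) (1 / (1 + x * δ) ^ 2) δ := by
  have h1 : HasDerivAt (fun δ : ℝ => 1 + x * δ) x δ := by
    simpa using ((hasDerivAt_id δ).const_mul x).const_add 1
  have h2 := (hasDerivAt_id δ).div h1 (den_pos hx hδ).ne'
  refine h2.congr_deriv ?_
  simp only [id]
  congr 1
  ring

theorem hasDerivAt_lg {x δ : ℝ} (hx : 0 ≤ x) (hδ : 0 ≤ δ) :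
    HasDerivAt (fun δ => Real.log (1 + x * δ)) (x / (1 + x * δ)) δ := by
  have h1 : HasDerivAt (fun δ : ℝ => 1 + x * δ) x δ := by
    simpa using ((hasDerivAt_id δ).const_mul x).const_add 1
  exact h1.log (den_pos hx hδ).ne'

theorem Wp_zero_eq (hζ : ZAdm n ζ) (hr : CAdm n r) {x : ℝ} (hx : 0 ≤ x) :
    Wp ζ n x r 0 = ∑ d ∈ Finset.range n, (csDelta ζ r (d + 1) / (1 + x * csDelta ζ r (d + 1))
      - csDelta ζ r d / (1 + x * csDelta ζ r d)) / ζ d
      + r n * (1 / (1 + x * csDelta ζ r n) ^ 2) := by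
  rw [zero_eq hζ (Wp ζ n x r), Wp_top hζ hr]
  congr 1
  refine Finset.sum_congr rfl fun d hd => ?_
  have hd' := Finset.mem_range.1 hd
  rw [csDelta_Wp hζ.zok hr hx (by omega), csDelta_Wp hζ.zok hr hx (by omega)]

theorem Lc_eq (hζ : ZAdm n ζ) (hr : CAdm n r) {x : ℝ} (hx : 0 ≤ x) :
    2 * Lc ζ n x r = ∑ d ∈ Finset.range n, (Real.log (1 + x * csDelta ζ r (d + 1))
      - Real.log (1 + x * csDelta ζ r d)) / ζ d + r n * (x / (1 + x * csDelta ζ r n)) := by
  rw [Lc, Finset.sum_range_succ, mul_add, Finset.mul_sum]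
  congr 1
  · refine Finset.sum_congr rfl fun d hd => ?_
    have hz := (hζ.pos (Finset.mem_range.1 hd)).ne'
    have h1 := (den_pos hx (csDelta_nonneg hζ.zok hr d)).ne'
    have h2 := (den_pos hx (csDelta_nonneg hζ.zok hr (d + 1))).ne'
    have h3 : 1 + ζ d * dq r d * (x / (1 + x * csDelta ζ r d))
        = (1 + x * csDelta ζ r (d + 1)) / (1 + x * csDelta ζ r d) := by
      rw [csDelta_step]
      field_simp
      ring
    rw [qc, if_neg hz, h3, Real.log_div h2 h1]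
    field_simp
  · rw [qc, if_pos (hζ.zn n le_rfl), dq, hr.zero (n + 1) (Nat.lt_succ_self n)]
    ring

theorem abel_id (ζ p ρ : ℕ → ℝ) (m : ℕ) :
    ∑ d ∈ Finset.range m, (dq p d * csDelta ζ ρ d + dq ρ d * csDelta ζ p d + ζ d * dq p d * dq ρ d)
      + csDelta ζ p m * ρ m + csDelta ζ ρ m * p m = csDelta ζ (fun k => p k * ρ k) m := by
  induction m with
  | zero => simp [csDelta]
  | succ m ih =>
    rw [Finset.sum_range_succ, csDelta_step ζ (fun k => p k * ρ k), ← ih, csDelta_step,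
      csDelta_step]
    simp only [dq]
    ring

theorem pair_eq (hζ : ZAdm n ζ) (p ρ : ℕ → ℝ) :
    p 0 * ρ 0 - pairing n ζ p ρ
      = ∑ d ∈ Finset.range n, (csDelta ζ p (d + 1) * csDelta ζ ρ (d + 1)
          - csDelta ζ p d * csDelta ζ ρ d) / ζ d
        + csDelta ζ p n * ρ n + csDelta ζ ρ n * p n := by
  have h1 := sub_QQ hζ.z0 (fun k => p k * ρ k) n
  rw [hζ.zn n le_rfl, zero_mul, add_zero, ← abel_id] at h1
  have h2 : pairing n ζ p ρ = QQ ζ (fun k => p k * ρ k) n := rfl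
  rw [h2, h1]
  congr 2
  refine Finset.sum_congr rfl fun d hd => ?_
  have hz := (hζ.pos (Finset.mem_range.1 hd)).ne'
  rw [csDelta_step, csDelta_step]
  field_simp
  ring

theorem csDelta_pP {L : Type} [Fintype L] (hζ : Zok ζ) (hr : CAdm n r) {κ : L → ℝ}
    (hκ : ∀ l, 0 ≤ κ l) (β : L → ℝ) {d : ℕ} (hd : d ≤ n + 1) :
    csDelta ζ (pP ζ n κ β r) d
      = ∑ l, (κ l * β l) ^ 2 * (csDelta ζ r d / (1 + κ l * csDelta ζ r d)) := by
  have h : ∀ l, csDelta ζ r d / (1 + κ l * csDelta ζ r d) = csDelta ζ (Wp ζ n (κ l) r) d :=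
    fun l => (csDelta_Wp hζ hr (hκ l) hd).symm
  simp only [h]
  simp only [csDelta, pP, Finset.mul_sum, ← Finset.sum_sub_distrib]
  rw [Finset.sum_comm]
  exact Finset.sum_congr rfl fun l _ => Finset.sum_congr rfl fun k _ => by ring

end OneE

open OneE

theorem transfer (hζ : ZAdm n ζ) (hr : CAdm n r) (h : Cok c cm) {F Φ : ℝ → ℝ}
    (hF : ContinuousOn F (Set.Ici 0))
    (hΦ : ∀ δ, 0 ≤ δ → HasDerivAt Φ (F δ * avg fun o => 1 / (1 + c o * δ) ^ 2) δ) :
    ∫ t in (0 : ℝ)..rhoP ζ n c r 0, F (Minv c (dl n ζ (rhoP ζ n c r) t))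
      = ∑ d ∈ Finset.range n, (Φ (csDelta ζ r (d + 1)) - Φ (csDelta ζ r d)) / ζ d
        + r n * (F (csDelta ζ r n) * avg fun o => 1 / (1 + c o * csDelta ζ r n) ^ 2) := by
  have hg : Continuous fun x => F (Minv c x) :=
    hF.comp_continuous (continuous_Minv h) (Minv_nonneg c)
  rw [seg_int hζ (cadm_rhoP hζ.zok hr h.nn) (F := fun x => F (Minv c x)) hg.continuousOn]
  congr 1
  · refine Finset.sum_congr rfl fun d hd => ?_
    have hd' := Finset.mem_range.1 hd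
    rw [csDelta_rhoP hζ.zok hr h.nn (by omega), csDelta_rhoP hζ.zok hr h.nn (by omega),
      subst h hF hΦ (csDelta_nonneg hζ.zok hr _) (csDelta_nonneg hζ.zok hr _)]
  · rw [csDelta_rhoP hζ.zok hr h.nn (by omega), Minv_Mf h (csDelta_nonneg hζ.zok hr _),
      rhoP_top hζ hr]
    ring

theorem Ec_bounds (h : Cok c cm) (hq : 0 ≤ q 0) :
    -(cm * q 0 / 2) ≤ Ec c n ζ q ∧ Ec c n ζ q ≤ 0 := by
  have h1 := int_le (cont_R h n ζ q) hq fun t _ _ => (Rc_bounds h (dl n ζ q t)).2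
  have h2 := le_int (cont_R h n ζ q) hq fun t _ _ => (Rc_bounds h (dl n ζ q t)).1
  unfold Ec
  constructor <;> linarith

theorem Ec_shift (h : Cok c cm) (h' : Cok c' cm) {a : ℝ} (hle : ∀ o, c' o ≤ c o + a) (ha : 0 ≤ a)
    (hq : 0 ≤ q 0) : Ec c n ζ q - a * q 0 / 2 ≤ Ec c' n ζ q := by
  have h1 := int_le ((cont_R h n ζ q).sub (cont_R h' n ζ q)) hq (K := a) fun t _ _ => by
    have := Rc_shift h h' hle ha (dl n ζ q t)
    simp only [Pi.sub_apply]
    linarith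
  simp only [Pi.sub_apply] at h1
  rw [int_sub (cont_R h n ζ q) (cont_R h' n ζ q)] at h1
  unfold Ec
  linarith

theorem Ec_cmp (hζ : ZAdm n ζ) (hq : CAdm n q) (hq' : CAdm n q') (h : Cok c cm) {ε : ℝ}
    (hε : 0 ≤ ε) (hd : ∀ d, d ≤ n → q 0 - QQ ζ q d ≤ q' 0 - QQ ζ q' d + ε)
    (h0 : q' 0 ≤ q 0 + ε) :
    Ec c n ζ q ≤ Ec c n ζ q' + (Fintype.card O * cm ^ 2 * q 0 + cm) * ε / 2 := by
  have hcm := cm_nonneg h
  have hm0 : 0 ≤ min (q 0) (q' 0) := le_min (hq.nonneg 0) (hq'.nonneg 0)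
  have hm1 := min_le_left (q 0) (q' 0)
  have hm2 := min_le_right (q 0) (q' 0)
  have hm3 : q' 0 - min (q 0) (q' 0) ≤ ε := by
    rcases le_total (q 0) (q' 0) with h1 | h1
    · rw [min_eq_left h1]
      linarith
    · rw [min_eq_right h1]
      linarith
  set m := min (q 0) (q' 0)
  have hK : 0 ≤ Fintype.card O * cm ^ 2 * ε := by positivity
  have h1 := int_le ((cont_R h n ζ q).sub (cont_R h n ζ q')) hm0
    (K := Fintype.card O * cm ^ 2 * ε) fun t _ ht => by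
      have e1 := dl_cmp hζ hq hq' hd (ht.trans hm1) (ht.trans hm2)
      have e2 := Rc_mono h e1
      have e3 := Rc_lip h (dl_nonneg hζ.zok hq' t) (le_add_of_nonneg_right hε)
      simp only [Pi.sub_apply]
      rw [add_sub_cancel_left] at e3
      linarith
  simp only [Pi.sub_apply] at h1
  rw [int_sub (cont_R h n ζ q) (cont_R h n ζ q')] at h1
  have h2 := int_le (cont_R h n ζ q) hm1 fun t _ _ => (Rc_bounds h (dl n ζ q t)).2
  have h3 := le_int (cont_R h n ζ q') hm2 fun t _ _ => (Rc_bounds h (dl n ζ q' t)).1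
  have h4 := mul_le_mul_of_nonneg_right hm3 hcm
  have h5 := mul_le_mul_of_nonneg_right hm1 hK
  unfold Ec
  rw [split (cont_R h n ζ q) 0 m, split (cont_R h n ζ q') 0 m]
  linarith

theorem ub_step (hq : Adm n ζ q) (hr : CAdm n r) (h : Cok c cm) (h' : Cok c' cm)
    (hcc : ∀ o, c o ≤ c' o) (hco : ∀ o o', 0 ≤ (c o - c o') * ((c' o - c o) - (c' o' - c o')))
    {ε : ℝ} (hε : 0 ≤ ε)
    (hd : ∀ d, d ≤ n → rhoP ζ n c r 0 - QQ ζ (rhoP ζ n c r) d ≤ 1 - QQ ζ q d + ε)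
    (h0 : 1 - ε ≤ rhoP ζ n c r 0) :
    -(avg fun o => (c' o - c o) * Wp ζ n (c o) r 0) / 2
      ≤ Ec c' n ζ q - Ec c n ζ q + (Fintype.card O * cm ^ 2 + cm) * ε / 2 := by
  have hζ := hq.zadm
  have hcm := cm_nonneg h
  have hρ := cadm_rhoP hζ.zok hr h.nn
  have hN := card_pos h
  set W : ℝ → ℝ := fun δ => (∑ o, (c' o - c o) / (1 + c o * δ) ^ 2) / ∑ o, 1 / (1 + c o * δ) ^ 2
    with hW
  have hWc : ContinuousOn W (Set.Ici 0) :=
    (contOn_inv_sq h _).div (contOn_inv_sq h fun _ => 1) fun δ hδ => (sum_pos' h hδ).ne'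
  have hW0 : ∀ δ, 0 ≤ δ → 0 ≤ W δ := fun δ hδ =>
    div_nonneg (Finset.sum_nonneg fun o _ => div_nonneg (sub_nonneg.2 (hcc o)) (sq_nonneg _))
      (sum_pos' h hδ).le
  have hWM : ∀ δ, 0 ≤ δ → (W δ * avg fun o => 1 / (1 + c o * δ) ^ 2)
      = avg fun o => (c' o - c o) * (1 / (1 + c o * δ) ^ 2) := fun δ hδ => by
    have := (sum_pos' h hδ).ne'
    simp only [hW, avg, mul_one_div]
    rw [← mul_div_assoc, div_mul_cancel₀ _ this]
  have hΦ : ∀ δ, 0 ≤ δ → HasDerivAt (fun δ => avg fun o => (c' o - c o) * (δ / (1 + c o * δ)))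
      (W δ * avg fun o => 1 / (1 + c o * δ) ^ 2) δ := fun δ hδ => by
    rw [hWM δ hδ]
    exact (HasDerivAt.fun_sum fun o _ => (hasDerivAt_frac (h.nn o) hδ).const_mul _).div_const _
  have hT := transfer hζ hr h hWc hΦ
  have hA : (avg fun o => (c' o - c o) * Wp ζ n (c o) r 0)
      = ∫ t in (0 : ℝ)..rhoP ζ n c r 0, W (Minv c (dl n ζ (rhoP ζ n c r) t)) := by
    rw [hT, hWM _ (csDelta_nonneg hζ.zok hr n)]
    simp only [Wp_zero_eq hζ hr (h.nn _), avg, mul_add, Finset.sum_add_distrib, add_div]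
    congr 1
    · simp only [Finset.mul_sum, Finset.sum_div]
      rw [Finset.sum_comm]
      refine Finset.sum_congr rfl fun d _ => ?_
      rw [← Finset.sum_sub_distrib, Finset.sum_div]
      exact Finset.sum_congr rfl fun o _ => by ring
    · rw [← mul_div_assoc, Finset.mul_sum]
      congr 1
      exact Finset.sum_congr rfl fun o _ => by ring
  have hg : Continuous fun t => W (Minv c (dl n ζ (rhoP ζ n c r) t)) :=
    (hWc.comp_continuous (continuous_Minv h) (Minv_nonneg c)).comp (continuous_dl _ _ _)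
  have hm0 : 0 ≤ min (rhoP ζ n c r 0) 1 := le_min (hρ.nonneg 0) zero_le_one
  have hm1 := min_le_left (rhoP ζ n c r 0) 1
  have hm2 := min_le_right (rhoP ζ n c r 0) 1
  have hm3 : 1 - min (rhoP ζ n c r 0) 1 ≤ ε := by
    rcases le_total (rhoP ζ n c r 0) 1 with h1 | h1
    · rw [min_eq_left h1]
      linarith
    · rw [min_eq_right h1]
      linarith
  set m := min (rhoP ζ n c r 0) 1
  have hK : 0 ≤ Fintype.card O * cm ^ 2 * ε := by positivity
  have h1 := int_le (((cont_R h n ζ q).sub (cont_R h' n ζ q)).sub hg) hm0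
    (K := Fintype.card O * cm ^ 2 * ε) fun t _ ht => by
      have e1 := dl_cmp hζ hρ hq.cadm (ε := ε) (by rw [hq.q0]; exact hd) (ht.trans hm1)
        (by rw [hq.q0]; exact ht.trans hm2)
      have e2 := Rc_mono h (le_add_of_nonneg_right hε : dl n ζ q t ≤ dl n ζ q t + ε)
      have e3 := Rc_lip h' (dl_nonneg hζ.zok hq.cadm t) (le_add_of_nonneg_right hε)
      have e4 := Rc_tangent h h' (dl n ζ q t + ε)
      have e5 := wavg_anti h (u := fun o => c' o - c o) hco (Minv_nonneg c _) (Minv_mono h e1)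
      simp only [Pi.sub_apply, hW]
      rw [add_sub_cancel_left] at e3
      linarith
  simp only [Pi.sub_apply] at h1
  rw [int_sub (f := fun t => Rc c (dl n ζ q t) - Rc c' (dl n ζ q t))
    ((cont_R h n ζ q).sub (cont_R h' n ζ q)) hg, int_sub (cont_R h n ζ q) (cont_R h' n ζ q)] at h1
  have h2 := int_le (cont_R h n ζ q) hm2 fun t _ _ => (Rc_bounds h (dl n ζ q t)).2
  have h3 := le_int (cont_R h' n ζ q) hm2 fun t _ _ => (Rc_bounds h' (dl n ζ q t)).1
  have h6 := le_int hg hm1 fun t _ _ => hW0 _ (Minv_nonneg c _)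
  have h4 := mul_le_mul_of_nonneg_right hm3 hcm
  have h5 := mul_le_mul_of_nonneg_right hm2 hK
  unfold Ec
  rw [hA, hq.q0, split (cont_R h n ζ q) 0 m, split (cont_R h' n ζ q) 0 m, split hg 0 m]
  linarith

theorem lb_id {A : Type} [Fintype A] {c : Option A → ℝ} (hζ : ZAdm n ζ) (hr : CAdm n r)
    (h : Cok c cm) {κ β : A → ℝ} (hκ : ∀ a, 0 ≤ κ a) (hA : Alg c κ β) :
    Ec c n ζ (rhoP ζ n c r)
      = -((∑ a, κ a * β a ^ 2) * rhoP ζ n c r 0) / 2 - ∑ a, Lc ζ n (κ a) r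
        + (1 - (KK A)⁻¹) * ∑ o, Lc ζ n (c o) r
        + (pP ζ n κ β r 0 * rhoP ζ n c r 0 - pairing n ζ (pP ζ n κ β r) (rhoP ζ n c r)) / 2 := by
  set P : ℝ → ℝ := fun δ => ∑ a, (κ a * β a) ^ 2 * (δ / (1 + κ a * δ)) with hP
  set ω : ℝ := ∑ a, κ a * β a ^ 2 with hω
  have hΦ : ∀ δ, 0 ≤ δ → HasDerivAt (fun δ => (P δ - ω) * Mf c δ
      + (1 - (KK A)⁻¹) * ∑ o, Real.log (1 + c o * δ) - ∑ a, Real.log (1 + κ a * δ))
      (rt c δ * avg fun o => 1 / (1 + c o * δ) ^ 2) δ := fun δ hδ => by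
    have d1 : HasDerivAt P (∑ a, (κ a * β a) ^ 2 * (1 / (1 + κ a * δ) ^ 2)) δ :=
      HasDerivAt.fun_sum fun a _ => (hasDerivAt_frac (hκ a) hδ).const_mul _
    have d2 : HasDerivAt (fun δ => ∑ o, Real.log (1 + c o * δ)) (∑ o, c o / (1 + c o * δ)) δ :=
      HasDerivAt.fun_sum fun o _ => hasDerivAt_lg (h.nn o) hδ
    have d3 : HasDerivAt (fun δ => ∑ a, Real.log (1 + κ a * δ)) (∑ a, κ a / (1 + κ a * δ)) δ :=
      HasDerivAt.fun_sum fun a _ => hasDerivAt_lg (hκ a) hδ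
    refine ((((d1.sub_const ω).fun_mul (hasDerivAt_Mf h hδ)).fun_add
      (d2.const_mul (1 - (KK A)⁻¹))).fun_sub d3).congr_deriv ?_
    rw [hA.a δ hδ, hA.b δ hδ]
    simp only [mul_one_div, hP]
    ring
  have hT := transfer hζ hr h (continuousOn_rt h) hΦ
  have hn := csDelta_nonneg hζ.zok hr n
  have hE : 2 * Ec c n ζ (rhoP ζ n c r)
      = ∫ t in (0 : ℝ)..rhoP ζ n c r 0, rt c (Minv c (dl n ζ (rhoP ζ n c r) t)) := by
    unfold Ec Rc
    ring
  have hM : ∀ d, d ≤ n + 1 → csDelta ζ (rhoP ζ n c r) d = Mf c (csDelta ζ r d) :=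
    fun d hd => csDelta_rhoP hζ.zok hr h.nn hd
  have hPd : ∀ d, d ≤ n + 1 → csDelta ζ (pP ζ n κ β r) d = P (csDelta ζ r d) :=
    fun d hd => csDelta_pP hζ.zok hr hκ β hd
  have e1 := pair_eq hζ (pP ζ n κ β r) (rhoP ζ n c r)
  have e2 := zero_eq hζ (rhoP ζ n c r)
  have e3 : 2 * ∑ a, Lc ζ n (κ a) r = ∑ d ∈ Finset.range n,
      (∑ a, Real.log (1 + κ a * csDelta ζ r (d + 1)) - ∑ a, Real.log (1 + κ a * csDelta ζ r d))
        / ζ d + r n * ∑ a, κ a / (1 + κ a * csDelta ζ r n) := by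
    rw [Finset.mul_sum, Finset.sum_congr rfl fun a _ => Lc_eq hζ hr (hκ a),
      Finset.sum_add_distrib, Finset.sum_comm, Finset.mul_sum]
    congr 1
    refine Finset.sum_congr rfl fun d _ => ?_
    rw [← Finset.sum_sub_distrib, Finset.sum_div]
  have e4 : 2 * ∑ o, Lc ζ n (c o) r = ∑ d ∈ Finset.range n,
      (∑ o, Real.log (1 + c o * csDelta ζ r (d + 1)) - ∑ o, Real.log (1 + c o * csDelta ζ r d))
        / ζ d + r n * ∑ o, c o / (1 + c o * csDelta ζ r n) := by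
    rw [Finset.mul_sum, Finset.sum_congr rfl fun o _ => Lc_eq hζ hr (h.nn o),
      Finset.sum_add_distrib, Finset.sum_comm, Finset.mul_sum]
    congr 1
    refine Finset.sum_congr rfl fun d _ => ?_
    rw [← Finset.sum_sub_distrib, Finset.sum_div]
  have e5 : pP ζ n κ β r n = r n * ∑ a, (κ a * β a) ^ 2 / (1 + κ a * csDelta ζ r n) ^ 2 := by
    simp only [pP, Wp_top hζ hr, Finset.mul_sum]
    exact Finset.sum_congr rfl fun a _ => by ring
  have e6 := rhoP_top hζ hr c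
  have e7 := hA.b _ hn
  have e8 : rt c (csDelta ζ r n) = P (csDelta ζ r n) - ω := hA.a _ hn
  have e9 : ∑ d ∈ Finset.range n, (((P (csDelta ζ r (d + 1)) - ω) * Mf c (csDelta ζ r (d + 1))
      + (1 - (KK A)⁻¹) * ∑ o, Real.log (1 + c o * csDelta ζ r (d + 1))
      - ∑ a, Real.log (1 + κ a * csDelta ζ r (d + 1)))
      - ((P (csDelta ζ r d) - ω) * Mf c (csDelta ζ r d)
      + (1 - (KK A)⁻¹) * ∑ o, Real.log (1 + c o * csDelta ζ r d)
      - ∑ a, Real.log (1 + κ a * csDelta ζ r d))) / ζ d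
      = ∑ d ∈ Finset.range n, (csDelta ζ (pP ζ n κ β r) (d + 1) * csDelta ζ (rhoP ζ n c r) (d + 1)
          - csDelta ζ (pP ζ n κ β r) d * csDelta ζ (rhoP ζ n c r) d) / ζ d
        - ω * ∑ d ∈ Finset.range n,
          (csDelta ζ (rhoP ζ n c r) (d + 1) - csDelta ζ (rhoP ζ n c r) d) / ζ d
        + (1 - (KK A)⁻¹) * ∑ d ∈ Finset.range n, (∑ o, Real.log (1 + c o * csDelta ζ r (d + 1))
          - ∑ o, Real.log (1 + c o * csDelta ζ r d)) / ζ d
        - ∑ d ∈ Finset.range n, (∑ a, Real.log (1 + κ a * csDelta ζ r (d + 1))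
          - ∑ a, Real.log (1 + κ a * csDelta ζ r d)) / ζ d := by
    rw [Finset.mul_sum, Finset.mul_sum (Finset.range n), ← Finset.sum_sub_distrib,
      ← Finset.sum_add_distrib, ← Finset.sum_sub_distrib]
    refine Finset.sum_congr rfl fun d hd => ?_
    have hd' := Finset.mem_range.1 hd
    rw [hM d (by omega), hM (d + 1) (by omega), hPd d (by omega), hPd (d + 1) (by omega)]
    ring
  rw [← hE, e9, e8] at hT
  rw [hM n (by omega), hPd n (by omega), e5, e6] at e1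
  rw [e6] at e2
  linear_combination hT / 2 - e1 / 2 + ω * e2 / 2 + e3 / 2 - (1 - (KK A)⁻¹) * e4 / 2
    + r n * e7 / 2

end Vale.Agent.P166
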