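import Vale.Agent.P166.Scalar
import Vale.Agent.P166.Spin

/-! # Paths of block sizes -/

namespace Vale.Agent.P166

open Filter Topology Vale.Agent.P157

/-- Balanced size vectors. -/
def Near {A : Type} [Fintype A] (D : ℝ) (N : ℕ) (z : Option A → ℕ) : Prop :=
  ∀ o, |KK A * z o - N| ≤ D

namespace PathAux

variable {A : Type} [Fintype A] [DecidableEq A]

/-- Intermediate size vectors of one round of moves. -/
def pt (w : Option A → ℕ) (T : Finset A) : Option A → ℕ := fun o =>
  o.elim (w none + 1 + T.card - Fintype.card A) fun a =>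
    if a ∈ T then w (some a) else w (some a) + 1

/-- Increase one size. -/
def up (w : Option A → ℕ) (o : Option A) (i : ℕ) : Option A → ℕ :=
  Function.update w o (w o + i)

omit [Fintype A] in
theorem up_self (w : Option A → ℕ) (o : Option A) (i : ℕ) : up w o i o = w o + i :=
  Function.update_self _ _ _

omit [Fintype A] in
theorem up_ne (w : Option A → ℕ) {o o' : Option A} (i : ℕ) (h : o' ≠ o) : up w o i o' = w o' :=
  Function.update_of_ne h _ _

omit [Fintype A] in
theorem up_zero (w : Option A → ℕ) (o : Option A) : up w o 0 = w :=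
  Function.update_eq_self _ _

omit [Fintype A] in
theorem up_up (w : Option A → ℕ) (o : Option A) (i : ℕ) : up (up w o i) o 1 = up w o (i + 1) := by
  funext o'
  by_cases h : o' = o
  · subst h
    rw [up_self, up_self, up_self, add_assoc]
  · rw [up_ne _ _ h, up_ne _ _ h, up_ne _ _ h]

theorem pt_univ (w : Option A → ℕ) : pt w Finset.univ = up w none 1 := by
  funext o
  rcases o with _ | a
  · rw [up_self]
    simp [pt]
  · rw [up_ne _ _ (by simp)]
    simp [pt]

theorem pt_close (w : Option A → ℕ) (hw : Fintype.card A ≤ w none) (T : Finset A) :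
    ((w none : ℝ) + 1 - Fintype.card A ≤ pt w T none ∧ (pt w T none : ℝ) ≤ w none + 1) ∧
    ∀ a, (w (some a) : ℝ) ≤ pt w T (some a) ∧ (pt w T (some a) : ℝ) ≤ w (some a) + 1 := by
  have hT : T.card ≤ Fintype.card A := T.card_le_univ
  have e : pt w T none + Fintype.card A = w none + 1 + T.card := by
    simp only [pt, Option.elim_none]
    omega
  have e' : (pt w T none : ℝ) + Fintype.card A = w none + 1 + T.card := by exact_mod_cast e
  have hT' : (T.card : ℝ) ≤ Fintype.card A := by exact_mod_cast hT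
  have h0 : (0 : ℝ) ≤ T.card := Nat.cast_nonneg _
  refine ⟨⟨by linarith, by linarith⟩, fun a => ?_⟩
  simp only [pt, Option.elim_some]
  split_ifs
  · exact ⟨le_rfl, by linarith⟩
  · push_cast
    exact ⟨by linarith, le_rfl⟩

theorem round (F : (Option A → ℕ) → ℝ) (P : (Option A → ℕ) → Prop) (s : ℝ) (l : A → ℝ)
    (hs : ∀ z z' : Option A → ℕ, P z →
      z' none + Fintype.card A = z none + 1 → (∀ a, z' (some a) = z (some a) + 1) →
      s ≤ F z' - F z)
    (hl : ∀ (z z' : Option A → ℕ) (a : A), P z →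
      z' none = z none + 1 → z' (some a) + 1 = z (some a) →
      (∀ a', a' ≠ a → z' (some a') = z (some a')) → l a ≤ F z' - F z)
    (w : Option A → ℕ) (hw : Fintype.card A ≤ w none) (h0 : P w) (h1 : ∀ T, P (pt w T)) :
    s + ∑ a, l a ≤ F (up w none 1) - F w := by
  have key : ∀ T : Finset A, s + ∑ a ∈ T, l a ≤ F (pt w T) - F w := by
    intro T
    induction T using Finset.induction_on with
    | empty =>
      rw [Finset.sum_empty, add_zero]
      refine hs _ _ h0 ?_ fun a => ?_
      · simp only [pt, Option.elim_none, Finset.card_empty]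
        omega
      · simp [pt]
    | insert a T ha ih =>
      have h2 := hl (pt w T) (pt w (insert a T)) a (h1 T) (by
        simp only [pt, Option.elim_none, Finset.card_insert_of_notMem ha]
        omega) (by simp [pt, ha]) (fun a' h' => by simp [pt, h'])
      rw [Finset.sum_insert ha]
      linarith
  rw [← pt_univ]
  exact key _

omit [DecidableEq A] in
theorem near_of_close {D : ℝ} {N : ℕ} {z z' : Option A → ℕ} (h : Near D N z) {r : ℝ}
    (hr : ∀ o, |(z' o : ℝ) - z o| ≤ r) : Near (D + KK A * r) N z' := by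
  intro o
  have hK := Moves.one_le_KK A
  have e : KK A * z' o - N = (KK A * z o - N) + KK A * ((z' o : ℝ) - z o) := by ring
  rw [e]
  refine (abs_add_le _ _).trans (add_le_add (h o) ?_)
  rw [abs_mul, abs_of_nonneg (by linarith)]
  exact mul_le_mul_of_nonneg_left (hr o) (by linarith)

omit [DecidableEq A] in
theorem near_mono {D D' : ℝ} {N : ℕ} {z : Option A → ℕ} (h : Near D N z) (hD : D ≤ D') :
    Near D' N z := fun o => (h o).trans hD

omit [DecidableEq A] in
theorem near_between {D : ℝ} {N : ℕ} {z z' w : Option A → ℕ} (h : Near D N z) (h' : Near D N z')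
    (h1 : ∀ o, z o ≤ w o ∨ z' o ≤ w o) (h2 : ∀ o, w o ≤ z o ∨ w o ≤ z' o) : Near D N w := by
  intro o
  have hK : 0 ≤ KK A := zero_le_one.trans (le_add_of_nonneg_left (Nat.cast_nonneg _))
  have a1 := abs_le.1 (h o)
  have a2 := abs_le.1 (h' o)
  have m : ∀ p q : ℕ, p ≤ q → KK A * p ≤ KK A * q := fun p q hpq =>
    mul_le_mul_of_nonneg_left (by exact_mod_cast hpq) hK
  rw [abs_le]
  constructor
  · rcases h1 o with h3 | h3 <;> linarith [m _ _ h3, a1.1, a2.1]
  · rcases h2 o with h3 | h3 <;> linarith [m _ _ h3, a1.2, a2.2]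

theorem walk {D C : ℝ} {N : ℕ} (F : (Option A → ℕ) → ℝ)
    (hF : ∀ z o, Near D N z → |F (up z o 1) - F z| ≤ C) (z' : Option A → ℕ) (h' : Near D N z')
    (m : ℕ) : ∀ z, Near D N z → (∀ o, z o ≤ z' o) → ∑ o, z' o = ∑ o, z o + m →
      |F z' - F z| ≤ C * m := by
  induction m with
  | zero =>
    intro z _ hle hs
    have : z = z' := by
      funext o
      exact (Finset.sum_eq_sum_iff_of_le fun o _ => hle o).1 hs.symm o (Finset.mem_univ o)
    simp [this]
  | succ m ih =>
    intro z hz hle hs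
    obtain ⟨o, -, ho⟩ : ∃ o ∈ Finset.univ, z o < z' o := Finset.exists_lt_of_sum_lt (by omega)
    have hle' : ∀ o', up z o 1 o' ≤ z' o' := fun o' => by
      by_cases h : o' = o
      · subst h
        rw [up_self]
        exact ho
      · rw [up_ne _ _ h]
        exact hle o'
    have hge : ∀ o', z o' ≤ up z o 1 o' := fun o' => by
      by_cases h : o' = o
      · subst h
        rw [up_self]
        exact Nat.le_succ _
      · rw [up_ne _ _ h]
    have hsum : ∑ o', up z o 1 o' = ∑ o', z o' + 1 := by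
      rw [← Finset.add_sum_erase _ _ (Finset.mem_univ o),
        ← Finset.add_sum_erase _ z (Finset.mem_univ o), up_self,
        Finset.sum_congr rfl fun i hi => up_ne z 1 (Finset.ne_of_mem_erase hi)]
      ring
    have h1 := ih (up z o 1) (near_between hz h' (fun o' => Or.inl (hge o'))
      fun o' => Or.inr (hle' o')) hle' (by omega)
    have h2 := hF z o hz
    have e : F z' - F z = (F z' - F (up z o 1)) + (F (up z o 1) - F z) := by ring
    rw [e]
    refine (abs_add_le _ _).trans ?_
    push_cast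
    linarith

theorem walk_le {D C : ℝ} {N : ℕ} (F : (Option A → ℕ) → ℝ) (hC : 0 ≤ C)
    (hF : ∀ z o, Near D N z → |F (up z o 1) - F z| ≤ C) {z z' : Option A → ℕ} (h : Near D N z)
    (h' : Near D N z') (hle : ∀ o, z o ≤ z' o) : |F z' - F z| ≤ C * (2 * D) := by
  obtain ⟨m, hm⟩ : ∃ m, ∑ o, z' o = ∑ o, z o + m :=
    Nat.exists_eq_add_of_le (Finset.sum_le_sum fun o _ => hle o)
  refine (walk F hF z' h' m z h hle hm).trans (mul_le_mul_of_nonneg_left ?_ hC)
  have hK := Moves.one_le_KK A
  have e : (m : ℝ) = ∑ o, ((z' o : ℝ) - z o) := by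
    have : ((∑ o, z' o : ℕ) : ℝ) = ((∑ o, z o + m : ℕ) : ℝ) := by rw [hm]
    push_cast at this
    rw [Finset.sum_sub_distrib]
    linarith
  have h1 : KK A * m ≤ KK A * (2 * D) := by
    rw [e, Finset.mul_sum]
    refine (Finset.sum_le_card_nsmul _ _ (2 * D) fun o _ => ?_).trans_eq ?_
    · have a1 := abs_le.1 (h o)
      have a2 := abs_le.1 (h' o)
      rw [mul_sub]
      linarith [a1.1, a2.2]
    · rw [Finset.card_univ, Fintype.card_option, nsmul_eq_mul, KK]
      push_cast
      ring
  exact le_of_mul_le_mul_left h1 (by linarith)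

theorem fib_can (z : Option A → ℕ) : fib (fun p : (Σ o : Option A, Fin (z o)) => p.1) = z :=
  funext (fib_sigma z)

theorem vz_scalar (cm : ℝ) : ∃ C : ℝ, 0 ≤ C ∧
    ∀ (ζ : ℕ → ℝ) (n : ℕ) (ca : A → ℝ) (ϑ : ℕ → ℝ) (z z' : Option A → ℕ) (a : A) (D : ℝ) (N : ℕ),
      Zok ζ → ζ 0 = 1 → Par0 n cm ca 0 ϑ → z' none = z none + 1 → z' (some a) + 1 = z (some a) →
      (∀ a', a' ≠ a → z' (some a') = z (some a')) → Near D N z' → 2 * D ≤ N → 1 ≤ N →
      |Vz ζ n ca 0 z' ϑ - Vz ζ n ca 0 z ϑ| ≤ C := by
  obtain ⟨C, hC, H⟩ := crude_scalar A cm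
  refine ⟨C, hC, fun ζ n ca ϑ z z' a D N hζ hz hp h1 h2 h3 hn hD hN => ?_⟩
  set b : (Σ o : Option A, Fin (z o)) → Option A := fun p => p.1 with hb
  have hf : fib b = z := fib_can z
  obtain ⟨j, hj⟩ : ∃ j, b j = some a := exists_of_fib (by rw [hf]; omega)
  obtain ⟨e1, e2, e3⟩ := fib_update hj
  rw [hf] at e1 e2 e3
  have e : fib (Function.update b j none) = z' := by
    funext o
    rcases o with _ | a'
    · omega
    · by_cases h : a' = a
      · subst h
        omega
      · rw [e3 a' h, h3 a' h]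
  have h4 := H _ ζ n ca 0 ϑ b j a D N hζ hz hp hj (by rw [Bal, e]; exact hn) hD hN
  rw [vz_eq, vz_eq, hf, e] at h4
  rwa [abs_sub_comm]

theorem vz_spin (cm : ℝ) : ∃ C : ℝ, 0 ≤ C ∧
    ∀ (ζ : ℕ → ℝ) (n : ℕ) (ca : A → ℝ) (ϑ : ℕ → ℝ) (z z' : Option A → ℕ) (D : ℝ) (N : ℕ),
      Zok ζ → ζ 0 = 1 → Par0 n cm ca 0 ϑ → z' none + Fintype.card A = z none + 1 →
      (∀ a, z' (some a) = z (some a) + 1) → Fintype.card A ≤ z none → Near D N z → 2 * D ≤ N →
      1 ≤ N → |Vz ζ n ca 0 z' ϑ - Vz ζ n ca 0 z ϑ| ≤ C := by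
  obtain ⟨C, hC, H⟩ := crude_spin A cm
  refine ⟨C, hC, fun ζ n ca ϑ z z' D N hζ hz hp h1 h2 h3 hn hD hN => ?_⟩
  set b : (Σ o : Option A, Fin (z o)) → Option A := fun p => p.1 with hb
  have hf : fib b = z := fib_can z
  obtain ⟨jj, b1, ha⟩ := exists_addS (b0 := b) (by rw [hf]; exact h3)
  obtain ⟨e1, e2⟩ := fib_addS ha
  rw [hf] at e1 e2
  have e : fib b1 = z' := by
    funext o
    rcases o with _ | a
    · omega
    · rw [e2, h2]
  have h4 := (H _ ζ n ca ϑ b jj b1 D N hζ hz hp ha (by rw [Bal, hf]; exact hn) hD hN).2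
  rwa [vz_eq, vz_eq, hf, e] at h4

omit [DecidableEq A] in
theorem card_le_of_near {D : ℝ} {N : ℕ} {z : Option A → ℕ} (h : Near D N z)
    (hN : D + KK A ^ 2 ≤ N) : Fintype.card A ≤ z none := by
  have hK : 1 ≤ KK A := le_add_of_nonneg_left (Nat.cast_nonneg _)
  have h1 := (abs_le.1 (h none)).1
  have h2 : KK A * KK A ≤ KK A * z none := by nlinarith
  have h3 := le_of_mul_le_mul_left h2 (by linarith)
  rw [KK] at h3
  have : (Fintype.card A : ℝ) ≤ z none := by linarith
  exact_mod_cast this

end PathAux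

open PathAux

theorem vz_close (A : Type) [Fintype A] [DecidableEq A] (cm D : ℝ) : ∃ C : ℝ, 0 ≤ C ∧
    ∀ᶠ N : ℕ in atTop, ∀ (ζ : ℕ → ℝ) (n : ℕ) (ca : A → ℝ) (ϑ : ℕ → ℝ) (z z' : Option A → ℕ),
      Zok ζ → ζ 0 = 1 → Par0 n cm ca 0 ϑ → Near D N z → Near D N z' →
      |Vz ζ n ca 0 z ϑ - Vz ζ n ca 0 z' ϑ| ≤ C := by
  obtain ⟨C1, hC1, H1⟩ := vz_scalar (A := A) cm
  obtain ⟨C2, hC2, H2⟩ := vz_spin (A := A) cm
  have hK := Moves.one_le_KK A
  have hk : (0 : ℝ) ≤ Fintype.card A := Nat.cast_nonneg _
  have hKK : KK A = Fintype.card A + 1 := rfl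
  set C3 := C2 + Fintype.card A * C1 + C1 with hC3
  have h3 : 0 ≤ C3 := by positivity
  refine ⟨2 * (C3 * (2 * |D|)), by positivity, ?_⟩
  have ev := (tendsto_natCast_atTop_atTop (R := ℝ)).eventually_ge_atTop
    (2 * (|D| + KK A * KK A + KK A * 1) + KK A ^ 2)
  filter_upwards [ev, eventually_ge_atTop 1] with N hN hN1
  intro ζ n ca ϑ z z' hζ hz hp hn hn'
  have hD := abs_nonneg D
  set F : (Option A → ℕ) → ℝ := fun w => Vz ζ n ca 0 w ϑ with hF
  have s1 : ∀ w w' : Option A → ℕ, Near (|D| + KK A * KK A) N w →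
      w' none + Fintype.card A = w none + 1 → (∀ a, w' (some a) = w (some a) + 1) →
      |F w' - F w| ≤ C2 := fun w w' hw e1 e2 =>
    H2 ζ n ca ϑ w w' _ N hζ hz hp e1 e2 (card_le_of_near hw (by nlinarith)) hw (by nlinarith) hN1
  have s2 : ∀ (w w' : Option A → ℕ) (a : A), Near (|D| + KK A * KK A) N w →
      w' none = w none + 1 → w' (some a) + 1 = w (some a) →
      (∀ a', a' ≠ a → w' (some a') = w (some a')) → |F w' - F w| ≤ C1 := by
    intro w w' a hw e1 e2 e3
    refine H1 ζ n ca ϑ w w' a _ N hζ hz hp e1 e2 e3 (near_of_close hw (r := 1) fun o => ?_)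
      (by nlinarith) hN1
    rcases o with _ | a'
    · rw [e1]
      simp
    · by_cases h : a' = a
      · subst h
        rw [← e2]
        simp
      · rw [e3 a' h]
        simp
  have s3 : ∀ w, Near |D| N w → |F (up w none 1) - F w| ≤ C2 + Fintype.card A * C1 := by
    intro w hw
    have hc : Fintype.card A ≤ w none := card_le_of_near hw (by nlinarith)
    have p0 : Near (|D| + KK A * KK A) N w := near_mono hw (by nlinarith)
    have p1 : ∀ T, Near (|D| + KK A * KK A) N (pt w T) := fun T => near_of_close hw fun o => by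
      obtain ⟨q1, q2⟩ := pt_close w hc T
      rw [abs_le]
      rcases o with _ | a
      · constructor <;> linarith [q1.1, q1.2]
      · constructor <;> linarith [(q2 a).1, (q2 a).2]
    have r1 := round F _ (-C2) (fun _ => -C1) (fun w w' hw e1 e2 => (abs_le.1 (s1 w w' hw e1 e2)).1)
      (fun w w' a hw e1 e2 e3 => (abs_le.1 (s2 w w' a hw e1 e2 e3)).1) w hc p0 p1
    have r2 := round (fun w => -F w) _ (-C2) (fun _ => -C1)
      (fun w w' hw e1 e2 => by linarith [(abs_le.1 (s1 w w' hw e1 e2)).2])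
      (fun w w' a hw e1 e2 e3 => by linarith [(abs_le.1 (s2 w w' a hw e1 e2 e3)).2]) w hc p0 p1
    rw [Finset.sum_const, Finset.card_univ, nsmul_eq_mul] at r1 r2
    rw [abs_le]
    constructor <;> linarith
  have s4 : ∀ w o, Near |D| N w → |F (up w o 1) - F w| ≤ C3 := by
    intro w o hw
    rcases o with _ | a
    · linarith [s3 w hw]
    · have p : Near (|D| + KK A * KK A) N (up w (some a) 1) := near_of_close hw fun o => by
        by_cases h : o = some a
        · subst h
          rw [up_self]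
          simpa using hK
        · rw [up_ne _ _ h]
          simpa using zero_le_one.trans hK
      have q := s2 (up w (some a) 1) (up w none 1) a p
        (by rw [up_self, up_ne _ _ (by simp)]) (by rw [up_self, up_ne _ _ (by simp)])
        (fun a' h => by rw [up_ne _ _ (by simp), up_ne _ _ (by simpa using h)])
      have q1 := abs_le.1 q
      have q2 := abs_le.1 (s3 w hw)
      rw [abs_le]
      constructor <;> linarith [q1.1, q1.2, q2.1, q2.2]
  have m1 : Near |D| N z := near_mono hn (le_abs_self D)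
  have m2 : Near |D| N z' := near_mono hn' (le_abs_self D)
  have m3 : Near |D| N fun o => min (z o) (z' o) :=
    near_between m1 m2 (fun o => by omega) fun o => Or.inl (min_le_left _ _)
  have t1 := abs_le.1 (walk_le F h3 s4 m3 m1 fun o => min_le_left _ _)
  have t2 := abs_le.1 (walk_le F h3 s4 m3 m2 fun o => min_le_right _ _)
  change |F z - F z'| ≤ _
  rw [abs_le]
  constructor <;> linarith [t1.1, t1.2, t2.1, t2.2]

theorem chain_sizes {A : Type} [Fintype A] [DecidableEq A] (F : (Option A → ℕ) → ℝ)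
    (z0 : Option A → ℕ) (h0 : Fintype.card A ≤ z0 none) (s : ℝ) (l : A → ℝ)
    (hs : ∀ z z' : Option A → ℕ, (∀ o, |(z o : ℝ) - z0 o| ≤ KK A) →
      z' none + Fintype.card A = z none + 1 → (∀ a, z' (some a) = z (some a) + 1) →
      s ≤ F z' - F z)
    (hl : ∀ (z z' : Option A → ℕ) (a : A), (∀ o, |(z o : ℝ) - z0 o| ≤ KK A) →
      z' none = z none + 1 → z' (some a) + 1 = z (some a) →
      (∀ a', a' ≠ a → z' (some a') = z (some a')) → l a ≤ F z' - F z) :
    KK A * s + (KK A - 1) * ∑ a, l a ≤ F (fun o => z0 o + 1) - F z0 := by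
  have hKK : KK A = Fintype.card A + 1 := rfl
  have hk : (0 : ℝ) ≤ Fintype.card A := Nat.cast_nonneg _
  have hP : ∀ i, i ≤ Fintype.card A → ∀ o, |(up z0 none i o : ℝ) - z0 o| ≤ KK A := by
    intro i hi o
    have hi' : (i : ℝ) ≤ Fintype.card A := by exact_mod_cast hi
    rcases o with _ | a
    · rw [up_self]
      push_cast
      rw [add_sub_cancel_left, abs_of_nonneg (Nat.cast_nonneg _)]
      linarith
    · rw [up_ne _ _ (by simp), sub_self, abs_zero]
      linarith
  have key : ∀ i, i ≤ Fintype.card A → i * (s + ∑ a, l a) ≤ F (up z0 none i) - F z0 := by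
    intro i
    induction i with
    | zero => intro _; simp [up_zero]
    | succ i ih =>
      intro hi
      have hi' : (i : ℝ) + 1 ≤ Fintype.card A := by exact_mod_cast hi
      have hi0 : (0 : ℝ) ≤ i := Nat.cast_nonneg _
      have hc : Fintype.card A ≤ up z0 none i none := by
        rw [up_self]
        omega
      have r := round F (fun z => ∀ o, |(z o : ℝ) - z0 o| ≤ KK A) s l hs hl (up z0 none i) hc
        (hP i (by omega)) fun T o => by
          obtain ⟨q1, q2⟩ := pt_close (up z0 none i) hc T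
          rw [abs_le]
          rcases o with _ | a
          · rw [up_self] at q1
            push_cast at q1
            constructor <;> linarith [q1.1, q1.2]
          · have q3 := q2 a
            rw [up_ne _ _ (by simp)] at q3
            constructor <;> linarith [q3.1, q3.2]
      rw [up_up] at r
      have := ih (by omega)
      push_cast
      linarith
  have h1 := key _ le_rfl
  have h2 := hs (up z0 none (Fintype.card A)) (fun o => z0 o + 1) (hP _ le_rfl)
    (by rw [up_self]; ring) fun a => by rw [up_ne _ _ (by simp)]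
  rw [hKK]
  linarith

theorem rest_sum {S A : Type} [Fintype S] [DecidableEq S] [Fintype A] [DecidableEq A] {D : ℝ}
    {N : ℕ} {b : S → Option A} (hb : Bal D N b) {x : S → ℝ} {w : A → ℝ} {ε B : ℝ} (hε : 0 ≤ ε)
    (hB : 0 ≤ B) (hw : ∀ a, |w a| ≤ B) (h : ∀ i a, b i = some a → |x i - w a| ≤ ε) :
    |∑ i : {i // b i ≠ none}, x i.1 - N / KK A * ∑ a, w a| ≤ Fintype.card S * ε + D * B := by
  have hK := Moves.one_le_KK A
  have hD : 0 ≤ D := (abs_nonneg _).trans (hb none)
  set f : Option A → ℝ := fun o => o.elim 0 w with hf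
  have e1 : ∑ i : {i // b i ≠ none}, x i.1 = ∑ i, if b i ≠ none then x i else 0 := by
    rw [← Finset.sum_filter]
    exact (Finset.sum_subtype _ (fun i => by simp) x).symm
  have e2 : ∑ i, f (b i) = ∑ a, fib b (some a) * w a := by
    rw [sum_comp_fib, Fintype.sum_option]
    simp [hf]
  have a1 : |(∑ i, if b i ≠ none then x i else 0) - ∑ i, f (b i)| ≤ Fintype.card S * ε := by
    rw [← Finset.sum_sub_distrib]
    refine (Finset.abs_sum_le_sum_abs _ _).trans
      ((Finset.sum_le_card_nsmul _ _ ε fun i _ => ?_).trans_eq (by simp))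
    rcases hi : b i with _ | a
    · simpa [hf] using hε
    · simpa [hf] using h i a hi
  have a2 : |∑ a, fib b (some a) * w a - N / KK A * ∑ a, w a| ≤ D * B := by
    rw [Finset.mul_sum, ← Finset.sum_sub_distrib]
    refine (Finset.abs_sum_le_sum_abs _ _).trans
      ((Finset.sum_le_card_nsmul _ _ (D / KK A * B) fun a _ => ?_).trans ?_)
    · have e : fib b (some a) * w a - N / KK A * w a
          = (KK A * fib b (some a) - N) / KK A * w a := by
        field_simp
      rw [e, abs_mul, abs_div, abs_of_nonneg (zero_le_one.trans hK)]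
      exact mul_le_mul (div_le_div_of_nonneg_right (hb _) (by linarith)) (hw a) (abs_nonneg _)
        (by positivity)
    · rw [Finset.card_univ, nsmul_eq_mul]
      have e : D * B = KK A * (D / KK A * B) := by field_simp
      rw [e]
      exact mul_le_mul_of_nonneg_right (le_add_of_nonneg_right zero_le_one) (by positivity)
  rw [e1]
  rw [e2] at a1
  have a3 := abs_le.1 a1
  have a4 := abs_le.1 a2
  rw [abs_le]
  constructor <;> linarith [a3.1, a3.2, a4.1, a4.2]

theorem sum_top_rest {S A : Type} [Fintype S] [DecidableEq S] [Fintype A] [DecidableEq A]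
    (b : S → Option A) (x : S → ℝ) :
    ∑ i, x i = ∑ i : {i // b i = none}, x i.1 + ∑ i : {i // b i ≠ none}, x i.1 :=
  (Fintype.sum_subtype_add_sum_subtype (fun i => b i = none) x).symm

end Vale.Agent.P166
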