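import Vale.Agent.P166.Defs

/-! # Bounded perturbations of the Hamiltonian of a Gibbs cascade -/

namespace Vale.Agent.P166

open MeasureTheory ProbabilityTheory Vale.Agent.P157

variable {W : Type} [NormedAddCommGroup W] [NormedSpace ℝ W] [MeasurableSpace W] [BorelSpace W]
  [SecondCountableTopology W] {Ω : Type} [MeasurableSpace Ω] {μ : Measure Ω}
  [IsProbabilityMeasure μ] {ζ : ℕ → ℝ} {ν : ℕ → Measure W} {H H' : W → Ω → ℝ}

theorem hg_add (hH : HG H) {g : W → Ω → ℝ} (hg : BM2 g) : HG fun w x => H w x + g w x := by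
  obtain ⟨hm, C, hC⟩ := hH
  obtain ⟨hm', D, hD⟩ := hg
  refine ⟨hm.add hm', C + D, fun w x => (abs_add_le _ _).trans ?_⟩
  have h0 : 0 ≤ D := (abs_nonneg _).trans (hD w x)
  nlinarith [hC w x, hD w x, norm_nonneg w]

theorem hg_of_bm2 {g : W → Ω → ℝ} (hg : BM2 g) : HG g := by
  obtain ⟨hm', D, hD⟩ := hg
  refine ⟨hm', D, fun w x => ?_⟩
  have h0 : 0 ≤ D := (abs_nonneg _).trans (hD w x)
  nlinarith [hD w x, norm_nonneg w]

theorem PertAux.top_abs (hH : HG H) (hH' : HG H') {b : ℝ} (h : ∀ w x, |H' w x - H w x| ≤ b)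
    (w : W) : |gtop μ H' w - gtop μ H w| ≤ b :=
  abs_lse_sub_le zero_le_one (hH.eint w) (hH'.eint w) (Filter.Eventually.of_forall (h w))

theorem x_abs (hζ : Zok ζ) (hν : ∀ d, Noise (ν d)) (hH : HG H) (hH' : HG H') {b : ℝ}
    (h : ∀ w x, |H' w x - H w x| ≤ b) (d : ℕ) (w : W) :
    |X ζ ν (gtop μ H') d w - X ζ ν (gtop μ H) d w| ≤ b := by
  exact chain_abs (hH.cas hζ hν) (hH'.cas hζ hν) (Nat.zero_le d) (fun _ _ _ => rfl)
    (PertAux.top_abs hH hH' h) w

theorem x_mono (hζ : Zok ζ) (hν : ∀ d, Noise (ν d)) (hH : HG H) (hH' : HG H') {c : ℝ}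
    (h : ∀ w x, H w x + c ≤ H' w x) (d : ℕ) (w : W) :
    X ζ ν (gtop μ H) d w + c ≤ X ζ ν (gtop μ H') d w := by
  refine chain_mono (hH.cas hζ hν) (hH'.cas hζ hν) (Nat.zero_le d) (fun _ _ _ => rfl)
    (fun w => ?_) w
  have h1 : EInt μ (H w) := hH.eint w
  have h2 := lse_mono zero_le_one (h1.add (EInt.const c)) (hH'.eint w) (h w)
  rwa [lse_add_const h1.integrable (h1.2 1)] at h2

theorem x_jensen (hζ : Zok ζ) (hν : ∀ d, Noise (ν d)) (hH : HG H) {g : W → Ω → ℝ} (hg : BM2 g)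
    (d : ℕ) (w : W) :
    GE ζ ν μ H g d w ≤ X ζ ν (gtop μ fun w x => H w x + g w x) d w - X ζ ν (gtop μ H) d w := by
  refine chain_jensen (hH.cas hζ hν) ((hg_add hH hg).cas hζ hν) (Nat.zero_le d)
    (fun _ _ _ => rfl) (hH.bm_gib hg) (fun w => ?_) w
  have h1 := gexp_le_lse_sub (ν := μ) zero_le_one (hH.eint w) ((hg_add hH hg).eint w)
  simp only [add_sub_cancel_left] at h1
  exact h1

namespace PertAux

theorem jen (hζ : Zok ζ) (hν : ∀ d, Noise (ν d)) (hH : HG H) {g : W → Ω → ℝ} (hg : BM2 g)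
    (d : ℕ) (w : W) (r s : ℝ) :
    (s - r) * GE ζ ν μ (fun w x => H w x + r * g w x) g d w ≤
      X ζ ν (gtop μ fun w x => H w x + s * g w x) d w -
        X ζ ν (gtop μ fun w x => H w x + r * g w x) d w := by
  have h := x_jensen (μ := μ) hζ hν (hg_add hH (hg.const_mul r)) (hg.const_mul (s - r)) d w
  have e : (fun w x => H w x + r * g w x + (s - r) * g w x) = fun w x => H w x + s * g w x := by
    funext w x
    ring
  rwa [GE_const_mul, e] at h

theorem bnd {g : W → Ω → ℝ} (hg : BM2 g) : ∃ C, 0 ≤ C ∧ ∀ w x, |g w x| ≤ C := by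
  obtain ⟨C, hC⟩ := hg.2
  exact ⟨|C|, abs_nonneg C, fun w x => (hC w x).trans (le_abs_self C)⟩

theorem dens (hζ : Zok ζ) (hν : ∀ d, Noise (ν d)) (hH : HG H) (hH' : HG H') {b : ℝ}
    (h : ∀ w x, |H' w x - H w x| ≤ b) {g : W → Ω → ℝ} (hg : BM2 g) (h0 : ∀ w x, 0 ≤ g w x)
    (d : ℕ) (w : W) : GE ζ ν μ H' g d w ≤ Real.exp (4 * b) * GE ζ ν μ H g d w := by
  have h1 := density (hH.cas (μ := μ) hζ hν) (hH'.cas (μ := μ) hζ hν) (k := 0) (d := d)
    (fun _ _ _ => rfl) (top_abs hH hH' h) (hH'.bm_gib (μ := μ) hg)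
    (fun w => gexp_nonneg _ _ (h0 w)) w
  have h2 := (hH.cas (μ := μ) hζ hν).Ex_mono 0 (hH'.bm_gib (μ := μ) hg)
    ((hH.bm_gib (μ := μ) hg).const_mul (Real.exp (2 * b))) (fun w => by
      have := (hH.eint (μ := μ) w).prob_tilted 1
      have h3 := gexp_le_exp_mul (ν := μ) zero_le_one (hH.eint w) (hH'.eint w)
        (Filter.Eventually.of_forall (h w)) (hg.bm w).integrable (h0 w)
      rwa [mul_one] at h3) d w
  rw [Ex_const_mul] at h2
  refine h1.trans ((mul_le_mul_of_nonneg_left h2 (Real.exp_pos _).le).trans_eq ?_)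
  rw [← mul_assoc, ← Real.exp_add, show 2 * b + 2 * b = 4 * b by ring]
  rfl

theorem ge_abs (hζ : Zok ζ) (hν : ∀ d, Noise (ν d)) (hH : HG H) (hH' : HG H') {b : ℝ}
    (h : ∀ w x, |H' w x - H w x| ≤ b) {g : W → Ω → ℝ} (hg : BM2 g) {C : ℝ}
    (hC : ∀ w x, |g w x| ≤ C) (d : ℕ) (w : W) :
    |GE ζ ν μ H' g d w - GE ζ ν μ H g d w| ≤ 2 * C * (Real.exp (4 * b) - 1) := by
  have hne : Nonempty Ω := nonempty_of_isProbabilityMeasure μ
  obtain ⟨x0⟩ := hne
  have hb : 0 ≤ b := (abs_nonneg _).trans (h w x0)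
  have hC0 : 0 ≤ C := (abs_nonneg _).trans (hC w x0)
  have a1 := dens (μ := μ) hζ hν hH hH' h ((BM2.const C).add hg)
    (fun w x => by linarith [(abs_le.1 (hC w x)).1]) d w
  have a2 := dens (μ := μ) hζ hν hH hH' h ((BM2.const C).sub hg)
    (fun w x => by linarith [(abs_le.1 (hC w x)).2]) d w
  rw [GE_add hH' hζ hν (BM2.const C) hg, GE_add hH hζ hν (BM2.const C) hg, GE_const hH hζ hν,
    GE_const hH' hζ hν] at a1
  rw [GE_sub hH' hζ hν (BM2.const C) hg, GE_sub hH hζ hν (BM2.const C) hg, GE_const hH hζ hν,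
    GE_const hH' hζ hν] at a2
  have a3 := abs_le.1 (abs_GE_le (ζ := ζ) (ν := ν) (μ := μ) (H := H) hC0
    (fun w => Filter.Eventually.of_forall (hC w)) d w)
  have a4 : 0 ≤ Real.exp (4 * b) - 1 := sub_nonneg.2 (Real.one_le_exp (by linarith))
  refine abs_le.2 ⟨?_, ?_⟩ <;> nlinarith [a3.1, a3.2]

theorem bp_mix (hζ : Zok ζ) (hz : ζ 0 = 1) (hν : ∀ d, Noise (ν d)) (hH : HG H)
    {u v : W → Ω → ℝ} (hu : BM2 u) (hv : BM2 v)
    (hc : ∀ d w, GE ζ ν μ H u d w * GE ζ ν μ H v d w ≤ GE ζ ν μ H (fun w x => u w x * v w x) d w)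
    (d : ℕ) (w : W) :
    2 * ζ d * GE ζ ν μ H (fun w x => u w x * v w x) (d + 1) w + Bp ζ ν μ H u (fun _ _ => 0) d w +
      Bp ζ ν μ H v (fun _ _ => 0) d w ≤ Bp ζ ν μ H (fun w x => u w x + v w x) (fun _ _ => 0) d w := by
  have h0 : BM2 fun (_ : W) (_ : Ω) => (0 : ℝ) := BM2.const 0
  have hs := hH.cas (μ := μ) hζ hν
  induction d generalizing w with
  | zero =>
    rw [Bp_zero hH hζ hν hz hu h0, Bp_zero hH hζ hν hz hv h0, Bp_zero hH hζ hν hz (hu.add hv) h0,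
      ← GE_const_mul, ← GE_add hH hζ hν ((hu.mul hv).const_mul _) (h0.add (hu.pow 2)),
      ← GE_add hH hζ hν (((hu.mul hv).const_mul _).add (h0.add (hu.pow 2))) (h0.add (hv.pow 2))]
    refine GE_mono hH hζ hν ((((hu.mul hv).const_mul _).add (h0.add (hu.pow 2))).add
      (h0.add (hv.pow 2))) (h0.add ((hu.add hv).pow 2)) (fun w x => le_of_eq ?_) _ _
    rw [hz]
    ring
  | succ d ih =>
    have b1 := bm_Bp (μ := μ) hH hζ hν hu h0 d
    have b2 := bm_Bp (μ := μ) hH hζ hν hv h0 d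
    have b3 := bm_Bp (μ := μ) hH hζ hν (hu.add hv) h0 d
    have c1 := ((bm_GE (μ := μ) hH hζ hν hu (d + 1)).pow 2).const_mul (ζ d - ζ (d + 1))
    have c2 := ((bm_GE (μ := μ) hH hζ hν hv (d + 1)).pow 2).const_mul (ζ d - ζ (d + 1))
    have c3 := ((bm_GE (μ := μ) hH hζ hν (hu.add hv) (d + 1)).pow 2).const_mul (ζ d - ζ (d + 1))
    have c4 := (bm_GE (μ := μ) hH hζ hν (hu.mul hv) (d + 1)).const_mul (2 * ζ (d + 1))
    have h1 := hs.Ex_mono (d + 1) ((c4.add (b1.sub c1)).add (b2.sub c2)) (b3.sub c3) (fun w => by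
      have h2 := mul_le_mul_of_nonneg_left (hc (d + 1) w)
        (sub_nonneg.2 (hζ.anti (Nat.le_succ d)))
      rw [GE_add hH hζ hν hu hv]
      linarith [ih w]) (d + 2) w
    rw [hs.Ex_add _ (c4.add (b1.sub c1)) (b2.sub c2), hs.Ex_add _ c4 (b1.sub c1),
      hs.Ex_sub _ b1 c1, hs.Ex_sub _ b2 c2, hs.Ex_sub _ b3 c3, Ex_const_mul, Ex_const_mul,
      Ex_const_mul, Ex_const_mul, GE, Ex_tower (Nat.zero_le _) (Nat.le_succ _)] at h1
    rw [Bp_succ hH hζ hν hu h0, Bp_succ hH hζ hν hv h0, Bp_succ hH hζ hν (hu.add hv) h0]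
    exact h1

omit [BorelSpace W] [SecondCountableTopology W] in
theorem grid {Ψ m₁ m₂ m a₁ a₂ a : W → ℝ} {v₁ v₂ v : W} {K : ℝ} (j1 : DJet Ψ v₁ m₁ a₁ K)
    (j2 : DJet Ψ v₂ m₂ a₂ K) (j3 : DJet Ψ v m a K) (hv : v = v₁ + v₂)
    (hm : ∀ w, m w = m₁ w + m₂ w) (ha : ∀ w, a₁ w + a₂ w ≤ a w) (w : W) :
    Ψ (w + v₁) + Ψ (w + v₂) ≤ Ψ (w + v) + Ψ w := by
  have cell : ∀ (p : W) (h : ℝ), 0 ≤ h →
      -(3 * K * h ^ 3) ≤ Ψ (p + h • v) - Ψ (p + h • v₁) - (Ψ (p + h • v₂) - Ψ p) := by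
    intro p h h0
    have h1 := (abs_le.1 (j1.tay p h)).2
    have h2 := (abs_le.1 (j2.tay p h)).2
    have h3 := (abs_le.1 (j3.tay p h)).1
    rw [abs_of_nonneg h0] at h1 h2 h3
    have h4 := mul_le_mul_of_nonneg_left (ha p) (show 0 ≤ h ^ 2 / 2 by positivity)
    rw [hm] at h3
    linarith
  have main : ∀ M : ℕ, -(3 * K / ((M : ℝ) + 1)) ≤ Ψ (w + v) - Ψ (w + v₁) - (Ψ (w + v₂) - Ψ w) := by
    intro M
    have hM : (0 : ℝ) < (M : ℝ) + 1 := by positivity
    obtain ⟨h, hh⟩ : ∃ h : ℝ, h = ((M : ℝ) + 1)⁻¹ := ⟨_, rfl⟩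
    have h0 : 0 ≤ h := by rw [hh]; positivity
    have h1 : ((M + 1 : ℕ) : ℝ) * h = 1 := by
      rw [hh]
      push_cast
      exact mul_inv_cancel₀ hM.ne'
    let F : ℕ → ℕ → ℝ := fun i j => Ψ (w + ((i : ℝ) * h) • v₁ + ((j : ℝ) * h) • v₂)
    have h2 : ∀ i j, -(3 * K * h ^ 3) ≤
        (F (i + 1) (j + 1) - F (i + 1) j) - (F i (j + 1) - F i j) := fun i j => by
      have e1 : w + (((i + 1 : ℕ) : ℝ) * h) • v₁ + (((j + 1 : ℕ) : ℝ) * h) • v₂ =
          w + ((i : ℝ) * h) • v₁ + ((j : ℝ) * h) • v₂ + h • v := by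
        rw [hv]
        push_cast
        module
      have e2 : w + (((i + 1 : ℕ) : ℝ) * h) • v₁ + ((j : ℝ) * h) • v₂ =
          w + ((i : ℝ) * h) • v₁ + ((j : ℝ) * h) • v₂ + h • v₁ := by
        push_cast
        module
      have e3 : w + ((i : ℝ) * h) • v₁ + (((j + 1 : ℕ) : ℝ) * h) • v₂ =
          w + ((i : ℝ) * h) • v₁ + ((j : ℝ) * h) • v₂ + h • v₂ := by
        push_cast
        module
      simp only [F, e1, e2, e3]
      exact cell _ h h0
    have h3 := Finset.sum_le_sum (s := Finset.range (M + 1)) fun j _ =>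
      Finset.sum_le_sum (s := Finset.range (M + 1)) fun i _ => h2 i j
    have h4 : ∀ j, ∑ i ∈ Finset.range (M + 1),
        ((F (i + 1) (j + 1) - F (i + 1) j) - (F i (j + 1) - F i j)) =
        (F (M + 1) (j + 1) - F (M + 1) j) - (F 0 (j + 1) - F 0 j) := fun j =>
      Finset.sum_range_sub (fun i => F i (j + 1) - F i j) (M + 1)
    simp only [h4, Finset.sum_const, Finset.card_range, nsmul_eq_mul] at h3
    rw [Finset.sum_sub_distrib, Finset.sum_range_sub (fun j => F (M + 1) j),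
      Finset.sum_range_sub (fun j => F 0 j)] at h3
    simp only [F, h1, Nat.cast_zero, zero_mul, zero_smul, one_smul, add_zero] at h3
    rw [hv, ← add_assoc]
    refine le_trans (le_of_eq ?_) h3
    rw [hh]
    push_cast
    field_simp
  have hlim : Filter.Tendsto (fun M : ℕ => -(3 * K / ((M : ℝ) + 1))) Filter.atTop (nhds (-0)) :=
    (Filter.Tendsto.div_atTop tendsto_const_nhds
      (tendsto_natCast_atTop_atTop.atTop_add tendsto_const_nhds)).neg
  have := le_of_tendsto' hlim main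
  linarith

end PertAux

theorem x_convex (hζ : Zok ζ) (hν : ∀ d, Noise (ν d)) (hH : HG H) {g : W → Ω → ℝ} (hg : BM2 g)
    (d : ℕ) (w : W) :
    ConvexOn ℝ Set.univ fun t : ℝ => X ζ ν (gtop μ fun w x => H w x + t * g w x) d w := by
  refine ⟨convex_univ, fun s _ t _ a b ha hb hab => ?_⟩
  have h1 := mul_le_mul_of_nonneg_left (PertAux.jen (μ := μ) hζ hν hH hg d w (a * s + b * t) s) ha
  have h2 := mul_le_mul_of_nonneg_left (PertAux.jen (μ := μ) hζ hν hH hg d w (a * s + b * t) t) hb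
  simp only [smul_eq_mul]
  obtain rfl : b = 1 - a := by linarith
  linarith

theorem hasDerivAt_pert (hζ : Zok ζ) (hν : ∀ d, Noise (ν d)) (hH : HG H) {g : W → Ω → ℝ}
    (hg : BM2 g) (d : ℕ) (w : W) :
    HasDerivAt (fun t : ℝ => X ζ ν (gtop μ fun w x => H w x + t * g w x) d w)
      (GE ζ ν μ H g d w) 0 := by
  obtain ⟨C, hC0, hC⟩ := PertAux.bnd hg
  refine JetAux.deriv_of_sq (C := 2 * C * (4 * C * Real.exp (4 * C))) fun s hs => ?_
  have h1 := PertAux.jen (μ := μ) hζ hν hH hg d w 0 s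
  have h2 := PertAux.jen (μ := μ) hζ hν hH hg d w s 0
  have h3 := PertAux.ge_abs (μ := μ) hζ hν hH (hg_add hH (hg.const_mul s)) (b := |s| * C)
    (fun w x => by
      rw [add_sub_cancel_left, abs_mul]
      exact mul_le_mul_of_nonneg_left (hC w x) (abs_nonneg s)) hg hC d w
  simp only [zero_mul, add_zero, zero_add, sub_zero, zero_sub] at h1 h2 ⊢
  have h4 : Real.exp (4 * (|s| * C)) - 1 ≤ 4 * C * Real.exp (4 * C) * |s| := by
    have h5 := Real.add_one_le_exp (-(4 * (|s| * C)))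
    have h6 : Real.exp (4 * (|s| * C)) ≤ Real.exp (4 * C) :=
      Real.exp_le_exp.2 (by nlinarith [abs_nonneg s])
    have h7 := mul_le_mul_of_nonneg_right h5 (Real.exp_pos (4 * (|s| * C))).le
    rw [← Real.exp_add, neg_add_cancel, Real.exp_zero] at h7
    have h8 := mul_le_mul_of_nonneg_left h6 (show 0 ≤ 4 * (|s| * C) by positivity)
    linarith
  have h5 := h3.trans (mul_le_mul_of_nonneg_left h4 (by positivity))
  have h6 := mul_le_mul_of_nonneg_left h5 (abs_nonneg s)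
  rw [← abs_mul] at h6
  have h7 : |s| * (2 * C * (4 * C * Real.exp (4 * C) * |s|)) =
      2 * C * (4 * C * Real.exp (4 * C)) * s ^ 2 := by
    rw [← sq_abs s]
    ring
  rw [h7] at h6
  have h8 := (abs_le.1 h6).2
  refine abs_le.2 ⟨?_, by linarith⟩
  have : 0 ≤ 2 * C * (4 * C * Real.exp (4 * C)) * s ^ 2 := by positivity
  linarith

theorem ge_density (hζ : Zok ζ) (hν : ∀ d, Noise (ν d)) (hH : HG H) (hH' : HG H') {b : ℝ}
    (h : ∀ w x, |H' w x - H w x| ≤ b) {g : W → Ω → ℝ} (hg : BM2 g) (h0 : ∀ w x, 0 ≤ g w x)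
    (d : ℕ) (w : W) : GE ζ ν μ H' g d w ≤ Real.exp (4 * b) * GE ζ ν μ H g d w := by
  exact PertAux.dens hζ hν hH hH' h hg h0 d w

theorem ge_cheb (hζ : Zok ζ) (hν : ∀ d, Noise (ν d)) (hH : HG H) {u v : W → Ω → ℝ} (hu : BM2 u)
    (hv : BM2 v) (huv : ∀ w x w' x', 0 ≤ (u w x - u w' x') * (v w x - v w' x')) (d : ℕ) (w : W) :
    GE ζ ν μ H u d w * GE ζ ν μ H v d w ≤ GE ζ ν μ H (fun w x => u w x * v w x) d w := by
  obtain ⟨C, hC0, hC⟩ := PertAux.bnd hu
  obtain ⟨c, hc⟩ : ∃ c, c = GE ζ ν μ H v d w := ⟨_, rfl⟩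
  obtain ⟨a, h1, h2⟩ := exists_between_of_forall_le
    (s := insert (-C) {y | ∃ w x, v w x < c ∧ y = u w x})
    (t := insert C {y | ∃ w x, c < v w x ∧ y = u w x}) (Set.insert_nonempty _ _)
    (Set.insert_nonempty _ _) (by
      rintro y (rfl | ⟨w, x, h, rfl⟩) y' (rfl | ⟨w', x', h', rfl⟩)
      · linarith
      · exact (abs_le.1 (hC _ _)).1
      · exact (abs_le.1 (hC _ _)).2
      · by_contra hlt
        nlinarith [huv w x w' x'])
  have h3 := GE_nonneg (ζ := ζ) (ν := ν) (μ := μ) (H := H)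
    (g := fun w x => (u w x * v w x - c * u w x) - (a * v w x - a * c)) (fun w x => by
      rcases lt_trichotomy (v w x) c with h | h | h
      · nlinarith [h1 (Or.inr ⟨w, x, h, rfl⟩)]
      · rw [h]
        linarith
      · nlinarith [h2 (Or.inr ⟨w, x, h, rfl⟩)]) d w
  rw [GE_sub hH hζ hν ((hu.mul hv).sub (hu.const_mul c)) ((hv.const_mul a).sub (BM2.const _)),
    GE_sub hH hζ hν (hu.mul hv) (hu.const_mul c), GE_sub hH hζ hν (hv.const_mul a) (BM2.const _),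
    GE_const_mul, GE_const_mul, GE_const hH hζ hν, ← hc] at h3
  rw [← hc]
  linarith

theorem supermod (hζ : Zok ζ) (hz : ζ 0 = 1) (hν : ∀ d, Noise (ν d)) (hH : HG H)
    {u v : W → Ω → ℝ} (hu : BM2 u) (hv : BM2 v)
    (huv : ∀ w x w' x', 0 ≤ (u w x - u w' x') * (v w x - v w' x')) (n : ℕ) :
    X ζ ν (gtop μ fun w x => H w x + u w x) (n + 1) 0
        + X ζ ν (gtop μ fun w x => H w x + v w x) (n + 1) 0
      ≤ X ζ ν (gtop μ fun w x => H w x + u w x + v w x) (n + 1) 0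
        + X ζ ν (gtop μ H) (n + 1) 0 := by
  obtain ⟨C, hC0, hC⟩ := PertAux.bnd hu
  obtain ⟨D, hD0, hD⟩ := PertAux.bnd hv
  let L : W →+ W × ℝ × ℝ := AddMonoidHom.inl W (ℝ × ℝ)
  have hL : Measurable L := measurable_id.prodMk measurable_const
  have hν' : ∀ d, Noise ((ν d).map L) := fun d => by
    have := (hν d).prob
    refine ⟨Measure.isProbabilityMeasure_map hL.aemeasurable, fun c => ?_⟩
    rw [integrable_map_measure (by fun_prop) hL.aemeasurable]
    simpa [L, Function.comp_def] using (hν d).ex c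
  have hf : Measurable fun p : (W × ℝ × ℝ) × Ω => (p.1.1, p.2) := by fun_prop
  have hu' : BM2 fun (p : W × ℝ × ℝ) x => u p.1 x := ⟨hu.1.comp hf, C, fun _ _ => hC _ _⟩
  have hv' : BM2 fun (p : W × ℝ × ℝ) x => v p.1 x := ⟨hv.1.comp hf, D, fun _ _ => hD _ _⟩
  have hH' : HG fun (p : W × ℝ × ℝ) x => H p.1 x + p.2.1 * u p.1 x + p.2.2 * v p.1 x := by
    obtain ⟨hm, B, hB⟩ := hH
    refine ⟨((hm.comp hf).add ((measurable_fst.snd.fst).mul hu'.1)).add
      ((measurable_fst.snd.snd).mul hv'.1), |B| + C + D, fun p x => ?_⟩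
    have h1 : ‖p.1‖ ≤ ‖p‖ := norm_fst_le p
    have h2 : |p.2.1| ≤ ‖p‖ := (norm_fst_le p.2).trans (norm_snd_le p)
    have h3 : |p.2.2| ≤ ‖p‖ := (norm_snd_le p.2).trans (norm_snd_le p)
    have h4 : |H p.1 x| ≤ |B| * (1 + ‖p‖) :=
      (hB _ _).trans (mul_le_mul (le_abs_self B) (by linarith) (by positivity) (abs_nonneg B))
    have h5 : |p.2.1 * u p.1 x| ≤ ‖p‖ * C := by
      rw [abs_mul]
      exact mul_le_mul h2 (hC _ _) (abs_nonneg _) (norm_nonneg _)
    have h6 : |p.2.2 * v p.1 x| ≤ ‖p‖ * D := by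
      rw [abs_mul]
      exact mul_le_mul h3 (hD _ _) (abs_nonneg _) (norm_nonneg _)
    refine ((abs_add_le _ _).trans (add_le_add_left (abs_add_le _ _) _)).trans ?_
    nlinarith
  have key : ∀ (s t : ℝ) (G : W → Ω → ℝ), (∀ w x, G w x = H w x + s * u w x + t * v w x) →
      X ζ ν (gtop μ G) (n + 1) 0 = X ζ (fun d => (ν d).map L) (gtop μ
        fun (p : W × ℝ × ℝ) x => H p.1 x + p.2.1 * u p.1 x + p.2.2 * v p.1 x) (n + 1)
          (0, s, t) := by
    intro s t G hG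
    rw [X_push L hL (0, s, t) (fun d => (hν' d).prob) (hH'.lg_gtop (μ := μ)).1 (fun w => ?_)
      (fun _ _ => rfl), map_zero, zero_add]
    simp only [gtop, L, AddMonoidHom.inl_apply, Prod.mk_add_mk, add_zero, zero_add]
    exact congrArg _ (funext fun x => hG w x)
  have hj : ∀ (s t : ℝ) (g : W × ℝ × ℝ → Ω → ℝ), BM2 g → (∀ p x, |g p x| ≤ C + D) →
      (∀ p x, g p x = s * u p.1 x + t * v p.1 x) → FJet (fun (p : W × ℝ × ℝ) x =>
        H p.1 x + p.2.1 * u p.1 x + p.2.2 * v p.1 x) (0, s, t) g (fun _ _ => 0) (C + D) := by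
    intro s t g hg hb he
    have h1 : ∀ (p : W × ℝ × ℝ) x (r : ℝ), H (p + r • (0, s, t)).1 x +
        (p + r • ((0 : W), s, t)).2.1 * u (p + r • (0, s, t)).1 x +
        (p + r • ((0 : W), s, t)).2.2 * v (p + r • (0, s, t)).1 x -
        (H p.1 x + p.2.1 * u p.1 x + p.2.2 * v p.1 x) = r * g p x := fun p x r => by
      simp only [Prod.fst_add, Prod.snd_add, Prod.smul_mk, smul_zero, add_zero, smul_eq_mul, he]
      ring
    refine ⟨by positivity, hg.1, measurable_const, hb, fun _ _ => by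
      rw [abs_zero]
      positivity, fun p x r => ?_, fun p x r => ?_⟩
    · rw [h1, abs_mul, mul_comm]
      exact mul_le_mul_of_nonneg_right (hb p x) (abs_nonneg r)
    · rw [h1, sub_self, mul_zero, sub_self, abs_zero]
      positivity
  have j1 := jet_gibbs (μ := μ) hH' hζ hν' (hj 1 0 _ hu' (fun p x => (hC _ _).trans (by linarith))
    fun p x => by ring) n
  have j2 := jet_gibbs (μ := μ) hH' hζ hν' (hj 0 1 _ hv' (fun p x => (hD _ _).trans (by linarith))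
    fun p x => by ring) n
  have j3 := jet_gibbs (μ := μ) hH' hζ hν' (hj 1 1 _ (hu'.add hv')
    (fun p x => (abs_add_le _ _).trans (add_le_add (hC _ _) (hD _ _))) fun p x => by ring) n
  have huv' := fun (p : W × ℝ × ℝ) x (p' : W × ℝ × ℝ) x' => huv p.1 x p'.1 x'
  have h := PertAux.grid j1 j2 j3 (by simp) (fun p => GE_add hH' hζ hν' hu' hv' _ p) (fun p => by
    have h1 := PertAux.bp_mix (μ := μ) hζ hz hν' hH' hu' hv'
      (ge_cheb hζ hν' hH' hu' hv' huv') n p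
    have h2 := mul_le_mul_of_nonneg_left (ge_cheb (μ := μ) hζ hν' hH' hu' hv' huv' (n + 1) p)
      (hζ.nn n)
    rw [GE_add hH' hζ hν' hu' hv']
    linarith) 0
  rw [key 1 0 _ (fun w x => by ring), key 0 1 _ (fun w x => by ring),
    key 1 1 _ (fun w x => by ring), key 0 0 H (fun w x => by ring)]
  simp only [zero_add] at h
  exact h

end Vale.Agent.P166
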