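import Vale.Agent.P166.Rmu

/-! # Comparison of the R-transform with its discretizations -/

namespace Vale.Agent.P166

open MeasureTheory Filter Topology Vale.Agent.P157

variable {μ : Measure ℝ} [IsProbabilityMeasure μ]

namespace QuantAux

theorem step_int (F : ℕ → ℝ) (S : ℕ → Set ℝ) (hS : ∀ a, MeasurableSet (S a)) (K : ℕ) :
    Integrable (fun t => F K + ∑ a ∈ Finset.range K,
      (S a).indicator (fun _ => F a - F (a + 1)) t) μ ∧
    ∫ t, (F K + ∑ a ∈ Finset.range K, (S a).indicator (fun _ => F a - F (a + 1)) t) ∂μ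
      = F K + ∑ a ∈ Finset.range K, μ.real (S a) * (F a - F (a + 1)) := by
  have h1 : ∀ a, Integrable ((S a).indicator fun _ => F a - F (a + 1)) μ := fun a =>
    (integrable_const _).indicator (hS a)
  have h2 := integrable_finsetSum (Finset.range K) fun a _ => h1 a
  refine ⟨(integrable_const _).add h2, ?_⟩
  rw [integral_add (integrable_const _) h2, integral_finsetSum _ fun a _ => h1 a]
  simp [integral_indicator_const _ (hS _)]

theorem abel1 (F : ℕ → ℝ) (k : ℕ) : k * F k + ∑ a ∈ Finset.range k, (a : ℝ) * (F a - F (a + 1))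
    = ∑ a ∈ Finset.range k, F (a + 1) := by
  induction k with
  | zero => simp
  | succ k ih => rw [Finset.sum_range_succ, Finset.sum_range_succ, ← ih]; push_cast; ring

theorem abel2 (F : ℕ → ℝ) (k : ℕ) :
    k * F k + ∑ a ∈ Finset.range k, ((a + 1 : ℕ) : ℝ) * (F a - F (a + 1))
    = ∑ a ∈ Finset.range k, F a := by
  induction k with
  | zero => simp
  | succ k ih => rw [Finset.sum_range_succ, Finset.sum_range_succ, ← ih]; push_cast; ring

theorem res_mono {γ s t : ℝ} (h : s ≤ t) (ht : t < γ) : (γ - s)⁻¹ ≤ (γ - t)⁻¹ :=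
  inv_anti₀ (by linarith) (by linarith)

theorem shift {a ε w : ℝ} (ha : 0 < a) (hε : 0 < ε) (hw : a + ε ≤ w) :
    (a + ε)⁻¹ + ε / w ^ 2 ≤ a⁻¹ := by
  have h1 : ε / w ^ 2 ≤ ε / (a * (a + ε)) :=
    div_le_div_of_nonneg_left hε.le (by positivity) (by nlinarith)
  have h2 : (a + ε)⁻¹ + ε / (a * (a + ε)) = a⁻¹ := by field_simp
  linarith

theorem small {u ε D N : ℝ} (hε : 0 < ε) (hu : ε ≤ u) (hD : 0 ≤ D)
    (hN : 2 * D * (ε + D) / ε ^ 2 ≤ N) : 2 * (u⁻¹ - (u + D)⁻¹) ≤ N * (ε / (u + D) ^ 2) := by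
  have u0 : 0 < u := by linarith
  have e : 2 * (u⁻¹ - (u + D)⁻¹) = 2 * D * (u + D) / (ε * u) * (ε / (u + D) ^ 2) := by
    field_simp; ring
  rw [e]
  refine mul_le_mul_of_nonneg_right (le_trans ?_ hN) (by positivity)
  rw [div_le_div_iff₀ (by positivity) (by positivity)]
  have : 0 ≤ D * D * ε * (u - ε) := by
    have := sub_nonneg.2 hu
    positivity
  nlinarith

theorem disc {β Λ lo : ℝ} (hβ : 0 < β) (hΛ : lo ≤ Λ) (m : ℕ) (lam : ℕ → ℝ)
    (h : ∀ a, lo ≤ lam a ∧ lam a ≤ Λ) {x : ℝ} (hx : 0 < x) :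
    ∃ γ, Λ < γ ∧ (m + 1) * (β * x) = (γ - Λ)⁻¹ + ∑ a ∈ Finset.range m, (γ - lam a)⁻¹ ∧
      β * Λ + Rc (cv (fun a : Fin m => β * (Λ - lam a)) 0) x = β * γ - x⁻¹ := by
  have hc : Cok (cv (fun a : Fin m => β * (Λ - lam a)) 0) (β * (Λ - lo)) :=
    cok_cv (mul_nonneg hβ.le (by linarith)) fun a => by
      rw [add_zero]
      exact ⟨mul_nonneg hβ.le (by linarith [(h a).2]),
        mul_le_mul_of_nonneg_left (by linarith [(h a).1]) hβ.le⟩
  have h1 := Mf_Minv hc hx.le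
  have h2 := Minv_pos hc hx
  rw [Rc_eq hc hx]
  generalize Minv (cv (fun a : Fin m => β * (Λ - lam a)) 0) x = δ at h1 h2
  have p : 0 < (β * δ)⁻¹ := by positivity
  refine ⟨Λ + (β * δ)⁻¹, by linarith, ?_, by field_simp; ring⟩
  have e : ∀ a, (Λ + (β * δ)⁻¹ - lam a)⁻¹ = β * (δ / (1 + (β * (Λ - lam a) + 0) * δ)) := by
    intro a
    have q : 0 ≤ β * (Λ - lam a) * δ := by
      have := sub_nonneg.2 (h a).2
      positivity
    have : Λ + (β * δ)⁻¹ - lam a = (1 + β * (Λ - lam a) * δ) / (β * δ) := by field_simp; ring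
    rw [this, add_zero, inv_div, mul_div_assoc]
  rw [← h1, Finset.sum_range, add_sub_cancel_left, inv_inv]
  simp only [e, Mf, avg, Fintype.sum_option, cv, Option.elim, Fintype.card_option, Fintype.card_fin,
    ← Finset.mul_sum]
  push_cast
  field_simp
  ring

end QuantAux

open QuantAux

theorem res_ge (hc : IsCompact μ.support) {K : ℕ} (hK : 1 ≤ K) {γ : ℝ} (h : sSup μ.support < γ) :
    (∑ a ∈ Finset.range K, (γ - Qn μ K (a + 1))⁻¹) / K ≤ ∫ t, (γ - t)⁻¹ ∂μ := by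
  set F : ℕ → ℝ := fun a => (γ - Qn μ K a)⁻¹ with hF
  have K0 : (0 : ℝ) < K := by exact_mod_cast hK
  have an := Qn_anti hc K
  have dF : ∀ a, 0 ≤ F a - F (a + 1) := fun a =>
    sub_nonneg.2 (res_mono (an (Nat.le_succ a)) ((Qn_bounds hc K a).2.trans_lt h))
  obtain ⟨i1, i2⟩ := step_int (μ := μ) F (fun a => Set.Ici (Qn μ K a))
    (fun _ => measurableSet_Ici) K
  have pw : ∀ t, t < γ → ∀ k, Qn μ K k ≤ t → F k + ∑ a ∈ Finset.range k,
      (Set.Ici (Qn μ K a)).indicator (fun _ => F a - F (a + 1)) t ≤ (γ - t)⁻¹ := by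
    intro t ht k
    induction k with
    | zero => intro hk; simpa using res_mono hk ht
    | succ k ih =>
      intro hk
      by_cases h' : Qn μ K k ≤ t
      · rw [Finset.sum_range_succ, Set.indicator_of_mem (Set.mem_Ici.2 h')]
        linarith [ih h']
      · rw [Finset.sum_eq_zero, add_zero]
        · exact res_mono hk ht
        · exact fun a ha => Set.indicator_of_notMem (s := Set.Ici (Qn μ K a)) (fun h'' => h'
            ((an (Nat.lt_succ_iff.1 (Finset.mem_range.1 ha))).trans h'')) _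
  have le : ∫ t, (F K + ∑ a ∈ Finset.range K,
      (Set.Ici (Qn μ K a)).indicator (fun _ => F a - F (a + 1)) t) ∂μ ≤ ∫ t, (γ - t)⁻¹ ∂μ :=
    integral_mono_ae i1 (integrable_res hc h) ((ae_mem_Icc hc).mono fun t ht =>
      pw t (ht.2.trans_lt h) K ((Qn_top hc hK le_rfl).trans_le ht.1))
  refine le_trans ?_ le
  rw [i2, div_le_iff₀ K0, ← abel1 F K, add_mul, Finset.sum_mul, mul_comm (F K)]
  refine add_le_add le_rfl (Finset.sum_le_sum fun a ha => ?_)
  have := Qn_Ici hc hK (Finset.mem_range.1 ha).le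
  rw [div_le_iff₀ K0] at this
  nlinarith [mul_le_mul_of_nonneg_right this (dF a)]

theorem res_le (hc : IsCompact μ.support) {K : ℕ} (hK : 1 ≤ K) {γ : ℝ} (h : sSup μ.support < γ) :
    ∫ t, (γ - t)⁻¹ ∂μ ≤ (∑ a ∈ Finset.range K, (γ - Qn μ K a)⁻¹) / K := by
  set F : ℕ → ℝ := fun a => (γ - Qn μ K a)⁻¹ with hF
  have K0 : (0 : ℝ) < K := by exact_mod_cast hK
  have an := Qn_anti hc K
  have lt : ∀ a, Qn μ K a < γ := fun a => (Qn_bounds hc K a).2.trans_lt h
  have dF : ∀ a, 0 ≤ F a - F (a + 1) := fun a =>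
    sub_nonneg.2 (res_mono (an (Nat.le_succ a)) (lt a))
  obtain ⟨i1, i2⟩ := step_int (μ := μ) F (fun a => Set.Ioi (Qn μ K (a + 1)))
    (fun _ => measurableSet_Ioi) K
  have pw : ∀ t, t ≤ Qn μ K 0 → ∀ k, (γ - t)⁻¹ ≤ F k + ∑ a ∈ Finset.range k,
      (Set.Ioi (Qn μ K (a + 1))).indicator (fun _ => F a - F (a + 1)) t := by
    intro t ht k
    induction k with
    | zero => simpa using res_mono ht (lt 0)
    | succ k ih =>
      by_cases h' : Qn μ K (k + 1) < t
      · rw [Finset.sum_range_succ, Set.indicator_of_mem (Set.mem_Ioi.2 h')]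
        linarith
      · exact le_add_of_le_of_nonneg (res_mono (not_lt.1 h') (lt _))
          (Finset.sum_nonneg fun a _ => Set.indicator_nonneg (fun _ _ => dF a) t)
  have ae : ∀ᵐ t ∂μ, t ≤ Qn μ K 0 := by
    have h0 := Qn_Ioi hc K 0
    rw [Nat.cast_zero, zero_div] at h0
    have h1 : μ (Set.Ioi (Qn μ K 0)) = 0 :=
      (measureReal_eq_zero_iff (measure_ne_top _ _)).1 (le_antisymm h0 measureReal_nonneg)
    rw [ae_iff]
    simp only [not_le]
    exact h1
  have le : ∫ t, (γ - t)⁻¹ ∂μ ≤ ∫ t, (F K + ∑ a ∈ Finset.range K,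
      (Set.Ioi (Qn μ K (a + 1))).indicator (fun _ => F a - F (a + 1)) t) ∂μ :=
    integral_mono_ae (integrable_res hc h) i1 (ae.mono fun t ht => pw t ht K)
  refine le.trans ?_
  rw [i2, le_div_iff₀ K0, ← abel2 F K, add_mul, Finset.sum_mul, mul_comm (F K)]
  refine add_le_add le_rfl (Finset.sum_le_sum fun a _ => ?_)
  have := Qn_Ioi hc K (a + 1)
  rw [le_div_iff₀ K0] at this
  nlinarith [mul_le_mul_of_nonneg_right this (dF a)]

theorem rc_ub (hc : IsCompact μ.support) {β ε : ℝ} (hβ : 0 < β) (hε : 0 < ε) :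
    ∀ᶠ m : ℕ in atTop, ∀ x, 0 < x →
      β * (sSup μ.support + 2 * ε)
        + Rc (cv (fun a : Fin m => β * (sSup μ.support + 2 * ε - (Qn μ (m + 1) a + ε))) 0) x
        ≤ β * Rtr μ (β * x) + 3 * β * ε := by
  have hD := sub_nonneg.2 (supp_le hc)
  set hi := sSup μ.support with hhi
  set lo := sInf μ.support with hlo
  filter_upwards [tendsto_natCast_atTop_atTop.eventually_ge_atTop
    (2 * (hi - lo) * (ε + (hi - lo)) / ε ^ 2)] with m hm x hx
  have hb := Qn_bounds hc (m + 1)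
  obtain ⟨γ, h1, h2, h3⟩ := disc (Λ := hi + 2 * ε) (lo := lo) hβ (by linarith) m
    (fun a => Qn μ (m + 1) a + ε) (fun a => ⟨by linarith [(hb a).1], by linarith [(hb a).2]⟩) hx
  have key : γ - 3 * ε ≤ gam μ (β * x) := by
    refine le_gam hc (mul_pos hβ hx) fun g hg hG => ?_
    by_contra hlt
    have hlt' : g + 3 * ε < γ := by linarith [not_le.1 hlt]
    set f : ℝ → ℝ := fun t => (g + ε - t)⁻¹ with hf
    have r1 := (res_ge hc (Nat.le_add_left 1 m) hg).trans hG
    rw [div_le_iff₀ (by positivity)] at r1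
    push_cast at r1
    have s1 : (γ - (hi + 2 * ε))⁻¹ < f hi := inv_strictAnti₀ (by linarith) (by linarith)
    have s2 : ∑ a ∈ Finset.range m, (γ - (Qn μ (m + 1) a + ε))⁻¹ ≤
        ∑ a ∈ Finset.range m, f (Qn μ (m + 1) a) := Finset.sum_le_sum fun a _ =>
      inv_anti₀ (by linarith [(hb a).2]) (by linarith)
    have s3 : ∑ a ∈ Finset.range (m + 1), (f (Qn μ (m + 1) (a + 1)) + ε / (g + ε - lo) ^ 2) ≤
        ∑ a ∈ Finset.range (m + 1), (g - Qn μ (m + 1) (a + 1))⁻¹ := Finset.sum_le_sum fun a _ => by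
      have := shift (a := g - Qn μ (m + 1) (a + 1)) (w := g + ε - lo)
        (by linarith [(hb (a + 1)).2]) hε (by linarith [(hb (a + 1)).1])
      rwa [sub_add_eq_add_sub] at this
    rw [Finset.sum_add_distrib, Finset.sum_const, Finset.card_range, nsmul_eq_mul] at s3
    push_cast at s3
    have s4 := Finset.sum_range_succ' (fun a => f (Qn μ (m + 1) a)) (m + 1)
    rw [Finset.sum_range_succ, Finset.sum_range_succ] at s4
    have f1 : ∀ a, f lo ≤ f (Qn μ (m + 1) a) := fun a =>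
      res_mono (hb a).1 (by linarith [(hb a).2])
    have f2 : f (Qn μ (m + 1) 0) ≤ f hi := res_mono (hb 0).2 (by linarith)
    have s5 := small (u := g + ε - hi) (N := m) hε (by linarith) hD hm
    rw [sub_add_sub_cancel] at s5
    have s6 : 0 ≤ ε / (g + ε - lo) ^ 2 := by positivity
    have f3 := f1 m
    have f4 := f1 (m + 1)
    have s5' : 2 * (f hi - f lo) ≤ m * (ε / (g + ε - lo) ^ 2) := s5
    linarith
  rw [h3, Rtr, mul_sub, mul_inv, ← mul_assoc, mul_inv_cancel₀ hβ.ne', one_mul]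
  nlinarith [mul_le_mul_of_nonneg_left key hβ.le]

theorem rc_lb (hc : IsCompact μ.support) {β ε : ℝ} (hβ : 0 < β) (hε : 0 < ε) :
    ∀ᶠ m : ℕ in atTop, ∀ x, 0 < x →
      β * Rtr μ (β * x) - 4 * β * ε ≤ β * (Qn μ (m + 1) 2 - ε)
        + Rc (cv (fun a : Fin m =>
            β * (Qn μ (m + 1) 2 - ε - (Qn μ (m + 1) (a + 3) - 2 * ε))) 0) x := by
  have hD := sub_nonneg.2 (supp_le hc)
  have h2' := (tendsto_add_atTop_nat 1).eventually (Qn_two hc hε)
  set hi := sSup μ.support with hhi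
  set lo := sInf μ.support with hlo
  filter_upwards [tendsto_natCast_atTop_atTop.eventually_ge_atTop
    (2 * (hi - lo) * (ε + (hi - lo)) / ε ^ 2), h2'] with m hm hQ x hx
  have hb := Qn_bounds hc (m + 1)
  have an := Qn_anti hc (m + 1)
  obtain ⟨γ, h1, h2, h3⟩ := disc (Λ := Qn μ (m + 1) 2 - ε) (lo := lo - 2 * ε) hβ
    (by linarith [(hb 2).1]) m (fun a => Qn μ (m + 1) (a + 3) - 2 * ε)
    (fun a => ⟨by linarith [(hb (a + 3)).1], by linarith [an (show 2 ≤ a + 3 by omega)]⟩) hx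
  have key : gam μ (β * x) ≤ γ + 4 * ε := by
    have hg : hi < γ + 4 * ε := by linarith
    refine gam_le hc hg ((res_le hc (Nat.le_add_left 1 m) hg).trans ?_)
    rw [div_le_iff₀ (by positivity)]
    push_cast
    set f : ℝ → ℝ := fun t => (γ + 4 * ε - t)⁻¹ with hf
    have s1 : f hi ≤ (γ - (Qn μ (m + 1) 2 - ε))⁻¹ := inv_anti₀ (by linarith) (by linarith)
    have s3 : ∑ a ∈ Finset.range m, (f (Qn μ (m + 1) (a + 3)) + ε / (γ + 4 * ε - lo) ^ 2) ≤
        ∑ a ∈ Finset.range m, (γ - (Qn μ (m + 1) (a + 3) - 2 * ε))⁻¹ :=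
      Finset.sum_le_sum fun a _ => by
        have k1 := shift (a := γ + 3 * ε - Qn μ (m + 1) (a + 3)) (w := γ + 4 * ε - lo)
          (by linarith [(hb (a + 3)).2]) hε (by linarith [(hb (a + 3)).1])
        have e : γ + 3 * ε - Qn μ (m + 1) (a + 3) + ε = γ + 4 * ε - Qn μ (m + 1) (a + 3) := by ring
        rw [e] at k1
        exact k1.trans (inv_anti₀ (by linarith [(hb (a + 3)).2]) (by linarith))
    rw [Finset.sum_add_distrib, Finset.sum_const, Finset.card_range, nsmul_eq_mul] at s3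
    have s4 : ∑ a ∈ Finset.range (m + 1), f (Qn μ (m + 1) a) + f (Qn μ (m + 1) (m + 1)) +
        f (Qn μ (m + 1) (m + 2)) = ∑ a ∈ Finset.range m, f (Qn μ (m + 1) (a + 3)) +
          f (Qn μ (m + 1) 2) + f (Qn μ (m + 1) 1) + f (Qn μ (m + 1) 0) := by
      rw [← Finset.sum_range_succ (fun a => f (Qn μ (m + 1) a)) (m + 1),
        ← Finset.sum_range_succ (fun a => f (Qn μ (m + 1) a)) (m + 2),
        Finset.sum_range_succ', Finset.sum_range_succ', Finset.sum_range_succ']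
    have f1 : ∀ a, f lo ≤ f (Qn μ (m + 1) a) := fun a =>
      res_mono (hb a).1 (by linarith [(hb a).2])
    have f2 : ∀ a, f (Qn μ (m + 1) a) ≤ f hi := fun a => res_mono (hb a).2 hg
    have s5 := small (u := γ + 4 * ε - hi) (N := m) hε (by linarith) hD hm
    rw [sub_add_sub_cancel] at s5
    have s5' : 2 * (f hi - f lo) ≤ m * (ε / (γ + 4 * ε - lo) ^ 2) := s5
    change ∑ a ∈ Finset.range (m + 1), f (Qn μ (m + 1) a) ≤ _
    linarith [f1 (m + 1), f1 (m + 2), f2 0, f2 1, f2 2]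
  rw [h3, Rtr, mul_sub, mul_inv, ← mul_assoc, mul_inv_cancel₀ hβ.ne', one_mul]
  nlinarith [mul_le_mul_of_nonneg_left key hβ.le]

end Vale.Agent.P166
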