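import Vale.Agent.P166.Defs

/-! # Parametric measurability, trivial Hamiltonian, responses -/

namespace Vale.Agent.P166

open MeasureTheory ProbabilityTheory Vale.Agent.P157

variable {W : Type} [NormedAddCommGroup W] [MeasurableSpace W] [BorelSpace W]
  [SecondCountableTopology W] {Ω : Type} [MeasurableSpace Ω] {μ : Measure Ω}
  [IsProbabilityMeasure μ] {ζ : ℕ → ℝ} {ν : ℕ → Measure W}

namespace RespAux

theorem shift {Y : Type} [MeasurableSpace Y] :
    Measurable fun p : (Y × W) × W => (p.1.1, p.1.2 + p.2) := by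
  fun_prop

theorem at0 {Y : Type} [MeasurableSpace Y] {f : Y → W → ℝ}
    (h : Measurable fun p : Y × W => f p.1 p.2) : Measurable fun y => f y 0 :=
  h.comp (measurable_id.prodMk measurable_const)

theorem top {Y : Type} [MeasurableSpace Y] {H : Y → W → Ω → ℝ}
    (hH : Measurable fun p : Y × W × Ω => H p.1 p.2.1 p.2.2) :
    Measurable (Function.uncurry fun y => gtop μ (H y)) :=
  measurable_lse (ν := μ) 1 (F := fun (p : Y × W) x => H p.1 p.2 x)
    (hH.comp (f := fun p : (Y × W) × Ω => (p.1.1, p.1.2, p.2)) (by fun_prop))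

theorem gb {Y : Type} [MeasurableSpace Y] {H g : Y → W → Ω → ℝ}
    (hH : Measurable fun p : Y × W × Ω => H p.1 p.2.1 p.2.2)
    (hg : Measurable fun p : Y × W × Ω => g p.1 p.2.1 p.2.2) :
    Measurable (Function.uncurry fun y => gib μ (H y) (g y)) :=
  measurable_gexp (ν := μ) 1 (F := fun (p : Y × W) x => H p.1 p.2 x)
    (g := fun (p : Y × W) x => g p.1 p.2 x)
    (hH.comp (f := fun p : (Y × W) × Ω => (p.1.1, p.1.2, p.2)) (by fun_prop))
    (hg.comp (f := fun p : (Y × W) × Ω => (p.1.1, p.1.2, p.2)) (by fun_prop))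

theorem gexp0 {E : Type} [MeasurableSpace E] {ν : Measure E} [IsProbabilityMeasure ν] (z : ℝ)
    (g : E → ℝ) : gexp ν z (fun _ => 0) g = ∫ x, g x ∂ν := by
  simp [gexp_eq]

theorem lin {H : W → Ω → ℝ} (hH : HG H) (hζ : Zok ζ) (hν : ∀ d, Noise (ν d)) {ι : Type}
    [Fintype ι] {m : ι → W → Ω → ℝ} (hm : ∀ i, BM2 (m i)) (c : ι → ℝ) (k : ℕ) (w : W) :
    GE ζ ν μ H (fun w x => ∑ i, c i * m i w x) k w = ∑ i, c i * GE ζ ν μ H (m i) k w :=
  (GE_sum hH hζ hν Finset.univ (fun i _ => (hm i).const_mul (c i)) k w).trans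
    (Finset.sum_congr rfl fun i _ => GE_const_mul _ _ _ _)

theorem wsum (hζ : Zok ζ) (d : ℕ) {a : ℕ → ℝ} {B : ℝ} (hB : 0 ≤ B) (h : ∀ k, k < d → |a k| ≤ B) :
    |∑ k ∈ Finset.range d, (ζ k - ζ (k + 1)) * a k| ≤ B := by
  have h0 : ∀ k, 0 ≤ ζ k - ζ (k + 1) := fun k => sub_nonneg.2 (hζ.anti (Nat.le_succ k))
  calc _ ≤ ∑ k ∈ Finset.range d, (ζ k - ζ (k + 1)) * B :=
        (Finset.abs_sum_le_sum_abs _ _).trans (Finset.sum_le_sum fun k hk => by
          rw [abs_mul, abs_of_nonneg (h0 k)]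
          exact mul_le_mul_of_nonneg_left (h k (Finset.mem_range.1 hk)) (h0 k))
    _ = (ζ 0 - ζ d) * B := by rw [← Finset.sum_mul, Finset.sum_range_sub']
    _ ≤ B := mul_le_of_le_one_left hB (by linarith [hζ.le1, hζ.nn d])

theorem amgm {t : ℝ} (ht : 0 < t) (a b : ℝ) :
    |a ^ 2 - b ^ 2| ≤ ((a - b) ^ 2 / t + t * (a + b) ^ 2) / 2 := by
  have h1 : ∀ x y : ℝ, x * y ≤ (x ^ 2 / t + t * y ^ 2) / 2 := fun x y => by
    have : 0 ≤ (x - t * y) ^ 2 / t := by positivity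
    have e : (x - t * y) ^ 2 / t = x ^ 2 / t + t * y ^ 2 - 2 * (x * y) := by
      field_simp
      ring
    linarith
  have h2 := h1 (a - b) (a + b)
  have h3 := h1 (a - b) (-(a + b))
  rw [neg_sq] at h3
  rw [abs_le]
  constructor <;> nlinarith

theorem sq_sub {α β : Type} {L : (α → β → ℝ) → ℝ} {B : (α → β → ℝ) → Prop}
    (hc : ∀ (c : ℝ) g, L (fun w x => c * g w x) = c * L g)
    (ha : ∀ {g g'}, B g → B g' → L (fun w x => g w x + g' w x) = L g + L g')
    (hm : ∀ {g g'}, B g → B g' → (∀ w x, g w x ≤ g' w x) → L g ≤ L g')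
    (bc : ∀ (c : ℝ) {g}, B g → B fun w x => c * g w x)
    (ba : ∀ {g g'}, B g → B g' → B fun w x => g w x + g' w x)
    {u u' p r : α → β → ℝ} (hu : B u) (hu' : B u') (hp : B p) (hr : B r) {t : ℝ} (ht : 0 < t)
    (h : ∀ w x, |u w x - u' w x| ≤ (p w x / t + t * r w x) / 2) :
    |L u - L u'| ≤ (L p / t + t * L r) / 2 := by
  have hs := ba (bc (1 / (2 * t)) hp) (bc (t / 2) hr)
  have e : ∀ x y : ℝ, (x / t + t * y) / 2 = 1 / (2 * t) * x + t / 2 * y := fun x y => by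
    field_simp
  have h1 := hm hu (ba hu' hs) fun w x => by linarith [(abs_le.1 (h w x)).2, e (p w x) (r w x)]
  have h2 := hm hu' (ba hu hs) fun w x => by linarith [(abs_le.1 (h w x)).1, e (p w x) (r w x)]
  rw [ha hu' hs, ha (bc _ hp) (bc _ hr), hc, hc] at h1
  rw [ha hu hs, ha (bc _ hp) (bc _ hr), hc, hc] at h2
  rw [e, abs_le]
  constructor <;> linarith

end RespAux

section par
variable {Y : Type} [MeasurableSpace Y]

theorem measurable_X_par (hν : ∀ d, IsProbabilityMeasure (ν d)) {Ψ : Y → W → ℝ}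
    (hΨ : Measurable (Function.uncurry Ψ)) (d : ℕ) :
    Measurable fun p : Y × W => X ζ ν (Ψ p.1) d p.2 := by
  induction d with
  | zero => exact hΨ
  | succ d ih =>
    haveI := hν d
    exact measurable_lse (ν := ν d) (ζ d) (F := fun (p : Y × W) z => X ζ ν (Ψ p.1) d (p.2 + z))
      (ih.comp (RespAux.shift (Y := Y) (W := W)))

theorem measurable_Ex_par (hν : ∀ d, IsProbabilityMeasure (ν d)) {Ψ φ : Y → W → ℝ}
    (hΨ : Measurable (Function.uncurry Ψ)) (hφ : Measurable (Function.uncurry φ)) (k d : ℕ) :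
    Measurable fun p : Y × W => Ex ζ ν (Ψ p.1) k (φ p.1) d p.2 := by
  induction d with
  | zero => exact hφ
  | succ d ih =>
    haveI := hν d
    by_cases h : d < k
    · simp only [Ex_of_le (Nat.succ_le_of_lt h)]
      exact hφ
    · simp only [Ex_succ (not_lt.1 h)]
      exact measurable_gexp (ν := ν d) (ζ d)
        (F := fun (p : Y × W) z => X ζ ν (Ψ p.1) d (p.2 + z))
        (g := fun (p : Y × W) z => Ex ζ ν (Ψ p.1) k (φ p.1) d (p.2 + z))
        ((measurable_X_par hν hΨ d).comp (RespAux.shift (Y := Y) (W := W)))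
        (ih.comp (RespAux.shift (Y := Y) (W := W)))

theorem measurable_val_par (hν : ∀ d, IsProbabilityMeasure (ν d)) {H : Y → W → Ω → ℝ}
    (hH : Measurable fun p : Y × W × Ω => H p.1 p.2.1 p.2.2) (d : ℕ) :
    Measurable fun p : Y => X ζ ν (gtop μ (H p)) d 0 := by
  exact (measurable_X_par (ζ := ζ) hν (RespAux.top (μ := μ) hH) d).comp
    (measurable_id.prodMk (measurable_const (a := (0 : W))))

theorem measurable_EG_par (hν : ∀ d, IsProbabilityMeasure (ν d)) {H g : Y → W → Ω → ℝ}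
    (hH : Measurable fun p : Y × W × Ω => H p.1 p.2.1 p.2.2)
    (hg : Measurable fun p : Y × W × Ω => g p.1 p.2.1 p.2.2) (n : ℕ) :
    Measurable fun p : Y => EG ζ ν μ (H p) (g p) n := by
  have h := measurable_Ex_par (ζ := ζ) (Ψ := fun y => gtop μ (H y))
    (φ := fun y => gib μ (H y) (g y)) hν (RespAux.top hH) (RespAux.gb hH hg) 0 (n + 1)
  exact RespAux.at0 (f := fun y w => GE ζ ν μ (H y) (g y) (n + 1) w) h

theorem measurable_Db_par (hν : ∀ d, IsProbabilityMeasure (ν d)) {H m a : Y → W → Ω → ℝ}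
    (hH : Measurable fun p : Y × W × Ω => H p.1 p.2.1 p.2.2)
    (hm : Measurable fun p : Y × W × Ω => m p.1 p.2.1 p.2.2)
    (ha : Measurable fun p : Y × W × Ω => a p.1 p.2.1 p.2.2) (n d : ℕ) :
    Measurable fun p : Y => Db ζ ν μ (H p) (m p) (a p) n d := by
  refine (measurable_EG_par (g := fun p w x => a p w x + m p w x ^ 2) hν hH
    (ha.add (hm.pow_const 2)) n).sub (Finset.measurable_sum _ fun k _ => Measurable.const_mul ?_ _)
  have h1 : Measurable fun p : Y × W => GE ζ ν μ (H p.1) (m p.1) (k + 1) p.2 :=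
    measurable_Ex_par (ζ := ζ) (Ψ := fun y => gtop μ (H y))
      (φ := fun y => gib μ (H y) (m y)) hν (RespAux.top hH) (RespAux.gb hH hm) 0 (k + 1)
  have h2 := measurable_Ex_par (ζ := ζ) (Ψ := fun y => gtop μ (H y))
    (φ := fun p w => GE ζ ν μ (H p) (m p) (k + 1) w ^ 2) hν
    (RespAux.top hH) (h1.pow_const 2) (k + 1) (n + 1)
  exact RespAux.at0 (f := fun y w => Ex ζ ν (gtop μ (H y)) (k + 1)
    (fun w => GE ζ ν μ (H y) (m y) (k + 1) w ^ 2) (n + 1) w) h2

end par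

section zero

theorem gtop_zero : gtop μ (fun (_ : W) (_ : Ω) => (0 : ℝ)) = fun _ => 0 := by
  funext w
  exact lse_const 1 0

theorem gib_zero (g : W → Ω → ℝ) (w : W) :
    gib μ (fun (_ : W) (_ : Ω) => (0 : ℝ)) g w = ∫ x, g w x ∂μ := by
  exact RespAux.gexp0 1 _

theorem x_zero (hν : ∀ d, IsProbabilityMeasure (ν d)) (d : ℕ) :
    X ζ ν (fun _ => (0 : ℝ)) d = fun _ => 0 := by
  induction d with
  | zero => rfl
  | succ d ih =>
    haveI := hν d
    funext w
    rw [X_succ, ih]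
    exact lse_const _ 0

theorem gv_zero {ι : Type} [Fintype ι] (n : ℕ) (s : ℕ → ι → ℝ) :
    GV μ ζ n s (fun _ _ => (0 : ℝ)) = 0 := by
  unfold GV
  rw [gtop_zero, x_zero (ν := gvs s) fun d => (noise_gv (s d)).prob]

theorem ex_zero {ι : Type} [Fintype ι] {s : ℕ → ι → ℝ} (hs : ∀ d i, 0 ≤ s d i)
    {φ : (ι → ℝ) → ℝ} (hφ : BM φ) {k d : ℕ} (hkd : k ≤ d) (w : ι → ℝ) :
    Ex ζ (gvs s) (fun _ => 0) k φ d w
      = ∫ z, φ (w + z) ∂(gv fun i => ∑ j ∈ Finset.Ico k d, s j i) := by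
  induction d, hkd using Nat.le_induction generalizing w with
  | base =>
    rw [Ex_of_le le_rfl, gv_of_nonpos fun i => by simp, integral_dirac, add_zero]
  | succ d hkd ih =>
    have e : (fun i => ∑ j ∈ Finset.Ico k (d + 1), s j i)
        = (fun i => ∑ j ∈ Finset.Ico k d, s j i) + s d :=
      funext fun i => Finset.sum_Ico_succ_top hkd _
    rw [Ex_succ hkd, x_zero (ν := gvs s) fun d => (noise_gv (s d)).prob, e,
      gv_conv (fun i => Finset.sum_nonneg fun j _ => hs j i) (hs d),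
      integral_conv (ChainAux.shift hφ w).integrable]
    refine (RespAux.gexp0 (ν := gv (s d)) _ _).trans ?_
    simp only [ih, add_assoc]

theorem eg_zero {ι : Type} [Fintype ι] {s : ℕ → ι → ℝ} (hs : ∀ d i, 0 ≤ s d i)
    {g : (ι → ℝ) → Ω → ℝ} (hg : BM2 g) (n : ℕ) :
    EG ζ (gvs s) μ (fun _ _ => 0) g n
      = ∫ z, ∫ x, g z x ∂μ ∂(gv fun i => ∑ j ∈ Finset.range (n + 1), s j i) := by
  have h0 : HG fun (_ : ι → ℝ) (_ : Ω) => (0 : ℝ) := ⟨measurable_const, 0, fun _ _ => by simp⟩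
  unfold EG GE
  rw [gtop_zero, ex_zero hs (h0.bm_gib hg) (Nat.zero_le _)]
  simp only [gib_zero, zero_add, Nat.Ico_zero_eq_range]

end zero

section resp
variable {H : W → Ω → ℝ} (hH : HG H) (hζ : Zok ζ) (hν : ∀ d, Noise (ν d))
include hH hζ hν

theorem eg_sum [Fintype Ω] [DecidableEq Ω] [MeasurableSingletonClass Ω] (g : Ω → ℝ) (n : ℕ) :
    EG ζ ν μ H (fun _ x => g x) n
      = ∑ x, EG ζ ν μ H (fun _ x' => if x' = x then 1 else 0) n * g x := by
  have e : (fun (_ : W) x => g x) = fun _ x' => ∑ x, g x * if x' = x then 1 else 0 := by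
    funext _ x'
    simp
  have hb : ∀ x : Ω, BM2 fun (_ : W) (x' : Ω) => if x' = x then (1 : ℝ) else 0 := fun x =>
    ⟨(measurable_of_finite fun x' => if x' = x then (1 : ℝ) else 0).comp measurable_snd, 1,
      fun _ _ => by dsimp only; split_ifs <;> simp⟩
  rw [e]
  exact (RespAux.lin hH hζ hν hb g _ _).trans (Finset.sum_congr rfl fun x _ => mul_comm _ _)

theorem db_zero {m : W → Ω → ℝ} (n : ℕ) :
    Db ζ ν μ H m (fun _ _ => 0) n 0 = EG ζ ν μ H (fun w x => m w x ^ 2) n := by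
  simp [Db]

theorem db_nonneg {m : W → Ω → ℝ} (hm : BM2 m) {n d : ℕ} (hd : d ≤ n) :
    0 ≤ Db ζ ν μ H m (fun _ _ => 0) n d := by
  have h0 : 0 ≤ EG ζ ν μ H (fun w x => m w x ^ 2) n := GE_nonneg (fun _ _ => sq_nonneg _) _ _
  have h := RespAux.wsum hζ d h0 (a := fun k => Esq ζ ν μ H m n (k + 1)) fun k hk => by
    rw [abs_of_nonneg (Esq_nonneg _ _ _)]
    exact Esq_le_EG hH hζ hν hm (by omega)
  simp only [Db, zero_add]
  linarith [le_abs_self (∑ k ∈ Finset.range d, (ζ k - ζ (k + 1)) * Esq ζ ν μ H m n (k + 1))]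

theorem db_le {m : W → Ω → ℝ} (n d : ℕ) :
    Db ζ ν μ H m (fun _ _ => 0) n d ≤ EG ζ ν μ H (fun w x => m w x ^ 2) n := by
  simp only [Db, zero_add]
  exact sub_le_self _ (Finset.sum_nonneg fun k _ =>
    mul_nonneg (sub_nonneg.2 (hζ.anti (Nat.le_succ k))) (Esq_nonneg _ _ _))

theorem db_sub_le {m m' : W → Ω → ℝ} (hm : BM2 m) (hm' : BM2 m') {n d : ℕ} (hd : d ≤ n) {t : ℝ}
    (ht : 0 < t) :
    |Db ζ ν μ H m (fun _ _ => 0) n d - Db ζ ν μ H m' (fun _ _ => 0) n d|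
      ≤ EG ζ ν μ H (fun w x => (m w x - m' w x) ^ 2) n / t
        + t * EG ζ ν μ H (fun w x => (m w x + m' w x) ^ 2) n := by
  have hc := hH.cas (μ := μ) hζ hν
  have hA : 0 ≤ EG ζ ν μ H (fun w x => (m w x - m' w x) ^ 2) n :=
    GE_nonneg (fun _ _ => sq_nonneg _) _ _
  have hB : 0 ≤ EG ζ ν μ H (fun w x => (m w x + m' w x) ^ 2) n :=
    GE_nonneg (fun _ _ => sq_nonneg _) _ _
  have h1 := RespAux.sq_sub (L := fun g : W → Ω → ℝ => EG ζ ν μ H g n) (B := BM2)
    (fun c g => GE_const_mul c g _ _) (fun hg hg' => GE_add hH hζ hν hg hg' _ _)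
    (fun hg hg' h => GE_mono hH hζ hν hg hg' h _ _) (fun c _ hg => hg.const_mul c)
    (fun hg hg' => hg.add hg') (hm.pow 2) (hm'.pow 2) ((hm.sub hm').pow 2) ((hm.add hm').pow 2) ht
    (fun w x => RespAux.amgm ht _ _)
  have h2 := RespAux.wsum hζ d (a := fun k => Esq ζ ν μ H m n (k + 1) - Esq ζ ν μ H m' n (k + 1))
    (B := (EG ζ ν μ H (fun w x => (m w x - m' w x) ^ 2) n / t
      + t * EG ζ ν μ H (fun w x => (m w x + m' w x) ^ 2) n) / 2) (by positivity) fun k hk => by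
    have h3 := RespAux.sq_sub
      (L := fun g : W → Unit → ℝ => Ex ζ ν (gtop μ H) (k + 1) (fun w => g w ()) (n + 1) 0)
      (B := fun g => BM fun w => g w ()) (fun c g => Ex_const_mul _ c _ _ _)
      (fun hg hg' => hc.Ex_add _ hg hg' _ _)
      (fun hg hg' h => hc.Ex_mono _ hg hg' (fun w => h w ()) _ _) (fun c _ hg => hg.const_mul c)
      (fun hg hg' => hg.add hg') (u := fun w _ => GE ζ ν μ H m (k + 1) w ^ 2)
      (u' := fun w _ => GE ζ ν μ H m' (k + 1) w ^ 2)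
      (p := fun w _ => GE ζ ν μ H (fun w x => m w x - m' w x) (k + 1) w ^ 2)
      (r := fun w _ => GE ζ ν μ H (fun w x => m w x + m' w x) (k + 1) w ^ 2)
      ((bm_GE hH hζ hν hm _).pow 2) ((bm_GE hH hζ hν hm' _).pow 2)
      ((bm_GE hH hζ hν (hm.sub hm') _).pow 2) ((bm_GE hH hζ hν (hm.add hm') _).pow 2) ht
      (fun w _ => by
        rw [GE_sub hH hζ hν hm hm', GE_add hH hζ hν hm hm']
        exact RespAux.amgm ht _ _)
    have h4 := Esq_le_EG (μ := μ) hH hζ hν (hm.sub hm') (n := n) (k := k + 1) (by omega)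
    have h5 := Esq_le_EG (μ := μ) hH hζ hν (hm.add hm') (n := n) (k := k + 1) (by omega)
    refine h3.trans ?_
    gcongr
    · exact h4
    · exact h5
  simp only [mul_sub, Finset.sum_sub_distrib] at h2
  simp only [Db, zero_add]
  rw [abs_le] at h1 h2 ⊢
  constructor <;> linarith [h1.1, h1.2, h2.1, h2.2]

theorem db_kernel {ι κ : Type} [Fintype ι] [Fintype κ] {m : ι → W → Ω → ℝ} {m' : κ → W → Ω → ℝ}
    (hm : ∀ i, BM2 (m i)) (hm' : ∀ k, BM2 (m' k)) {s : ι → ℝ} {s' : κ → ℝ}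
    (h : ∀ w x w' x', ∑ i, s i * (m i w x * m i w' x') = ∑ k, s' k * (m' k w x * m' k w' x'))
    (n d : ℕ) :
    ∑ i, s i * Db ζ ν μ H (m i) (fun _ _ => 0) n d
      = ∑ k, s' k * Db ζ ν μ H (m' k) (fun _ _ => 0) n d := by
  have hc := hH.cas (μ := μ) hζ hν
  have h1 : ∑ i, s i * EG ζ ν μ H (fun w x => m i w x ^ 2) n
      = ∑ k, s' k * EG ζ ν μ H (fun w x => m' k w x ^ 2) n := by
    refine (RespAux.lin hH hζ hν (fun i => (hm i).pow 2) s _ _).symm.trans
      (Eq.trans ?_ (RespAux.lin hH hζ hν (fun i => (hm' i).pow 2) s' _ _))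
    simp only [sq, h]
  have h2 : ∀ l w, ∑ i, s i * GE ζ ν μ H (m i) l w ^ 2
      = ∑ k, s' k * GE ζ ν μ H (m' k) l w ^ 2 := fun l w0 => by
    have h3 : ∀ w x, ∑ i, s i * GE ζ ν μ H (m i) l w0 * m i w x
        = ∑ k, s' k * GE ζ ν μ H (m' k) l w0 * m' k w x := fun w x => by
      have e1 := RespAux.lin (μ := μ) hH hζ hν hm (fun i => s i * m i w x) l w0
      have e2 := RespAux.lin (μ := μ) hH hζ hν hm' (fun i => s' i * m' i w x) l w0
      simp only [mul_assoc, h] at e1 e2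
      simp only [mul_assoc, mul_comm (GE ζ ν μ H _ l w0)]
      exact e1.symm.trans e2
    have e1 := RespAux.lin (μ := μ) hH hζ hν hm (fun i => s i * GE ζ ν μ H (m i) l w0) l w0
    have e2 := RespAux.lin (μ := μ) hH hζ hν hm' (fun i => s' i * GE ζ ν μ H (m' i) l w0) l w0
    simp only [h3] at e1
    simp only [sq, ← mul_assoc]
    exact e1.symm.trans e2
  have h4 : ∀ l, ∑ i, s i * Esq ζ ν μ H (m i) n l = ∑ k, s' k * Esq ζ ν μ H (m' k) n l :=
    fun l => by
    have e1 := hc.Ex_sum l Finset.univ (φ := fun i w => s i * GE ζ ν μ H (m i) l w ^ 2)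
      (fun i _ => ((bm_GE hH hζ hν (hm i) _).pow 2).const_mul _) (n + 1) 0
    have e2 := hc.Ex_sum l Finset.univ (φ := fun i w => s' i * GE ζ ν μ H (m' i) l w ^ 2)
      (fun i _ => ((bm_GE hH hζ hν (hm' i) _).pow 2).const_mul _) (n + 1) 0
    simp only [h2] at e1
    simp only [Ex_const_mul] at e1 e2
    exact e1.symm.trans e2
  simp only [Db, zero_add, mul_sub, Finset.sum_sub_distrib, Finset.mul_sum]
  rw [h1, Finset.sum_comm, Finset.sum_comm (s := Finset.univ)]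
  simp only [mul_left_comm _ (ζ _ - ζ _), ← Finset.mul_sum, h4]

end resp

end Vale.Agent.P166
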