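import Vale.Agent.P166.OneD
import Vale.Agent.P166.Dl

/-! # The R-transform of a compactly supported law; quantiles -/

namespace Vale.Agent.P166

open MeasureTheory Filter Topology Vale.Agent.P157

variable {μ : Measure ℝ} [IsProbabilityMeasure μ]

theorem supp_le (hc : IsCompact μ.support) : sInf μ.support ≤ sSup μ.support := by
  have hne : μ.support.Nonempty := Measure.nonempty_support (IsProbabilityMeasure.ne_zero μ)
  obtain ⟨t, ht⟩ := hne
  exact (csInf_le hc.bddBelow ht).trans (le_csSup hc.bddAbove ht)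

theorem ae_mem_Icc (hc : IsCompact μ.support) :
    ∀ᵐ t ∂μ, sInf μ.support ≤ t ∧ t ≤ sSup μ.support := by
  have h : ∀ᵐ t ∂μ, t ∈ μ.support := Measure.support_mem_ae
  filter_upwards [h] with t ht
  exact ⟨csInf_le hc.bddBelow ht, le_csSup hc.bddAbove ht⟩

theorem integrable_res (hc : IsCompact μ.support) {γ : ℝ} (h : sSup μ.support < γ) :
    Integrable (fun t => (γ - t)⁻¹) μ := by
  refine Integrable.of_bound (C := (γ - sSup μ.support)⁻¹) ?_ ?_
  · exact ((measurable_const.sub measurable_id).inv).aestronglyMeasurable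
  · filter_upwards [ae_mem_Icc hc] with t ht
    have h1 : 0 < γ - t := by linarith [ht.2]
    rw [Real.norm_eq_abs, abs_of_pos (inv_pos.mpr h1)]
    exact inv_anti₀ (by linarith) (by linarith [ht.2])

theorem RmuAux.res_top (hc : IsCompact μ.support) {x : ℝ} (hx : 0 < x) :
    ∫ t, (sSup μ.support + x⁻¹ - t)⁻¹ ∂μ ≤ x := by
  have h0 := inv_pos.mpr hx
  have h3 : ∫ t, (sSup μ.support + x⁻¹ - t)⁻¹ ∂μ ≤ ∫ _t, x ∂μ := by
    refine integral_mono_ae (integrable_res hc (by linarith)) (integrable_const _) ?_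
    filter_upwards [ae_mem_Icc hc] with t ht
    rw [inv_le_comm₀ (by linarith [ht.2]) hx]
    linarith [ht.2]
  simpa using h3

theorem gam_le (hc : IsCompact μ.support) {x γ : ℝ} (h : sSup μ.support < γ)
    (hx : ∫ t, (γ - t)⁻¹ ∂μ ≤ x) : gam μ x ≤ γ := by
  have _ := hc
  exact csInf_le ⟨sSup μ.support, fun _ hy => hy.1.le⟩ ⟨h, hx⟩

theorem le_gam (hc : IsCompact μ.support) {x a : ℝ} (hx : 0 < x)
    (h : ∀ γ, sSup μ.support < γ → ∫ t, (γ - t)⁻¹ ∂μ ≤ x → a ≤ γ) : a ≤ gam μ x := by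
  refine le_csInf ⟨sSup μ.support + x⁻¹, ?_, RmuAux.res_top hc hx⟩ fun γ hγ => h γ hγ.1 hγ.2
  linarith [inv_pos.mpr hx]

theorem Rtr_bounds (hc : IsCompact μ.support) {x : ℝ} (hx : 0 < x) :
    sInf μ.support ≤ Rtr μ x ∧ Rtr μ x ≤ sSup μ.support := by
  unfold Rtr
  constructor
  · have h1 : sInf μ.support + x⁻¹ ≤ gam μ x := by
      refine le_gam hc hx fun γ h hγ => ?_
      have h0 := supp_le hc
      have h2 : (γ - sInf μ.support)⁻¹ ≤ ∫ t, (γ - t)⁻¹ ∂μ := by
        have h3 : ∫ _t, (γ - sInf μ.support)⁻¹ ∂μ ≤ ∫ t, (γ - t)⁻¹ ∂μ := by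
          refine integral_mono_ae (integrable_const _) (integrable_res hc h) ?_
          filter_upwards [ae_mem_Icc hc] with t ht
          exact inv_anti₀ (by linarith [ht.2]) (by linarith [ht.1])
        simpa using h3
      have h4 : x⁻¹ ≤ γ - sInf μ.support := by
        rw [inv_le_comm₀ hx (by linarith)]
        exact h2.trans hγ
      linarith
    linarith
  · have h1 := gam_le hc (γ := sSup μ.support + x⁻¹) (by linarith [inv_pos.mpr hx])
      (RmuAux.res_top hc hx)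
    linarith

theorem gam_anti (hc : IsCompact μ.support) : AntitoneOn (gam μ) (Set.Ioi 0) := by
  intro x hx y _ hxy
  exact le_gam hc hx fun γ h hγ => gam_le hc h (hγ.trans hxy)

theorem integrable_Rtr (hc : IsCompact μ.support) {β : ℝ} (hβ : 0 < β) {n : ℕ} {ζ q : ℕ → ℝ}
    (h : Adm n ζ q) : IntervalIntegrable (fun t => Rtr μ (β * dl n ζ q t)) volume 0 1 := by
  rw [intervalIntegrable_iff_integrableOn_Ioo_of_le zero_le_one]
  have hpos : ∀ t ∈ Set.Ioo (0 : ℝ) 1, 0 < β * dl n ζ q t := fun t ht =>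
    mul_pos hβ (dl_pos h ht.2)
  refine Integrable.of_bound (C := max |sInf μ.support| |sSup μ.support|) ?_ ?_
  · have h1 : MonotoneOn (fun t => gam μ (β * dl n ζ q t)) (Set.Ioo (0 : ℝ) 1) := by
      intro s hs t ht hst
      refine gam_anti hc (hpos t ht) (hpos s hs) ?_
      exact mul_le_mul_of_nonneg_left (dl_anti h.zadm.zok h.cadm hst) hβ.le
    have h2 := aemeasurable_restrict_of_monotoneOn (μ := volume) measurableSet_Ioo h1
    have h3 : Measurable fun t => (β * dl n ζ q t)⁻¹ :=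
      (measurable_const.mul (continuous_dl n ζ q).measurable).inv
    exact (h2.sub h3.aemeasurable).aestronglyMeasurable
  · refine (ae_restrict_iff' measurableSet_Ioo).mpr (Eventually.of_forall fun t ht => ?_)
    obtain ⟨h1, h2⟩ := Rtr_bounds hc (hpos t ht)
    rw [Real.norm_eq_abs]
    exact abs_le_max_abs_abs h1 h2

theorem energy_le (hc : IsCompact μ.support) {β : ℝ} (hβ : 0 < β) {O : Type} [Fintype O]
    {c : O → ℝ} {cm : ℝ} (hcok : Cok c cm) {Λ ε : ℝ}
    (hR : ∀ x, 0 < x → β * Λ + Rc c x ≤ β * Rtr μ (β * x) + ε) {n : ℕ} {ζ q : ℕ → ℝ}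
    (h : Adm n ζ q) : β * Λ / 2 + Ec c n ζ q ≤ energyE β μ n ζ q + ε / 2 := by
  have hi1 : IntervalIntegrable (fun t => Rc c (dl n ζ q t)) volume 0 1 :=
    ((continuous_Rc hcok).comp (continuous_dl n ζ q)).intervalIntegrable 0 1
  have hi2 := integrable_Rtr hc hβ h
  have h1 : ∫ t in (0 : ℝ)..1, (β * Λ + Rc c (dl n ζ q t))
      ≤ ∫ t in (0 : ℝ)..1, (β * Rtr μ (β * dl n ζ q t) + ε) :=
    intervalIntegral.integral_mono_on_of_le_Ioo zero_le_one (intervalIntegrable_const.add hi1)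
      ((hi2.const_mul β).add intervalIntegrable_const) fun t ht => hR _ (dl_pos h ht.2)
  rw [intervalIntegral.integral_add intervalIntegrable_const hi1,
    intervalIntegral.integral_add (hi2.const_mul β) intervalIntegrable_const,
    intervalIntegral.integral_const, intervalIntegral.integral_const,
    intervalIntegral.integral_const_mul] at h1
  simp only [sub_zero, smul_eq_mul, one_mul] at h1
  unfold Ec energyE
  rw [h.q0]
  linarith

theorem le_energy (hc : IsCompact μ.support) {β : ℝ} (hβ : 0 < β) {O : Type} [Fintype O]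
    {c : O → ℝ} {cm : ℝ} (hcok : Cok c cm) {Λ ε : ℝ}
    (hR : ∀ x, 0 < x → β * Rtr μ (β * x) - ε ≤ β * Λ + Rc c x) {n : ℕ} {ζ q : ℕ → ℝ}
    (h : Adm n ζ q) : energyE β μ n ζ q - ε / 2 ≤ β * Λ / 2 + Ec c n ζ q := by
  have hi1 : IntervalIntegrable (fun t => Rc c (dl n ζ q t)) volume 0 1 :=
    ((continuous_Rc hcok).comp (continuous_dl n ζ q)).intervalIntegrable 0 1
  have hi2 := integrable_Rtr hc hβ h
  have h1 : ∫ t in (0 : ℝ)..1, (β * Rtr μ (β * dl n ζ q t) - ε)
      ≤ ∫ t in (0 : ℝ)..1, (β * Λ + Rc c (dl n ζ q t)) :=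
    intervalIntegral.integral_mono_on_of_le_Ioo zero_le_one
      ((hi2.const_mul β).sub intervalIntegrable_const) (intervalIntegrable_const.add hi1)
      fun t ht => hR _ (dl_pos h ht.2)
  rw [intervalIntegral.integral_add intervalIntegrable_const hi1,
    intervalIntegral.integral_sub (hi2.const_mul β) intervalIntegrable_const,
    intervalIntegral.integral_const_mul] at h1
  simp only [intervalIntegral.integral_const, sub_zero, smul_eq_mul, one_mul] at h1
  unfold Ec energyE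
  rw [h.q0]
  linarith

/-- Upper quantiles. -/
noncomputable def Qn (μ : Measure ℝ) (K a : ℕ) : ℝ :=
  sInf {t | sInf μ.support ≤ t ∧ μ.real (Set.Ioi t) ≤ (a : ℝ) / K}

theorem RmuAux.top_mem (hc : IsCompact μ.support) (K a : ℕ) :
    sSup μ.support ∈ {t | sInf μ.support ≤ t ∧ μ.real (Set.Ioi t) ≤ (a : ℝ) / K} := by
  refine ⟨supp_le hc, ?_⟩
  have h : μ (Set.Ioi (sSup μ.support)) = 0 := by
    rw [measure_eq_zero_iff_ae_notMem]
    filter_upwards [ae_mem_Icc hc] with t ht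
    exact not_lt.mpr ht.2
  rw [measureReal_def, h, ENNReal.toReal_zero]
  positivity

theorem RmuAux.real_Ioi_le {x b : ℝ} (h : ∀ t, x < t → μ.real (Set.Ioi t) ≤ b) :
    μ.real (Set.Ioi x) ≤ b := by
  obtain ⟨u, hu, hx, hl⟩ := exists_seq_strictAnti_tendsto x
  have hm : Monotone fun m => Set.Ioi (u m) := fun _ _ hij =>
    Set.Ioi_subset_Ioi (hu.antitone hij)
  have hU : ⋃ m, Set.Ioi (u m) = Set.Ioi x := by
    ext t
    simp only [Set.mem_iUnion, Set.mem_Ioi]
    exact ⟨fun ⟨m, hm⟩ => (hx m).trans hm, fun ht => (hl.eventually (gt_mem_nhds ht)).exists⟩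
  have h1 := tendsto_measure_iUnion_atTop (μ := μ) hm
  rw [hU] at h1
  have h2 := (ENNReal.tendsto_toReal (measure_ne_top μ _)).comp h1
  exact le_of_tendsto' h2 fun m => h _ (hx m)

theorem RmuAux.le_real_Ici {x b : ℝ} (h : ∀ t, t < x → b ≤ μ.real (Set.Ioi t)) :
    b ≤ μ.real (Set.Ici x) := by
  obtain ⟨u, hu, hx, hl⟩ := exists_seq_strictMono_tendsto x
  have hm : Antitone fun m => Set.Ioi (u m) := fun _ _ hij =>
    Set.Ioi_subset_Ioi (hu.monotone hij)
  have hU : ⋂ m, Set.Ioi (u m) = Set.Ici x := by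
    ext t
    simp only [Set.mem_iInter, Set.mem_Ioi, Set.mem_Ici]
    exact ⟨fun ht => le_of_tendsto' hl fun m => (ht m).le, fun ht m => (hx m).trans_le ht⟩
  have h1 := tendsto_measure_iInter_atTop (μ := μ)
    (fun m => measurableSet_Ioi.nullMeasurableSet) hm ⟨0, measure_ne_top μ _⟩
  rw [hU] at h1
  have h2 := (ENNReal.tendsto_toReal (measure_ne_top μ _)).comp h1
  exact ge_of_tendsto' h2 fun m => h _ (hx m)

theorem Qn_bounds (hc : IsCompact μ.support) (K a : ℕ) :
    sInf μ.support ≤ Qn μ K a ∧ Qn μ K a ≤ sSup μ.support := by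
  exact ⟨le_csInf ⟨_, RmuAux.top_mem hc K a⟩ fun _ ht => ht.1,
    csInf_le ⟨_, fun _ ht => ht.1⟩ (RmuAux.top_mem hc K a)⟩

theorem Qn_anti (hc : IsCompact μ.support) (K : ℕ) : Antitone (Qn μ K) := by
  intro a b hab
  refine csInf_le_csInf ⟨_, fun _ ht => ht.1⟩ ⟨_, RmuAux.top_mem hc K a⟩ fun t ht => ⟨ht.1, ?_⟩
  refine ht.2.trans (div_le_div_of_nonneg_right ?_ (Nat.cast_nonneg K))
  exact_mod_cast hab

theorem Qn_Ioi (hc : IsCompact μ.support) (K a : ℕ) :
    μ.real (Set.Ioi (Qn μ K a)) ≤ (a : ℝ) / K := by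
  refine RmuAux.real_Ioi_le fun t ht => ?_
  obtain ⟨s, hs, hst⟩ := exists_lt_of_csInf_lt ⟨_, RmuAux.top_mem hc K a⟩ ht
  exact (measureReal_mono (Set.Ioi_subset_Ioi hst.le)).trans hs.2

theorem Qn_Ici (hc : IsCompact μ.support) {K a : ℕ} (hK : 1 ≤ K) (ha : a ≤ K) :
    (a : ℝ) / K ≤ μ.real (Set.Ici (Qn μ K a)) := by
  refine RmuAux.le_real_Ici fun t ht => ?_
  by_cases h : sInf μ.support ≤ t
  · by_contra hn
    have h1 : Qn μ K a ≤ t := csInf_le ⟨_, fun _ hs => hs.1⟩ ⟨h, (not_le.mp hn).le⟩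
    linarith
  · have h1 : μ.real (Set.Ioi t) = 1 := by
      have h2 : Set.Ioi t =ᵐ[μ] (Set.univ : Set ℝ) := by
        refine eventuallyEq_set.mpr ?_
        filter_upwards [ae_mem_Icc hc] with s hs
        exact iff_of_true (lt_of_lt_of_le (not_le.mp h) hs.1) (Set.mem_univ s)
      rw [measureReal_congr h2, probReal_univ]
    rw [h1, div_le_one (by exact_mod_cast hK)]
    exact_mod_cast ha

theorem Qn_top (hc : IsCompact μ.support) {K a : ℕ} (hK : 1 ≤ K) (ha : K ≤ a) :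
    Qn μ K a = sInf μ.support := by
  refine le_antisymm (csInf_le ⟨_, fun _ hs => hs.1⟩ ⟨le_rfl, ?_⟩) (Qn_bounds hc K a).1
  refine measureReal_le_one.trans ?_
  rw [one_le_div (by exact_mod_cast hK)]
  exact_mod_cast ha

theorem Qn_two (hc : IsCompact μ.support) {ε : ℝ} (hε : 0 < ε) :
    ∀ᶠ K : ℕ in atTop, sSup μ.support - ε ≤ Qn μ K 2 := by
  have hne : μ.support.Nonempty := Measure.nonempty_support (IsProbabilityMeasure.ne_zero μ)
  have hm : sSup μ.support ∈ μ.support := hc.sSup_mem hne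
  have h1 : 0 < μ (Set.Ioi (sSup μ.support - ε)) :=
    (Measure.mem_support_iff_forall _).mp hm _ (Ioi_mem_nhds (by linarith))
  have h2 : 0 < μ.real (Set.Ioi (sSup μ.support - ε)) :=
    ENNReal.toReal_pos h1.ne' (measure_ne_top _ _)
  have h3 : Tendsto (fun K : ℕ => ((2 : ℕ) : ℝ) / K) atTop (𝓝 0) :=
    tendsto_const_div_atTop_nhds_zero_nat _
  filter_upwards [h3.eventually (gt_mem_nhds h2)] with K hK
  refine le_csInf ⟨_, RmuAux.top_mem hc K 2⟩ fun t ht => ?_
  by_contra hn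
  have h4 : μ.real (Set.Ioi (sSup μ.support - ε)) ≤ μ.real (Set.Ioi t) :=
    measureReal_mono (Set.Ioi_subset_Ioi (not_le.mp hn).le)
  linarith [ht.2]

end Vale.Agent.P166
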