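import Vale.Agent.P166.FQ
import Vale.Agent.P166.Model2

/-! # Moving one coordinate to the distinguished block -/

namespace Vale.Agent.P166

open MeasureTheory ProbabilityTheory Vale.Agent.P157

namespace ScalarAux

variable {S A : Type} [Fintype S] [DecidableEq S] [Fintype A] [DecidableEq A]

theorem sum_upd (f f' : S → ℝ) (j : S) (h : ∀ i, i ≠ j → f' i = f i) :
    ∑ i, f' i = ∑ i, f i + (f' j - f j) := by
  rw [← Finset.add_sum_erase Finset.univ f' (Finset.mem_univ j),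
    ← Finset.add_sum_erase Finset.univ f (Finset.mem_univ j),
    Finset.sum_congr rfl fun i hi => h i (Finset.ne_of_mem_erase hi)]
  ring

theorem eq_upd (ca : A → ℝ) (ϑ : ℕ → ℝ) {b : S → Option A} {j : S} {a : A} (hj : b j = some a)
    (U : OG S) (x : S → Bool) :
    EQ (cb ca ϑ (Function.update b j none)) U x
      = EQ (cb ca ϑ b) U x + (ca a + ϑ 0) * yv U j x ^ 2 / 2 := by
  unfold EQ
  rw [sum_upd (fun i => cb ca ϑ b i * yv U i x ^ 2)
    (fun i => cb ca ϑ (Function.update b j none) i * yv U i x ^ 2) j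
    (fun i hi => by simp only [cb, Function.update_of_ne hi])]
  simp only [cb, cv, Function.update_self, hj, Option.elim]
  ring

theorem ker_upd (θ ϑ : ℕ → ℝ) {b : S → Option A} {j : S} {a : A} (hj : b j = some a) (d : ℕ)
    (v : S → ℝ) :
    ∑ i, sb θ ϑ (Function.update b j none) d i * v i
      = ∑ i, sb θ ϑ b d i * v i + (sq0 ϑ d - sq0 θ d) * v j := by
  rw [sum_upd (fun i => sb θ ϑ b d i * v i)
    (fun i => sb θ ϑ (Function.update b j none) d i * v i) j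
    (fun i hi => by simp only [sb, Function.update_of_ne hi])]
  simp only [sb, sv, Function.update_self, hj, Option.elim]
  ring

theorem cx_eq (ζ : ℕ → ℝ) (n : ℕ) (ca : A → ℝ) (θ ϑ : ℕ → ℝ) (b : S → Option A) (j : S) (d0 : ℕ)
    (σ κ : ℝ) {η : (Unit → ℝ) → Bool → ℝ} {g : ℝ → ℝ} (hη : ∀ t ε, η t ε = g (t ())) (U : OG S) :
    CX ζ n ca θ b ϑ d0 σ (cavQ (fun _ : Unit => κ) 0) η U (fun x _ => yv U j x)
      = SL (cube S) ζ n d0 σ (sb θ ϑ b)
          (fun x => EQ (cb ca ϑ b) U x - κ * yv U j x ^ 2 / 2) (yv U) fun x => g (yv U j x) := by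
  rw [sl_map (μ := cube S) (μ' := (cube S).prod UnifAux.mu2) (φ := Prod.fst) measurable_fst
    (by rw [Measure.map_fst_prod, measure_univ, one_smul]) (measurable_of_finite _)
    (fun _ => measurable_of_finite _) (measurable_of_finite _)]
  unfold CX
  have h1 : (fun x : (S → Bool) × Bool => EQ (cb ca ϑ b) U x.1
      + cavQ (fun _ : Unit => κ) 0 (fun _ => yv U j x.1) x.2)
      = fun x => EQ (cb ca ϑ b) U x.1 - κ * yv U j x.1 ^ 2 / 2 := by
    funext x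
    simp only [cavQ, Qf, Finset.univ_unique, Finset.sum_singleton, Pi.zero_apply, mul_zero,
      add_zero]
    ring
  have h2 : (fun x : (S → Bool) × Bool => η (fun _ => yv U j x.1) x.2)
      = fun x => g (yv U j x.1) := funext fun x => hη _ _
  rw [h1, h2]

theorem gap_sum (n : ℕ) {θ ϑ : ℕ → ℝ} (h : ∀ d, 1 ≤ d → d ≤ n → θ d ^ 2 ≤ ϑ d ^ 2) :
    ∑ d ∈ Finset.range (n + 1), max (sq0 ϑ d - sq0 θ d) 0
      = ∑ d ∈ Finset.Icc 1 n, (ϑ d ^ 2 - θ d ^ 2) := by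
  rw [Finset.sum_range_succ', Finset.range_eq_Ico, ← Finset.Ico_add_one_right_eq_Icc,
    ← Finset.sum_Ico_add' (fun d => ϑ d ^ 2 - θ d ^ 2) 0 n 1]
  simp only [sq0, if_true, sub_self, max_self, add_zero]
  refine Finset.sum_congr rfl fun d hd => ?_
  have hd' := (Finset.mem_Ico.1 hd).2
  rw [if_neg (Nat.succ_ne_zero d), if_neg (Nat.succ_ne_zero d), max_eq_left]
  exact sub_nonneg.2 (h (d + 1) (by omega) (by omega))

theorem max_eq {n : ℕ} {θ ϑ : ℕ → ℝ} (h : ∀ d, 1 ≤ d → d ≤ n → θ d ^ 2 ≤ ϑ d ^ 2) {d : ℕ}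
    (hd : d ≤ n) : max (sq0 ϑ d - sq0 θ d) 0 = sq0 ϑ d - sq0 θ d := by
  refine max_eq_left ?_
  unfold sq0
  split_ifs with h0
  · simp
  · exact sub_nonneg.2 (h d (by omega) hd)

end ScalarAux

open ScalarAux

theorem scalar_split {S A : Type} [Fintype S] [DecidableEq S] [Fintype A] [DecidableEq A]
    {ζ : ℕ → ℝ} (hζ : Zok ζ) (hz : ζ 0 = 1) (n : ℕ) (ca : A → ℝ) {θ ϑ : ℕ → ℝ}
    (h : ∀ d, 1 ≤ d → d ≤ n → θ d ^ 2 ≤ ϑ d ^ 2) {b : S → Option A} {j : S} {a : A}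
    (hj : b j = some a) (d0 : ℕ) {σ : ℝ} (hσ : 0 ≤ σ) {η : (Unit → ℝ) → Bool → ℝ} {g : ℝ → ℝ}
    (hg : BM g) (hη : ∀ t ε, η t ε = g (t ())) :
    FP ζ n ca θ (Function.update b j none) ϑ d0 σ
        (cavQ (fun _ : Unit => ca a + ϑ 0 + ∑ d ∈ Finset.Icc 1 n, (ϑ d ^ 2 - θ d ^ 2)) 0) η
        (fun _ => j)
      ≤ TB ζ n ca θ b ϑ d0 σ (fun U x => g (yv U j x)) ∧
    TB ζ n ca θ b ϑ d0 σ (fun U x => g (yv U j x))
      ≤ FP ζ n ca θ (Function.update b j none) ϑ d0 σ (cavQ (fun _ : Unit => ca a + ϑ 0) 0) η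
        (fun _ => j) := by
  have hηb : BM (Function.uncurry η) := by
    obtain ⟨hgm, C, hC⟩ := hg
    have e : Function.uncurry η = fun p => g (p.1 ()) := funext fun p => hη p.1 p.2
    rw [e]
    exact ⟨hgm.comp ((measurable_pi_apply ()).comp measurable_fst), C, fun p => hC _⟩
  have hgb : BM (Function.uncurry fun (U : OG S) (x : S → Bool) => g (yv U j x)) := by
    obtain ⟨hgm, C, hC⟩ := hg
    exact ⟨hgm.comp (bm_yv j).1, C, fun p => hC _⟩
  have iT := (bm_TB hζ hz n ca θ b ϑ d0 σ hgb).integrable (ν := haarO S)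
  have iF := fun κ : ℝ => (bm_FQ hζ hz n ca θ (Function.update b j none) ϑ d0 σ
    (fun _ : Unit => κ) 0 hηb fun _ => j).integrable (ν := haarO S)
  constructor
  · refine integral_mono (iF _) iT fun U => ?_
    dsimp only
    rw [cx_eq ζ n ca θ ϑ _ j d0 σ _ hη U]
    refine sl_cmp hζ hz (bm_fin _) (bm_fin _) (fun _ => bm_fin _) (fun _ => bm_fin _) (bm_fin _)
      (sb_nonneg θ ϑ _) (sb_nonneg θ ϑ b) (κ := Unit) (κ' := Empty) (p := fun _ => yv U j)
      (p' := fun _ _ => 0) (fun _ => bm_fin _) (fun _ => bm_fin _)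
      (u := fun d _ => max (sq0 ϑ d - sq0 θ d) 0) (u' := fun _ _ => 0)
      (fun _ _ => le_max_right _ _) (fun _ _ => le_rfl) n (fun d hd x x' => ?_) (fun x => ?_) d0 hσ
    · rw [ker_upd θ ϑ hj d fun i => yv U i x * yv U i x', max_eq h hd]
      simp
    · rw [eq_upd ca ϑ hj]
      simp only [Finset.univ_unique, Finset.sum_singleton]
      rw [← Finset.sum_mul, gap_sum n h]
      apply le_of_eq
      ring
  · refine integral_mono iT (iF _) fun U => ?_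
    dsimp only
    rw [cx_eq ζ n ca θ ϑ _ j d0 σ _ hη U]
    refine sl_cmp hζ hz (bm_fin _) (bm_fin _) (fun _ => bm_fin _) (fun _ => bm_fin _) (bm_fin _)
      (sb_nonneg θ ϑ b) (sb_nonneg θ ϑ _) (κ := Empty) (κ' := Unit) (p := fun _ _ => 0)
      (p' := fun _ => yv U j) (fun _ => bm_fin _) (fun _ => bm_fin _)
      (u := fun _ _ => 0) (u' := fun d _ => max (sq0 ϑ d - sq0 θ d) 0)
      (fun _ _ => le_rfl) (fun _ _ => le_max_right _ _) n (fun d hd x x' => ?_) (fun x => ?_) d0 hσ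
    · rw [ker_upd θ ϑ hj d fun i => yv U i x * yv U i x', max_eq h hd]
      simp
    · rw [eq_upd ca ϑ hj]
      simp only [Finset.univ_eq_empty, Finset.sum_empty, Finset.sum_const_zero]
      apply le_of_eq
      ring

theorem crude_scalar (A : Type) [Fintype A] [DecidableEq A] (cm : ℝ) : ∃ C : ℝ, 0 ≤ C ∧
    ∀ (S : Type) [Fintype S] [DecidableEq S] (ζ : ℕ → ℝ) (n : ℕ) (ca : A → ℝ) (θ ϑ : ℕ → ℝ)
      (b : S → Option A) (j : S) (a : A) (D : ℝ) (N : ℕ), Zok ζ → ζ 0 = 1 → Par0 n cm ca θ ϑ →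
      b j = some a → Bal D N (Function.update b j none) → 2 * D ≤ N → 1 ≤ N →
      |AV ζ n ca θ b ϑ - AV ζ n ca θ (Function.update b j none) ϑ| ≤ C := by
  obtain ⟨C, hC0, hC⟩ := fq_crude A Unit (3 * cm)
  refine ⟨C, hC0, fun S _ _ ζ n ca θ ϑ b j a D N hζ hz hP hj hB hD hN => ?_⟩
  have hth : ∀ d, 1 ≤ d → d ≤ n → θ d ^ 2 ≤ ϑ d ^ 2 := fun d h1 h2 =>
    pow_le_pow_left₀ (hP.th d h1 h2).1 (hP.th d h1 h2).2 2
  have hgap : 0 ≤ ∑ d ∈ Finset.Icc 1 n, (ϑ d ^ 2 - θ d ^ 2) := Finset.sum_nonneg fun d hd =>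
    sub_nonneg.2 (hth d (Finset.mem_Icc.1 hd).1 (Finset.mem_Icc.1 hd).2)
  have hcm : 0 ≤ cm := hP.a0.1.trans hP.a0.2
  obtain ⟨h1, h2⟩ := scalar_split hζ hz n ca hth hj 0 (σ := 0) le_rfl
    (η := fun _ _ => 0) (g := fun _ => 0) (BM.const 0) fun _ _ => rfl
  rw [tb_zero] at h1 h2
  have hc := hP.c a
  have ha0 := hP.a0
  have hg := hP.gap
  have hβ : ∑ l : Unit, (0 : Unit → ℝ) l ^ 2 ≤ 3 * cm := by simp; linarith
  have h3 := (hC S ζ n ca θ (Function.update b j none) ϑ 0 0 D 0 N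
    (fun _ => ca a + ϑ 0 + ∑ d ∈ Finset.Icc 1 n, (ϑ d ^ 2 - θ d ^ 2)) 0 (fun _ _ => 0)
    (fun _ => j) hζ hz hB hD hN (fun _ => ⟨by linarith [hc.1, ha0.1], by linarith [hc.2, ha0.2]⟩)
    hβ measurable_const fun _ _ => by simp).1
  have h4 := (hC S ζ n ca θ (Function.update b j none) ϑ 0 0 D 0 N
    (fun _ => ca a + ϑ 0) 0 (fun _ _ => 0)
    (fun _ => j) hζ hz hB hD hN (fun _ => ⟨by linarith [hc.1, ha0.1], by linarith [hc.2, ha0.2]⟩)
    hβ measurable_const fun _ _ => by simp).2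
  rw [abs_le]
  constructor <;> linarith

end Vale.Agent.P166
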