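import Vale.Agent.P166.WardS
import Vale.Agent.P166.OneE
import Vale.Agent.P166.Path

/-! # Self-consistency bookkeeping shared by both bounds -/

namespace Vale.Agent.P166

open MeasureTheory Filter Topology Vale.Agent.P157

variable {A : Type} [Fintype A]

theorem card_option_eq : (Fintype.card (Option A) : ℝ) = KK A := by
  rw [Fintype.card_option, KK]
  push_cast
  ring

theorem avg_option (f : Option A → ℝ) : avg f = (f none + ∑ a, f (some a)) / KK A := by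
  rw [avg, Fintype.sum_option, card_option_eq]

theorem KK_pos' : (0 : ℝ) < KK A := by
  unfold KK
  positivity

theorem W_bounds {n : ℕ} {ζ r : ℕ → ℝ} (hζ : Zok ζ) (hr : CAdm n r) {c : ℝ} (hc : 0 ≤ c) (d : ℕ) :
    |Wp ζ n c r 0 - QQ ζ (Wp ζ n c r) d| ≤ r 0 := by
  have h1 := QQ_bounds hζ (cadm_Wp hζ hr hc) d
  have h2 := Wp_le hζ hr hc 0
  rw [abs_le]
  constructor <;> linarith [h1.1, h1.2, hr.nonneg 0]

theorem rho_split {n : ℕ} {ζ r : ℕ → ℝ} (hr : CAdm n r) (ca : A → ℝ) (a0 : ℝ) (d : ℕ) :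
    rhoP ζ n (cv ca a0) r 0 - QQ ζ (rhoP ζ n (cv ca a0) r) d
      = ((r 0 - QQ ζ r d)
        + ∑ a, (Wp ζ n (ca a + a0) r 0 - QQ ζ (Wp ζ n (ca a + a0) r) d)) / KK A := by
  rw [rhoP_sub_QQ, avg_option]
  simp only [cv, Option.elim, Wp_zero hr]

theorem rest_est {S : Type} [Fintype S] [DecidableEq S] [DecidableEq A] {n : ℕ} {ζ r : ℕ → ℝ}
    (hζ : Zok ζ) (hr : CAdm n r) (hr0 : r 0 ≤ 2 * KK A) {ca : A → ℝ} {a0 : ℝ}
    (hc : ∀ a, 0 ≤ ca a + a0) {D : ℝ} {N : ℕ} {b : S → Option A} (hb : Bal D N b)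
    (hS : (Fintype.card S : ℝ) ≤ 2 * N) {x : S → ℝ} {ε : ℝ} (hε : 0 ≤ ε) (d : ℕ)
    (h : ∀ i a, b i = some a →
      |x i - (Wp ζ n (ca a + a0) r 0 - QQ ζ (Wp ζ n (ca a + a0) r) d)| ≤ ε) :
    |∑ i : {i // b i ≠ none}, x i.1 + N / KK A * (r 0 - QQ ζ r d)
        - N * (rhoP ζ n (cv ca a0) r 0 - QQ ζ (rhoP ζ n (cv ca a0) r) d)|
      ≤ 2 * N * ε + D * (2 * KK A) := by
  have hK := KK_pos' (A := A)
  have h1 := rest_sum hb hε (B := 2 * KK A) (by positivity)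
    (fun a => (W_bounds hζ hr (hc a) d).trans hr0) h
  rw [rho_split hr]
  have e : ∀ u v w : ℝ, u + N / KK A * v - N * ((v + w) / KK A) = u - N / KK A * w := by
    intro u v w
    field_simp
    ring
  rw [e]
  refine h1.trans ?_
  have := mul_le_mul_of_nonneg_right hS hε
  linarith

theorem bal_sz {S : Type} [Fintype S] [DecidableEq S] [DecidableEq A] {N : ℕ} {b : S → Option A}
    (h : ∀ o, fib b o = sz A N o) : Bal (KK A ^ 2) N b := fun o => by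
  rw [h o]
  exact sz_bal N o

/-- The total overlap at the top is close to one. -/
theorem rho_zero {S : Type} [Fintype S] [DecidableEq S] [DecidableEq A] {n : ℕ} {ζ : ℕ → ℝ}
    (hζ : Zok ζ) (hz : ζ 0 = 1) {ca : A → ℝ} {θ ϑ τ r : ℕ → ℝ} {b : S → Option A} {D : ℝ}
    {N : ℕ} (hN : 1 ≤ N) (hb : Bal D N b) (hD : D ≤ N) (hc : ∀ a, 0 ≤ ca a + ϑ 0) {k y e ε : ℝ}
    (hy : 0 < y) (hϑ : ∀ d, 1 ≤ d → d ≤ n → y ≤ ϑ d)
    (hsd : SDz (AV ζ n ca θ b) ϑ τ y (k * y * N) n) (hrel : Rel n ζ (KK A) N ϑ τ r e)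
    (he : 0 ≤ e) (hε : 0 ≤ ε)
    (h : ∀ i a, b i = some a → |DB ζ n ca θ b ϑ (fun U x => yv U i x) 0
      - (Wp ζ n (ca a + ϑ 0) r 0 - QQ ζ (Wp ζ n (ca a + ϑ 0) r) 0)| ≤ ε) :
    N * |rhoP ζ n (cv ca (ϑ 0)) r 0 - 1| ≤ N * (2 * k + e + 2 * ε) + D * (2 * KK A) := by
  have hK := KK_pos' (A := A)
  have hK1 : (1 : ℝ) ≤ KK A := KK_pos
  have hN0 : (0 : ℝ) ≤ N := Nat.cast_nonneg N
  have hcard := abs_le.1 (bal_card hb)
  have h1 := rest_est hζ hrel.cadm hrel.r0 hc hb (by linarith [hcard.2]) hε 0 h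
  have h2 := (top_of_sdz hζ hz n ca θ b ϑ hy hϑ hsd).1
  have h3 := sum_db_zero hζ hz n ca θ b ϑ
  rw [sum_top_rest b] at h3
  have e1 : 2 * (k * y * N) / y = 2 * k * N := by field_simp
  rw [e1] at h2
  have h4 : |N / KK A * r 0 - (N + 2 * τ 0)| ≤ e * N := by
    have e2 : N / KK A * r 0 - (N + 2 * τ 0) = (N * r 0 - KK A * (N + 2 * τ 0)) / KK A := by
      field_simp
    rw [e2, abs_div, abs_of_pos hK, div_le_iff₀ hK]
    refine hrel.top.trans ?_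
    exact le_mul_of_one_le_right (by positivity) hK1
  have hq : ∀ c : ℕ → ℝ, QQ ζ c 0 = 0 := fun c => by simp [QQ]
  rw [hq, hq, sub_zero, sub_zero] at h1
  rw [← abs_of_nonneg hN0, ← abs_mul, abs_of_nonneg hN0, abs_le]
  rw [abs_le] at h1 h2 h4
  constructor <;> nlinarith [h1.1, h1.2, h2.1, h2.2, h4.1, h4.2]

end Vale.Agent.P166
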