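import Vale.Agent.P157.Stmt

/-!
# P166: the objects in the statement

The order parameters, the Ising entropy term and the Parisi recursion are those of P157.
-/

namespace Vale.Agent.P166

open MeasureTheory Matrix

/-- The orthogonal group of real matrices indexed by `S`. -/
abbrev OG (S : Type) [Fintype S] [DecidableEq S] : Type := Matrix.orthogonalGroup S ℝ

instance (S : Type) [Fintype S] [DecidableEq S] : MeasurableSpace (OG S) := borel (OG S)

instance (S : Type) [Fintype S] [DecidableEq S] : BorelSpace (OG S) := ⟨rfl⟩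

instance (S : Type) [Fintype S] [DecidableEq S] : CompactSpace (OG S) := by
  refine isCompact_iff_compactSpace.1 ?_
  have hK : IsCompact (Set.pi Set.univ fun _ : S => Set.pi Set.univ fun _ : S =>
      Set.Icc (-1 : ℝ) 1) :=
    isCompact_univ_pi fun _ => isCompact_univ_pi fun _ => isCompact_Icc
  refine hK.of_isClosed_subset ?_ ?_
  · have h : ((Matrix.orthogonalGroup S ℝ : Submonoid (Matrix S S ℝ)) : Set (Matrix S S ℝ))
        = {A | A * Aᵀ = 1} := by
      ext A
      exact Matrix.mem_orthogonalGroup_iff S ℝ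
    have hc : IsClosed {A : Matrix S S ℝ | A * Aᵀ = 1} :=
      isClosed_eq (continuous_id.matrix_mul continuous_id.matrix_transpose) continuous_const
    rw [← h] at hc
    exact hc
  · intro (A : Matrix S S ℝ) hA i _ j _
    have h1 : A * Aᵀ = 1 := (Matrix.mem_orthogonalGroup_iff S ℝ).1 hA
    have h2 : ∑ k, A i k * A i k = 1 := by
      have := congrFun (congrFun h1 i) i
      simpa [Matrix.mul_apply] using this
    have h3 : A i j * A i j ≤ 1 := by
      rw [← h2]
      exact Finset.single_le_sum (f := fun k => A i k * A i k)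
        (fun k _ => mul_self_nonneg _) (Finset.mem_univ j)
    exact abs_le.1 (abs_le_one_iff_mul_self_le_one.2 h3)

/-- Haar probability measure on the orthogonal group. -/
noncomputable def haarO (S : Type) [Fintype S] [DecidableEq S] : Measure (OG S) :=
  Measure.haarMeasure ⊤

/-- The pressure of the Ising model with couplings `Uᵀ diag(lam) U`. -/
noncomputable def pressure (β : ℝ) {N : ℕ} (lam : Fin N → ℝ) (U : OG (Fin N)) : ℝ :=
  (N : ℝ)⁻¹ * Real.log (((2 : ℝ) ^ N)⁻¹ * ∑ b : Fin N → Bool,
    Real.exp (β / 2 * ((fun i => if b i then (1 : ℝ) else -1) ⬝ᵥ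
      ((U.1ᵀ * Matrix.diagonal lam * U.1) *ᵥ fun i => if b i then (1 : ℝ) else -1))))

/-- The inverse of the Stieltjes transform, stopped at the right edge of the support. -/
noncomputable def gam (μ : Measure ℝ) (x : ℝ) : ℝ :=
  sInf {γ | sSup μ.support < γ ∧ ∫ t, (γ - t)⁻¹ ∂μ ≤ x}

/-- The R-transform, continued beyond the edge. -/
noncomputable def Rtr (μ : Measure ℝ) (x : ℝ) : ℝ := gam μ x - x⁻¹

/-- The integral over `[t, q 0]` of the distribution function equal to `ζ d` on
`[q (d+1), q d)`. -/
noncomputable def dl (n : ℕ) (ζ q : ℕ → ℝ) (t : ℝ) : ℝ :=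
  ∑ d ∈ Finset.range n, ζ d * (max (q d) t - max (q (d + 1)) t)

/-- The energy term. -/
noncomputable def energyE (β : ℝ) (μ : Measure ℝ) (n : ℕ) (ζ q : ℕ → ℝ) : ℝ :=
  β / 2 * ∫ t in (0 : ℝ)..1, Rtr μ (β * dl n ζ q t)

end Vale.Agent.P166
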