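import Vale.Agent.P166.Pert
import Vale.Agent.P166.Resp

/-! # The probe field -/

namespace Vale.Agent.P166

open MeasureTheory ProbabilityTheory Vale.Agent.P157

namespace TrickAux

section push

variable {W W' : Type} [NormedAddCommGroup W] [MeasurableSpace W] [BorelSpace W]
  [SecondCountableTopology W] [NormedAddCommGroup W'] [MeasurableSpace W'] [BorelSpace W']
  [SecondCountableTopology W'] {Ω : Type} [MeasurableSpace Ω] {μ : Measure Ω}
  [IsProbabilityMeasure μ] {ζ : ℕ → ℝ} {ν : ℕ → Measure W} {ν' : ℕ → Measure W'}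
  (L : W →+ W') (hL : Measurable L) (hp : ∀ j, IsProbabilityMeasure (ν' j))
  (hν : ∀ j, (ν j).map L = ν' j) {H : W' → Ω → ℝ} (hH : Measurable (Function.uncurry H))

include hL hp hν hH

theorem x_push (d : ℕ) :
    X ζ ν (gtop μ fun w => H (L w)) d 0 = X ζ ν' (gtop μ H) d 0 := by
  have h := X_push (ζ := ζ) (ν := ν) (Ψ := gtop μ fun w => H (L w)) L hL 0 hp
    (Ψ' := gtop μ H) (measurable_lse 1 hH) (fun w => by rw [add_zero]; rfl) (d := d)
    (fun j _ => hν j) 0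
  rwa [map_zero, add_zero] at h

theorem ge_push {g : W' → Ω → ℝ} (hg : Measurable (Function.uncurry g)) (k : ℕ) (w : W) :
    GE ζ ν μ (fun w => H (L w)) (fun w => g (L w)) k w = GE ζ ν' μ H g k (L w) := by
  have h := Ex_push (ζ := ζ) (ν := ν) (Ψ := gtop μ fun w => H (L w)) L hL 0 hp
    (Ψ' := gtop μ H) (measurable_lse 1 hH) (fun w => by rw [add_zero]; rfl) 0
    (φ := gib μ (fun w => H (L w)) fun w => g (L w)) (φ' := gib μ H g)
    (measurable_gexp 1 hH hg) (fun w => by rw [add_zero]; rfl) (d := k) (fun j _ => hν j) w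
  rwa [add_zero] at h

theorem eg_push {g : W' → Ω → ℝ} (hg : Measurable (Function.uncurry g)) (n : ℕ) :
    EG ζ ν μ (fun w => H (L w)) (fun w => g (L w)) n = EG ζ ν' μ H g n := by
  unfold EG
  rw [ge_push L hL hp hν hH hg, map_zero]

theorem esq_push {g : W' → Ω → ℝ} (hg : Measurable (Function.uncurry g)) (n k : ℕ) :
    Esq ζ ν μ (fun w => H (L w)) (fun w => g (L w)) n k = Esq ζ ν' μ H g n k := by
  have hm : Measurable (GE ζ ν' μ H g k) :=
    measurable_Ex hp (measurable_lse 1 hH) 0 (measurable_gexp 1 hH hg) k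
  have h := Ex_push (ζ := ζ) (ν := ν) (Ψ := gtop μ fun w => H (L w)) L hL 0 hp
    (Ψ' := gtop μ H) (measurable_lse 1 hH) (fun w => by rw [add_zero]; rfl) k
    (φ := fun w => GE ζ ν μ (fun w => H (L w)) (fun w => g (L w)) k w ^ 2)
    (φ' := fun w => GE ζ ν' μ H g k w ^ 2) (hm.pow_const 2)
    (fun w => by rw [add_zero, ge_push L hL hp hν hH hg]) (d := n + 1) (fun j _ => hν j) 0
  rwa [map_zero, add_zero] at h

theorem db_push {m a : W' → Ω → ℝ} (hm : Measurable (Function.uncurry m))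
    (ha : Measurable (Function.uncurry a)) (n d : ℕ) :
    Db ζ ν μ (fun w => H (L w)) (fun w => m (L w)) (fun w => a (L w)) n d
      = Db ζ ν' μ H m a n d := by
  unfold Db
  have hq : Measurable fun p : W' × Ω => a p.1 p.2 + m p.1 p.2 ^ 2 := ha.add (hm.pow_const 2)
  have h := eg_push (μ := μ) (ζ := ζ) L hL hp hν hH (g := fun w x => a w x + m w x ^ 2) hq n
  rw [h]
  congr 1
  exact Finset.sum_congr rfl fun k _ => by rw [esq_push L hL hp hν hH hm]

end push

section maps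

variable {ι : Type} [Fintype ι]

/-- Forgetting the extra coordinate. -/
def prj (ι : Type) : (Option ι → ℝ) →+ (ι → ℝ) where
  toFun w i := w (some i)
  map_zero' := rfl
  map_add' _ _ := rfl

/-- Extension by zero. -/
def inc (ι : Type) : (ι → ℝ) →+ (Option ι → ℝ) where
  toFun w o := o.elim 0 w
  map_zero' := by
    funext o
    cases o <;> rfl
  map_add' z z' := by
    funext o
    cases o
    · exact (add_zero _).symm
    · rfl

omit [Fintype ι] in
theorem measurable_prj : Measurable (prj ι) :=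
  measurable_pi_lambda _ fun i => measurable_pi_apply (some i)

omit [Fintype ι] in
theorem measurable_inc : Measurable (inc ι) := by
  refine measurable_pi_lambda _ fun o => ?_
  cases o
  · exact measurable_const
  · exact measurable_pi_apply _

theorem map_prj (d0 : ℕ) (σ : ℝ) (s : ℕ → ι → ℝ) (j : ℕ) :
    (gvs (optS d0 σ s) j).map (prj ι) = gvs s j :=
  gauss_sel (fun i : ι => some (some i))
    (fun _ _ _ h h' => Option.some.inj (Option.some.inj (h.trans h'.symm))) (optS d0 σ s j)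

theorem map_inc (d0 : ℕ) (s : ℕ → ι → ℝ) (j : ℕ) :
    (gvs s j).map (inc ι) = gvs (optS d0 0 s) j := by
  refine (gauss_sel (fun o : Option ι => o) (fun _ _ _ h h' => h.trans h'.symm) (s j)).trans ?_
  unfold gvs optS
  rw [ite_self]

theorem prob_gvs (s : ℕ → ι → ℝ) (j : ℕ) : IsProbabilityMeasure (gvs s j) := by
  unfold gvs
  infer_instance

theorem norm_prj_le (w : Option ι → ℝ) : ‖prj ι w‖ ≤ ‖w‖ :=
  (pi_norm_le_iff_of_nonneg (norm_nonneg w)).2 fun i => norm_le_pi_norm w (some i)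

variable {Ω : Type} [MeasurableSpace Ω]

omit [Fintype ι] in
theorem meas_prj {g : (ι → ℝ) → Ω → ℝ} (hg : Measurable (Function.uncurry g)) :
    Measurable (Function.uncurry fun w => g (prj ι w)) :=
  hg.comp ((measurable_prj.comp measurable_fst).prodMk measurable_snd)

omit [Fintype ι] in
theorem bm2_prj {g : (ι → ℝ) → Ω → ℝ} (hg : BM2 g) : BM2 fun w => g (prj ι w) := by
  obtain ⟨h, C, hC⟩ := hg
  exact ⟨meas_prj h, C, fun w x => hC _ x⟩

theorem hg_prj {H : (ι → ℝ) → Ω → ℝ} (hH : HG H) : HG fun w => H (prj ι w) := by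
  obtain ⟨h, C, hC⟩ := hH
  refine ⟨meas_prj h, |C|, fun w x => (hC _ x).trans ?_⟩
  have h1 := norm_prj_le w
  have h2 := norm_nonneg (prj ι w)
  exact mul_le_mul (le_abs_self C) (by linarith) (by linarith) (abs_nonneg C)

omit [Fintype ι] in
theorem meas_none {f : ℝ → ℝ} (hf : Measurable f) :
    Measurable fun p : (Option ι → ℝ) × Ω => f (p.1 none) :=
  hf.comp ((measurable_pi_apply none).comp measurable_fst)

theorem abs_mul_le {y e L : ℝ} (hy : |y| ≤ 1) (he : |e| ≤ L) : |y * e| ≤ L := by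
  rw [abs_mul]
  exact (mul_le_of_le_one_left (abs_nonneg _) hy).trans he

omit [Fintype ι] in
theorem bm2_sin {η : (ι → ℝ) → Ω → ℝ} (hη : BM2 η) :
    BM2 fun (w : Option ι → ℝ) x => Real.sin (w none) * η (prj ι w) x := by
  obtain ⟨h, C, hC⟩ := hη
  exact ⟨(meas_none Real.measurable_sin).mul (meas_prj h), C,
    fun w x => abs_mul_le (Real.abs_sin_le_one _) (hC _ x)⟩

end maps

theorem gexp_lip {Ω : Type} [MeasurableSpace Ω] {μ : Measure Ω} [IsProbabilityMeasure μ]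
    {F G g : Ω → ℝ} (hF : EInt μ F) (hG : EInt μ G) {b : ℝ} (hb0 : 0 ≤ b)
    (hb : ∀ x, |G x - F x| ≤ b) (hg : Measurable g) {C : ℝ} (hC0 : 0 ≤ C) (hC : ∀ x, |g x| ≤ C) :
    |gexp μ 1 G g - gexp μ 1 F g| ≤ 2 * C * (Real.exp (2 * b) - 1) := by
  have hbm : BM g := ⟨hg, C, hC⟩
  have := hF.prob_tilted 1
  have ha := gexp_le_exp_mul zero_le_one hF hG (Filter.Eventually.of_forall hb)
    ((BM.const C).add hbm).integrable (fun x => by linarith [(abs_le.1 (hC x)).1])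
  have hs := gexp_le_exp_mul zero_le_one hF hG (Filter.Eventually.of_forall hb)
    ((BM.const C).sub hbm).integrable (fun x => by linarith [(abs_le.1 (hC x)).2])
  rw [gexp_add 1 hG (EInt.const C) hbm.eint, gexp_add 1 hF (EInt.const C) hbm.eint,
    gexp_const 1 hG, gexp_const 1 hF, mul_one] at ha
  rw [gexp_sub 1 hG (EInt.const C) hbm.eint, gexp_sub 1 hF (EInt.const C) hbm.eint,
    gexp_const 1 hG, gexp_const 1 hF, mul_one] at hs
  have h3 := abs_le.1 (abs_gexp_le (ν := μ) 1 F hC0 (Filter.Eventually.of_forall hC))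
  have h4 : 0 ≤ Real.exp (2 * b) - 1 := sub_nonneg.2 (Real.one_le_exp (by linarith))
  have h5 := mul_le_mul_of_nonneg_left h3.1 h4
  have h6 := mul_le_mul_of_nonneg_left h3.2 h4
  rw [abs_le]
  constructor <;> linarith

theorem exp_le {L s : ℝ} (hL : 0 ≤ L) (h0 : 0 ≤ s) (h1 : s ≤ 1) :
    Real.exp (2 * (L * s)) - 1 ≤ 2 * L * Real.exp (2 * L) * s := by
  have h2 : Real.exp (2 * (L * s)) ≤ Real.exp (2 * L) :=
    Real.exp_le_exp.2 (by nlinarith)
  have h3 : -(2 * (L * s)) + 1 ≤ Real.exp (-(2 * (L * s))) := Real.add_one_le_exp _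
  have h4 : Real.exp (-(2 * (L * s))) * Real.exp (2 * (L * s)) = 1 := by
    rw [← Real.exp_add, neg_add_cancel, Real.exp_zero]
  have h5 := Real.exp_pos (2 * (L * s))
  have h6 := mul_le_mul_of_nonneg_right h3 h5.le
  have h7 := mul_le_mul_of_nonneg_left h2 (by positivity : 0 ≤ 2 * (L * s))
  linarith

theorem abs_sq_le {a L : ℝ} (ha : |a| ≤ L) : |a ^ 2| ≤ L ^ 2 := by
  rw [abs_pow]
  exact pow_le_pow_left₀ (abs_nonneg _) ha 2

section lip

variable {W : Type} [NormedAddCommGroup W] [MeasurableSpace W] [BorelSpace W]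
  [SecondCountableTopology W] {ζ : ℕ → ℝ} {ν : ℕ → Measure W} {Ψ : W → ℝ}

theorem ex_lip (h : Cas ζ ν Ψ) (c : W) {b : ℝ} (hb : ∀ w, |Ψ (w + c) - Ψ w| ≤ b) (k : ℕ)
    {φ : W → ℝ} (hφ : Measurable φ) {C : ℝ} (h1 : ∀ w, |φ w| ≤ C) {l : ℝ}
    (hl : ∀ w, |φ (w + c) - φ w| ≤ l) (d : ℕ) (w : W) :
    |Ex ζ ν Ψ k φ d (w + c) - Ex ζ ν Ψ k φ d w| ≤ l + 2 * C * (Real.exp (2 * b) - 1) := by
  have h' : Cas ζ ν fun w => Ψ (w + c) := ⟨h.z, h.noise, h.lg.shift c⟩
  have hm : Measurable fun w => φ (w + c) := hφ.comp (measurable_add_const c)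
  have e : Ex ζ ν (fun w => Ψ (w + c)) k (fun w => φ (w + c)) d w = Ex ζ ν Ψ k φ d (w + c) :=
    Ex_push (AddMonoidHom.id W) measurable_id c (fun j => (h.noise j).prob) h.lg.1
      (fun _ => rfl) k hφ (fun _ => rfl) (fun j _ => Measure.map_id) w
  have hk : ∀ w, |X ζ ν (fun w => Ψ (w + c)) k w - X ζ ν Ψ k w| ≤ b :=
    chain_abs h h' (Nat.zero_le k) (fun _ _ _ => rfl) hb
  have h2 := density_abs h h' (d := d) (fun _ _ _ => rfl) hk hφ h1 w
  have h3 := abs_Ex_le (ζ := ζ) (ν := ν) (Ψ := fun w => Ψ (w + c)) k hl d w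
  rw [h'.Ex_sub k ⟨hm, C, fun w => h1 _⟩ ⟨hφ, C, h1⟩, e] at h3
  rw [abs_le] at h2 h3 ⊢
  constructor <;> linarith [h2.1, h2.2, h3.1, h3.2]

variable {Ω : Type} [MeasurableSpace Ω] {μ : Measure Ω} [IsProbabilityMeasure μ]
  {H : W → Ω → ℝ}

theorem gtop_lip (hH : HG H) (c : W) {b : ℝ} (hb : ∀ w x, |H (w + c) x - H w x| ≤ b) (w : W) :
    |gtop μ H (w + c) - gtop μ H w| ≤ b :=
  abs_lse_sub_le zero_le_one (hH.eint w) (hH.eint _) (Filter.Eventually.of_forall (hb w))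

theorem ge_lip (hζ : Zok ζ) (hν : ∀ d, Noise (ν d)) (hH : HG H) (c : W) {b : ℝ} (hb0 : 0 ≤ b)
    (hb : ∀ w x, |H (w + c) x - H w x| ≤ b) {g : W → Ω → ℝ}
    (hg : Measurable (Function.uncurry g)) {C : ℝ} (hC0 : 0 ≤ C) (hC : ∀ w x, |g w x| ≤ C) {l : ℝ}
    (hl0 : 0 ≤ l) (hl : ∀ w x, |g (w + c) x - g w x| ≤ l) (k : ℕ) (w : W) :
    |GE ζ ν μ H g k (w + c) - GE ζ ν μ H g k w| ≤ l + 4 * C * (Real.exp (2 * b) - 1) := by
  have hg2 : BM2 g := ⟨hg, C, hC⟩
  have h0 : ∀ w, |gib μ H g (w + c) - gib μ H g w| ≤ l + 2 * C * (Real.exp (2 * b) - 1) := by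
    intro w
    have h1 := gexp_lip (μ := μ) (hH.eint w) (hH.eint (w + c)) hb0 (hb w) (hg2.bm w).1 hC0 (hC w)
    have h2 := abs_gexp_le (ν := μ) 1 (H (w + c)) hl0 (Filter.Eventually.of_forall (hl w))
    rw [gexp_sub 1 (hH.eint _) (hg2.bm _).eint (hg2.bm _).eint] at h2
    unfold gib
    rw [abs_le] at h1 h2 ⊢
    constructor <;> linarith [h1.1, h1.2, h2.1, h2.2]
  have h3 := ex_lip (hH.cas (μ := μ) hζ hν) c (gtop_lip hH c hb) 0 (hH.bm_gib (μ := μ) hg2).1
    (fun w => abs_gexp_le 1 (H w) hC0 (Filter.Eventually.of_forall (hC w))) h0 k w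
  refine le_trans h3 (le_of_eq ?_)
  ring

end lip

/-- The uniform jet constant. -/
noncomputable def kk (L : ℝ) : ℝ :=
  3 * L + 12 * L ^ 2 + (4 * L + 22 * L ^ 2) * (2 * L * Real.exp (2 * L))

theorem kk_ge {L : ℝ} (hL : 0 ≤ L) : 3 * L + 12 * L ^ 2 ≤ kk L :=
  le_add_of_nonneg_right (by positivity)

theorem kk_small {L E s : ℝ} (hL : 0 ≤ L) (hs : 0 ≤ s)
    (hE : E ≤ 2 * L * Real.exp (2 * L) * s) :
    (L * s + L * s * (2 * L) + 4 * (L + L ^ 2) * E)
      + ((L * s + 4 * L * E) * (2 * L) + 2 * L ^ 2 * E) + (L * s + 4 * L * E) * (2 * L)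
      ≤ kk L * s := by
  have h1 := mul_le_mul_of_nonneg_left hE (by positivity : 0 ≤ 4 * L + 22 * L ^ 2)
  have h2 : 0 ≤ L * s := mul_nonneg hL hs
  have h3 : 0 ≤ L ^ 2 * s := by positivity
  unfold kk
  linarith

section jet

variable {W : Type} [NormedAddCommGroup W] [NormedSpace ℝ W] [MeasurableSpace W] [BorelSpace W]
  [SecondCountableTopology W] {ζ : ℕ → ℝ} {ν : ℕ → Measure W} {Ω : Type} [MeasurableSpace Ω]
  {μ : Measure Ω} [IsProbabilityMeasure μ] {H m a : W → Ω → ℝ} {v : W} {L : ℝ}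

theorem jet (hζ : Zok ζ) (h1 : ζ 0 = 1) (hν : ∀ d, Noise (ν d)) (hH : HG H)
    (hF : FJet H v m a L) (hm : ∀ w x (t : ℝ), |m (w + t • v) x - m w x| ≤ L * |t|)
    (ha : ∀ w x (t : ℝ), |a (w + t • v) x - a w x| ≤ L * |t|) (d : ℕ) :
    DJet (X ζ ν (gtop μ H) (d + 1)) v (GE ζ ν μ H m (d + 1))
      (fun w => Bp ζ ν μ H m a d w - ζ d * GE ζ ν μ H m (d + 1) w ^ 2) (kk L) := by
  have hL := hF.K0
  have hc := hH.cas (μ := μ) hζ hν
  have hm2 : BM2 m := hF.bm2_m
  have hq2 : BM2 (fun w x => a w x + m w x ^ 2) := hF.bm2_a.add (hm2.pow 2)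
  have hqb : ∀ w x, |a w x + m w x ^ 2| ≤ L + L ^ 2 := fun w x =>
    (abs_add_le _ _).trans (add_le_add (hF.ba w x) (abs_sq_le (hF.bm w x)))
  have hm0 := hH.bm_gib (μ := μ) hm2
  have hq0 := hH.bm_gib (μ := μ) hq2
  have hBp : ∀ w, Bp ζ ν μ H m a d w
      = GE ζ ν μ H (fun w x => a w x + m w x ^ 2) (d + 1) w
        - ∑ k ∈ Finset.range d, (ζ k - ζ (k + 1)) * Ex ζ ν (gtop μ H) (k + 1)
          (fun u => GE ζ ν μ H m (k + 1) u ^ 2) (d + 1) w := by
    intro w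
    unfold Bp
    rw [hc.bb_formula hm0 (hq0.sub (hm0.pow 2)) (Nat.le_succ d)]
    simp only [h1, one_mul, sub_add_cancel]
    rfl
  have b1 : ∀ k w, |GE ζ ν μ H m k w| ≤ L :=
    abs_GE_le hL fun w => Filter.Eventually.of_forall (hF.bm w)
  have b2 : ∀ k w, |GE ζ ν μ H (fun w x => a w x + m w x ^ 2) k w| ≤ L + L ^ 2 :=
    abs_GE_le (by positivity) fun w => Filter.Eventually.of_forall (hqb w)
  have b3 : ∀ k w, |Ex ζ ν (gtop μ H) (k + 1) (fun u => GE ζ ν μ H m (k + 1) u ^ 2) (d + 1) w|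
      ≤ L ^ 2 := fun k w => abs_Ex_le _ (fun u => abs_sq_le (b1 _ u)) _ w
  have hz0 := hζ.nn d
  have hz1 := hζ.le_one d
  have b4 : ∀ w, |Bp ζ ν μ H m a d w - ζ d * GE ζ ν μ H m (d + 1) w ^ 2| ≤ L + 3 * L ^ 2 := by
    intro w
    rw [hBp]
    have t1 := abs_le.1 (b2 (d + 1) w)
    have t2 := abs_le.1 (UnifAux.sum_le hζ d (sq_nonneg L) fun k => b3 k w)
    have t3 := abs_le.1 (abs_mul_le (by rwa [abs_of_nonneg hz0]) (abs_sq_le (b1 (d + 1) w)))
    rw [abs_le]
    constructor <;> linarith [t1.1, t1.2, t2.1, t2.2, t3.1, t3.2]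
  have hk := kk_ge hL
  have hL2 := sq_nonneg L
  refine (jet_gibbs hH hζ hν hF d).upgrade (fun w => (b1 _ w).trans (by linarith))
    (fun w => (b4 w).trans (by linarith)) fun w t => ?_
  rcases le_or_gt |t| 1 with ht | ht
  swap
  · have t1 := abs_le.1 (b4 w)
    have t2 := abs_le.1 (b4 (w + t • v))
    have t3 : kk L ≤ kk L * |t| := le_mul_of_one_le_right (by linarith) ht.le
    rw [abs_le]
    constructor <;> linarith [t1.1, t1.2, t2.1, t2.2]
  have hb0 : 0 ≤ L * |t| := mul_nonneg hL (abs_nonneg t)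
  have hd : ∀ w x, |H (w + t • v) x - H w x| ≤ L * |t| := fun w x => hF.lip w x t
  have hE1 := exp_le hL (abs_nonneg t) ht
  obtain ⟨E, hE⟩ : ∃ E, E = Real.exp (2 * (L * |t|)) - 1 := ⟨_, rfl⟩
  have hE0 : 0 ≤ E := by
    rw [hE]
    exact sub_nonneg.2 (Real.one_le_exp (by positivity))
  have l1 : ∀ k w, |GE ζ ν μ H m k (w + t • v) - GE ζ ν μ H m k w| ≤ L * |t| + 4 * L * E := by
    intro k w
    rw [hE]
    exact ge_lip hζ hν hH _ hb0 hd hF.mm hL hF.bm hb0 (fun w x => hm w x t) k w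
  have hql : ∀ w x, |(a (w + t • v) x + m (w + t • v) x ^ 2) - (a w x + m w x ^ 2)|
      ≤ L * |t| + L * |t| * (2 * L) := by
    intro w x
    have t1 := abs_le.1 (ha w x t)
    have t2 := abs_le.1 (JetAux.sq_close (hm w x t) (hF.bm _ x) (hF.bm w x))
    rw [abs_le]
    constructor <;> linarith [t1.1, t1.2, t2.1, t2.2]
  have l2 := ge_lip (μ := μ) hζ hν hH _ hb0 hd hq2.1 (by positivity) hqb (by positivity) hql
    (d + 1) w
  have l3 : ∀ k w, |GE ζ ν μ H m k (w + t • v) ^ 2 - GE ζ ν μ H m k w ^ 2|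
      ≤ (L * |t| + 4 * L * E) * (2 * L) :=
    fun k w => JetAux.sq_close (l1 k w) (b1 k _) (b1 k _)
  have l4 := UnifAux.sum_le hζ d
    (L := (L * |t| + 4 * L * E) * (2 * L) + 2 * L ^ 2 * (Real.exp (2 * (L * |t|)) - 1))
    (by rw [← hE]; positivity) fun k =>
    ex_lip hc _ (gtop_lip hH _ hd) (k + 1) ((bm_GE hH hζ hν hm2 (k + 1)).1.pow_const 2)
      (fun u => abs_sq_le (b1 _ u)) (l3 (k + 1)) (d + 1) w
  have l5 := abs_mul_le (y := ζ d) (by rwa [abs_of_nonneg hz0]) (l3 (d + 1) w)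
  simp only [mul_sub (ζ _ - ζ _), Finset.sum_sub_distrib] at l4
  rw [mul_sub] at l5
  rw [← hE] at l2 l4 hE1
  have l6 := kk_small hL (abs_nonneg t) hE1
  rw [hBp, hBp]
  rw [abs_le] at l2 l4 l5 ⊢
  constructor <;> linarith [l2.1, l2.2, l4.1, l4.2, l5.1, l5.2]

end jet

theorem djet_sin : DJet Real.sin (1 : ℝ) Real.cos (fun y => -Real.sin y) 1 :=
  JetAux.djet_of_deriv (f3 := fun y => -Real.cos y) Real.hasDerivAt_sin Real.hasDerivAt_cos
    (fun y => (Real.hasDerivAt_sin y).fun_neg) Real.abs_cos_le_one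
    (fun y => by rw [abs_neg]; exact Real.abs_sin_le_one y)
    (fun y => by rw [abs_neg]; exact Real.abs_cos_le_one y)

theorem mul_bound {y e L r : ℝ} (hy : |y| ≤ r) (he : |e| ≤ L) : |y * e| ≤ L * r := by
  rw [abs_mul, mul_comm]
  exact mul_le_mul he hy (abs_nonneg _) ((abs_nonneg _).trans he)

end TrickAux

open TrickAux

variable {ι Ω : Type} [Fintype ι] [MeasurableSpace Ω] {μ : Measure Ω} [IsProbabilityMeasure μ]
  {ζ : ℕ → ℝ} {H H' η η' : (ι → ℝ) → Ω → ℝ}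

theorem hg_trH (hH : HG H) (hη : BM2 η) : HG (trH H η) :=
  hg_add (hg_prj hH) (bm2_sin hη)

theorem measurable_trH (hH : Measurable (Function.uncurry H))
    (hη : Measurable (Function.uncurry η)) : Measurable (Function.uncurry (trH H η)) :=
  (meas_prj hH).add ((meas_none Real.measurable_sin).mul (meas_prj hη))

theorem optS_nonneg (d0 : ℕ) {σ : ℝ} (hσ : 0 ≤ σ) {s : ℕ → ι → ℝ} (hs : ∀ d i, 0 ≤ s d i) (d : ℕ)
    (o : Option ι) : 0 ≤ optS d0 σ s d o := by
  cases o with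
  | none =>
    show 0 ≤ if d = d0 then σ else 0
    split_ifs
    · exact hσ
    · exact le_rfl
  | some i => exact hs d i

theorem TrickAux.trH_inc (H η : (ι → ℝ) → Ω → ℝ) : (fun w => trH H η (inc ι w)) = H := by
  funext w x
  show H w x + Real.sin 0 * η w x = H w x
  rw [Real.sin_zero, zero_mul, add_zero]

theorem TrickAux.gv_prj (hH : Measurable (Function.uncurry H)) (n d0 : ℕ) (σ : ℝ)
    (s : ℕ → ι → ℝ) : GV μ ζ n (optS d0 σ s) (fun w => H (prj ι w)) = GV μ ζ n s H :=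
  x_push (prj ι) measurable_prj (prob_gvs s) (map_prj d0 σ s) hH (n + 1)

theorem TrickAux.trH_sub {L : ℝ} (hL : ∀ w x, |η w x| ≤ L) (w : Option ι → ℝ) (x : Ω) :
    |trH H η w x - H (prj ι w) x| ≤ L := by
  show |H (prj ι w) x + Real.sin (w none) * η (prj ι w) x - H (prj ι w) x| ≤ L
  rw [add_sub_cancel_left]
  exact abs_mul_le (Real.abs_sin_le_one _) (hL _ x)

theorem TrickAux.trH_add (H g η : (ι → ℝ) → Ω → ℝ) :
    trH (fun w x => H w x + g w x) η = fun w x => trH H η w x + g (prj ι w) x := by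
  funext w x
  exact add_right_comm _ _ _

theorem tr_zero (hH : Measurable (Function.uncurry H)) (hη : Measurable (Function.uncurry η))
    (n d0 : ℕ) (s : ℕ → ι → ℝ) : TR μ ζ n d0 0 s H η = GV μ ζ n s H := by
  have h := x_push (μ := μ) (ζ := ζ) (inc ι) measurable_inc (prob_gvs _) (map_inc d0 s)
    (measurable_trH hH hη) (n + 1)
  rw [trH_inc] at h
  exact h.symm

theorem tr_abs (hζ : Zok ζ) (hH : HG H) (hη : Measurable (Function.uncurry η)) {L : ℝ}
    (hL : ∀ w x, |η w x| ≤ L) (n d0 : ℕ) (σ : ℝ) (s : ℕ → ι → ℝ) :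
    |TR μ ζ n d0 σ s H η - GV μ ζ n s H| ≤ L := by
  rw [← gv_prj hH.1 n d0 σ s]
  exact x_abs hζ (fun d => noise_gv _) (hg_prj hH) (hg_trH hH ⟨hη, L, hL⟩) (trH_sub hL) (n + 1) 0

theorem tr_le (hζ : Zok ζ) (hH : HG H) (hH' : HG H') (hη : BM2 η) (hη' : BM2 η') {c e : ℝ}
    (h : ∀ w x, H w x + c ≤ H' w x) (he : ∀ w x, |η' w x - η w x| ≤ e) (n d0 : ℕ) (σ : ℝ)
    (s : ℕ → ι → ℝ) : TR μ ζ n d0 σ s H η + c - e ≤ TR μ ζ n d0 σ s H' η' := by
  rw [add_sub_assoc]
  refine x_mono hζ (fun d => noise_gv _) (hg_trH hH hη) (hg_trH hH' hη') (fun w x => ?_) (n + 1) 0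
  have h1 := h (prj ι w) x
  have h2 := (abs_le.1 (abs_mul_le (Real.abs_sin_le_one (w none)) (he (prj ι w) x))).1
  show H (prj ι w) x + Real.sin (w none) * η (prj ι w) x + (c - e)
    ≤ H' (prj ι w) x + Real.sin (w none) * η' (prj ι w) x
  linarith

theorem tr_convex (hζ : Zok ζ) (hH : HG H) (hη : BM2 η) {g : (ι → ℝ) → Ω → ℝ} (hg : BM2 g)
    (n d0 : ℕ) (σ : ℝ) (s : ℕ → ι → ℝ) :
    ConvexOn ℝ Set.univ fun t : ℝ => TR μ ζ n d0 σ s (fun w x => H w x + t * g w x) η := by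
  have h := x_convex (μ := μ) (ν := gvs (optS d0 σ s)) hζ (fun d => noise_gv _) (hg_trH hH hη)
    (bm2_prj hg) (n + 1) 0
  simp only [TR, GV, trH_add H]
  exact h

theorem tr_trunc (hζ : Zok ζ) (hz : ζ 0 = 1) (hH : HG H) (hη : Measurable (Function.uncurry η))
    {L : ℝ} (hL : ∀ w x, |η w x| ≤ L) {u v : (ι → ℝ) → Ω → ℝ} (hu : BM2 u) (hv : BM2 v)
    (huv : ∀ w x w' x', 0 ≤ (u w x - u w' x') * (v w x - v w' x')) (hv0 : ∀ w x, v w x ≤ 0)
    (n d0 : ℕ) (σ : ℝ) (s : ℕ → ι → ℝ) :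
    TR μ ζ n d0 σ s (fun w x => H w x + u w x) η
        - TR μ ζ n d0 σ s (fun w x => H w x + u w x + v w x) η
      ≤ Real.exp (4 * L) * EG ζ (gvs s) μ H (fun w x => -v w x) n := by
  have hν : ∀ d, Noise (gvs (optS d0 σ s) d) := fun d => noise_gv _
  have hT : HG (trH H η) := hg_trH hH ⟨hη, L, hL⟩
  have h1 := supermod (μ := μ) hζ hz hν hT (bm2_prj hu) (bm2_prj hv)
    (fun w x w' x' => huv _ x _ x') n
  have h2 := x_jensen (μ := μ) hζ hν hT (bm2_prj hv) (n + 1) 0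
  have hn : BM2 fun w x => -1 * v w x := hv.const_mul (-1)
  have h3 := ge_density (μ := μ) hζ hν (hg_prj hH) hT (trH_sub hL) (bm2_prj hn)
    (fun w x => by linarith [hv0 (prj ι w) x]) (n + 1) 0
  have h4 := eg_push (μ := μ) (ζ := ζ) (prj ι) measurable_prj (prob_gvs s) (map_prj d0 σ s) hH.1
    hn.1 n
  have h5 := GE_const_mul (μ := μ) (ζ := ζ) (ν := gvs (optS d0 σ s)) (H := trH H η) (-1)
    (fun w => v (prj ι w)) (n + 1) 0
  have h6 : (fun w x => -v w x) = fun w x => -1 * v w x := by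
    funext w x
    rw [neg_one_mul]
  rw [h6, ← h4]
  unfold EG TR GV
  rw [trH_add (fun w x => H w x + u w x) v, trH_add H u]
  linarith

theorem unifS (L : ℝ) : ∃ C : ℝ, 0 ≤ C ∧
    ∀ (ι Ω : Type) [Fintype ι] [MeasurableSpace Ω] (μ : Measure Ω) [IsProbabilityMeasure μ]
      (ζ : ℕ → ℝ) (s : ℕ → ι → ℝ) (H η : (ι → ℝ) → Ω → ℝ), Zok ζ → ζ 0 = 1 →
      (∀ d i, 0 ≤ s d i) → HG H → Measurable (Function.uncurry η) → (∀ w x, |η w x| ≤ L) →
      ∀ (n d : ℕ), d ≤ n → ∀ σ : ℝ, 0 ≤ σ → σ ≤ 1 →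
      |TR μ ζ n d σ s H η - GV μ ζ n s H - σ / 2 * Db ζ (gvs s) μ H η (fun _ _ => 0) n d|
        ≤ C * (σ * √σ) := by
  classical
  obtain ⟨C, hC, h⟩ := one_step (kk |L|)
  refine ⟨C, hC, ?_⟩
  intro ι Ω _ _ μ _ ζ s H η hζ h1 hs hH hη hL n d hd σ h0 hσ
  have hL' : ∀ w x, |η w x| ≤ |L| := fun w x => (hL w x).trans (le_abs_self L)
  have hν : ∀ j, Noise (gvs (optS d 0 s) j) := fun j => noise_gv _
  have hT : HG (trH H η) := hg_trH hH ⟨hη, L, hL⟩
  have e1 : ∀ (w : Option ι → ℝ) (t : ℝ),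
      prj ι (w + t • (Pi.single none 1 : Option ι → ℝ)) = prj ι w := by
    intro w t
    funext i
    show w (some i) + t * (Pi.single none 1 : Option ι → ℝ) (some i) = w (some i)
    rw [Pi.single_eq_of_ne (Option.some_ne_none i), mul_zero, add_zero]
  have e2 : ∀ (w : Option ι → ℝ) (t : ℝ),
      (w + t • (Pi.single none 1 : Option ι → ℝ)) none = w none + t • (1 : ℝ) := by
    intro w t
    show w none + t * (Pi.single none 1 : Option ι → ℝ) none = _
    rw [Pi.single_eq_same, smul_eq_mul]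
  have e3 : ∀ (w : Option ι → ℝ) x,
      trH H η w x = H (prj ι w) x + Real.sin (w none) * η (prj ι w) x := fun _ _ => rfl
  have hF : FJet (trH H η) (Pi.single none 1 : Option ι → ℝ)
      (fun w x => Real.cos (w none) * η (prj ι w) x)
      (fun w x => -Real.sin (w none) * η (prj ι w) x) |L| :=
    { K0 := abs_nonneg L
      mm := (meas_none Real.measurable_cos).mul (meas_prj hη)
      ma := (meas_none Real.measurable_sin.neg).mul (meas_prj hη)
      bm := fun w x => abs_mul_le (Real.abs_cos_le_one _) (hL' _ x)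
      ba := fun w x => abs_mul_le (djet_sin.ba _) (hL' _ x)
      lip := fun w x t => by
        have h2 := mul_bound (djet_sin.lip (w none) t) (hL' (prj ι w) x)
        rw [one_mul] at h2
        rw [e3, e3, e1, e2]
        refine le_of_eq_of_le (congrArg abs ?_) h2
        ring
      tay := fun w x t => by
        have h2 := mul_bound (djet_sin.tay (w none) t) (hL' (prj ι w) x)
        rw [one_mul] at h2
        rw [e3, e3, e1, e2]
        refine le_of_eq_of_le (congrArg abs ?_) h2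
        ring }
  have hj := jet (μ := μ) hζ h1 hν hT hF
    (fun w x t => by
      have h2 := Real.abs_cos_sub_cos_le (w none + t • (1 : ℝ)) (w none)
      rw [add_sub_cancel_left, smul_eq_mul, mul_one] at h2
      rw [e1, e2, ← sub_mul, smul_eq_mul, mul_one]
      exact mul_bound h2 (hL' _ x))
    (fun w x t => by
      have h2 := Real.abs_sin_sub_sin_le (w none) (w none + t • (1 : ℝ))
      rw [sub_add_cancel_left, abs_neg, smul_eq_mul, mul_one] at h2
      rw [e1, e2, ← sub_mul, smul_eq_mul, mul_one, neg_sub_neg]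
      exact mul_bound h2 (hL' _ x)) d
  have h2 := h _ ζ _ _ (hT.cas hζ hν) d (n + 1) (Nat.lt_succ_of_le hd) _ _ _ hj σ h0 hσ 0
  simp only [sub_add_cancel] at h2
  rw [Ex_Bp hT hζ hν h1 hF.bm2_m hF.bm2_a hd] at h2
  have e4 : Function.update (gvs (optS d 0 s)) d
      ((line (Pi.single none 1 : Option ι → ℝ) σ).conv (gvs (optS d 0 s) d))
      = gvs (optS d σ s) := by
    funext j
    by_cases hj : j = d
    · subst hj
      rw [Function.update_self, gvs, gvs, ← gv_conv_line (optS_nonneg j le_rfl hs j) none h0]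
      congr 1
      funext o
      cases o with
      | none => simp [optS]
      | some i => simp [optS]
    · rw [Function.update_of_ne hj, gvs, gvs]
      congr 1
      funext o
      cases o with
      | none => simp [optS, hj]
      | some i => rfl
  have e5 := db_push (μ := μ) (ζ := ζ) (inc ι) measurable_inc (prob_gvs _) (map_inc d s) hT.1
    hF.mm hF.ma n d
  have e6 : (fun w x => Real.cos (inc ι w none) * η (prj ι (inc ι w)) x) = η := by
    funext w x
    show Real.cos 0 * η w x = η w x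
    rw [Real.cos_zero, one_mul]
  have e7 : (fun w x => -Real.sin (inc ι w none) * η (prj ι (inc ι w)) x) = fun _ _ => 0 := by
    funext w x
    show -Real.sin 0 * η w x = 0
    rw [Real.sin_zero, neg_zero, zero_mul]
  rw [trH_inc, e6, e7] at e5
  rw [e4, ← e5] at h2
  rw [← tr_zero hH.1 hη n d s]
  exact h2

end Vale.Agent.P166
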