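import Vale.Agent.P166.Self
import Vale.Agent.P166.Link

/-! # Upper bound for the block model -/

namespace Vale.Agent.P166

open MeasureTheory Filter Topology Vale.Agent.P157

namespace UBA

/-- Barrier. -/
noncomputable def br (Ap kc x : ℝ) : ℝ := Ap * x + kc / x

/-- One level of the penalty. -/
noncomputable def pl (a kb Ap kc x u : ℝ) : ℝ := u ^ 2 * a / 2 + (kb / x + br Ap kc (u - x))

/-- The penalty. -/
noncomputable def pen (n : ℕ) (ζ q : ℕ → ℝ) (kb Ap kc : ℝ) (p : (ℕ → ℝ) × (ℕ → ℝ)) : ℝ :=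
  ∑ d ∈ Finset.Icc 1 n, pl (1 - QQ ζ q d) kb Ap kc (p.1 d) (p.2 d) + br Ap kc (p.2 0)

/-- The domain. -/
def Dom (n : ℕ) (p : (ℕ → ℝ) × (ℕ → ℝ)) : Prop :=
  0 < p.2 0 ∧ ∀ d, 1 ≤ d → d ≤ n → 0 < p.1 d ∧ p.1 d < p.2 d

theorem inv_add {k x y m : ℝ} (hk : 0 ≤ k) (hm : 0 < m) (hx : m ≤ x) (hy : |y| ≤ m / 2) :
    k / (x + y) - k / x ≤ -(y * (k / x ^ 2)) + y ^ 2 * (1 / 2 + 2 * k / m ^ 3) := by
  have := UBAux.pd_add (a := 0) zero_le_one hk hm hx hy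
  unfold UBAux.pd at this
  linarith

theorem br_add {Ap kc x y m : ℝ} (hk : 0 ≤ kc) (hm : 0 < m) (hx : m ≤ x) (hy : |y| ≤ m / 2) :
    br Ap kc (x + y) - br Ap kc x
      ≤ y * (Ap - kc / x ^ 2) + y ^ 2 * (1 / 2 + 2 * kc / m ^ 3) := by
  have := inv_add hk hm hx hy
  unfold br
  linarith

theorem pl_top {a kb Ap kc x u y m : ℝ} (ha : a ≤ 1) (hb : 0 ≤ kb) (hk : 0 ≤ kc) (hm : 0 < m)
    (hx : x + m ≤ u) (hy : |y| ≤ m / 2) :
    pl a kb Ap kc x (u + y) - pl a kb Ap kc x u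
      ≤ y * (a * u + (Ap - kc / (u - x) ^ 2)) + y ^ 2 * (1 + 2 * (kb + kc) / m ^ 3) := by
  have h1 := br_add (Ap := Ap) hk hm (show m ≤ u - x by linarith) hy
  have h2 : y ^ 2 * a ≤ y ^ 2 := mul_le_of_le_one_right (sq_nonneg y) ha
  have h3 : 0 ≤ y ^ 2 * (2 * kb / m ^ 3) := by positivity
  have e : u + y - x = u - x + y := by ring
  have e2 : 2 * (kb + kc) / m ^ 3 = 2 * kb / m ^ 3 + 2 * kc / m ^ 3 := by ring
  unfold pl
  rw [e, e2]
  nlinarith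

theorem pl_rest {a kb Ap kc x u y m : ℝ} (hb : 0 ≤ kb) (hk : 0 ≤ kc) (hm : 0 < m) (hx0 : m ≤ x)
    (hx : x + m ≤ u) (hy : |y| ≤ m / 2) :
    pl a kb Ap kc (x + y) u - pl a kb Ap kc x u
      ≤ y * (-(kb / x ^ 2) - (Ap - kc / (u - x) ^ 2)) + y ^ 2 * (1 + 2 * (kb + kc) / m ^ 3) := by
  have h1 := br_add (Ap := Ap) (y := -y) hk hm (show m ≤ u - x by linarith) (by rwa [abs_neg])
  have h2 := inv_add hb hm hx0 hy
  have e : u - (x + y) = u - x + -y := by ring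
  have e2 : 2 * (kb + kc) / m ^ 3 = 2 * kb / m ^ 3 + 2 * kc / m ^ 3 := by ring
  unfold pl
  rw [e, e2]
  rw [neg_sq] at h1
  linarith

/-- The nonnegative part of the penalty. -/
noncomputable def rest (n : ℕ) (kb Ap kc : ℝ) (p : (ℕ → ℝ) × (ℕ → ℝ)) : ℝ :=
  ∑ d ∈ Finset.Icc 1 n, (kb / p.1 d + br Ap kc (p.2 d - p.1 d)) + br Ap kc (p.2 0)

theorem pen_split (n : ℕ) (ζ q : ℕ → ℝ) (kb Ap kc : ℝ) (p : (ℕ → ℝ) × (ℕ → ℝ)) :
    pen n ζ q kb Ap kc p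
      = (∑ d ∈ Finset.Icc 1 n, p.2 d ^ 2 * (1 - QQ ζ q d)) / 2 + rest n kb Ap kc p := by
  unfold pen rest pl
  rw [Finset.sum_add_distrib, Finset.sum_div]
  ring

theorem br_nonneg {Ap kc x : ℝ} (hA : 0 < Ap) (hk : 0 < kc) (hx : 0 < x) : 0 ≤ br Ap kc x := by
  unfold br
  positivity

theorem term_nonneg {n : ℕ} {kb Ap kc : ℝ} (hb : 0 < kb) (hA : 0 < Ap) (hk : 0 < kc)
    {p : (ℕ → ℝ) × (ℕ → ℝ)} (h : Dom n p) :
    ∀ d ∈ Finset.Icc 1 n, 0 ≤ kb / p.1 d ∧ 0 ≤ br Ap kc (p.2 d - p.1 d) := fun d hd => by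
  obtain ⟨h1, h2⟩ := h.2 d (Finset.mem_Icc.1 hd).1 (Finset.mem_Icc.1 hd).2
  exact ⟨(div_pos hb h1).le, br_nonneg hA hk (by linarith)⟩

theorem rest_nonneg {n : ℕ} {kb Ap kc : ℝ} (hb : 0 < kb) (hA : 0 < Ap) (hk : 0 < kc)
    {p : (ℕ → ℝ) × (ℕ → ℝ)} (h : Dom n p) : 0 ≤ rest n kb Ap kc p :=
  add_nonneg (Finset.sum_nonneg fun d hd => add_nonneg (term_nonneg hb hA hk h d hd).1
    (term_nonneg hb hA hk h d hd).2) (br_nonneg hA hk h.1)

theorem br_le {Ap kc x L : ℝ} (hA : 0 < Ap) (hk : 0 < kc) (hx : 0 < x) (hL : 0 < L)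
    (h : br Ap kc x ≤ L) : kc / L ≤ x ∧ x ≤ L / Ap := by
  unfold br at h
  have h1 : 0 < Ap * x := by positivity
  have h2 : 0 < kc / x := by positivity
  constructor
  · have : kc / x ≤ L := by linarith
    rw [div_le_iff₀ hx] at this
    rw [div_le_iff₀ hL]
    linarith
  · rw [le_div_iff₀ hA]
    linarith

theorem box {n : ℕ} {kb Ap kc c L : ℝ} (hb : 0 < kb) (hA : 0 < Ap) (hk : 0 < kc) (hc : 0 < c)
    (hL : 0 < L) {p : (ℕ → ℝ) × (ℕ → ℝ)} (h : Dom n p)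
    (hle : c * ∑ d ∈ Finset.Icc 1 n, p.2 d ^ 2 + rest n kb Ap kc p ≤ L) :
    (kc / L ≤ p.2 0 ∧ p.2 0 ≤ L / Ap) ∧ ∀ d, 1 ≤ d → d ≤ n →
      p.2 d ^ 2 ≤ L / c ∧ kb / L ≤ p.1 d ∧ kc / L ≤ p.2 d - p.1 d ∧ p.2 d - p.1 d ≤ L / Ap := by
  have t := term_nonneg hb hA hk h
  have a0 := br_nonneg hA hk h.1
  have a1 : 0 ≤ c * ∑ d ∈ Finset.Icc 1 n, p.2 d ^ 2 :=
    mul_nonneg hc.le (Finset.sum_nonneg fun e _ => sq_nonneg _)
  have a2 : 0 ≤ ∑ d ∈ Finset.Icc 1 n, (kb / p.1 d + br Ap kc (p.2 d - p.1 d)) :=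
    Finset.sum_nonneg fun d hd => add_nonneg (t d hd).1 (t d hd).2
  unfold rest at hle
  refine ⟨br_le hA hk h.1 hL (by linarith), fun d h1 h2 => ?_⟩
  have hd : d ∈ Finset.Icc 1 n := Finset.mem_Icc.2 ⟨h1, h2⟩
  have b1 : p.2 d ^ 2 ≤ ∑ d ∈ Finset.Icc 1 n, p.2 d ^ 2 :=
    Finset.single_le_sum (f := fun d => p.2 d ^ 2) (fun e _ => sq_nonneg _) hd
  have b2 : kb / p.1 d + br Ap kc (p.2 d - p.1 d)
      ≤ ∑ d ∈ Finset.Icc 1 n, (kb / p.1 d + br Ap kc (p.2 d - p.1 d)) :=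
    Finset.single_le_sum (f := fun d => kb / p.1 d + br Ap kc (p.2 d - p.1 d))
      (fun d hd => add_nonneg (t d hd).1 (t d hd).2) hd
  obtain ⟨c1, c2⟩ := h.2 d h1 h2
  have b3 := br_le hA hk (show 0 < p.2 d - p.1 d by linarith) hL
    (by linarith [(t d hd).1])
  refine ⟨?_, ?_, b3.1, b3.2⟩
  · rw [le_div_iff₀ hc]
    nlinarith
  · have : kb / p.1 d ≤ L := by linarith [(t d hd).2]
    rw [div_le_iff₀ c1] at this
    rw [div_le_iff₀ hL]
    linarith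

theorem sd_near {n : ℕ} {ζ q : ℕ → ℝ} (h : Adm n ζ q) {kb Ap kc m y N : ℝ} (hb : 0 ≤ kb)
    (hk : 0 ≤ kc) (hm : 0 < m) (hN : 0 ≤ N) (hy0 : 0 ≤ y) (hy : y ≤ m / 2)
    {U : (ℕ → ℝ) → (ℕ → ℝ) → ℝ} {θ ϑ : ℕ → ℝ} (h0 : m ≤ ϑ 0)
    (hθ : ∀ d, 1 ≤ d → d ≤ n → m ≤ θ d ∧ θ d + m ≤ ϑ d)
    (hmax : ∀ p, Dom n p →
      U p.1 p.2 - N * pen n ζ q kb Ap kc p ≤ U θ ϑ - N * pen n ζ q kb Ap kc (θ, ϑ) + 1) :
    SDz (U θ) ϑ (fun d => if d = 0 then N * (Ap - kc / ϑ 0 ^ 2)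
      else N * ((1 - QQ ζ q d) * ϑ d + (Ap - kc / (ϑ d - θ d) ^ 2))) y
      (N * (y ^ 2 * (1 + 2 * (kb + kc) / m ^ 3)) + 1) n ∧
    ∀ d, 1 ≤ d → d ≤ n → U (Function.update θ d (θ d + y)) ϑ - U θ ϑ
      ≤ y * (N * (-(kb / θ d ^ 2) - (Ap - kc / (ϑ d - θ d) ^ 2)))
        + (N * (y ^ 2 * (1 + 2 * (kb + kc) / m ^ 3)) + 1) := by
  have key : ∀ d, d ≤ n → ∀ z : ℝ, |z| ≤ m / 2 →
      U θ (Function.update ϑ d (ϑ d + z)) - U θ ϑ
        ≤ z * (if d = 0 then N * (Ap - kc / ϑ 0 ^ 2)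
          else N * ((1 - QQ ζ q d) * ϑ d + (Ap - kc / (ϑ d - θ d) ^ 2)))
          + (N * (z ^ 2 * (1 + 2 * (kb + kc) / m ^ 3)) + 1) := by
    intro d hd z hz
    have hz' := abs_le.1 hz
    rcases Nat.eq_zero_or_pos d with rfl | h1
    · have h3 := hmax (θ, Function.update ϑ 0 (ϑ 0 + z)) ⟨by simp only [Function.update_self]; linarith,
        fun e e1 e2 => by
          simp only [Function.update_of_ne (show e ≠ 0 by omega)]
          constructor <;> linarith [(hθ e e1 e2).1, (hθ e e1 e2).2]⟩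
      have h4 : pen n ζ q kb Ap kc (θ, Function.update ϑ 0 (ϑ 0 + z)) - pen n ζ q kb Ap kc (θ, ϑ)
          = br Ap kc (ϑ 0 + z) - br Ap kc (ϑ 0) := by
        unfold pen
        have : ∑ d ∈ Finset.Icc 1 n, pl (1 - QQ ζ q d) kb Ap kc (θ d)
            (Function.update ϑ 0 (ϑ 0 + z) d)
            = ∑ d ∈ Finset.Icc 1 n, pl (1 - QQ ζ q d) kb Ap kc (θ d) (ϑ d) :=
          Finset.sum_congr rfl fun e he => by
            rw [Function.update_of_ne (show e ≠ 0 by have := (Finset.mem_Icc.1 he).1; omega)]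
        simp only [Function.update_self, this]
        ring
      have h5 := br_add (Ap := Ap) hk hm h0 hz
      have h6 : z ^ 2 * (1 / 2 + 2 * kc / m ^ 3) ≤ z ^ 2 * (1 + 2 * (kb + kc) / m ^ 3) := by
        refine mul_le_mul_of_nonneg_left ?_ (sq_nonneg z)
        have : 0 ≤ 2 * kb / m ^ 3 := by positivity
        have e2 : 2 * (kb + kc) / m ^ 3 = 2 * kb / m ^ 3 + 2 * kc / m ^ 3 := by ring
        rw [e2]
        linarith
      have h7 := mul_le_mul_of_nonneg_left (h4.le.trans (h5.trans (add_le_add le_rfl h6))) hN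
      rw [if_pos rfl]
      simp only at h3
      nlinarith
    · have hθd := hθ d h1 hd
      have h3 := hmax (θ, Function.update ϑ d (ϑ d + z)) ⟨by
          simp only [Function.update_of_ne (show 0 ≠ d by omega)]; linarith,
        fun e e1 e2 => by
          by_cases he : e = d
          · subst he
            simp only [Function.update_self]
            constructor <;> linarith [hθd.1, hθd.2]
          · simp only [Function.update_of_ne he]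
            constructor <;> linarith [(hθ e e1 e2).1, (hθ e e1 e2).2]⟩
      have h4 : pen n ζ q kb Ap kc (θ, Function.update ϑ d (ϑ d + z)) - pen n ζ q kb Ap kc (θ, ϑ)
          = pl (1 - QQ ζ q d) kb Ap kc (θ d) (ϑ d + z) - pl (1 - QQ ζ q d) kb Ap kc (θ d) (ϑ d) := by
        have := UBAux.sum_update_sub (Finset.Icc 1 n)
          (fun e x => pl (1 - QQ ζ q e) kb Ap kc (θ e) x) ϑ (Finset.mem_Icc.2 ⟨h1, hd⟩) (ϑ d + z)
        unfold pen
        simp only [Function.update_of_ne (show 0 ≠ d by omega)]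
        linarith
      have h5 := pl_top (a := 1 - QQ ζ q d) (Ap := Ap) (by linarith [UBAux.QQ_nonneg h d]) hb hk hm
        hθd.2 hz
      have h7 := mul_le_mul_of_nonneg_left (h4.le.trans h5) hN
      rw [if_neg (by omega)]
      simp only at h3
      nlinarith
  have hy' : |y| ≤ m / 2 := by rwa [abs_of_nonneg hy0]
  refine ⟨fun d hd => ⟨key d hd y hy', ?_⟩, fun d h1 hd => ?_⟩
  · have := key d hd (-y) (by rwa [abs_neg])
    rw [← sub_eq_add_neg, neg_sq] at this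
    linarith
  · have hθd := hθ d h1 hd
    have h3 := hmax (Function.update θ d (θ d + y), ϑ) ⟨by simp only; linarith,
      fun e e1 e2 => by
        by_cases he : e = d
        · subst he
          simp only [Function.update_self]
          constructor <;> linarith [hθd.1, hθd.2]
        · simp only [Function.update_of_ne he]
          constructor <;> linarith [(hθ e e1 e2).1, (hθ e e1 e2).2]⟩
    have h4 : pen n ζ q kb Ap kc (Function.update θ d (θ d + y), ϑ) - pen n ζ q kb Ap kc (θ, ϑ)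
        = pl (1 - QQ ζ q d) kb Ap kc (θ d + y) (ϑ d) - pl (1 - QQ ζ q d) kb Ap kc (θ d) (ϑ d) := by
      have := UBAux.sum_update_sub (Finset.Icc 1 n)
        (fun e x => pl (1 - QQ ζ q e) kb Ap kc x (ϑ e)) θ (Finset.mem_Icc.2 ⟨h1, hd⟩) (θ d + y)
      unfold pen
      simp only
      linarith
    have h5 := pl_rest (a := 1 - QQ ζ q d) (Ap := Ap) hb hk hm hθd.1 hθd.2 hy'
    have h7 := mul_le_mul_of_nonneg_left (h4.le.trans h5) hN
    simp only at h3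
    nlinarith

/-- The output of one cavity step. -/
def CavP (A : Type) [Fintype A] [DecidableEq A] (n : ℕ) (ζ q : ℕ → ℝ)
    (Θ θm θ1 cm e0 c0 ε k y : ℝ) (N : ℕ) : Prop :=
    ∀ (b : Fin N → Option A) (ca : A → ℝ) (θ ϑ τ τ' : ℕ → ℝ), (∀ o, fib b o = sz A N o) →
      Par n Θ θm cm e0 ca θ ϑ → (∀ a, c0 ≤ ca a) → SDz (AV ζ n ca θ b) ϑ τ y (k * y * N) n →
      (∀ d, 1 ≤ d → d ≤ n → AV ζ n ca (Function.update θ d (θ d + y)) b ϑ - AV ζ n ca θ b ϑ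
        ≤ y * τ' d + k * y * N) →
      (∀ d, 1 ≤ d → d ≤ n → τ d + τ' d ≤ N * ((1 - QQ ζ q d) * ϑ d) ∧ θ1 ≤ θ d ∧
        ϑ d - θ d ≤ ε * θ1) →
      ∃ r, CAdm n r ∧
        (∀ d, d ≤ n → rhoP ζ n (cv ca (ϑ 0)) r 0 - QQ ζ (rhoP ζ n (cv ca (ϑ 0)) r) d
          ≤ 1 - QQ ζ q d + 7 * ε) ∧ 1 - 7 * ε ≤ rhoP ζ n (cv ca (ϑ 0)) r 0 ∧
        ∀ inc : A → ℝ, (∀ a, 0 ≤ inc a ∧ inc a ≤ cm) →
          -(∑ i, cv inc 0 (b i) * DB ζ n ca θ b ϑ (fun U x => yv U i x) 0) / 2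
            ≤ N * (-(avg fun o => cv inc 0 o * Wp ζ n (cv ca (ϑ 0) o) r 0) / 2 + 2 * cm * ε)

theorem cav_step (A : Type) [Fintype A] [DecidableEq A] {ε c0 : ℝ} (hε : 0 < ε) (h0 : 0 < c0)
    {cm : ℝ} (hcm : 0 ≤ cm) : ∃ e0 : ℝ, 0 < e0 ∧
    ∀ (n : ℕ) (ζ q : ℕ → ℝ) (me Θ θm θ1 : ℝ), Reg n ζ me 0 0 Θ θm → me ≤ e0 → 0 < θ1 →
    ∀ᶠ k in 𝓝[>] (0 : ℝ), ∀ᶠ y in 𝓝[>] (0 : ℝ), ∀ᶠ N : ℕ in atTop,
      CavP A n ζ q Θ θm θ1 cm e0 c0 ε k y N := by
  obtain ⟨e0, he0, hS⟩ := scalar_main A hε h0 cm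
  refine ⟨e0, he0, fun n ζ q me Θ θm θ1 hR hme hθ1 => ?_⟩
  have hK := KK_pos' (A := A)
  have hK1 : (1 : ℝ) ≤ KK A := KK_pos
  have hζ := hR.z.zok
  have hz := hR.z.z0
  have he : 0 < min e0 ε := lt_min he0 hε
  filter_upwards [hS n ζ me Θ θm hR hme (KK A ^ 2), base_rel A hR he cm (KK A ^ 2),
    Ioc_mem_nhdsGT (show (0 : ℝ) < min ε (ε * θ1) by positivity)] with k hk1 hk2 hk3
  have hkε : k ≤ ε := hk3.2.trans (min_le_left _ _)
  have hkθ : k ≤ ε * θ1 := hk3.2.trans (min_le_right _ _)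
  filter_upwards [hk1, hk2, Ioc_mem_nhdsGT hR.θm0] with y hy1 hy2 hy3
  have hT : Tendsto (fun N : ℕ => (N : ℝ)) atTop atTop := tendsto_natCast_atTop_atTop
  filter_upwards [hy1, hy2, eventually_ge_atTop 1, hT.eventually_ge_atTop (KK A ^ 2),
    hT.eventually_ge_atTop (KK A ^ 2 * (2 * KK A) / ε)] with N hN1 hN2 hN hNa hNb
  intro b ca θ ϑ τ τ' hfib hP hc hsd hrest hτ
  have hN' : (1 : ℝ) ≤ N := by exact_mod_cast hN
  have hN0 : (0 : ℝ) < N := by linarith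
  rw [div_le_iff₀ hε] at hNb
  have hb := bal_sz hfib
  obtain ⟨r, hr⟩ := hN2 (Fin N) ca θ b ϑ τ e0 hb hP hsd
  have hw := fun j a hj => (hN1 (Fin N) ca θ b ϑ τ r j a hb hP (hc a) hsd
    (hr.mono (min_le_left _ _)) hj).2
  have hc0 : ∀ a, 0 ≤ ca a + ϑ 0 := fun a => add_nonneg (hP.p0.c a).1 hP.p0.a0.1
  have hcard : (Fintype.card (Fin N) : ℝ) = N := by simp
  have hz0 := rho_zero hζ hz hN hb hNa hc0 hy3.1
    (fun d h1 h2 => hy3.2.trans (hP.fld d h1 h2).1) hsd hr he.le hε.le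
    fun i a hi => hw i a hi 0 (Nat.zero_le n)
  have hz1 : |rhoP ζ n (cv ca (ϑ 0)) r 0 - 1| ≤ 7 * ε := by
    refine le_of_mul_le_mul_left (hz0.trans ?_) hN0
    have := mul_le_mul_of_nonneg_left (show 2 * k + min e0 ε + 2 * ε ≤ 5 * ε by
      linarith [min_le_right e0 ε]) hN0.le
    nlinarith
  rw [abs_le] at hz1
  refine ⟨r, hr.cadm, fun d hd => ?_, by linarith [hz1.1], fun inc hinc => ?_⟩
  · rcases Nat.eq_zero_or_pos d with rfl | h1
    · have hq : ∀ c : ℕ → ℝ, QQ ζ c 0 = 0 := fun c => by simp [QQ]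
      rw [hq, hq]
      linarith [hz1.2]
    obtain ⟨t1, t2, t3⟩ := hτ d h1 hd
    have hθ0 : 0 < θ d := lt_of_lt_of_le hθ1 t2
    have hθϑ : θ d ≤ ϑ d := (hP.p0.th d h1 hd).2
    have hϑ0 : 0 < ϑ d := by linarith
    have a1 := (abs_le.1 (rest_est hζ hr.cadm hr.r0 hc0 hb (by rw [hcard]; linarith) hε.le d
      fun i a hi => hw i a hi d hd)).1
    obtain ⟨R, hRdef⟩ : ∃ R, R = ∑ i : {i // b i ≠ none},
      DB ζ n ca θ b ϑ (fun U x => yv U i.1 x) d := ⟨_, rfl⟩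
    have a2 := (av_tan_rest hζ hz n ca θ b ϑ h1 hd hθ0 (y := y) (by linarith [hy3.1])).trans
      (hrest d h1 hd)
    rw [← hRdef] at a1 a2
    have a3 : θ d * R ≤ τ' d + k * N := by
      refine le_of_mul_le_mul_left (a2.trans_eq (by ring)) hy3.1
    have a4 : R ≤ N := by
      have b1 := sum_db_zero hζ hz n ca θ b ϑ
      rw [sum_top_rest b, hcard] at b1
      have b2 : 0 ≤ ∑ i : {i // b i = none}, DB ζ n ca θ b ϑ (fun U x => yv U i.1 x) 0 :=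
        Finset.sum_nonneg fun i _ => db_y_nonneg hζ hz n ca θ b ϑ _ (Nat.zero_le n)
      have b3 : R ≤ ∑ i : {i // b i ≠ none}, DB ζ n ca θ b ϑ (fun U x => yv U i.1 x) 0 := by
        rw [hRdef]
        exact Finset.sum_le_sum fun i _ => db_y_le hζ hz n ca θ b ϑ _ d
      linarith
    have a5 : N / KK A * (r 0 - QQ ζ r d) ≤ τ d / ϑ d + ε * N := by
      have b1 := (abs_le.1 (hr.lev d h1 hd)).2
      have b2 : min e0 ε * N ≤ ε * N * KK A :=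
        (mul_le_mul_of_nonneg_right (min_le_right _ _) hN0.le).trans
          (le_mul_of_one_le_right (by positivity) hK1)
      rw [div_mul_eq_mul_div, div_le_iff₀ hK]
      nlinarith
    have a6 : τ d / ϑ d + R ≤ N * (1 - QQ ζ q d) + 2 * ε * N := by
      have b1 : (ϑ d - θ d) * R ≤ ε * θ1 * N :=
        (mul_le_mul_of_nonneg_left a4 (by linarith)).trans
          (mul_le_mul_of_nonneg_right t3 hN0.le)
      have b2 : k * N ≤ ε * θ1 * N := mul_le_mul_of_nonneg_right hkθ hN0.le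
      have b3 : ε * θ1 * N ≤ ε * N * ϑ d := by
        have := mul_le_mul_of_nonneg_left (t2.trans hθϑ) (show 0 ≤ ε * N by positivity)
        linarith
      have e : τ d / ϑ d + R = (τ d + ϑ d * R) / ϑ d := by field_simp
      rw [e, div_le_iff₀ hϑ0]
      nlinarith
    refine le_of_mul_le_mul_left ?_ hN0
    nlinarith
  · have hW : ∀ a, |inc a * Wp ζ n (ca a + ϑ 0) r 0| ≤ cm * (2 * KK A) := fun a => by
      have b1 := W_bounds hζ hr.cadm (hc0 a) 0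
      have hq : ∀ c : ℕ → ℝ, QQ ζ c 0 = 0 := fun c => by simp [QQ]
      rw [hq, sub_zero] at b1
      rw [abs_mul, abs_of_nonneg (hinc a).1]
      exact mul_le_mul (hinc a).2 (b1.trans hr.r0) (abs_nonneg _) hcm
    have a1 := rest_sum hb (x := fun i => cv inc 0 (b i) * DB ζ n ca θ b ϑ (fun U x => yv U i x) 0)
      (ε := cm * ε) (by positivity) (by positivity) hW fun i a hi => by
        have b1 := hw i a hi 0 (Nat.zero_le n)
        have hq : ∀ c : ℕ → ℝ, QQ ζ c 0 = 0 := fun c => by simp [QQ]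
        rw [hq, sub_zero] at b1
        simp only [hi, cv, Option.elim, add_zero]
        rw [← mul_sub, abs_mul, abs_of_nonneg (hinc a).1]
        exact mul_le_mul (hinc a).2 b1 (abs_nonneg _) hcm
    have a2 : ∑ i : {i // b i = none},
        cv inc 0 (b i.1) * DB ζ n ca θ b ϑ (fun U x => yv U i.1 x) 0 = 0 :=
      Finset.sum_eq_zero fun i _ => by simp [i.2, cv]
    rw [sum_top_rest b, a2, zero_add, avg_option]
    simp only [cv, Option.elim, add_zero, zero_mul, zero_add] at a1 ⊢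
    rw [hcard, abs_le] at a1
    have e : ∀ u : ℝ, N * (-(u / KK A) / 2 + 2 * cm * ε) = -(N / KK A * u) / 2 + 2 * cm * ε * N := by
      intro u
      field_simp
    rw [e]
    have b2 : KK A ^ 2 * (cm * (2 * KK A)) ≤ cm * (N * ε) := by
      have := mul_le_mul_of_nonneg_left hNb hcm
      linarith
    have b3 : 0 ≤ cm * ε * N := by positivity
    linarith [a1.1]

theorem f0_ge {S : Type} [Fintype S] [DecidableEq S] {c : S → ℝ} {cm : ℝ} (h : ∀ i, c i ≤ cm) :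
    -(Fintype.card S * cm / 2) ≤ ∫ U, F0 c U ∂(haarO S) := by
  have h1 : ∀ U, -(Fintype.card S * cm / 2) ≤ F0 c U := fun U => by
    refine le_trans (le_of_eq ?_) (F0_anti h U)
    have e : EQ (fun _ : S => cm) U = fun _ => -(Fintype.card S * cm / 2) := by
      funext x
      rw [EQ, ← Finset.mul_sum, yv_sum_sq]
      ring
    rw [F0, e]
    simp
  calc -(Fintype.card S * cm / 2) = ∫ _U, -(Fintype.card S * cm / 2) ∂(haarO S) := by simp
    _ ≤ _ := integral_mono (integrable_const _) (bm_F0 c).integrable h1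

theorem exists_small {a b : ℝ} (ha : 0 ≤ a) (hb : 0 < b) : ∃ t, 0 < t ∧ t ≤ 1 ∧ a * t ≤ b := by
  refine ⟨min 1 (b / (a + 1)), by positivity, min_le_left _ _, ?_⟩
  calc a * min 1 (b / (a + 1)) ≤ (a + 1) * (b / (a + 1)) := by
        gcongr
        · linarith
        · exact min_le_right _ _
    _ = b := by field_simp

theorem comono {A : Type} {ca : A → ℝ} (hc : ∀ a, 0 ≤ ca a) {s t a0 : ℝ} (hs : 0 ≤ s) (ht : 0 ≤ t)
    (ha : 0 ≤ a0) (o o' : Option A) :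
    0 ≤ (cv (fun a => s * ca a) a0 o - cv (fun a => s * ca a) a0 o') *
      ((cv (fun a => (s + t) * ca a) a0 o - cv (fun a => s * ca a) a0 o)
        - (cv (fun a => (s + t) * ca a) a0 o' - cv (fun a => s * ca a) a0 o')) := by
  rcases o with _ | a <;> rcases o' with _ | a' <;> simp only [cv, Option.elim]
  · simp
  · have := mul_nonneg (add_nonneg (mul_nonneg hs (hc a')) ha) (mul_nonneg ht (hc a'))
    nlinarith
  · have := mul_nonneg (add_nonneg (mul_nonneg hs (hc a)) ha) (mul_nonneg ht (hc a))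
    nlinarith
  · have := mul_nonneg (mul_nonneg hs ht) (sq_nonneg (ca a - ca a'))
    nlinarith

section Fixed

variable {A : Type} [Fintype A] [DecidableEq A] {N : ℕ}

/-- The penalised value. -/
noncomputable def VV (n : ℕ) (ζ q : ℕ → ℝ) (kb Ap kc : ℝ) (ca : A → ℝ) (b : Fin N → Option A)
    (s : ℝ) (p : (ℕ → ℝ) × (ℕ → ℝ)) : ℝ :=
  AV ζ n (fun a => s * ca a) p.1 b p.2 - N * pen n ζ q kb Ap kc p

theorem vv_iso {n : ℕ} {ζ q : ℕ → ℝ} (h : Adm n ζ q) (kb Ap kc : ℝ) {ca : A → ℝ}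
    (hc' : ∀ a, 0 ≤ ca a) (b : Fin N → Option A) {s : ℝ} {p : (ℕ → ℝ) × (ℕ → ℝ)} (hs : 0 ≤ s)
    (hp : Dom n p) : VV n ζ q kb Ap kc ca b s p
      ≤ VS (ising (Fin N)) (fun _ _ => 0) 0 ζ n p.2 0
        - N * (∑ d ∈ Finset.Icc 1 n, p.2 d ^ 2 * (1 - QQ ζ q d)) / 2 - N * rest n kb Ap kc p := by
  have hζ : Zok ζ := h.zadm.zok
  have h1 := av_le_iso hζ h.z0 n (fun a => s * ca a) p.1 b p.2
    (fun a => mul_nonneg hs (hc' a)) hp.1.le fun d h1 h2 => by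
      obtain ⟨a1, a2⟩ := hp.2 d h1 h2
      nlinarith
  rw [vs_ising_zero hζ, VV, pen_split]
  linarith

theorem pen_p0 {n : ℕ} {ζ q : ℕ → ℝ} (h : Adm n ζ q) {u v ω δ' Ap kc : ℝ} (hu0 : 0 < u)
    (hu1 : u ≤ 1) (hv0 : 0 < v) (hv1 : v ≤ u) (hbr : br Ap kc v = 2 * ω)
    (hu : 3 * n * u ≤ δ' / 2) (hω : 2 * (n + 1) * ω ≤ δ' / 2) :
    pen n ζ q (u ^ 3) Ap kc (fun _ => u, fun d => if d = 0 then v else u + v) ≤ δ' := by
  have h1 : ∑ d ∈ Finset.Icc 1 n, pl (1 - QQ ζ q d) (u ^ 3) Ap kc u (if d = 0 then v else u + v)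
      ≤ ∑ _d ∈ Finset.Icc 1 n, (3 * u + 2 * ω) := by
    refine Finset.sum_le_sum fun d hd => ?_
    have hd0 : d ≠ 0 := by have := (Finset.mem_Icc.1 hd).1; omega
    simp only [if_neg hd0, pl, add_sub_cancel_left, hbr]
    have a1 := UBAux.QQ_nonneg h d
    have a2 : u ^ 3 / u = u ^ 2 := by field_simp
    have a3 : (u + v) ^ 2 * (1 - QQ ζ q d) ≤ (u + v) ^ 2 :=
      mul_le_of_le_one_right (sq_nonneg _) (by linarith)
    rw [a2]
    nlinarith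
  simp only [Finset.sum_const, Nat.card_Icc, add_tsub_cancel_right, nsmul_eq_mul] at h1
  simp only [pen, if_true, hbr]
  nlinarith

theorem vv_low {n : ℕ} {ζ q : ℕ → ℝ} (h : Adm n ζ q) {kb Ap kc δ' : ℝ} (ca : A → ℝ)
    (b : Fin N → Option A) (s : ℝ) {p : (ℕ → ℝ) × (ℕ → ℝ)} (hp : 0 ≤ p.2 0) (hp' : p.2 0 ≤ δ')
    (hpen : pen n ζ q kb Ap kc p ≤ δ') :
    ∫ U, F0 (cb (fun a => s * ca a) 0 b) U ∂(haarO (Fin N)) - N * (3 * δ' / 2)
      ≤ VV n ζ q kb Ap kc ca b s p := by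
  have hN0 : (0 : ℝ) ≤ N := Nat.cast_nonneg N
  have h1 := av_ge_F0 h.zadm.zok h.z0 n (fun a => s * ca a) p.1 b p.2 hp
  rw [show (Fintype.card (Fin N) : ℝ) = N by simp] at h1
  have h3 := mul_le_mul_of_nonneg_left hpen hN0
  have h4 := mul_le_mul_of_nonneg_left hp' hN0
  rw [VV]
  linarith

theorem par_box {n : ℕ} {ca : A → ℝ} {θ ϑ : ℕ → ℝ} {Θ m cx e0 w : ℝ} (hΘ : 0 ≤ Θ)
    (hcx : 1 ≤ cx) (hc : ∀ a, 0 ≤ ca a ∧ ca a + 1 ≤ cx) (hp : Dom n (θ, ϑ)) (h0 : m ≤ ϑ 0) (h1 : ϑ 0 ≤ 1)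
    (hbx : ∀ d, 1 ≤ d → d ≤ n → ϑ d ^ 2 ≤ Θ ∧ m ≤ θ d ∧ m ≤ ϑ d - θ d ∧ ϑ d - θ d ≤ w)
    (hw0 : 0 ≤ w) (hw : n * (Θ + 1) * w ≤ min e0 1) : Par n Θ m cx e0 ca θ ϑ := by
  have hgap : ∑ d ∈ Finset.Icc 1 n, (ϑ d ^ 2 - θ d ^ 2) ≤ min e0 1 := by
    refine le_trans ?_ hw
    calc ∑ d ∈ Finset.Icc 1 n, (ϑ d ^ 2 - θ d ^ 2) ≤ ∑ _d ∈ Finset.Icc 1 n, (Θ + 1) * w := by
          refine Finset.sum_le_sum fun d hd => ?_
          obtain ⟨a1, a2⟩ := Finset.mem_Icc.1 hd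
          obtain ⟨b1, -, -, b4⟩ := hbx d a1 a2
          obtain ⟨c1, c2⟩ := hp.2 d a1 a2
          simp only at c1 c2
          have e : ϑ d ^ 2 - θ d ^ 2 = (ϑ d + θ d) * (ϑ d - θ d) := by ring
          rw [e]
          exact mul_le_mul (by nlinarith [sq_nonneg (ϑ d - 1)]) b4 (by linarith)
            (by positivity)
      _ = n * (Θ + 1) * w := by simp [mul_assoc]
  have hϑ0 : 0 < ϑ 0 := hp.1
  refine ⟨⟨fun a => ⟨(hc a).1, ?_⟩, ⟨hϑ0.le, h1.trans hcx⟩,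
    fun d h1 h2 => ⟨(hp.2 d h1 h2).1.le, (hp.2 d h1 h2).2.le⟩, ?_⟩,
    fun d h1 h2 => ⟨?_, (hbx d h1 h2).1⟩, h0, fun d h1 h2 => ?_,
    hgap.trans (min_le_left _ _)⟩
  · linarith [(hc a).2]
  · linarith [hgap.trans (min_le_right _ _)]
  · have := (hp.2 d h1 h2).2
    simp only at this
    linarith [(hbx d h1 h2).2.1]
  · linarith [(hbx d h1 h2).2.2.1]

theorem cok_s {ca : A → ℝ} {cm : ℝ} (hcm : 0 ≤ cm) (hc : ∀ a, 0 ≤ ca a ∧ ca a ≤ cm) {s a0 : ℝ}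
    (a1 : 0 ≤ s) (a2 : s ≤ 2) (a3 : 0 ≤ a0) (a4 : a0 ≤ 1) :
    Cok (cv (fun a => s * ca a) a0) (2 * cm + 1) := by
  refine cok_cv (by positivity) fun a => ⟨add_nonneg (mul_nonneg a1 (hc a).1) a3, ?_⟩
  have := mul_le_mul a2 (hc a).2 (hc a).1 (by norm_num : (0 : ℝ) ≤ 2)
  linarith

theorem step_E {n : ℕ} {ζ q : ℕ → ℝ} (h : Adm n ζ q) {ca : A → ℝ} {cm : ℝ} (hcm : 0 ≤ cm)
    (hc : ∀ a, 0 ≤ ca a ∧ ca a ≤ cm) {s t a0 ε : ℝ} (hs : 0 ≤ s) (ht : 0 ≤ t) (hst : s + t ≤ 2)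
    (ha0 : 0 ≤ a0) (ha1 : a0 ≤ 1) (haε : a0 ≤ ε) {r : ℕ → ℝ} (hr : CAdm n r)
    (hr1 : ∀ d, d ≤ n → rhoP ζ n (cv (fun a => s * ca a) a0) r 0
      - QQ ζ (rhoP ζ n (cv (fun a => s * ca a) a0) r) d ≤ 1 - QQ ζ q d + 7 * ε)
    (hr2 : 1 - 7 * ε ≤ rhoP ζ n (cv (fun a => s * ca a) a0) r 0) :
    -(avg fun o => cv (fun a => t * ca a) 0 o * Wp ζ n (cv (fun a => s * ca a) a0 o) r 0) / 2
        + 2 * (2 * cm + 1) * ε
      ≤ Ec (cv (fun a => (s + t) * ca a) 0) n ζ q - Ec (cv (fun a => s * ca a) 0) n ζ q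
        + (1 / 2 + (KK A * (2 * cm + 1) ^ 2 + (2 * cm + 1)) * 7 / 2 + 2 * (2 * cm + 1)) * ε := by
  have hε : 0 ≤ ε := ha0.trans haε
  have k1 := cok_s hcm hc hs (by linarith) ha0 ha1
  have k2 := cok_s hcm hc (add_nonneg hs ht) hst ha0 ha1
  have k3 := cok_s hcm hc hs (by linarith) le_rfl zero_le_one
  have k4 := cok_s hcm hc (add_nonneg hs ht) hst le_rfl zero_le_one
  have h3 := ub_step h hr k1 k2 (fun o => by
      rcases o with _ | a <;> simp only [cv, Option.elim]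
      · exact le_rfl
      · nlinarith [mul_nonneg ht (hc a).1])
    (comono (fun a => (hc a).1) hs ht ha0) (ε := 7 * ε) (by positivity) hr1 hr2
  have e2 : ∀ o, cv (fun a => (s + t) * ca a) a0 o - cv (fun a => s * ca a) a0 o
      = cv (fun a => t * ca a) 0 o := fun o => by
    rcases o with _ | a <;> simp only [cv, Option.elim] <;> ring
  simp only [e2, card_option_eq] at h3
  have h4 := Ec_shift (n := n) (ζ := ζ) (q := q) k2 k4 (a := 0) (fun o => by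
    rcases o with _ | a <;> simp only [cv, Option.elim] <;> linarith) le_rfl
    (by rw [h.q0]; exact zero_le_one)
  have h5 := Ec_shift (n := n) (ζ := ζ) (q := q) k3 k1 (a := a0) (fun o => by
    rcases o with _ | a <;> simp only [cv, Option.elim] <;> linarith) ha0
    (by rw [h.q0]; exact zero_le_one)
  rw [h.q0] at h4 h5
  linarith

theorem one_step {n : ℕ} {ζ q : ℕ → ℝ} (h : Adm n ζ q) {ca : A → ℝ} {c0 cm : ℝ} (h0 : 0 < c0)
    (hcm : 0 ≤ cm) (hc : ∀ a, c0 ≤ ca a ∧ ca a ≤ cm) {kb Ap kc C c L m w ε e0 δ' k y t : ℝ}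
    (hkb0 : 0 < kb) (hAp0 : 0 < Ap) (hkc0 : 0 < kc) (hc0 : 0 < c) (hL : L = |C| + cm / 2 + 3)
    (hm0 : 0 < m) (hm1 : m ≤ kb / L) (hm2 : m ≤ kc / L) (hv3 : L / Ap ≤ w)
    (hw1 : w ≤ ε * (kb / L)) (hw2 : w ≤ ε) (hw3 : n * (L / c + 1) * w ≤ min e0 1) (hε1 : ε ≤ 1)
    (hδ'1 : δ' ≤ 1) (hy0 : 0 < y) (hya : y ≤ m / 2) (ht0 : 0 < t)
    (hκ : N * (y ^ 2 * (1 + 2 * (kb + kc) / m ^ 3)) + 1 ≤ k * y * N) (hN1 : 1 ≤ N)
    (hcav : CavP A n ζ q (L / c) m (kb / L) (2 * cm + 1) e0 (t * c0) ε k y N)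
    {b : Fin N → Option A} (hfib : ∀ o, fib b o = sz A N o)
    (hup : ∀ s p, 0 ≤ s → Dom n p → VV n ζ q kb Ap kc ca b s p
      ≤ N * (C - (c * ∑ d ∈ Finset.Icc 1 n, p.2 d ^ 2 + rest n kb Ap kc p)))
    {p0 : (ℕ → ℝ) × (ℕ → ℝ)} (hdom : Dom n p0)
    (hlow : ∀ s, ∫ U, F0 (cb (fun a => s * ca a) 0 b) U ∂(haarO (Fin N)) - N * (3 * δ' / 2)
      ≤ VV n ζ q kb Ap kc ca b s p0) {s B : ℝ} (hs : 0 ≤ s) (hs1 : s + t ≤ 1)
    (hB : ∀ p, Dom n p → VV n ζ q kb Ap kc ca b s p ≤ B) :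
    ∀ p, Dom n p → VV n ζ q kb Ap kc ca b (s + t) p ≤ B +
      (N * (Ec (cv (fun a => (s + t + t) * ca a) 0) n ζ q - Ec (cv (fun a => (s + t) * ca a) 0) n ζ q
        + (1 / 2 + (KK A * (2 * cm + 1) ^ 2 + (2 * cm + 1)) * 7 / 2 + 2 * (2 * cm + 1)) * ε) + 1) := by
  have hζ : Zok ζ := h.zadm.zok
  have hz := h.z0
  have hc' : ∀ a, 0 ≤ ca a := fun a => h0.le.trans (hc a).1
  have hN1' : (1 : ℝ) ≤ N := by exact_mod_cast hN1
  have hN0 : (0 : ℝ) ≤ N := by linarith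
  have hL0 : 0 < L := by rw [hL]; positivity
  obtain ⟨⟨θ, ϑ⟩, hp, hmax⟩ := UBAux.near_max (VV n ζ q kb Ap kc ca b (s + t)) (Dom n) hdom
    (B := N * C) (fun p hp => by
      have h1 := hup (s + t) p (by linarith) hp
      have a3 := rest_nonneg hkb0 hAp0 hkc0 hp
      have a4 : 0 ≤ c * ∑ d ∈ Finset.Icc 1 n, p.2 d ^ 2 :=
        mul_nonneg hc0.le (Finset.sum_nonneg fun e _ => sq_nonneg _)
      have := mul_nonneg hN0 (add_nonneg a4 a3)
      linarith) one_pos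
  obtain ⟨hb0, hbx⟩ := box hkb0 hAp0 hkc0 hc0 hL0 hp (by
    have h1 := hup (s + t) _ (by linarith) hp
    have h2 := hlow (s + t)
    have h3 := hmax _ hdom
    have h4 := f0_ge (c := cb (fun a => (s + t) * ca a) 0 b) (cm := cm) fun i => by
      unfold cb cv
      rcases b i with _ | a
      · exact hcm
      · have := mul_le_mul hs1 (hc a).2 (hc' a) zero_le_one
        simp only [Option.elim, Pi.zero_apply]
        linarith
    rw [show (Fintype.card (Fin N) : ℝ) = N by simp] at h4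
    have h5 : (N : ℝ) * C ≤ N * |C| := by gcongr; exact le_abs_self C
    have h6 := mul_le_mul_of_nonneg_left hδ'1 hN0
    refine le_of_mul_le_mul_left ?_ (show (0 : ℝ) < N by linarith)
    rw [hL]
    linarith)
  simp only at hb0 hbx
  have hϑ0 : 0 < ϑ 0 := hp.1
  have hϑε : ϑ 0 ≤ ε := hb0.2.trans (hv3.trans hw2)
  have hpar : Par n (L / c) m (2 * cm + 1) e0 (fun a => (s + t) * ca a) θ ϑ :=
    par_box (by positivity) (by linarith) (fun a => ⟨mul_nonneg (by linarith) (hc' a), by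
        have := mul_le_mul hs1 (hc a).2 (hc' a) zero_le_one
        linarith⟩) hp (hm2.trans hb0.1) (hϑε.trans hε1)
      (fun d h1 h2 => ⟨(hbx d h1 h2).1, hm1.trans (hbx d h1 h2).2.1,
        hm2.trans (hbx d h1 h2).2.2.1, (hbx d h1 h2).2.2.2.trans hv3⟩)
      (le_trans (by positivity) hv3) hw3
  obtain ⟨hsd, hsd'⟩ := sd_near h hkb0.le hkc0.le hm0 hN0 hy0.le hya
    (U := fun θ ϑ => AV ζ n (fun a => (s + t) * ca a) θ b ϑ) (hm2.trans hb0.1)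
    (fun d h1 h2 => ⟨hm1.trans (hbx d h1 h2).2.1, by linarith [(hbx d h1 h2).2.2.1]⟩)
    (fun p hp => hmax p hp)
  obtain ⟨r, hr, hr1, hr2, hr3⟩ := hcav b _ θ ϑ _
    (fun d => N * (-(kb / θ d ^ 2) - (Ap - kc / (ϑ d - θ d) ^ 2))) hfib hpar
    (fun a => mul_le_mul (by linarith) (hc a).1 h0.le (by linarith)) (hsd.mono hκ)
    (fun d h1 h2 => (hsd' d h1 h2).trans (by linarith)) (fun d h1 h2 => by
      refine ⟨?_, (hbx d h1 h2).2.1, (hbx d h1 h2).2.2.2.trans (hv3.trans hw1)⟩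
      have : 0 ≤ N * (kb / θ d ^ 2) := by positivity
      simp only [if_neg (show d ≠ 0 by omega)]
      linarith)
  have h1 := hr3 (fun a => t * ca a) fun a => ⟨mul_nonneg ht0.le (hc' a), by
    have := mul_le_mul (show t ≤ 1 by linarith) (hc a).2 (hc' a) zero_le_one
    linarith⟩
  have h2 := av_jensen hζ hz n (fun a => (s + t) * ca a) θ b ϑ (fun a => s * ca a) (ϑ' := ϑ)
    fun _ _ _ => rfl
  have e1 : ∀ i, cb (fun a => s * ca a) ϑ b i - cb (fun a => (s + t) * ca a) ϑ b i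
      = -cv (fun a => t * ca a) 0 (b i) := fun i => by
    unfold cb cv
    rcases b i with _ | a <;> simp only [Option.elim] <;> ring
  simp only [e1, neg_mul, Finset.sum_neg_distrib] at h2
  have h6 := step_E h hcm (fun a => ⟨hc' a, (hc a).2⟩) (s := s + t) (t := t) (by linarith) ht0.le
    (by linarith) hϑ0.le (hϑε.trans hε1) hϑε hr hr1 hr2
  have h7 := h1.trans (mul_le_mul_of_nonneg_left h6 hN0)
  intro p hp'
  have h8 := hmax p hp'
  have h9 := hB _ hp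
  simp only [VV] at h8 h9 ⊢
  linarith

theorem ub_core {n : ℕ} {ζ q : ℕ → ℝ} (h : Adm n ζ q) {ca : A → ℝ} {cm : ℝ} (hcm : 0 ≤ cm)
    (hcc : ∀ a, 0 ≤ ca a ∧ ca a ≤ cm) {kb Ap kc δ δ' t Cs ε : ℝ} {J : ℕ}
    (hkb0 : 0 < kb) (hAp0 : 0 < Ap) (hkc0 : 0 < kc) (hδ : 0 < δ) (ht0 : 0 < t) (ht1 : t ≤ 1)
    (htJ : J * t = 1) (htδ : t * cm ≤ δ / 4) (hεδ : J * Cs * ε ≤ δ / 4) (hδ' : 8 * δ' ≤ δ)
    (hNb : J * 8 / δ ≤ N) {E : ℝ → ℝ} (hE : ∀ s, E s = Ec (cv (fun a => s * ca a) 0) n ζ q)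
    {b : Fin N → Option A} {p0 : (ℕ → ℝ) × (ℕ → ℝ)} (hdom : Dom n p0)
    (hlow : ∀ s, ∫ U, F0 (cb (fun a => s * ca a) 0 b) U ∂(haarO (Fin N)) - N * (3 * δ' / 2)
      ≤ VV n ζ q kb Ap kc ca b s p0)
    (hone : ∀ s B, 0 ≤ s → s + t ≤ 1 → (∀ p, Dom n p → VV n ζ q kb Ap kc ca b s p ≤ B) →
      ∀ p, Dom n p → VV n ζ q kb Ap kc ca b (s + t) p
        ≤ B + (N * (E (s + t + t) - E (s + t) + Cs * ε) + 1)) :
    ∫ U, F0 (cb ca 0 b) U ∂(haarO (Fin N)) ≤ N * (isingS n ζ q + Ec (cv ca 0) n ζ q + δ) := by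
  have hc' : ∀ a, 0 ≤ ca a := fun a => (hcc a).1
  have hN0 : (0 : ℝ) ≤ N := Nat.cast_nonneg N
  have hind : ∀ j : ℕ, j ≤ J → ∀ p, Dom n p → VV n ζ q kb Ap kc ca b (j * t) p
      ≤ N * isingS n ζ q + N * (E (j * t + t) - E t) + j * (N * (Cs * ε) + 1) := by
    intro j
    induction j with
    | zero =>
      intro _ p hp
      have h1 := vv_iso h kb Ap kc hc' b le_rfl hp
      have h2 := ising_field_le h N (fun _ _ => 0) p.2 0
      have h3 := mul_nonneg hN0 (rest_nonneg hkb0 hAp0 hkc0 hp)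
      simp only [Nat.cast_zero, zero_mul, zero_add, sub_self, mul_zero, add_zero]
      linarith
    | succ j ih =>
      intro hj p hp
      have hj' : (j : ℝ) + 1 ≤ J := by exact_mod_cast hj
      have := hone (j * t) _ (by positivity) (by nlinarith) (ih (by omega)) p hp
      have e : ((j + 1 : ℕ) : ℝ) * t = j * t + t := by push_cast; ring
      rw [e]
      push_cast
      linarith
  have h1 := (hlow (J * t)).trans (hind J le_rfl _ hdom)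
  rw [htJ] at h1
  have h2 : E (1 + t) ≤ Ec (cv ca 0) n ζ q := by
    have k1 := cok_s hcm hcc zero_le_one (by norm_num) le_rfl zero_le_one
    have := Ec_shift (n := n) (ζ := ζ) (q := q)
      (cok_s hcm hcc (s := 1 + t) (by linarith) (by linarith) le_rfl zero_le_one) k1 (a := 0)
      (fun o => by
        rcases o with _ | a <;> simp only [cv, Option.elim]
        · simp
        · nlinarith [mul_nonneg ht0.le (hc' a)]) le_rfl (by rw [h.q0]; exact zero_le_one)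
    simp only [one_mul] at this
    rw [hE]
    linarith
  have h3 : -(δ / 8) ≤ E t := by
    have := (Ec_bounds (n := n) (ζ := ζ) (q := q) (cok_cv (ca := fun a => t * ca a) (a0 := 0)
      (cm := t * cm) (by positivity) fun a => ⟨by have := mul_nonneg ht0.le (hc' a); linarith, by
        have := mul_le_mul_of_nonneg_left (hcc a).2 ht0.le
        linarith⟩) (by rw [h.q0]; exact zero_le_one)).1
    rw [h.q0] at this
    rw [hE]
    linarith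
  simp only [one_mul] at h1
  rw [div_le_iff₀ hδ] at hNb
  have h4 := mul_le_mul_of_nonneg_left h2 hN0
  have h5 := mul_le_mul_of_nonneg_left h3 hN0
  have h6 := mul_le_mul_of_nonneg_left hεδ hN0
  have h7 := mul_le_mul_of_nonneg_left hδ' hN0
  have h8 : 0 ≤ N * δ := by positivity
  linarith

end Fixed

theorem ub_fixed (A : Type) [Fintype A] [DecidableEq A] {ca : A → ℝ} {c0 cm : ℝ} (h0 : 0 < c0)
    (hcm : 0 ≤ cm) (hc : ∀ a, c0 ≤ ca a ∧ ca a ≤ cm) {δ : ℝ} (hδ : 0 < δ) :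
    ∃ me : ℝ, 0 < me ∧ ∀ (n : ℕ) (ζ q : ℕ → ℝ), Adm n ζ q →
      (∀ k, k < n → ζ k - ζ (k + 1) ≤ me ^ 2) →
      ∀ᶠ N : ℕ in atTop, ∀ b : Fin N → Option A, (∀ o, fib b o = sz A N o) →
      ∫ U, F0 (cb ca 0 b) U ∂(haarO (Fin N))
        ≤ N * (isingS n ζ q + Ec (cv ca 0) n ζ q + δ) := by
  have hK := KK_pos' (A := A)
  have hc' : ∀ a, 0 ≤ ca a := fun a => h0.le.trans (hc a).1
  obtain ⟨J, hJ⟩ := exists_nat_ge (4 * cm / δ + 1)
  have hJ1 : (1 : ℝ) ≤ J := by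
    have : 0 ≤ 4 * cm / δ := by positivity
    linarith
  have hJ0 : (0 : ℝ) < J := by linarith
  obtain ⟨t, ht⟩ : ∃ t : ℝ, t = (J : ℝ)⁻¹ := ⟨_, rfl⟩
  have ht0 : 0 < t := by rw [ht]; positivity
  have htJ : J * t = 1 := by rw [ht]; field_simp
  have ht1 : t ≤ 1 := by nlinarith
  have htδ : t * cm ≤ δ / 4 := by
    have h1 : 4 * cm / δ ≤ J := by linarith
    rw [div_le_iff₀ hδ] at h1
    nlinarith
  obtain ⟨Cs, hCs⟩ : ∃ Cs : ℝ, Cs = 1 / 2 + (KK A * (2 * cm + 1) ^ 2 + (2 * cm + 1)) * 7 / 2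
    + 2 * (2 * cm + 1) := ⟨_, rfl⟩
  have hCs0 : 0 ≤ Cs := by rw [hCs]; positivity
  obtain ⟨ε, hε, hε1, hεδ⟩ := exists_small (a := J * Cs) (by positivity)
    (show 0 < δ / 4 by positivity)
  obtain ⟨e0, he0, hstep⟩ := cav_step A hε (show 0 < t * c0 by positivity)
    (show 0 ≤ 2 * cm + 1 by positivity)
  refine ⟨min e0 1, by positivity, fun n ζ q h hmesh => ?_⟩
  obtain ⟨C, c, hc0, hco⟩ := coercive h
  obtain ⟨L, hL⟩ : ∃ L : ℝ, L = |C| + cm / 2 + 3 := ⟨_, rfl⟩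
  have hL0 : 0 < L := by rw [hL]; positivity
  obtain ⟨δ', hδ'0, hδ'1, hδ'⟩ := exists_small (a := 8) (by norm_num) hδ
  obtain ⟨u, hu0, hu1, hu⟩ := exists_small (a := 3 * n) (by positivity)
    (show 0 < δ' / 2 by positivity)
  obtain ⟨ω, hω0, -, hω⟩ := exists_small (a := 2 * (n + 1)) (by positivity)
    (show 0 < δ' / 2 by positivity)
  obtain ⟨kb, hkb⟩ : ∃ kb : ℝ, kb = u ^ 3 := ⟨_, rfl⟩
  have hkb0 : 0 < kb := by rw [hkb]; positivity
  obtain ⟨w, hw0, hw1, hw2, hw3⟩ : ∃ w : ℝ, 0 < w ∧ w ≤ ε * (kb / L) ∧ w ≤ ε ∧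
      n * (L / c + 1) * w ≤ min e0 1 := by
    obtain ⟨w, a1, -, a3⟩ := exists_small (a := n * (L / c + 1)) (by positivity)
      (show 0 < min e0 1 by positivity)
    refine ⟨min w (min (ε * (kb / L)) ε), by positivity,
      (min_le_right _ _).trans (min_le_left _ _), (min_le_right _ _).trans (min_le_right _ _),
      le_trans ?_ a3⟩
    exact mul_le_mul_of_nonneg_left (min_le_left _ _) (by positivity)
  obtain ⟨v, hv0, hv1, hv2, hv3⟩ : ∃ v : ℝ, 0 < v ∧ v ≤ u ∧ v ≤ δ' ∧ L / (ω / v) ≤ w := by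
    refine ⟨min (min u δ') (w * ω / L), by positivity, (min_le_left _ _).trans (min_le_left _ _),
      (min_le_left _ _).trans (min_le_right _ _), ?_⟩
    rw [div_div_eq_mul_div, div_le_iff₀ hω0]
    have := min_le_right (min u δ') (w * ω / L)
    rw [le_div_iff₀ hL0] at this
    linarith
  obtain ⟨Ap, hAp⟩ : ∃ Ap : ℝ, Ap = ω / v := ⟨_, rfl⟩
  obtain ⟨kc, hkc⟩ : ∃ kc : ℝ, kc = ω * v := ⟨_, rfl⟩
  rw [← hAp] at hv3
  have hAp0 : 0 < Ap := by rw [hAp]; positivity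
  have hkc0 : 0 < kc := by rw [hkc]; positivity
  have hbr : br Ap kc v = 2 * ω := by
    rw [br, hAp, hkc]
    field_simp
    ring
  obtain ⟨m, hm⟩ : ∃ m : ℝ, m = min kb kc / L := ⟨_, rfl⟩
  have hm0 : 0 < m := by rw [hm]; positivity
  have hm1 : m ≤ kb / L := by rw [hm]; gcongr; exact min_le_left _ _
  have hm2 : m ≤ kc / L := by rw [hm]; gcongr; exact min_le_right _ _
  have hR : Reg n ζ (min e0 1) 0 0 (L / c) m :=
    ⟨h.zadm, by positivity, min_le_right _ _, hmesh, le_rfl, le_rfl, by positivity, hm0⟩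
  obtain ⟨k, hk, hk0⟩ := ((hstep n ζ q _ _ _ (kb / L) hR (min_le_left _ _) (by positivity)).and
    self_mem_nhdsWithin).exists
  replace hk0 : 0 < k := hk0
  obtain ⟨M, hM⟩ : ∃ M : ℝ, M = 1 + 2 * (kb + kc) / m ^ 3 := ⟨_, rfl⟩
  have hM0 : 0 < M := by rw [hM]; positivity
  obtain ⟨y, hy, hy0, hy1⟩ := (hk.and (Ioc_mem_nhdsGT
    (show (0 : ℝ) < min (m / 2) (k / (2 * M)) by positivity))).exists
  have hya : y ≤ m / 2 := hy1.trans (min_le_left _ _)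
  have hyb : y * M ≤ k / 2 := by
    have := hy1.trans (min_le_right _ _)
    rw [le_div_iff₀ (by positivity)] at this
    linarith
  have hT : Tendsto (fun N : ℕ => (N : ℝ)) atTop atTop := tendsto_natCast_atTop_atTop
  filter_upwards [hy, eventually_ge_atTop 1, hT.eventually_ge_atTop (2 / (k * y)),
    hT.eventually_ge_atTop (J * 8 / δ)] with N hcav hN1 hNa hNb
  intro b hfib
  have hN0 : (0 : ℝ) ≤ N := Nat.cast_nonneg N
  have hκ : N * (y ^ 2 * (1 + 2 * (kb + kc) / m ^ 3)) + 1 ≤ k * y * N := by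
    rw [← hM]
    have hky : 0 < k * y := mul_pos hk0 hy0
    rw [div_le_iff₀ hky] at hNa
    have : N * (y ^ 2 * M) ≤ N * (y * (k / 2)) := by
      refine mul_le_mul_of_nonneg_left ?_ hN0
      calc y ^ 2 * M = y * (y * M) := by ring
        _ ≤ y * (k / 2) := by gcongr
    linarith
  obtain ⟨E, hE⟩ : ∃ E : ℝ → ℝ, ∀ s, E s = Ec (cv (fun a => s * ca a) 0) n ζ q := ⟨_, fun _ => rfl⟩
  have hup : ∀ s p, 0 ≤ s → Dom n p → VV n ζ q kb Ap kc ca b s p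
      ≤ N * (C - (c * ∑ d ∈ Finset.Icc 1 n, p.2 d ^ 2 + rest n kb Ap kc p)) := by
    intro s p hs hp
    have h1 := vv_iso h kb Ap kc hc' b hs hp
    have h2 := hco (Fin N) (ising (Fin N)) (fun _ _ => 0) p.2 0
    rw [show (Fintype.card (Fin N) : ℝ) = N by simp] at h2
    linarith
  have hdom : Dom n (fun _ => u, fun d => if d = 0 then v else u + v) := by
    refine ⟨by simpa using hv0, fun d h1 _ => ?_⟩
    simp only [if_neg (show d ≠ 0 by omega)]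
    constructor <;> linarith
  have hpen := pen_p0 h hu0 hu1 hv0 hv1 hbr hu hω
  rw [← hkb] at hpen
  have hlow := fun s => vv_low h ca b s (by simpa using hv0.le) (by simpa using hv2) hpen
  have hone := fun s B => one_step h h0 hcm hc hkb0 hAp0 hkc0 hc0 hL hm0 hm1 hm2 hv3 hw1 hw2 hw3
    hε1 hδ'1 hy0 hya ht0 hκ hN1 hcav hfib hup hdom hlow (s := s) (B := B)
  simp only [← hE, ← hCs] at hone
  have hcc : ∀ a, 0 ≤ ca a ∧ ca a ≤ cm := fun a => ⟨hc' a, (hc a).2⟩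
  exact ub_core h hcm hcc hkb0 hAp0 hkc0 hδ ht0 ht1 htJ htδ hεδ hδ' hNb hE hdom hlow hone

end UBA

theorem ub_disc (A : Type) [Fintype A] [DecidableEq A] {ca : A → ℝ} {c0 cm : ℝ} (h0 : 0 < c0)
    (hcm : 0 ≤ cm) (hc : ∀ a, c0 ≤ ca a ∧ ca a ≤ cm) {n : ℕ} {ζ q : ℕ → ℝ} (h : Adm n ζ q)
    {δ : ℝ} (hδ : 0 < δ) : ∀ᶠ N : ℕ in atTop, ∀ b : Fin N → Option A, (∀ o, fib b o = sz A N o) →
      ∫ U, F0 (cb ca 0 b) U ∂(haarO (Fin N))
        ≤ N * (isingS n ζ q + Ec (cv ca 0) n ζ q + δ) := by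
  obtain ⟨me, hme, H⟩ := UBA.ub_fixed A h0 hcm hc hδ
  obtain ⟨n', ζ', q', h', hmesh, hdl, hS⟩ := refine_dl h (show 0 < me ^ 2 by positivity)
  filter_upwards [H n' ζ' q' h' hmesh] with N hN b hb
  refine (hN b hb).trans (mul_le_mul_of_nonneg_left ?_ (Nat.cast_nonneg N))
  have e : Ec (cv ca 0) n' ζ' q' = Ec (cv ca 0) n ζ q := by
    unfold Ec
    rw [hdl, h.q0, h'.q0]
  linarith

end Vale.Agent.P166
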