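import Vale.Agent.P166.VCB

/-! # The vector cavity lemma -/

namespace Vale.Agent.P166

open MeasureTheory ProbabilityTheory Filter Topology Vale.Agent.P157

namespace VCAux

section one

variable {W Ω B : Type} [NormedAddCommGroup W] [MeasurableSpace W] [BorelSpace W]
  [SecondCountableTopology W] [MeasurableSpace Ω] [Fintype B] {μ : Measure Ω}
  [IsProbabilityMeasure μ] {ζ : ℕ → ℝ} {ν : ℕ → Measure W} {H : W → Ω → ℝ}
  (hH : HG H) (hζ : Zok ζ) (hν : ∀ d, Noise (ν d))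

include hH hζ hν

theorem abs_EG_le {g g' : W → Ω → ℝ} (hg : BM2 g) (hg' : BM2 g') (h : ∀ w x, |g w x| ≤ g' w x)
    (n : ℕ) : |EG ζ ν μ H g n| ≤ EG ζ ν μ H g' n := by
  have h1 := GE_mono (μ := μ) hH hζ hν hg hg' (fun w x => (abs_le.1 (h w x)).2) (n + 1) 0
  have h2 := GE_mono (μ := μ) hH hζ hν (hg.const_mul (-1)) hg'
    (fun w x => by linarith [(abs_le.1 (h w x)).1]) (n + 1) 0
  rw [GE_const_mul] at h2
  unfold EG
  exact abs_le.2 ⟨by linarith, h1⟩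

/-- The top level comparison, tested against a bounded observable. -/
theorem top {S φ : Ω → ℝ} (hS : BM S) (hφ : BM φ) {g : W → Ω → ℝ} (hg : BM2 g) {M : ℝ}
    (hM0 : 0 ≤ M) (hM : ∀ w x, |g w x| ≤ M) {n : ℕ} {N γ r τ η η' δ : ℝ} (hγ : 0 ≤ γ)
    (h1 : ∀ x, |S x - (N + 2 * φ x)| ≤ η * N) (h2 : |N * r - γ * (N + 2 * τ)| ≤ η' * N)
    (h3 : EG ζ ν μ H (fun _ x => |φ x - τ|) n ≤ δ * N) :
    |γ * EG ζ ν μ H (fun w x => g w x * S x) n - N * r * EG ζ ν μ H g n|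
      ≤ M * ((γ * η + 2 * γ * δ + η') * N) := by
  have b1 : BM2 fun (w : W) x => g w x * S x := hg.mul (bm2_const hS)
  have b2 : BM2 fun (_ : W) x => |φ x - τ| := bm2_const (hφ.sub (BM.const τ)).abs
  have a1 := abs_EG_le (μ := μ) hH hζ hν ((b1.const_mul γ).sub (hg.const_mul (N * r)))
    ((BM2.const (M * ((γ * η + η') * N))).add (b2.const_mul (M * (2 * γ)))) (fun w x => by
      have e : γ * (g w x * S x) - N * r * g w x = g w x * (γ * (S x - (N + 2 * φ x))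
          + 2 * γ * (φ x - τ) - (N * r - γ * (N + 2 * τ))) := by ring
      have c1 : |γ * (S x - (N + 2 * φ x)) + 2 * γ * (φ x - τ) - (N * r - γ * (N + 2 * τ))|
          ≤ γ * (η * N) + 2 * γ * |φ x - τ| + η' * N := by
        refine (abs_sub _ _).trans (add_le_add ((abs_add_le _ _).trans (add_le_add ?_ ?_)) h2)
        · rw [abs_mul, abs_of_nonneg hγ]
          exact mul_le_mul_of_nonneg_left (h1 x) hγ
        · rw [abs_mul, abs_of_nonneg (by positivity)]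
      rw [e, abs_mul]
      exact (mul_le_mul (hM w x) c1 (abs_nonneg _) hM0).trans_eq (by ring)) n
  unfold EG at a1 h3 ⊢
  rw [GE_sub hH hζ hν (b1.const_mul γ) (hg.const_mul _), GE_const_mul, GE_const_mul,
    GE_add hH hζ hν (BM2.const _) (b2.const_mul _), GE_const hH hζ hν, GE_const_mul] at a1
  have a2 := mul_le_mul_of_nonneg_left h3 (show 0 ≤ M * (2 * γ) by positivity)
  linarith

theorem one {m a : W → Ω → ℝ} (hm : Measurable (Function.uncurry m))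
    (ha : Measurable (Function.uncurry a)) {K : ℝ} (hK : 0 ≤ K) (bm : ∀ w x, |m w x| ≤ K)
    (ba : ∀ w x, |a w x| ≤ K) {ξ : B → Ω → ℝ} (hξ : ∀ j, BM (ξ j)) {φ : Ω → ℝ} (hφ : BM φ)
    {n N : ℕ} (hN : 1 ≤ N) {γ η δ Er : ℝ} (hγ : 0 ≤ γ) (hη : 0 ≤ η) (hδ : 0 ≤ δ) {ϑ τ r : ℕ → ℝ}
    (hD : Dec ζ ν μ H (fun j _ x => ξ j x) n (N * Er))
    (hmean : ∀ d, 1 ≤ d → d ≤ n → |EG ζ ν μ H (fun _ x => ∑ j, ξ j x ^ 2) n
      - QQ ζ (rho ζ ν μ H (fun j _ x => ξ j x) n) d - τ d / ϑ d| ≤ δ * N)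
    (h3 : EG ζ ν μ H (fun _ x => |φ x - τ 0|) n ≤ δ * N)
    (h1 : ∀ x, |∑ j, ξ j x ^ 2 - (N + 2 * φ x)| ≤ η * N) (hr : Rel n ζ γ N ϑ τ r η) :
    |γ / N * ∑ j, Db ζ ν μ H (fun w x => m w x * ξ j x) (fun w x => a w x * ξ j x ^ 2) n n
        - ∑ d ∈ Finset.range (n + 1), dq r d * Db ζ ν μ H m a n d|
      ≤ (K + K ^ 2) * (γ * η + 2 * γ * δ + η)
        + K ^ 2 * (γ * Er + (γ * η + 2 * γ * δ + η + η + γ * δ)) := by
  have hN0 : (0 : ℝ) < N := by exact_mod_cast hN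
  have hm2 : BM2 m := ⟨hm, K, bm⟩
  have ha2 : BM2 a := ⟨ha, K, ba⟩
  have hg : BM2 fun w x => a w x + m w x ^ 2 := ha2.add (hm2.pow 2)
  have hS : BM fun x => ∑ j, ξ j x ^ 2 := BM.sum _ fun j _ => (hξ j).pow 2
  have t1 := top (μ := μ) hH hζ hν hS hφ hg (M := K + K ^ 2) (by positivity) (fun w x => by
    have c1 := abs_add_le (a w x) (m w x ^ 2)
    linarith [ba w x, TrickAux.abs_sq_le (bm w x)]) hγ h1 hr.top h3
  have t2 := top (μ := μ) hH hζ hν hS hφ (BM2.const 1) (M := 1) zero_le_one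
    (fun w x => by simp) hγ h1 hr.top h3
  have e0 : EG ζ ν μ H (fun _ _ => (1 : ℝ)) n = 1 := GE_const hH hζ hν _ _ _
  simp only [one_mul, e0, mul_one] at t2
  have e1 : ∑ j, Db ζ ν μ H (fun w x => m w x * ξ j x) (fun w x => a w x * ξ j x ^ 2) n n
      = EG ζ ν μ H (fun w x => (a w x + m w x ^ 2) * ∑ j, ξ j x ^ 2) n
        - ∑ k ∈ Finset.range n, (ζ k - ζ (k + 1)) *
          rho ζ ν μ H (fun j w x => m w x * ξ j x) n (k + 1) := by
    unfold Db rho EG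
    rw [Finset.sum_sub_distrib, Finset.sum_comm, ← GE_sum hH hζ hν Finset.univ fun j _ =>
      (ha2.mul (bm2_const ((hξ j).pow 2))).add ((hm2.mul (bm2_const (hξ j))).pow 2)]
    simp only [Finset.mul_sum]
    congr 2
    funext w x
    exact Finset.sum_congr rfl fun j _ => by ring
  have e2 := sum_dq_mul (hr.cadm.zero (n + 1) (Nat.lt_succ_self n))
    (EG ζ ν μ H (fun w x => a w x + m w x ^ 2) n)
    fun k => (ζ k - ζ (k + 1)) * Esq ζ ν μ H m n (k + 1)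
  have key : ∀ σ : ℝ, (σ = 1 ∨ σ = -1) → σ * ∑ k ∈ Finset.range n, (ζ k - ζ (k + 1)) *
      (r (k + 1) * Esq ζ ν μ H m n (k + 1)
        - (N : ℝ)⁻¹ * (γ * rho ζ ν μ H (fun j w x => m w x * ξ j x) n (k + 1)))
      ≤ K ^ 2 * (γ * Er + (γ * η + 2 * γ * δ + η + η + γ * δ)) := fun σ hσ =>
    PCAux.arith (q := r) (ρ := fun k => γ * rho ζ ν μ H (fun j _ x => ξ j x) n k)
      (U := fun k => γ * rho ζ ν μ H (fun j w x => m w x * ξ j x) n k)
      (P := Esq ζ ν μ H m n) hζ hN0 (by positivity) hσ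
      (by
        have c1 := mul_le_mul_of_nonneg_left (hD m K hm bm) hγ
        rw [Finset.mul_sum] at c1
        refine le_of_eq_of_le (Finset.sum_congr rfl fun k _ => ?_) (c1.trans_eq (by ring))
        rw [mul_assoc, ← mul_sub, abs_mul, abs_of_nonneg hγ]
        ring)
      (fun d hd hdn => by
        have c0 : QQ ζ (fun k => γ * rho ζ ν μ H (fun j _ x => ξ j x) n k) d
            = γ * QQ ζ (rho ζ ν μ H (fun j _ x => ξ j x) n) d := by
          rw [QQ, QQ, Finset.mul_sum]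
          exact Finset.sum_congr rfl fun k _ => by ring
        have c1 := mul_le_mul_of_nonneg_left (hmean d hd hdn) hγ
        rw [← abs_of_nonneg hγ, ← abs_mul, abs_of_nonneg hγ, abs_le] at c1
        have c2 := abs_le.1 (hr.lev d hd hdn)
        have c3 := abs_le.1 t2
        rw [c0]
        rcases hσ with rfl | rfl <;> linarith [c1.1, c1.2, c2.1, c2.2, c3.1, c3.2])
      (fun j _ hj => Esq_anti hH hζ hν hm2 (Nat.le_succ j) (by omega))
      (fun j => Esq_nonneg _ n j) (Esq_le_sq hK (fun w => ae_of_all _ (bm w)) n 1)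
  have k1 := key 1 (.inl rfl)
  have k2 := key (-1) (.inr rfl)
  have t3 : |γ / N * EG ζ ν μ H (fun w x => (a w x + m w x ^ 2) * ∑ j, ξ j x ^ 2) n
      - r 0 * EG ζ ν μ H (fun w x => a w x + m w x ^ 2) n|
      ≤ (K + K ^ 2) * (γ * η + 2 * γ * δ + η) := by
    refine le_of_mul_le_mul_left ?_ hN0
    refine le_of_eq_of_le ?_ (t1.trans_eq (by ring))
    rw [← abs_of_pos hN0, ← abs_mul, abs_of_pos hN0]
    congr 1
    field_simp
  have e3 : ∑ k ∈ Finset.range n, (ζ k - ζ (k + 1)) * (r (k + 1) * Esq ζ ν μ H m n (k + 1)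
        - (N : ℝ)⁻¹ * (γ * rho ζ ν μ H (fun j w x => m w x * ξ j x) n (k + 1)))
      = ∑ k ∈ Finset.range n, r (k + 1) * ((ζ k - ζ (k + 1)) * Esq ζ ν μ H m n (k + 1))
        - γ / N * ∑ k ∈ Finset.range n, (ζ k - ζ (k + 1)) *
          rho ζ ν μ H (fun j w x => m w x * ξ j x) n (k + 1) := by
    rw [Finset.mul_sum, ← Finset.sum_sub_distrib]
    exact Finset.sum_congr rfl fun k _ => by ring
  rw [e3] at k1 k2
  rw [e1, show ∑ d ∈ Finset.range (n + 1), dq r d * Db ζ ν μ H m a n d = _ from e2, mul_sub]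
  rw [abs_le] at t3 ⊢
  constructor <;> linarith [t3.1, t3.2]

end one

theorem final {K γ me δ η : ℝ} (hK : 0 ≤ K) (hγ : 1 ≤ γ) (hme : 0 ≤ me) (hδ : 0 ≤ δ)
    (hη : 0 ≤ η) :
    (2 * K + (2 * K) ^ 2) * (γ * η + 2 * γ * δ + η)
        + (2 * K) ^ 2 * (γ * (12 * me + δ) + (γ * η + 2 * γ * δ + η + η + γ * δ))
      ≤ 2 * (20 * (1 + K) ^ 2 * (1 + 2 * γ) ^ 2 * (me + δ + η)) := by
  have hγ0 : 0 ≤ γ := by linarith
  have a1 : 2 * K + (2 * K) ^ 2 ≤ 4 * (1 + K) ^ 2 := by nlinarith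
  have a2 : (2 * K) ^ 2 ≤ 4 * (1 + K) ^ 2 := by nlinarith
  have a3 : 1 + 2 * γ ≤ (1 + 2 * γ) ^ 2 := le_self_pow₀ (by linarith) two_ne_zero
  have p1 := mul_nonneg hγ0 hme
  have p2 := mul_nonneg hγ0 hδ
  have p3 := mul_nonneg hγ0 hη
  have a4 : (γ * η + 2 * γ * δ + η) + (γ * (12 * me + δ) + (γ * η + 2 * γ * δ + η + η + γ * δ))
      ≤ 10 * ((1 + 2 * γ) ^ 2 * (me + δ + η)) := by
    have := mul_le_mul_of_nonneg_right a3 (show 0 ≤ me + δ + η by positivity)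
    nlinarith
  calc _ ≤ 4 * (1 + K) ^ 2 * (γ * η + 2 * γ * δ + η)
        + 4 * (1 + K) ^ 2 * (γ * (12 * me + δ) + (γ * η + 2 * γ * δ + η + η + γ * δ)) := by
        gcongr
    _ ≤ 4 * (1 + K) ^ 2 * (10 * ((1 + 2 * γ) ^ 2 * (me + δ + η))) := by
        rw [← mul_add]
        gcongr
    _ = _ := by ring

end VCAux

open VCAux

theorem base_r {n : ℕ} {ζ : ℕ → ℝ} {me Θ θm : ℝ} (hR : Reg n ζ me 0 0 Θ θm) {δ : ℝ} (hδ : 0 < δ)
    {γ : ℝ} (hγ : 0 ≤ γ) :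
    ∀ᶠ k in 𝓝[>] (0 : ℝ), ∀ᶠ y in 𝓝[>] (0 : ℝ), ∀ᶠ N : ℕ in atTop,
      ∀ (ι B Ω : Type) [Fintype ι] [DecidableEq ι] [Fintype B] [MeasurableSpace Ω]
        (μ : Measure Ω) [IsProbabilityMeasure μ] (E φ : Ω → ℝ) (ξ : ι → Ω → ℝ) (e : B ↪ ι)
        (s : (ℕ → ℝ) → ℕ → ι → ℝ) (ϑ τ : ℕ → ℝ),
        BM E → BM φ → (∀ i, BM (ξ i)) → Fam e s → (Fintype.card B : ℝ) ≤ 2 * N →
        (∀ x, ∑ i, ξ i x ^ 2 ≤ 2 * N) → (∀ i, s ϑ n i ≤ Θ) → Fld n θm Θ ϑ →
        (∀ x, |∑ j, ξ (e j) x ^ 2 - (N + 2 * φ x)| ≤ δ * N) →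
        SDz (fun ϑ' => LS μ ζ n (s ϑ') (fun x => E x + ϑ' 0 * φ x) ξ) ϑ τ y (k * y * N) n →
        ∃ r, Rel n ζ γ N ϑ τ r (3 * γ * δ) := by
  filter_upwards [good hR hδ (2 * Θ)] with k hk
  filter_upwards [hk] with y hy
  filter_upwards [hy] with N hN
  obtain ⟨hN, h⟩ := hN
  intro ι B Ω _ _ _ _ μ _ E φ ξ e s ϑ τ hE hφ hξ hs hB hsq hΘ hF htop hSD
  have hN0 : (0 : ℝ) < N := by exact_mod_cast hN
  have hz := hR.z.zok
  have hE' : BM fun x => E x + ϑ 0 * φ x := hE.add (hφ.const_mul _)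
  have hΛ : ∀ x, ∑ j, ξ (e j) x ^ 2 ≤ 2 * N := fun x =>
    (sum_emb_le e (f := fun i => ξ i x ^ 2) fun i => sq_nonneg _).trans (hsq x)
  obtain ⟨-, h2, h3⟩ := h ι B Ω μ (lsH (fun x => E x + ϑ 0 * φ x) ξ) (fun i _ x => ξ i x)
    (fun _ _ _ => 0) φ e s ϑ τ (hj_lsH hE' hξ) (blk_lsH hξ e hΛ 0) hφ hs hB
    (fun w x => by
      calc ∑ i, s ϑ n i * ξ i x ^ 2 ≤ ∑ i, Θ * ξ i x ^ 2 :=
            Finset.sum_le_sum fun i _ => mul_le_mul_of_nonneg_right (hΘ i) (sq_nonneg _)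
        _ = Θ * ∑ i, ξ i x ^ 2 := (Finset.mul_sum _ _ _).symm
        _ ≤ Θ * (2 * N) := mul_le_mul_of_nonneg_left (hsq x) hR.Θ0
        _ = _ := by ring) hF
    (by
      have : (fun ϑ' : ℕ → ℝ => GV μ ζ n (s ϑ') fun w x =>
          lsH (fun x => E x + ϑ 0 * φ x) ξ w x + (ϑ' 0 - ϑ 0) * φ x)
          = fun ϑ' => LS μ ζ n (s ϑ') (fun x => E x + ϑ' 0 * φ x) ξ := by
        funext ϑ'
        rw [LS]
        congr 1
        funext w x
        simp only [lsH]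
        ring
      rwa [this])
  simp only [zero_add] at h2
  have hH := hg_lsH hE' hξ
  generalize lsH (fun x => E x + ϑ 0 * φ x) ξ = H at hH h2 h3
  have hν := LinAux.noise (s ϑ)
  generalize gvs (s ϑ) = ν at hν h2 h3
  have hb : ∀ j, BM2 fun (_ : ι → ℝ) x => ξ (e j) x := fun j => bm2_const (hξ _)
  have hS : BM fun x => ∑ j, ξ (e j) x ^ 2 := BM.sum _ fun j _ => (hξ _).pow 2
  have t2 := top (μ := μ) hH hz hν hS hφ (BM2.const 1) (M := 1) zero_le_one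
    (fun w x => by simp) zero_le_one (r := (N + 2 * τ 0) / N) (τ := τ 0) (η' := 0) htop
    (by rw [mul_div_cancel₀ _ hN0.ne', one_mul, sub_self, abs_zero, zero_mul]) h3
  have e0 : EG ζ ν μ H (fun _ _ => (1 : ℝ)) n = 1 := GE_const hH hz hν _ _ _
  simp only [one_mul, e0, mul_one, mul_div_cancel₀ _ hN0.ne'] at t2
  have s1 : EG ζ ν μ H (fun _ x => ∑ j, ξ (e j) x ^ 2) n ≤ 2 * N :=
    (GE_mono hH hz hν (bm2_const hS) (BM2.const _) (fun _ => hΛ) _ _).trans_eq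
      (GE_const hH hz hν _ _ _)
  have s2 : rho ζ ν μ H (fun j _ x => ξ (e j) x) n 1
      ≤ EG ζ ν μ H (fun _ x => ∑ j, ξ (e j) x ^ 2) n := by
    rw [EG, GE_sum hH hz hν _ fun j _ => (hb j).pow 2]
    exact Finset.sum_le_sum fun j _ => Esq_le_EG hH hz hν (hb j) (by omega)
  have s3 := fun k => rho_nonneg (ζ := ζ) (ν := ν) (μ := μ) (H := H) (fun j _ x => ξ (e j) x) n k
  have s4 : ∀ k, k ≤ n → rho ζ ν μ H (fun j _ x => ξ (e j) x) n (k + 1)
      ≤ rho ζ ν μ H (fun j _ x => ξ (e j) x) n k := fun k hk =>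
    rho_anti hH hz hν hb (Nat.le_succ k) (by omega)
  generalize rho ζ ν μ H (fun j _ x => ξ (e j) x) n = ρ at h2 s2 s3 s4
  generalize EG ζ ν μ H (fun _ x => ∑ j, ξ (e j) x ^ 2) n = A at h2 t2 s1 s2
  have hc : 0 ≤ γ / N := by positivity
  have hn := hR.z.one_le
  refine ⟨fun k => if k = 0 then γ * A / N else if k ≤ n then γ * ρ k / N else 0,
    ⟨antitone_nat_of_succ_le fun k => ?_, fun d hd => ?_⟩, ?_, ?_, fun d hd hdn => ?_⟩
  · rw [if_neg (Nat.succ_ne_zero k)]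
    split_ifs with a1 a2 a3 a4 a5
    · subst a2
      gcongr
    · gcongr
      exact s4 k a3
    · omega
    · omega
    · have := s3 k
      positivity
    · exact le_rfl
  · rw [if_neg (by omega), if_neg (by omega)]
  · rw [if_pos rfl, div_le_iff₀ hN0]
    linarith [mul_le_mul_of_nonneg_left s1 hγ]
  · rw [if_pos rfl, mul_div_cancel₀ _ hN0.ne', ← mul_sub, abs_mul, abs_of_nonneg hγ]
    linarith [mul_le_mul_of_nonneg_left t2 hγ]
  · have c0 : QQ ζ (fun k => γ * ρ k) d = γ * QQ ζ ρ d := by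
      rw [QQ, QQ, Finset.mul_sum]
      exact Finset.sum_congr rfl fun k _ => by ring
    rw [mul_sub, GoodAux.QQ_div (r := fun k => γ * ρ k) hN0.ne' hdn fun k h h' => by
      rw [if_neg (by omega), if_pos h'], c0, if_pos rfl, mul_div_cancel₀ _ hN0.ne', ← mul_sub,
      ← mul_sub, abs_mul, abs_of_nonneg hγ]
    have := mul_le_mul_of_nonneg_left (h2 d hd hdn) hγ
    have := mul_nonneg hγ (mul_pos hδ hN0).le
    linarith

theorem vc {n : ℕ} {ζ : ℕ → ℝ} {me Θ θm : ℝ} (hR : Reg n ζ me 0 0 Θ θm) {δ : ℝ} (hδ : 0 < δ)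
    {K γ : ℝ} (hK : 0 ≤ K) (hγ : 1 ≤ γ) (L : Type) [Fintype L] [DecidableEq L] :
    ∀ᶠ k in 𝓝[>] (0 : ℝ), ∀ᶠ y in 𝓝[>] (0 : ℝ), ∀ᶠ N : ℕ in atTop,
      ∀ (ι B Ω Ω' : Type) [Fintype ι] [DecidableEq ι] [Fintype B] [DecidableEq B]
        [MeasurableSpace Ω] [MeasurableSpace Ω'] (μ : Measure Ω) [IsProbabilityMeasure μ]
        (μ' : Measure Ω') [IsProbabilityMeasure μ'] (E φ : Ω → ℝ) (ξ : ι → Ω → ℝ) (e : B ↪ ι)
        (s : (ℕ → ℝ) → ℕ → ι → ℝ) (ϑ τ r : ℕ → ℝ) (η σ : ℝ) (d0 : ℕ)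
        (Pc pr : (L → ℝ) → Ω' → ℝ),
        BM E → BM φ → (∀ i, BM (ξ i)) → Fam e s → (Fintype.card B : ℝ) ≤ 2 * N →
        (∀ x, ∑ i, ξ i x ^ 2 ≤ 2 * N) → (∀ i, s ϑ n i ≤ Θ) → Fld n θm Θ ϑ → 0 ≤ η →
        (∀ x, |∑ j, ξ (e j) x ^ 2 - (N + 2 * φ x)| ≤ η * N) →
        SDz (fun ϑ' => LS μ ζ n (s ϑ') (fun x => E x + ϑ' 0 * φ x) ξ) ϑ τ y (k * y * N) n →
        Rel n ζ γ N ϑ τ r η → CJ Pc K → CJ pr K → 0 ≤ σ → σ ≤ 1 →
        |∫ G, SL (μ.prod μ') ζ n d0 σ (s ϑ)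
              (fun x => E x.1 + ϑ 0 * φ x.1 + Pc (tG G fun j => ξ (e j) x.1) x.2)
              (fun i x => ξ i x.1) (fun x => pr (tG G fun j => ξ (e j) x.1) x.2)
              ∂(gv fun _ : L × B => γ / N)
            - LS μ ζ n (s ϑ) (fun x => E x + ϑ 0 * φ x) ξ
            - TR μ' ζ n d0 σ (fun d (_ : L) => dq r d) Pc pr|
          ≤ Fintype.card L * (20 * (1 + K) ^ 2 * (1 + 2 * γ) ^ 2 * (me + δ + η)) := by
  have hζ := hR.z.zok
  have hγ0 : 0 ≤ γ := by linarith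
  have h2k : Tendsto (fun k : ℝ => 2 * k) (𝓝[>] 0) (𝓝[>] 0) := by
    refine tendsto_nhdsWithin_of_tendsto_nhds_of_eventually_within _ ?_ ?_
    · have : Tendsto (fun k : ℝ => 2 * k) (𝓝 0) (𝓝 (2 * 0)) :=
        (continuous_const.mul continuous_id).tendsto 0
      rw [mul_zero] at this
      exact this.mono_left nhdsWithin_le_nhds
    · filter_upwards [self_mem_nhdsWithin] with k hk
      exact Set.mem_Ioi.2 (mul_pos two_pos (Set.mem_Ioi.1 hk))
  filter_upwards [h2k.eventually (good hR hδ (Fintype.card L * (2 * γ * (2 * K) ^ 2) + 2 * Θ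
    + Fintype.card (Option L) * ((1 + 2 * γ) * (2 * K) ^ 2))), self_mem_nhdsWithin] with k hk hk0
  filter_upwards [hk, self_mem_nhdsWithin] with y hy hy0
  have hky : 0 < k * y := mul_pos (Set.mem_Ioi.1 hk0) (Set.mem_Ioi.1 hy0)
  filter_upwards [hy, tendsto_natCast_atTop_atTop.eventually_ge_atTop (4 * K / (k * y))]
    with N hgood hNK
  obtain ⟨hN, hgood⟩ := hgood
  intro ι B Ω Ω' _ _ _ _ _ _ μ _ μ' _ E φ ξ e s ϑ τ r η σ d0 Pc pr hE hφ hξ hs hB hsq hΘ hF hη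
    htop hSD hr hP hp hσ0 hσ1
  have hN1 : (1 : ℝ) ≤ N := by exact_mod_cast hN
  have hn := hR.z.zn n le_rfl
  have hQ := cj_trH hK hP hp
  have hQ2 : BM2 (trH Pc pr) := ⟨hQ.meas, _, hQ.bd⟩
  choose q1 q2 hq using hQ.jet
  have hE' : ∀ a : ℝ, BM fun x => E x + a * φ x := fun a => hE.add (hφ.const_mul _)
  have hΛ : ∀ x, ∑ j, ξ (e j) x ^ 2 ≤ 2 * N := fun x =>
    (sum_emb_le e (f := fun i => ξ i x ^ 2) fun i => sq_nonneg _).trans (hsq x)
  have hJ := hj_vH (e := e) (hE' (ϑ 0)) hξ hQ2 hq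
  have hc : 0 ≤ γ / N := by positivity
  have hy : ∀ t ∈ Set.Icc (0 : ℝ) 1, ∀ d o,
      0 ≤ optS d0 σ (fun d (_ : L) => (1 - t) * dq r d) d o := fun t ht =>
    optS_nonneg d0 hσ0 fun d _ => mul_nonneg (by linarith [ht.2]) (hr.cadm.dq_nonneg d)
  obtain ⟨u, hu⟩ : ∃ u : ℕ → VCo L B ι → ℝ,
      u = vp B n (γ / N) (fun _ _ => 0) fun d o => o.elim 0 fun _ => -dq r d := ⟨_, rfl⟩
  have e1 : ∀ t : ℝ, vp B n 0 (s ϑ) (optS d0 σ fun d (_ : L) => dq r d) + t • u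
      = vp B n (t * (γ / N)) (s ϑ) (optS d0 σ fun d (_ : L) => (1 - t) * dq r d) := fun t => by
    subst hu
    funext d c
    rcases c with p | i | _ | l
    · by_cases h : d = n <;> simp [vp, h]
    · simp [vp]
    · simp [vp, optS]
    · simp only [vp, optS, Pi.add_apply, Pi.smul_apply, Sum.elim_inr, Option.elim_some,
        smul_eq_mul]
      ring
  have hd := deriv_gibbs (μ.prod μ') hζ hR.z.z0 hJ
    (vp B n 0 (s ϑ) (optS d0 σ fun d (_ : L) => dq r d)) u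
    (vp_nonneg n le_rfl (hs.nn ϑ) (optS_nonneg d0 hσ0 fun d _ => hr.cadm.dq_nonneg d))
    (fun d c => by
      have := congrFun (congrFun (e1 1) d) c
      rw [one_smul, Pi.add_apply, Pi.add_apply] at this
      rw [this]
      exact vp_nonneg n (by positivity) (hs.nn ϑ) (hy 1 ⟨zero_le_one, le_rfl⟩) d c) n
  simp only [e1] at hd
  have key : ∀ t ∈ Set.Icc (0 : ℝ) 1, |(∑ d ∈ Finset.range (n + 1), ∑ c, u d c *
      Db ζ (gvs (vp B n (t * (γ / N)) (s ϑ) (optS d0 σ fun d (_ : L) => (1 - t) * dq r d)))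
        (μ.prod μ') (vH (fun x => E x + ϑ 0 * φ x) ξ e (trH Pc pr)) (v1 ξ e q1 c) (v2 ξ e q2 c)
        n d) / 2|
      ≤ Fintype.card L * (20 * (1 + K) ^ 2 * (1 + 2 * γ) ^ 2 * (me + δ + η)) := by
    intro t ht
    have ht0 : 0 ≤ t * (γ / N) := mul_nonneg ht.1 hc
    obtain ⟨g1, g2, g3⟩ := hgood (VCo L B ι) B (Ω × Ω') (μ.prod μ') _ _ _ (fun x => φ x.1)
      (eB L e) (fun θ => vp B n (t * (γ / N)) (s θ) (optS d0 σ fun d (_ : L) => (1 - t) * dq r d))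
      ϑ τ hJ (blk_vH hξ hΛ) (bm_fst hφ) (fam_vp n ht0 hs (hy t ht)) hB
      (root (fun o => (hq o).bm) hN1 ht0 (by
          rw [mul_assoc, div_mul_cancel₀ _ (by linarith)]
          exact mul_le_of_le_one_left hγ0 ht.2) hR.Θ0 (by linarith) hΘ (by
          rintro (_ | l)
          · show (if n = d0 then σ else 0) ≤ _
            split_ifs <;> linarith
          · show (1 - t) * dq r n ≤ _
            have c1 := hr.cadm.dq_nonneg n
            have c2 : dq r n ≤ 2 * γ := by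
              unfold dq
              linarith [hr.cadm.nonneg (n + 1), hr.cadm.anti (Nat.zero_le n), hr.r0]
            nlinarith [ht.1, ht.2]) hsq) hF
      (fun d hdn => by
        have c : ∀ ϑ' : ℕ → ℝ, |GV (μ.prod μ') ζ n (vp B n (t * (γ / N)) (s ϑ')
            (optS d0 σ fun d (_ : L) => (1 - t) * dq r d)) (fun w x =>
              vH (fun x => E x + ϑ 0 * φ x) ξ e (trH Pc pr) w x + (ϑ' 0 - ϑ 0) * φ x.1)
            - LS μ ζ n (s ϑ') (fun x => E x + ϑ' 0 * φ x) ξ| ≤ 2 * K := fun ϑ' => by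
          refine le_of_eq_of_le ?_ (close (e := e) μ μ' hζ (hE' (ϑ' 0)) hξ hQ.meas hQ.bd n
            (t * (γ / N)) (s ϑ') (optS d0 σ fun d (_ : L) => (1 - t) * dq r d))
          congr 3
          funext w x
          simp only [vH, lsH]
          ring
        have c0 := abs_le.1 (c ϑ)
        have c1 := abs_le.1 (c (Function.update ϑ d (ϑ d + y)))
        have c2 := abs_le.1 (c (Function.update ϑ d (ϑ d - y)))
        obtain ⟨c3, c4⟩ := hSD d hdn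
        rw [div_le_iff₀ hky] at hNK
        constructor <;> linarith [c0.1, c1.2, c2.2])
    have hν := LinAux.noise
      (vp B n (t * (γ / N)) (s ϑ) (optS d0 σ fun d (_ : L) => (1 - t) * dq r d))
    generalize gvs (vp B n (t * (γ / N)) (s ϑ) (optS d0 σ fun d (_ : L) => (1 - t) * dq r d)) = ν
      at g1 g2 g3 hν ⊢
    have hH := hJ.hg
    generalize vH (fun x => E x + ϑ 0 * φ x) ξ e (trH Pc pr) = H at g1 g2 g3 hH ⊢
    have k1 := fun l : L => (one (μ := μ.prod μ') hH hζ hν (bm2_uu (e := e) hξ (hq (some l)).bm2_m).1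
      (bm2_uu (e := e) hξ (hq (some l)).bm2_a).1 (hq (some l)).K0 (fun w x => (hq (some l)).bm _ _)
      (fun w x => (hq (some l)).ba _ _) (ξ := fun j x => ξ (e j) x.1) (fun j => bm_fst (hξ _))
      (bm_fst hφ) hN hγ0 hη hδ.le g1
      (fun d h h' => by simpa only [eB_apply, v1, v2, zero_add] using g2 d h h') g3
      (fun x => htop x.1) hr).trans (final hK hγ hR.me0.le hδ.le hη)
    have k2 := (Finset.abs_sum_le_sum_abs _ _).trans
      (Finset.sum_le_card_nsmul Finset.univ _ _ fun l _ => k1 l)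
    rw [nsmul_eq_mul, Finset.card_univ] at k2
    rw [abs_div, abs_two, div_le_iff₀ two_pos]
    refine le_of_eq_of_le ?_ (k2.trans_eq (by ring))
    congr 1
    subst hu
    simp only [Fintype.sum_sum_type, Fintype.sum_prod_type, Fintype.sum_option, vp, v1, v2,
      Sum.elim_inl, Sum.elim_inr, Option.elim, zero_mul, Finset.sum_const_zero, zero_add,
      Finset.sum_add_distrib, Finset.sum_sub_distrib, neg_mul, Finset.sum_neg_distrib,
      Finset.mul_sum]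
    rw [Finset.sum_eq_single n (fun d _ hd => by simp [hd]) (by simp), sub_eq_add_neg,
      Finset.sum_comm (s := Finset.range (n + 1))]
    simp only [if_true]
  have f1 := le_of_derivWithin hd fun t ht => (abs_le.1 (key t ht)).2
  have f2 := ge_of_derivWithin hd fun t ht => (abs_le.1 (key t ht)).1
  have v0 := val0 (e := e) μ μ' hζ hn (hE' (ϑ 0)) hξ hQ2 (s ϑ) (optS d0 σ fun d (_ : L) => dq r d)
  have v1 := val1 (e := e) μ μ' hζ hn (hE' (ϑ 0)) hξ hQ2 (γ / N) (s ϑ) d0 σ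
  simp only [one_mul, zero_mul, sub_self, sub_zero] at f1 f2
  rw [← v1, TR, sub_sub, ← v0]
  exact abs_le.2 ⟨f2, f1⟩

end Vale.Agent.P166
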