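import Vale.Agent.P166.Cmp
import Vale.Agent.P166.Conc0

/-! # The vector cavity lemma: general tools -/

set_option linter.unusedSectionVars false

namespace Vale.Agent.P166

open MeasureTheory ProbabilityTheory Filter Topology Vale.Agent.P157

namespace VCAux

theorem X_sum {ι κ : Type} [Fintype ι] [Fintype κ] {ζ : ℕ → ℝ} (hζ : Zok ζ) (s : ℕ → ι → ℝ)
    (s' : ℕ → κ → ℝ) {Ψ : (ι → ℝ) → ℝ} (hΨ : LG Ψ) {ψ : (κ → ℝ) → ℝ} (hψ : LG ψ) (d : ℕ) :
    X ζ (gvs fun j => Sum.elim (s j) (s' j))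
        (fun u => Ψ (fun i => u (.inl i)) + ψ fun k => u (.inr k)) d 0
      = X ζ (gvs s) Ψ d 0 + X ζ (gvs s') ψ d 0 := by
  let L : (ι ⊕ κ → ℝ) →+ (ι → ℝ) × (κ → ℝ) :=
    { toFun := fun z => ((fun i => z (.inl i)), fun k => z (.inr k))
      map_zero' := rfl
      map_add' := fun _ _ => rfl }
  have hL : Measurable L :=
    (measurable_pi_lambda _ fun i => measurable_pi_apply (Sum.inl i)).prodMk
      (measurable_pi_lambda _ fun k => measurable_pi_apply (Sum.inr k))
  have h1 := X_push (ζ := ζ) (ν := gvs fun j => Sum.elim (s j) (s' j))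
    (Ψ := fun u => Ψ (fun i => u (.inl i)) + ψ fun k => u (.inr k)) L hL 0
    (ν' := fun j => (gvs s j).prod (gvs s' j))
    (fun j => by unfold gvs; infer_instance)
    (Ψ' := fun u : (ι → ℝ) × (κ → ℝ) => Ψ u.1 + ψ u.2)
    ((hΨ.1.comp measurable_fst).add (hψ.1.comp measurable_snd))
    (fun u => by rw [add_zero]; rfl) (d := d) (fun j _ => gauss_sum (Sum.elim (s j) (s' j))) 0
  rw [h1, add_zero, X_prod (cas_gvs hζ _ hΨ) (cas_gvs hζ _ hψ)]
  rfl

/-- Extension by zero on the left summand. -/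
def padR (κ ι : Type) : (ι → ℝ) →+ (κ ⊕ ι → ℝ) where
  toFun w := Sum.elim (fun _ => 0) w
  map_zero' := by
    funext k
    cases k <;> rfl
  map_add' z z' := by
    funext k
    cases k
    · exact (add_zero _).symm
    · rfl

theorem measurable_elim {κ ι : Type} :
    Measurable fun p : (κ → ℝ) × (ι → ℝ) => (Sum.elim p.1 p.2 : κ ⊕ ι → ℝ) := by
  refine measurable_pi_lambda _ fun k => ?_
  cases k
  · exact (measurable_pi_apply _).comp measurable_fst
  · exact (measurable_pi_apply _).comp measurable_snd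

theorem padR_add {κ ι : Type} (G : κ → ℝ) (w : ι → ℝ) :
    padR κ ι w + Sum.elim G (fun _ => 0) = Sum.elim G w := by
  funext k
  cases k
  · exact zero_add _
  · exact add_zero _

/-- Conditioning on Gaussian variables that live at the root. -/
theorem cond {κ ι : Type} [Fintype κ] [Fintype ι] {ζ : ℕ → ℝ} (hζ : Zok ζ) {n : ℕ}
    (hn : ζ n = 0) (g : κ → ℝ) (s : ℕ → ι → ℝ) {Ψ : (κ ⊕ ι → ℝ) → ℝ} (hΨ : LG Ψ) :
    X ζ (gvs fun d => Sum.elim (fun k => if d = n then g k else 0) (s d)) Ψ (n + 1) 0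
      = ∫ G, X ζ (gvs s) (fun w => Ψ (Sum.elim G w)) (n + 1) 0 ∂(gv g) := by
  have hC := cas_gvs hζ (fun d => Sum.elim (fun k => if d = n then g k else 0) (s d)) hΨ
  set Φ := X ζ (gvs fun d => Sum.elim (fun k => if d = n then g k else 0) (s d)) Ψ n with hΦ
  have hΦl : LG Φ := hC.lgX n
  have hpad : Measurable (padR κ ι) :=
    measurable_elim.comp (measurable_const.prodMk measurable_id)
  have h1 : ∀ (G : κ → ℝ) (w : ι → ℝ),
      X ζ (gvs s) (fun w => Ψ (Sum.elim G w)) n w = Φ (Sum.elim G w) := by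
    intro G w
    rw [← padR_add G w]
    refine X_push (padR κ ι) hpad (Sum.elim G fun _ => 0)
      (ν' := gvs fun d => Sum.elim (fun k => if d = n then g k else 0) (s d))
      (fun j => by unfold gvs; infer_instance) hΨ.1 (fun u => by rw [padR_add])
      (fun j hj => ?_) w
    have := gauss_sel (κ := κ ⊕ ι) (Sum.elim (fun _ => none) some)
      (by rintro (k | k) (l | l) i <;> simp +contextual) (s j)
    refine Eq.trans ?_ (this.trans (congrArg gv (funext fun k => ?_)))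
    · congr 1
      funext z k
      cases k <;> rfl
    · cases k
      · simp [hj.ne]
      · rfl
  have h2 : ∀ G : κ → ℝ, X ζ (gvs s) (fun w => Ψ (Sum.elim G w)) (n + 1) 0
      = ∫ w, Φ (Sum.elim G w) ∂(gv (s n)) := by
    intro G
    rw [X_succ, hn]
    simp only [T, lse, if_true, zero_add, h1, gvs]
  have h3 : ((gv g).prod (gv (s n))).map
      (fun p : (κ → ℝ) × (ι → ℝ) => (Sum.elim p.1 p.2 : κ ⊕ ι → ℝ))
      = gv (Sum.elim g (s n)) := by
    have a1 := gauss_sum (Sum.elim g (s n))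
    simp only [Sum.elim_inl, Sum.elim_inr] at a1
    rw [← a1, Measure.map_map measurable_elim (by fun_prop)]
    have : ((fun p : (κ → ℝ) × (ι → ℝ) => (Sum.elim p.1 p.2 : κ ⊕ ι → ℝ)) ∘
        fun z : κ ⊕ ι → ℝ => ((fun i => z (.inl i)), fun k => z (.inr k))) = id := by
      funext z k
      cases k <;> rfl
    rw [this, Measure.map_id]
  have hI : Integrable Φ (gv (Sum.elim g (s n))) := by
    have := (hΦl.eint (noise_gv (Sum.elim g (s n))) 0).integrable
    simpa using this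
  have hI2 : Integrable (fun p : (κ → ℝ) × (ι → ℝ) => Φ (Sum.elim p.1 p.2))
      ((gv g).prod (gv (s n))) := by
    rw [← h3] at hI
    exact (integrable_map_measure hΦl.1.aestronglyMeasurable measurable_elim.aemeasurable).1 hI
  simp only [h2]
  rw [← integral_prod _ hI2,
    ← integral_map measurable_elim.aemeasurable hΦl.1.aestronglyMeasurable, h3, X_succ, hn]
  simp only [T, lse, if_true, zero_add, gvs]
  rfl

theorem hj_of {ι Ω : Type} [Fintype ι] [DecidableEq ι] [MeasurableSpace Ω]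
    {H : (ι → ℝ) → Ω → ℝ} {h1 h2 : ι → (ι → ℝ) → Ω → ℝ} (hH : HG H)
    (h : ∀ i, ∃ K, FJet H (Pi.single i 1) (h1 i) (h2 i) K) : HJ H h1 h2 := by
  choose K hK using h
  exact ⟨hH, ∑ i, K i, fun i => (hK i).mono
    (Finset.single_le_sum (fun j _ => (hK j).K0) (Finset.mem_univ i))⟩

section jets

variable {W V : Type} [NormedAddCommGroup W] [NormedSpace ℝ W] [MeasurableSpace W]
  [NormedAddCommGroup V] [NormedSpace ℝ V] [MeasurableSpace V] {Ω Ω' : Type} [MeasurableSpace Ω]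
  [MeasurableSpace Ω']

theorem fjet_lin {H : W → Ω → ℝ} {v : W} {m : Ω → ℝ} (hm : BM m)
    (h : ∀ w x (t : ℝ), H (w + t • v) x = H w x + t * m x) :
    ∃ K, FJet H v (fun _ x => m x) (fun _ _ => 0) K := by
  obtain ⟨hm, C, hC⟩ := hm
  refine ⟨|C|, abs_nonneg C, hm.comp measurable_snd, measurable_const,
    fun _ x => (hC x).trans (le_abs_self C), fun _ _ => by simp, fun w x t => ?_, fun w x t => ?_⟩
  · rw [h, add_sub_cancel_left, abs_mul, mul_comm]
    exact mul_le_mul_of_nonneg_right ((hC x).trans (le_abs_self C)) (abs_nonneg t)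
  · rw [h, add_sub_cancel_left, sub_self, mul_zero, sub_zero, abs_zero]
    positivity

theorem fjet_comp {Q q1 q2 : V → Ω' → ℝ} {v' : V} {K : ℝ} (hQ : FJet Q v' q1 q2 K)
    {H : W → Ω × Ω' → ℝ} {u : W → Ω → V} (hu : Measurable (Function.uncurry u)) {v : W}
    {b : Ω → ℝ} (hb : BM b)
    (h : ∀ w x (t : ℝ), H (w + t • v) x - H w x
      = Q (u w x.1 + (t * b x.1) • v') x.2 - Q (u w x.1) x.2) :
    ∃ K', FJet H v (fun w x => q1 (u w x.1) x.2 * b x.1)
      (fun w x => q2 (u w x.1) x.2 * b x.1 ^ 2) K' := by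
  obtain ⟨hbm, C, hC⟩ := hb
  have hK := hQ.K0
  have h1 : ∀ x, |b x| ≤ 1 + |C| := fun x => by linarith [hC x, le_abs_self C]
  have hc : 1 ≤ 1 + |C| := by linarith [abs_nonneg C]
  have e1 : 1 + |C| ≤ (1 + |C|) ^ 3 := le_self_pow₀ hc (by norm_num)
  have e2 : (1 + |C|) ^ 2 ≤ (1 + |C|) ^ 3 := pow_le_pow_right₀ hc (by norm_num)
  have hp : Measurable fun p : W × Ω × Ω' => (u p.1 p.2.1, p.2.2) :=
    (hu.comp (measurable_fst.prodMk measurable_snd.fst)).prodMk measurable_snd.snd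
  have hb' : Measurable fun p : W × Ω × Ω' => b p.2.1 := hbm.comp measurable_snd.fst
  refine ⟨K * (1 + |C|) ^ 3, by positivity, (hQ.mm.comp hp).mul hb',
    (hQ.ma.comp hp).mul (hb'.pow_const 2), fun w x => ?_, fun w x => ?_, fun w x t => ?_,
    fun w x t => ?_⟩
  · rw [abs_mul]
    exact mul_le_mul (hQ.bm _ _) ((h1 _).trans e1) (abs_nonneg _) hK
  · rw [abs_mul, abs_pow]
    exact mul_le_mul (hQ.ba _ _) ((pow_le_pow_left₀ (abs_nonneg _) (h1 _) 2).trans e2)
      (by positivity) hK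
  · rw [h]
    refine (hQ.lip _ _ _).trans ?_
    rw [abs_mul, mul_comm |t|, ← mul_assoc]
    exact mul_le_mul_of_nonneg_right (mul_le_mul_of_nonneg_left ((h1 _).trans e1) hK)
      (abs_nonneg t)
  · rw [h]
    refine le_of_eq_of_le ?_ ((hQ.tay (u w x.1) x.2 (t * b x.1)).trans ?_)
    · congr 1
      ring
    · rw [abs_mul, mul_comm |t|, mul_pow, ← mul_assoc]
      exact mul_le_mul_of_nonneg_right
        (mul_le_mul_of_nonneg_left (pow_le_pow_left₀ (abs_nonneg _) (h1 _) 3) hK) (by positivity)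

end jets

theorem cj_trH {L Ω : Type} [Fintype L] [DecidableEq L] [MeasurableSpace Ω]
    {Pc pr : (L → ℝ) → Ω → ℝ} {K : ℝ} (hK : 0 ≤ K) (hP : CJ Pc K) (hp : CJ pr K) :
    CJ (trH Pc pr) (2 * K) := by
  have hs := TrickAux.djet_sin
  have hn : Measurable fun p : (Option L → ℝ) × Ω => p.1 none :=
    (measurable_pi_apply none).comp measurable_fst
  have h3 : ∀ (a r z : ℝ), |a| ≤ 1 * r → |z| ≤ K → |a * z| ≤ K * r := fun a r z h hz => by
    rw [abs_mul, mul_comm]
    exact mul_le_mul hz (by linarith) (abs_nonneg _) hK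
  have h4 : ∀ (y a z r : ℝ), |a| ≤ K * r → |z| ≤ K * r → |a + Real.sin y * z| ≤ 2 * K * r :=
    fun y a z r ha hz => by
      have b1 := abs_add_le a (Real.sin y * z)
      have b2 := TrickAux.abs_mul_le (Real.abs_sin_le_one y) hz
      linarith
  refine ⟨measurable_trH hP.meas hp.meas, fun t x => ?_, fun o => ?_⟩
  · simpa [trH] using h4 (t none) _ _ 1 (by simpa using hP.bd _ x) (by simpa using hp.bd _ x)
  rcases o with _ | l
  · have e : ∀ (w : Option L → ℝ) x (t : ℝ), trH Pc pr (w + t • Pi.single none 1) x - trH Pc pr w x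
        = (Real.sin (w none + t • (1 : ℝ)) - Real.sin (w none)) * pr (fun i => w (some i)) x :=
      fun w x t => by
        simp only [trH, Pi.add_apply, Pi.smul_apply, Pi.single_eq_same,
          Pi.single_eq_of_ne (Option.some_ne_none _), smul_zero, add_zero]
        ring
    refine ⟨fun w x => Real.cos (w none) * pr (fun i => w (some i)) x,
      fun w x => -Real.sin (w none) * pr (fun i => w (some i)) x,
      FJet.mono (K := K) ⟨hK, (Real.measurable_cos.comp hn).mul (TrickAux.meas_prj hp.meas),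
        (Real.measurable_sin.comp hn).neg.mul (TrickAux.meas_prj hp.meas), fun w x => ?_,
        fun w x => ?_, fun w x t => ?_, fun w x t => ?_⟩ (by linarith)⟩
    · simpa using h3 _ 1 _ (by simpa using Real.abs_cos_le_one (w none)) (hp.bd _ x)
    · simpa using h3 (-Real.sin (w none)) 1 _ (by simpa using Real.abs_sin_le_one (w none))
        (hp.bd _ x)
    · rw [e]
      exact h3 _ _ _ (hs.lip _ t) (hp.bd _ x)
    · rw [e]
      refine le_of_eq_of_le ?_ (h3 _ _ _ (hs.tay (w none) t) (hp.bd (fun i => w (some i)) x))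
      congr 1
      ring
  · obtain ⟨m, a, hj⟩ := hP.jet l
    obtain ⟨m', a', hj'⟩ := hp.jet l
    have e0 : ∀ (w : Option L → ℝ) (t : ℝ),
        (fun i => (w + t • (Pi.single (some l) 1 : Option L → ℝ)) (some i))
          = (fun i => w (some i)) + t • (Pi.single l 1 : L → ℝ) := fun w t => by
      funext i
      simp [Pi.single_apply]
    have e1 : ∀ (w : Option L → ℝ) (t : ℝ),
        (w + t • (Pi.single (some l) 1 : Option L → ℝ)) none = w none := fun w t => by simp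
    have hsin := Real.measurable_sin.comp hn
    refine ⟨fun w x => m (fun i => w (some i)) x + Real.sin (w none) * m' (fun i => w (some i)) x,
      fun w x => a (fun i => w (some i)) x + Real.sin (w none) * a' (fun i => w (some i)) x,
      by linarith, (TrickAux.meas_prj hj.mm).add (hsin.mul (TrickAux.meas_prj hj'.mm)),
      (TrickAux.meas_prj hj.ma).add (hsin.mul (TrickAux.meas_prj hj'.ma)), fun w x => ?_,
      fun w x => ?_, fun w x t => ?_, fun w x t => ?_⟩
    · simpa using h4 (w none) _ _ 1 (by simpa using hj.bm _ x) (by simpa using hj'.bm _ x)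
    · simpa using h4 (w none) _ _ 1 (by simpa using hj.ba _ x) (by simpa using hj'.ba _ x)
    · refine le_of_eq_of_le ?_ (h4 (w none) _ _ _ (hj.lip (fun i => w (some i)) x t)
        (hj'.lip (fun i => w (some i)) x t))
      rw [trH, trH, e0, e1]
      congr 1
      ring
    · refine le_of_eq_of_le ?_ (h4 (w none) _ _ _ (hj.tay (fun i => w (some i)) x t)
        (hj'.tay (fun i => w (some i)) x t))
      rw [trH, trH, e0, e1]
      congr 1
      ring

theorem fam_upd {ι B : Type} {e : B ↪ ι} {s : (ℕ → ℝ) → ℕ → ι → ℝ} (hs : Fam e s) (ϑ : ℕ → ℝ)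
    (a : ℝ) : s (Function.update ϑ 0 a) = s ϑ := by
  funext d i
  by_cases hd : d = 0
  · exact hs.off _ _ d i (.inl hd)
  by_cases hi : ∀ j, e j ≠ i
  · exact hs.off _ _ d i (.inr hi)
  push Not at hi
  obtain ⟨j, rfl⟩ := hi
  rw [hs.blockv _ d j hd, hs.blockv _ d j hd, Function.update_of_ne hd]

theorem good {n : ℕ} {ζ : ℕ → ℝ} {me Θ θm : ℝ} (hR : Reg n ζ me 0 0 Θ θm) {δ : ℝ} (hδ : 0 < δ)
    (C : ℝ) :
    ∀ᶠ k in 𝓝[>] (0 : ℝ), ∀ᶠ y in 𝓝[>] (0 : ℝ), ∀ᶠ N : ℕ in atTop, 1 ≤ N ∧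
      ∀ (ι B Ω : Type) [Fintype ι] [DecidableEq ι] [Fintype B] [MeasurableSpace Ω]
        (μ : Measure Ω) [IsProbabilityMeasure μ] (H : (ι → ℝ) → Ω → ℝ)
        (h1 h2 : ι → (ι → ℝ) → Ω → ℝ) (φ : Ω → ℝ) (e : B ↪ ι) (s : (ℕ → ℝ) → ℕ → ι → ℝ)
        (ϑ τ : ℕ → ℝ), HJ H h1 h2 → Blk H h1 e 0 0 (2 * N) → BM φ → Fam e s →
        (Fintype.card B : ℝ) ≤ 2 * N → (∀ w x, ∑ i, s ϑ n i * h1 i w x ^ 2 ≤ C * N) →
        Fld n θm Θ ϑ →
        SDz (fun ϑ' => GV μ ζ n (s ϑ') fun w x => H w x + (ϑ' 0 - ϑ 0) * φ x) ϑ τ y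
          (k * y * N) n →
        Dec ζ (gvs (s ϑ)) μ H (fun j => h1 (e j)) n (N * (12 * me + δ)) ∧
        (∀ d, 1 ≤ d → d ≤ n →
          |EG ζ (gvs (s ϑ)) μ H (fun w x => ∑ j, (h2 (e j) w x + h1 (e j) w x ^ 2)) n
            - QQ ζ (rho ζ (gvs (s ϑ)) μ H (fun j => h1 (e j)) n) d - τ d / ϑ d| ≤ δ * N) ∧
        EG ζ (gvs (s ϑ)) μ H (fun _ x => |φ x - τ 0|) n ≤ δ * N := by
  filter_upwards [GoodAux.core hR hδ (K' := 0) (B := 2) 0 C le_rfl zero_le_two,
    core0 hR.z hδ C] with k hk hk'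
  filter_upwards [hk, hk'] with y hy hy'
  filter_upwards [hy, hy'] with N hN hN'
  refine ⟨hN.1, ?_⟩
  intro ι B Ω _ _ _ _ μ _ H h1 h2 φ e s ϑ τ hJ hB hφ hs hc hroot hF hSD
  obtain ⟨a1, a2⟩ := hN.2 ι B Ω μ H h1 h2 e (2 * N) s ϑ τ hJ hB hs hc le_rfl hroot hF
    (fun d hd hdn => by
      have := hSD d hdn
      simp only [Function.update_of_ne (Nat.ne_of_lt hd), sub_self, zero_mul, add_zero] at this
      exact this)
  refine ⟨GoodAux.dec_mono a1 (le_of_eq (by ring)), a2, ?_⟩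
  obtain ⟨b1, b2⟩ := hSD 0 (Nat.zero_le n)
  simp only [fam_upd hs, Function.update_self, sub_self, zero_mul, add_zero, add_sub_cancel_left,
    sub_sub_cancel_left] at b1 b2
  exact hN' ι Ω μ H h1 h2 φ (s ϑ) (τ 0) hJ hφ (hs.nn ϑ) hroot b1 b2

theorem sum_emb_le {ι B : Type} [Fintype ι] [Fintype B] (e : B ↪ ι) {f : ι → ℝ}
    (hf : ∀ i, 0 ≤ f i) : ∑ j, f (e j) ≤ ∑ i, f i := by
  rw [← Finset.sum_map Finset.univ e f]
  exact Finset.sum_le_sum_of_subset_of_nonneg (Finset.subset_univ _) fun i _ _ => hf i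

end VCAux

end Vale.Agent.P166
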