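import Vale.Agent.P166.VCA

/-! # The vector cavity lemma: the interpolating system -/

set_option linter.unusedSectionVars false

namespace Vale.Agent.P166

open MeasureTheory ProbabilityTheory Filter Topology Vale.Agent.P157

namespace VCAux

/-- Coordinates: cavity matrix, old fields, cavity fields and probe. -/
abbrev VCo (L B ι : Type) : Type := (L × B) ⊕ (ι ⊕ Option L)

variable {L B ι Ω Ω' : Type} [Fintype L] [DecidableEq L] [Fintype B] [DecidableEq B] [Fintype ι]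
  [DecidableEq ι] [MeasurableSpace Ω] [MeasurableSpace Ω']

/-- Argument of the cavity potential. -/
noncomputable def uu (ξ : ι → Ω → ℝ) (e : B ↪ ι) (w : VCo L B ι → ℝ) (x : Ω) (o : Option L) : ℝ :=
  w (.inr (.inr o)) + o.elim 0 fun l => ∑ j, w (.inl (l, j)) * ξ (e j) x

/-- The Hamiltonian. -/
noncomputable def vH (E : Ω → ℝ) (ξ : ι → Ω → ℝ) (e : B ↪ ι) (Q : (Option L → ℝ) → Ω' → ℝ)
    (w : VCo L B ι → ℝ) (x : Ω × Ω') : ℝ :=
  lsH E ξ (fun i => w (.inr (.inl i))) x.1 + Q (uu ξ e w x.1) x.2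

/-- First derivatives. -/
noncomputable def v1 (ξ : ι → Ω → ℝ) (e : B ↪ ι) (q1 : Option L → (Option L → ℝ) → Ω' → ℝ) :
    VCo L B ι → (VCo L B ι → ℝ) → Ω × Ω' → ℝ
  | .inl (l, j) => fun w x => q1 (some l) (uu ξ e w x.1) x.2 * ξ (e j) x.1
  | .inr (.inl i) => fun _ x => ξ i x.1
  | .inr (.inr o) => fun w x => q1 o (uu ξ e w x.1) x.2

/-- Second derivatives. -/
noncomputable def v2 (ξ : ι → Ω → ℝ) (e : B ↪ ι) (q2 : Option L → (Option L → ℝ) → Ω' → ℝ) :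
    VCo L B ι → (VCo L B ι → ℝ) → Ω × Ω' → ℝ
  | .inl (l, j) => fun w x => q2 (some l) (uu ξ e w x.1) x.2 * ξ (e j) x.1 ^ 2
  | .inr (.inl _) => fun _ _ => 0
  | .inr (.inr o) => fun w x => q2 o (uu ξ e w x.1) x.2

/-- Variance profile. -/
noncomputable def vp (B : Type) (n : ℕ) (g : ℝ) (s : ℕ → ι → ℝ) (y : ℕ → Option L → ℝ) (d : ℕ) :
    VCo L B ι → ℝ :=
  Sum.elim (fun _ => if d = n then g else 0) (Sum.elim (s d) (y d))

/-- The block inside the large system. -/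
def eB (L : Type) (e : B ↪ ι) : B ↪ VCo L B ι :=
  ⟨fun j => .inr (.inl (e j)), fun _ _ h => e.injective (by simpa using h)⟩

theorem eB_apply (e : B ↪ ι) (j : B) : eB L e j = .inr (.inl (e j)) := rfl

variable {E : Ω → ℝ} {ξ : ι → Ω → ℝ} {e : B ↪ ι} {Q : (Option L → ℝ) → Ω' → ℝ}
  {q1 q2 : Option L → (Option L → ℝ) → Ω' → ℝ} {K : ℝ}

theorem measurable_uu (hξ : ∀ i, BM (ξ i)) :
    Measurable (Function.uncurry (uu (L := L) ξ e)) := by
  refine measurable_pi_lambda _ fun o => ((measurable_pi_apply _).comp measurable_fst).add ?_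
  rcases o with _ | l
  · exact measurable_const
  · exact Finset.measurable_sum _ fun j _ =>
      ((measurable_pi_apply _).comp measurable_fst).mul ((hξ _).1.comp measurable_snd)

theorem bm2_uu (hξ : ∀ i, BM (ξ i)) {g : (Option L → ℝ) → Ω' → ℝ} (hg : BM2 g) :
    BM2 fun (w : VCo L B ι → ℝ) (x : Ω × Ω') => g (uu ξ e w x.1) x.2 := by
  obtain ⟨hm, C, hC⟩ := hg
  have hp : Measurable fun p : (VCo L B ι → ℝ) × Ω × Ω' => (uu ξ e p.1 p.2.1, p.2.2) :=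
    ((measurable_uu hξ).comp (measurable_fst.prodMk measurable_snd.fst)).prodMk measurable_snd.snd
  exact ⟨hm.comp hp, C, fun _ _ => hC _ _⟩

theorem bm_fst {f : Ω → ℝ} (hf : BM f) : BM fun x : Ω × Ω' => f x.1 :=
  ⟨hf.1.comp measurable_fst, hf.2.imp fun _ h x => h x.1⟩

theorem hg_old (hE : BM E) (hξ : ∀ i, BM (ξ i)) :
    HG fun (w : VCo L B ι → ℝ) (x : Ω × Ω') => lsH E ξ (fun i => w (.inr (.inl i))) x.1 := by
  obtain ⟨hm, C, hC⟩ := hg_lsH hE hξ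
  have hp : Measurable fun p : (VCo L B ι → ℝ) × Ω × Ω' =>
      ((fun i => p.1 (.inr (.inl i)) : ι → ℝ), p.2.1) :=
    (measurable_pi_lambda _ fun i => (measurable_pi_apply _).comp measurable_fst).prodMk
      measurable_snd.fst
  refine ⟨hm.comp hp, |C|, fun w x => (hC _ _).trans ?_⟩
  have h1 : ‖(fun i => w (.inr (.inl i)) : ι → ℝ)‖ ≤ ‖w‖ :=
    (pi_norm_le_iff_of_nonneg (norm_nonneg w)).2 fun i => norm_le_pi_norm w _
  exact mul_le_mul (le_abs_self C) (by linarith) (by positivity) (abs_nonneg C)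

theorem hg_vH (hE : BM E) (hξ : ∀ i, BM (ξ i)) (hQ : BM2 Q) : HG (vH E ξ e Q) :=
  hg_add (hg_old hE hξ) (bm2_uu hξ hQ)

theorem vH_shift (w v : VCo L B ι → ℝ) (hv : ∀ p, v (.inl p) = 0)
    (hv' : ∀ o, v (.inr (.inr o)) = 0) (x : Ω × Ω') (t : ℝ) :
    vH E ξ e Q (w + t • v) x = vH E ξ e Q w x + t * ∑ i, v (.inr (.inl i)) * ξ i x.1 := by
  have h1 : uu ξ e (w + t • v) x.1 = uu ξ e w x.1 := by
    funext o
    simp [uu, hv, hv']
  have h2 := LinAux.shift (E := E) (ξ := ξ) (fun i => w (.inr (.inl i))) (fun i => v (.inr (.inl i)))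
    t x.1
  rw [vH, vH, h1, add_right_comm, ← h2]
  rfl

theorem hj_vH (hE : BM E) (hξ : ∀ i, BM (ξ i)) (hQ : BM2 Q)
    (hj : ∀ o, FJet Q (Pi.single o 1) (q1 o) (q2 o) K) :
    HJ (vH E ξ e Q) (v1 ξ e q1) (v2 ξ e q2) := by
  refine hj_of (hg_vH hE hξ hQ) ?_
  rintro (⟨l, j⟩ | i | o)
  · refine fjet_comp (hj (some l)) (measurable_uu hξ) (hξ (e j)) fun w x t => ?_
    have h1 : uu ξ e (w + t • (Pi.single (.inl (l, j)) 1 : VCo L B ι → ℝ)) x.1
        = uu ξ e w x.1 + (t * ξ (e j) x.1) • (Pi.single (some l) 1 : Option L → ℝ) := by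
      funext o
      rcases o with _ | l'
      · simp [uu]
      · by_cases h : l' = l
        · subst h
          simp [uu, Pi.single_apply, add_mul, Finset.sum_add_distrib, add_assoc]
        · simp [uu, Pi.single_apply, h]
    rw [vH, vH, h1]
    simp
  · refine fjet_lin (bm_fst (hξ i)) fun w x t => ?_
    rw [vH_shift w _ (fun p => by simp) (fun o => by simp)]
    simp [Pi.single_apply]
  · have := fjet_comp (H := vH E ξ e Q) (v := Pi.single (.inr (.inr o)) 1) (hj o)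
      (measurable_uu (e := e) hξ) (BM.const 1) fun w x t => by
        have h1 : uu ξ e (w + t • (Pi.single (.inr (.inr o)) 1 : VCo L B ι → ℝ)) x.1
            = uu ξ e w x.1 + (t * 1) • (Pi.single o 1 : Option L → ℝ) := by
          funext o'
          simp only [uu, Pi.add_apply, Pi.smul_apply, Pi.single_apply, Sum.inr.injEq,
            reduceCtorEq, if_false, smul_zero, add_zero, mul_one]
          ring
        rw [vH, vH, h1]
        simp
    simp only [mul_one, one_pow] at this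
    exact this

theorem blk_vH (hξ : ∀ i, BM (ξ i)) {Λ : ℝ} (h : ∀ x, ∑ j, ξ (e j) x ^ 2 ≤ Λ) :
    Blk (vH E ξ e Q) (v1 ξ e q1) (eB L e) 0 0 Λ := by
  have e1 : ∀ (c : B → ℝ) (w : VCo L B ι → ℝ) (x : Ω × Ω') (t : ℝ),
      vH E ξ e Q (w + t • blk (eB L e) c) x = vH E ξ e Q w x + t * ∑ j, c j * ξ (e j) x.1 := by
    intro c w x t
    rw [vH_shift w _ (fun p => by simp [blk, eB_apply]) (fun o => by simp [blk, eB_apply]),
      ← ConcAux.sum_blk e c fun i => ξ i x.1]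
    simp [blk, eB_apply]
  refine ⟨le_rfl, fun c => ?_, fun c w x => ?_, .inl rfl, fun _ x => h x.1⟩
  · obtain ⟨K', hK'⟩ := fjet_lin
      (bm_fst (Ω' := Ω') (BM.sum Finset.univ fun j _ => (hξ (e j)).const_mul (c j))) (e1 c)
    exact ⟨_, K', hK', fun _ _ => by simp⟩
  · have h1 := e1 c w x 1
    rw [one_smul, one_mul] at h1
    rw [h1, zero_div, zero_mul, sub_zero]
    exact le_rfl

theorem vp_nonneg (n : ℕ) {g : ℝ} (hg : 0 ≤ g) {s : ℕ → ι → ℝ} (hs : ∀ d i, 0 ≤ s d i)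
    {y : ℕ → Option L → ℝ} (hy : ∀ d o, 0 ≤ y d o) (d : ℕ) (c : VCo L B ι) :
    0 ≤ vp B n g s y d c := by
  rcases c with p | i | o
  · show 0 ≤ if d = n then g else 0
    split_ifs
    exacts [hg, le_rfl]
  · exact hs d i
  · exact hy d o

theorem fam_vp (n : ℕ) {g : ℝ} (hg : 0 ≤ g) {s : (ℕ → ℝ) → ℕ → ι → ℝ} (hs : Fam e s)
    {y : ℕ → Option L → ℝ} (hy : ∀ d o, 0 ≤ y d o) :
    Fam (eB L e) fun θ => vp B n g (s θ) y := by
  refine ⟨fun θ => vp_nonneg n hg (hs.nn θ) hy, fun θ d j hd => hs.blockv θ d j hd,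
    fun θ θ' d c h => ?_⟩
  rcases c with p | i | o
  · rfl
  · exact hs.off θ θ' d i (h.imp id fun h j hj => h j (by rw [← hj]; rfl))
  · rfl

theorem root (hq : ∀ o w x, |q1 o w x| ≤ K) {n : ℕ} {N γ g Θ Y : ℝ} (hN : 1 ≤ N) (hg0 : 0 ≤ g)
    (hg : g * N ≤ γ) (hΘ : 0 ≤ Θ) (hY : 0 ≤ Y) {s : ℕ → ι → ℝ} (hs : ∀ i, s n i ≤ Θ)
    {y : ℕ → Option L → ℝ} (hy : ∀ o, y n o ≤ Y) (hξ : ∀ x, ∑ i, ξ i x ^ 2 ≤ 2 * N)
    (w : VCo L B ι → ℝ) (x : Ω × Ω') :
    ∑ c, vp B n g s y n c * v1 ξ e q1 c w x ^ 2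
      ≤ (Fintype.card L * (2 * γ * K ^ 2) + 2 * Θ + Fintype.card (Option L) * (Y * K ^ 2)) * N := by
  have hq2 : ∀ o w x, q1 o w x ^ 2 ≤ K ^ 2 := fun o w x => sq_le_sq' (abs_le.1 (hq o w x)).1
    (abs_le.1 (hq o w x)).2
  have hγ : 0 ≤ γ := le_trans (by positivity) hg
  have hB : ∑ j, ξ (e j) x.1 ^ 2 ≤ 2 * N :=
    (sum_emb_le e (f := fun i => ξ i x.1 ^ 2) fun i => sq_nonneg _).trans (hξ x.1)
  have a1 : ∑ l : L, ∑ j : B, g * (q1 (some l) (uu ξ e w x.1) x.2 * ξ (e j) x.1) ^ 2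
      ≤ Fintype.card L * (2 * γ * K ^ 2) := by
    rw [← nsmul_eq_mul, ← Finset.card_univ]
    refine Finset.sum_le_card_nsmul _ _ _ fun l _ => ?_
    simp only [mul_pow, ← Finset.mul_sum]
    calc g * (q1 (some l) (uu ξ e w x.1) x.2 ^ 2 * ∑ j, ξ (e j) x.1 ^ 2)
        ≤ g * (K ^ 2 * (2 * N)) :=
          mul_le_mul_of_nonneg_left (mul_le_mul (hq2 _ _ _) hB (by positivity) (sq_nonneg K)) hg0
      _ = 2 * (g * N) * K ^ 2 := by ring
      _ ≤ 2 * γ * K ^ 2 := by gcongr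
  have a2 : ∑ i, s n i * ξ i x.1 ^ 2 ≤ 2 * Θ * N := by
    calc ∑ i, s n i * ξ i x.1 ^ 2 ≤ ∑ i, Θ * ξ i x.1 ^ 2 :=
          Finset.sum_le_sum fun i _ => mul_le_mul_of_nonneg_right (hs i) (sq_nonneg _)
      _ = Θ * ∑ i, ξ i x.1 ^ 2 := (Finset.mul_sum _ _ _).symm
      _ ≤ Θ * (2 * N) := mul_le_mul_of_nonneg_left (hξ x.1) hΘ
      _ = _ := by ring
  have a3 : ∑ o, y n o * q1 o (uu ξ e w x.1) x.2 ^ 2 ≤ Fintype.card (Option L) * (Y * K ^ 2) := by
    rw [← nsmul_eq_mul, ← Finset.card_univ]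
    exact Finset.sum_le_card_nsmul _ _ _ fun o _ =>
      mul_le_mul (hy o) (hq2 _ _ _) (sq_nonneg _) hY
  have a4 := le_mul_of_one_le_right (a := Fintype.card L * (2 * γ * K ^ 2)) (by positivity) hN
  have a5 := le_mul_of_one_le_right (a := Fintype.card (Option L) * (Y * K ^ 2)) (by positivity) hN
  simp only [Fintype.sum_sum_type, Fintype.sum_prod_type, vp, v1, Sum.elim_inl, Sum.elim_inr,
    if_true]
  linarith

variable (μ : Measure Ω) [IsProbabilityMeasure μ] (μ' : Measure Ω') [IsProbabilityMeasure μ']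
  {ζ : ℕ → ℝ}

theorem close (hζ : Zok ζ) (hE : BM E) (hξ : ∀ i, BM (ξ i)) (hQ : Measurable (Function.uncurry Q))
    (hK : ∀ w x, |Q w x| ≤ K) (n : ℕ) (g : ℝ) (s : ℕ → ι → ℝ) (y : ℕ → Option L → ℝ) :
    |GV (μ.prod μ') ζ n (vp B n g s y) (vH E ξ e Q) - LS μ ζ n s E ξ| ≤ K := by
  have h1 := x_abs (μ := μ.prod μ') hζ (LinAux.noise (vp B n g s y)) (hg_old hE hξ)
    (hg_vH (e := e) hE hξ ⟨hQ, K, hK⟩) (b := K)
    (fun w x => by rw [vH, add_sub_cancel_left]; exact hK _ _) (n + 1) 0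
  have h2 := X_sel (ι := VCo L B ι) (fun i : ι => some (.inr (.inl i)))
    (fun k l i hk hl => by simpa using hk.trans hl.symm) ζ (vp B n g s y) s
    (Ψ' := gtop (μ.prod μ') (lsH (fun x => E x.1) fun i x => ξ i x.1))
    (hg_lsH (bm_fst hE) fun i => bm_fst (hξ i)).lg_gtop.1 (d := n + 1) fun _ _ _ => rfl
  rw [ls_map (μ' := μ.prod μ') measurable_fst Measure.fst_prod hE.1 fun i => (hξ i).1, LS, GV,
    GV, ← h2]
  exact h1

theorem val0 (hζ : Zok ζ) {n : ℕ} (hn : ζ n = 0) (hE : BM E) (hξ : ∀ i, BM (ξ i)) (hQ : BM2 Q)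
    (s : ℕ → ι → ℝ) (y : ℕ → Option L → ℝ) :
    GV (μ.prod μ') ζ n (vp B n 0 s y) (vH E ξ e Q) = LS μ ζ n s E ξ + GV μ' ζ n y Q := by
  have h1 := cond hζ hn (fun _ : L × B => (0 : ℝ)) (fun d => Sum.elim (s d) (y d))
    ((hg_vH (e := e) hE hξ hQ).lg_gtop (μ := μ.prod μ'))
  have h2 := X_sum hζ s y ((hg_lsH hE hξ).lg_gtop (μ := μ)) ((hg_of_bm2 hQ).lg_gtop (μ := μ'))
    (n + 1)
  rw [gv_of_nonpos (fun _ => le_rfl), integral_dirac] at h1
  refine h1.trans (Eq.trans ?_ h2)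
  congr 1
  funext u
  rw [gtop, gtop, gtop, ← CascAux.lse_prod_add 1 ((hg_lsH hE hξ).eint _) ((hg_of_bm2 hQ).eint _)]
  congr 1
  funext x
  have : uu ξ e (Sum.elim (0 : L × B → ℝ) u) x.1 = fun k => u (.inr k) := by
    funext o
    cases o <;> simp [uu]
  rw [vH, this]
  rfl

theorem val1 (hζ : Zok ζ) {n : ℕ} (hn : ζ n = 0) (hE : BM E) (hξ : ∀ i, BM (ξ i))
    {Pc pr : (L → ℝ) → Ω' → ℝ} (hQ : BM2 (trH Pc pr)) (g : ℝ) (s : ℕ → ι → ℝ) (d0 : ℕ) (σ : ℝ) :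
    GV (μ.prod μ') ζ n (vp B n g s (optS d0 σ fun _ _ => 0)) (vH E ξ e (trH Pc pr))
      = ∫ G, SL (μ.prod μ') ζ n d0 σ s (fun x => E x.1 + Pc (tG G fun j => ξ (e j) x.1) x.2)
          (fun i x => ξ i x.1) (fun x => pr (tG G fun j => ξ (e j) x.1) x.2)
          ∂(gv fun _ : L × B => g) := by
  have hlg := (hg_vH (e := e) hE hξ hQ).lg_gtop (μ := μ.prod μ')
  refine (cond hζ hn (fun _ : L × B => g) (fun d => Sum.elim (s d) (optS d0 σ (fun _ _ => 0) d))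
    hlg).trans ?_
  congr 1
  funext G
  have h2 := X_sel (ι := Option ι) (κ := ι ⊕ Option L)
    (Sum.elim (fun i => some (some i)) fun o => o.elim (some none) fun _ => none)
    (by
      rintro (k | _ | k) (l | _ | l) i hk hl <;> have h := hk.trans hl.symm <;>
        simp at h hk ⊢ <;> exact h) ζ (optS d0 σ s)
    (fun d => Sum.elim (s d) (optS d0 σ (fun _ _ => 0) d))
    (Ψ' := fun w => gtop (μ.prod μ') (vH E ξ e (trH Pc pr)) (Sum.elim G w))
    (hlg.1.comp (measurable_elim.comp (measurable_const.prodMk measurable_id))) (d := n + 1)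
    (by rintro j - (k | _ | k) <;> rfl)
  rw [← h2, SL, TR, GV]
  congr 1
  funext u
  rw [gtop, gtop]
  congr 1
  funext x
  unfold tG
  simp only [vH, trH, lsH, uu, Sum.elim_inl, Sum.elim_inr, Option.elim, zero_add, add_zero]
  ring

end VCAux

end Vale.Agent.P166
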