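import Vale.Agent.P166.FQ
import Vale.Agent.P166.Frame
import Vale.Agent.P166.Cav
import Vale.Agent.P166.FinQ

/-! # The frame system is asymptotically decoupled -/

namespace Vale.Agent.P166

open MeasureTheory ProbabilityTheory Filter Topology Vale.Agent.P157

theorem WardQ.exists_small {B ε c : ℝ} (hB : 0 ≤ B) (hε : 0 < ε) (hc : 0 < c) :
    ∃ s, 0 < s ∧ s ≤ c ∧ B * s ≤ ε := by
  refine ⟨min c (ε / (B + 1)), lt_min hc (by positivity), min_le_left _ _, ?_⟩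
  calc B * min c (ε / (B + 1)) ≤ (B + 1) * (ε / (B + 1)) :=
        mul_le_mul (by linarith) (min_le_right _ _) (le_min hc.le (by positivity)) (by linarith)
    _ = ε := by field_simp

theorem WardQ.exists_large {B B' ε : ℝ} (hB : 0 ≤ B) (hB' : 0 ≤ B') (hε : 0 < ε) :
    ∃ R, 0 < R ∧ B / R ≤ ε ∧ B' / R ≤ ε := by
  have hR : 0 < (B + B') / ε + 1 := by positivity
  have h : ε * ((B + B') / ε + 1) = B + B' + ε := by field_simp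
  refine ⟨(B + B') / ε + 1, hR, ?_, ?_⟩
  · rw [div_le_iff₀ hR, h]; linarith
  · rw [div_le_iff₀ hR, h]; linarith

theorem fq_main (A L : Type) [Fintype A] [DecidableEq A] [Fintype L] [DecidableEq L]
    {ε Kη Lh κ0 : ℝ} (hε : 0 < ε) (hK : 0 ≤ Kη) (hLh : 0 ≤ Lh) (h0 : 0 < κ0) (κm : ℝ) :
    ∃ e0 : ℝ, 0 < e0 ∧ ∀ (n : ℕ) (ζ : ℕ → ℝ) (me Θ θm : ℝ), Reg n ζ me 0 0 Θ θm → me ≤ e0 →
    ∀ cm D : ℝ, ∀ᶠ k in 𝓝[>] (0 : ℝ), ∀ᶠ y in 𝓝[>] (0 : ℝ), ∀ᶠ N : ℕ in atTop,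
    ∀ (S : Type) [Fintype S] [DecidableEq S] (ca : A → ℝ) (θ : ℕ → ℝ) (b : S → Option A)
      (ϑ τ r : ℕ → ℝ) (t0 σ : ℝ) (d0 : ℕ) (κ β : L → ℝ) (η : (L → ℝ) → Bool → ℝ) (jj : L → S),
      Bal D N b → Par n Θ θm cm t0 ca θ ϑ → SDz (AV ζ n ca θ b) ϑ τ y (k * y * N) n →
      Rel n ζ (KK A) N ϑ τ r e0 → 0 ≤ σ → σ ≤ 1 → Function.Injective jj →
      (∀ l, b (jj l) = none) → (∀ l, κ0 ≤ κ l ∧ κ l ≤ κm) → ∑ l, β l ^ 2 ≤ κm → CJ η Kη →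
      Hom η Lh →
      |FP ζ n ca θ b ϑ d0 σ (cavQ κ β) η jj - AV ζ n ca θ b ϑ - XC ζ n d0 σ r (cavQ κ β) η|
        ≤ ε := by
  have hε5 : 0 < ε / 5 := by positivity
  have hKK : 0 ≤ KK A := by unfold KK; positivity
  set κ1 : ℝ := |κm| + κ0 + 2 * KK A with hκ1
  have hκm : κm ≤ |κm| := le_abs_self κm
  have habs : 0 ≤ |κm| := abs_nonneg κm
  obtain ⟨C2, hC2, hlip⟩ := fq_lip A L h0 κm
  obtain ⟨s, hs, hs0, hsε⟩ := WardQ.exists_small (B := C2 * (1 + Kη)) (by positivity) hε5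
    (half_pos h0)
  obtain ⟨C1, hC1, htr⟩ := fq_trunc A L κ1
  obtain ⟨C3, hC3, hfin⟩ := fin_trunc L κ1
  obtain ⟨R, hR, hR1, hR3⟩ := WardQ.exists_large (B := C1 * Real.exp (4 * Kη))
    (B' := C3 * Real.exp (4 * Kη)) (by positivity) (by positivity) hε5
  obtain ⟨K0, hK0, hcj⟩ := cj_cavE hR κm
  have hK1 : 0 ≤ max K0 Kη := le_max_of_le_left hK0
  obtain ⟨e0, he0, -, he0ε⟩ := WardQ.exists_small
    (B := Fintype.card L * (20 * (1 + max K0 Kη) ^ 2 * (1 + 2 * KK A) ^ 2 * 3) + 1)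
    (by positivity) hε5 one_pos
  refine ⟨e0, he0, fun n ζ me Θ θm hReg hme cm D => ?_⟩
  have hz := hReg.z.zok
  have hz0 := hReg.z.z0
  have hfr := frame_link A L hs hε5 hR hLh κm Kη D
  have hD : ∀ᶠ N : ℕ in atTop, 2 * D ≤ N :=
    tendsto_natCast_atTop_atTop.eventually_ge_atTop (2 * D)
  filter_upwards [cav_avg A L hReg he0 hK1 cm D] with k hk
  filter_upwards [hk] with y hy
  filter_upwards [hy, hfr, hD, eventually_ge_atTop 1] with N hcav hframe hDN hN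
  intro S _ _ ca θ b ϑ τ r t0 σ d0 κ β η jj hbal hpar hsd hrel hσ0 hσ1 hinj hnone hκ hβ hη hhom
  have hκ0 : ∀ l, 0 ≤ κ l ∧ κ l ≤ κm := fun l => ⟨h0.le.trans (hκ l).1, (hκ l).2⟩
  have hβ1 : ∑ l, β l ^ 2 ≤ κ1 := by linarith
  have a1 := hcav S ca θ b ϑ τ r t0 σ d0 (cavE R κ β) η hbal hpar hsd hrel
    ((hcj L κ β hκ0).mono (le_max_left _ _)) (hη.mono (le_max_right _ _)) hσ0 hσ1
  have a1' : (Fintype.card L : ℝ) * (20 * (1 + max K0 Kη) ^ 2 * (1 + 2 * KK A) ^ 2 *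
      (me + 2 * e0)) + e0 ≤ ε / 5 := by
    refine le_trans ?_ he0ε
    have : me + 2 * e0 ≤ 3 * e0 := by linarith
    calc (Fintype.card L : ℝ) * (20 * (1 + max K0 Kη) ^ 2 * (1 + 2 * KK A) ^ 2 *
          (me + 2 * e0)) + e0
        ≤ Fintype.card L * (20 * (1 + max K0 Kη) ^ 2 * (1 + 2 * KK A) ^ 2 * (3 * e0)) + e0 := by
          gcongr
      _ = _ := by ring
  obtain ⟨a2, a3⟩ := hframe S ζ n ca θ b ϑ d0 σ κ β η jj hz hz0 hσ0 hbal hinj hnone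
    (fun l => ⟨by linarith [(hκ l).1], (hκ l).2⟩) hβ hη.meas hη.bd hhom
  have a4 := htr S ζ n ca θ b ϑ d0 σ D Kη R N (fun l => κ l + s) β η jj hz hz0 hbal hDN hN hR
    (fun l => ⟨by linarith [(hκ l).1], by linarith [(hκ l).2]⟩) hβ1 hη.meas hη.bd
  have a5 := htr S ζ n ca θ b ϑ d0 σ D Kη R N (fun l => κ l + -s) β η jj hz hz0 hbal hDN hN hR
    (fun l => ⟨by linarith [(hκ l).1], by linarith [(hκ l).2]⟩) hβ1 hη.meas hη.bd
  have a6 := hlip S ζ n ca θ b ϑ d0 σ D Kη s N κ β η jj hz hz0 hbal hDN hN hκ hβ hη.meas hη.bd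
    (by rw [abs_of_pos hs]; exact hs0)
  have a7 := hlip S ζ n ca θ b ϑ d0 σ D Kη (-s) N κ β η jj hz hz0 hbal hDN hN hκ hβ hη.meas hη.bd
    (by rw [abs_neg, abs_of_pos hs]; exact hs0)
  have a8 := hfin ζ n d0 σ R Kη r κ β η hz hz0 hR hrel.cadm (by linarith [hrel.r0])
    (fun l => ⟨(hκ0 l).1, by linarith [(hκ l).2]⟩) hβ1 hη.meas hη.bd
  rw [abs_neg] at a7
  rw [abs_of_pos hs] at a6 a7
  simp only [sub_eq_add_neg (κ _) s] at a3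
  rw [abs_le] at a1 a4 a5 a6 a7 a8 ⊢
  constructor <;> linarith [a1.1, a1.2, a4.1, a4.2, a5.1, a5.2, a6.1, a6.2, a7.1, a7.2, a8.1, a8.2]

end Vale.Agent.P166
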