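import Vale.Agent.P166.WardQ
import Vale.Agent.P166.Scalar
import Vale.Agent.P166.FinY

/-! # The scalar cavity equations -/

namespace Vale.Agent.P166

open MeasureTheory ProbabilityTheory Filter Topology Vale.Agent.P157

namespace WardSAux

theorem two_mul_tendsto : Tendsto (fun k : ℝ => 2 * k) (𝓝[>] 0) (𝓝[>] 0) :=
  tendsto_nhdsWithin_iff.2
    ⟨by simpa using (tendsto_nhdsWithin_of_tendsto_nhds (s := Set.Ioi (0 : ℝ))
        (tendsto_id (x := 𝓝 (0 : ℝ)))).const_mul 2,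
      eventually_mem_nhdsWithin.mono fun k hk => Set.mem_Ioi.2 (mul_pos two_pos (Set.mem_Ioi.1 hk))⟩

theorem small {C ε : ℝ} (hC : 0 ≤ C) (hε : 0 < ε) : ∃ s : ℝ, 0 < s ∧ s ≤ 1 ∧ C * s ≤ ε :=
  ⟨min 1 (ε / (C + 1)), lt_min one_pos (by positivity), min_le_left _ _, by
    have h := (le_div_iff₀ (by positivity)).1 (min_le_right 1 (ε / (C + 1)))
    have : 0 < min 1 (ε / (C + 1)) := lt_min one_pos (by positivity)
    nlinarith⟩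

theorem fin {T V V' X l W Dc D s e a1 a2 b1 b2 ε : ℝ} (hs : 0 < s) (h0 : |V - V' + l| ≤ 2 * e)
    (h1 : |T - V' - X| ≤ 2 * e) (h2 : |X + l - s ^ 2 / 2 * W| ≤ a1 * (s ^ 2 * s) + s ^ 2 * b1)
    (h3 : |T - V - s ^ 2 / 2 * Dc| ≤ a2 * (s ^ 2 * s)) (h4 : |Dc - D| ≤ b2)
    (he : e = ε * s ^ 2 / 16) (ha : (a1 + a2) * s ≤ ε / 8) (hb : 2 * b1 + b2 ≤ ε / 4) :
    |D - W| ≤ ε := by
  have h5 : |s ^ 2 / 2 * (Dc - W)| ≤ s ^ 2 / 2 * (ε / 2 + 2 * ((a1 + a2) * s) + 2 * b1) := by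
    rw [abs_le] at h0 h1 h2 h3 ⊢
    constructor <;> nlinarith [h0.1, h0.2, h1.1, h1.2, h2.1, h2.2, h3.1, h3.2]
  have p : 0 < s ^ 2 / 2 := by positivity
  rw [abs_mul, abs_of_pos p] at h5
  have h6 := le_of_mul_le_mul_left h5 p
  rw [abs_le] at h4 h6 ⊢
  constructor <;> linarith [h4.1, h4.2, h6.1, h6.2]

end WardSAux

open WardSAux in
theorem scalar_main (A : Type) [Fintype A] [DecidableEq A] {ε c0 : ℝ} (hε : 0 < ε) (h0 : 0 < c0)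
    (cm : ℝ) : ∃ e0 : ℝ, 0 < e0 ∧
    ∀ (n : ℕ) (ζ : ℕ → ℝ) (me Θ θm : ℝ), Reg n ζ me 0 0 Θ θm → me ≤ e0 →
    ∀ D : ℝ, ∀ᶠ k in 𝓝[>] (0 : ℝ), ∀ᶠ y in 𝓝[>] (0 : ℝ), ∀ᶠ N : ℕ in atTop,
    ∀ (S : Type) [Fintype S] [DecidableEq S] (ca : A → ℝ) (θ : ℕ → ℝ) (b : S → Option A)
      (ϑ τ r : ℕ → ℝ) (j : S) (a : A), Bal D N b → Par n Θ θm cm e0 ca θ ϑ → c0 ≤ ca a →
      SDz (AV ζ n ca θ b) ϑ τ y (k * y * N) n → Rel n ζ (KK A) N ϑ τ r e0 → b j = some a →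
      |AV ζ n ca θ b ϑ - AV ζ n ca θ (Function.update b j none) ϑ + Lc ζ n (ca a + ϑ 0) r| ≤ ε ∧
      ∀ d, d ≤ n → |DB ζ n ca θ b ϑ (fun U x => yv U j x) d
        - (Wp ζ n (ca a + ϑ 0) r 0 - QQ ζ (Wp ζ n (ca a + ϑ 0) r) d)| ≤ ε := by
  have γ1 : (1 : ℝ) ≤ KK A := KK_pos
  obtain ⟨t, t0, -, ht⟩ := small (C := 6 * (1 + 2 * KK A) ^ 2 + (2 + 3 * (27 * KK A ^ 2)))
    (ε := ε / 4) (by positivity) (by positivity)
  have L0 : 0 < t⁻¹ := inv_pos.2 t0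
  obtain ⟨Cx, x0, hx⟩ := xc_scalar_exp t⁻¹ L0
  obtain ⟨Ct, c0', hT⟩ := tb_unif t⁻¹
  obtain ⟨Kη, K0, hK⟩ := cj_prC L0
  obtain ⟨Cl, l0, hl⟩ := fq_lip A Unit h0 (2 * cm)
  obtain ⟨Cc, -, hc⟩ := crude_scalar A (cm + 1)
  obtain ⟨s, s0, s1, hs⟩ := small (add_nonneg x0 c0') (ε := ε / 8) (by positivity)
  have e0 : 0 < ε * s ^ 2 / 16 := by positivity
  obtain ⟨e1, e10, hq⟩ := fq_main A Unit e0 K0 (Lh := 2 * t⁻¹) (by positivity) h0 (2 * cm)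
  obtain ⟨e2, e20, -, he2⟩ := small (C := Cl * (1 + t⁻¹)) (by positivity) e0
  refine ⟨min e1 (min e2 (c0 / 2)), by positivity, fun n ζ me Θ θm hR hme D => ?_⟩
  have hζ := hR.z.zok
  have hz := hR.z.z0
  have Θ0 := hR.Θ0
  filter_upwards [two_mul_tendsto.eventually
    (hq n ζ me Θ θm hR (hme.trans (min_le_left _ _)) cm (D + KK A)), self_mem_nhdsWithin]
    with k hk k0
  filter_upwards [hk, Ioo_mem_nhdsGT hR.θm0, Ioo_mem_nhdsGT (show 0 < 1 / (Θ + 2) by positivity)]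
    with y hy y1 y2
  have ky : 0 < k * y := mul_pos k0 y1.1
  filter_upwards [hy, eventually_ge_atTop 1,
    tendsto_natCast_atTop_atTop.eventually_ge_atTop (2 * (D + KK A)),
    (tendsto_natCast_atTop_atTop.const_mul_atTop ky).eventually_ge_atTop (2 * Cc)]
    with N hN N1 N2 N3 S _ _ ca θ b ϑ τ r j a hb hp ha hS hr hj
  have hb' := bal_update hb hj
  have g0 : 0 ≤ ∑ d ∈ Finset.Icc 1 n, (ϑ d ^ 2 - θ d ^ 2) := Finset.sum_nonneg fun d hd =>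
    have := hp.p0.th d (Finset.mem_Icc.1 hd).1 (Finset.mem_Icc.1 hd).2
    sub_nonneg.2 (pow_le_pow_left₀ this.1 this.2 2)
  have g1 := hp.gap.trans (min_le_right _ _)
  have hκ : ∀ _ : Unit, c0 ≤ ca a + ϑ 0 ∧ ca a + ϑ 0 ≤ 2 * cm := fun _ =>
    ⟨by linarith [hp.p0.a0.1], by linarith [hp.p0.a0.2, (hp.p0.c a).2]⟩
  have hβ : ∑ l : Unit, (0 : Unit → ℝ) l ^ 2 ≤ 2 * cm := by
    simpa using hp.p0.a0.1.trans hp.p0.a0.2
  have hS' : SDz (AV ζ n ca θ (Function.update b j none)) ϑ τ y (2 * k * y * N) n :=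
    (hS.of_close fun d hd u hu => (abs_sub_comm _ _).trans_le (hc S ζ n ca θ _ b j a _ N hζ hz
      (hp.upd Θ0 y1.2.le ((le_div_iff₀ (by positivity)).1 y2.2.le) hd
        (hu.trans_eq (abs_of_pos y1.1))) hj hb' N2 N1)).mono (by linarith)
  have key : ∀ d σ, 0 ≤ σ → σ ≤ 1 → |TB ζ n ca θ b ϑ d σ (fun U x => clp t⁻¹ (yv U j x))
      - AV ζ n ca θ (Function.update b j none) ϑ
      - XC ζ n d σ r (cavQ (fun _ : Unit => ca a + ϑ 0) 0) (prC t⁻¹)|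
        ≤ 2 * (ε * s ^ 2 / 16) := fun d σ σ0 σ1 => by
    have a1 := hN S ca θ _ ϑ τ r _ σ d _ 0 (prC t⁻¹) (fun _ => j) hb' hp hS'
      (hr.mono (min_le_left _ _)) σ0 σ1 (fun _ _ _ => rfl) (fun _ => Function.update_self ..) hκ
      hβ hK (hom_prC L0)
    have a2 := hl S ζ n ca θ _ ϑ d σ _ t⁻¹ _ N _ 0 (prC t⁻¹) (fun _ => j) hζ hz hb' N2 N1 hκ hβ
      hK.meas (fun _ _ => abs_clp_le L0 _) ((abs_of_nonneg g0).trans_le (g1.trans (min_le_right _ _)))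
    have a3 := scalar_split hζ hz n ca (θ := θ) (ϑ := ϑ) (fun d h1 h2 =>
      pow_le_pow_left₀ (hp.p0.th d h1 h2).1 (hp.p0.th d h1 h2).2 2) hj d σ0 (η := prC t⁻¹)
      ⟨measurable_clp t⁻¹, _, abs_clp_le L0⟩ fun _ _ => rfl
    have a4 := (mul_le_mul_of_nonneg_left (g1.trans (min_le_left _ _))
      (show 0 ≤ Cl * (1 + t⁻¹) by positivity)).trans he2
    rw [abs_of_nonneg g0, abs_le] at a2
    rw [abs_le] at a1 ⊢
    constructor <;> linarith [a1.1, a1.2, a2.1, a3.1, a3.2]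
  have c1 : 0 ≤ ca a + ϑ 0 := h0.le.trans (hκ ()).1
  have v0 : |AV ζ n ca θ b ϑ - AV ζ n ca θ (Function.update b j none) ϑ
      + Lc ζ n (ca a + ϑ 0) r| ≤ 2 * (ε * s ^ 2 / 16) := by
    have a1 := key 0 0 le_rfl zero_le_one
    have a2 := hx n ζ r _ 0 0 hζ hz hr.cadm c1 n.zero_le le_rfl zero_le_one
    rw [tb_zero] at a1
    simp only [zero_div, zero_mul, mul_zero, sub_zero, add_zero, abs_nonpos_iff] at a2
    rwa [eq_neg_of_add_eq_zero_left a2, sub_neg_eq_add] at a1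
  have s2 : s ^ 2 ≤ 1 := pow_le_one₀ s0.le s1
  refine ⟨v0.trans (by nlinarith), fun d hd => ?_⟩
  have a1 := hx n ζ r _ (s ^ 2) d hζ hz hr.cadm c1 hd (sq_nonneg s) s2
  have a2 := hT S A ζ n ca θ b ϑ (fun U x => clp t⁻¹ (yv U j x)) d (s ^ 2) hζ hz
    ((measurable_clp _).comp (bm_yv j).1) (fun _ _ => abs_clp_le L0 _) hd (sq_nonneg s) s2
  rw [Real.sqrt_sq s0.le] at a1 a2
  refine fin s0 v0 (key d _ (sq_nonneg s) s2) a1 a2 (db_clip hζ hz n ca θ b ϑ j L0 hd) rfl hs ?_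
  have m4 := mom4_bal hζ hz n ca θ ϑ hb (by linarith) N1 j
  have r0 : 0 ≤ r 0 := (hr.cadm.zero _ n.lt_succ_self).ge.trans (hr.cadm.anti (Nat.zero_le _))
  have r1 : (1 + r 0) ^ 2 ≤ (1 + 2 * KK A) ^ 2 :=
    pow_le_pow_left₀ (by linarith) (by linarith [hr.r0]) 2
  rw [div_inv_eq_mul, div_inv_eq_mul]
  nlinarith

end Vale.Agent.P166
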